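import Vale.Agent.Lib.P028V.Defs

/-! Module D. From overlapping pairs to integers in a short interval. -/

open Finset

namespace Vale.Agent.Lib.P028V

open Vale.Agent.Lib.P028

variable {γ : ℝ} {ψ : ℕ → ℝ}

/-- The arithmetic of `q`, `r`: gcd, cofactors and lcm. -/
private lemma setup {q r : ℕ} (hq : 1 ≤ q) (_hr : 1 ≤ r) :
    0 < Nat.gcd q r ∧ 0 < q / Nat.gcd q r ∧ 0 < r / Nat.gcd q r ∧
      q = Nat.gcd q r * (q / Nat.gcd q r) ∧ r = Nat.gcd q r * (r / Nat.gcd q r) ∧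
      Nat.lcm q r = Nat.gcd q r * (q / Nat.gcd q r) * (r / Nat.gcd q r) ∧
      Nat.Coprime (q / Nat.gcd q r) (r / Nat.gcd q r) := by
  have hd : 0 < Nat.gcd q r := Nat.gcd_pos_of_pos_left r hq
  have hdq : Nat.gcd q r ∣ q := Nat.gcd_dvd_left q r
  have hdr : Nat.gcd q r ∣ r := Nat.gcd_dvd_right q r
  have hq1 : q = Nat.gcd q r * (q / Nat.gcd q r) := (Nat.mul_div_cancel' hdq).symm
  have hr1 : r = Nat.gcd q r * (r / Nat.gcd q r) := (Nat.mul_div_cancel' hdr).symm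
  refine ⟨hd, Nat.div_pos (Nat.le_of_dvd (by omega) hdq) hd,
    Nat.div_pos (Nat.le_of_dvd (by omega) hdr) hd, hq1, hr1, ?_, Nat.coprime_div_gcd_div_gcd hd⟩
  have h := Nat.gcd_mul_lcm q r
  apply Nat.eq_of_mul_eq_mul_left hd
  rw [h]
  generalize Nat.gcd q r = d at *
  generalize q / d = q' at *
  generalize r / d = r' at *
  rw [hq1, hr1]
  ring

/-- Every overlapping pair gives an integer `c` close to `-(r'-q')γ`, congruent to `r' a - q' b` modulo the lcm. -/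
lemma alive_struct (hψ : Adm ψ) {q r : ℕ} (hq : 1 ≤ q) (hr : 1 ≤ r) {a b : ℕ} (h : (a, b) ∈ Al γ ψ q r) :
    ∃ c : ℤ, |(c:ℝ) + (((r / Nat.gcd q r : ℕ) : ℝ) - ((q / Nat.gcd q r : ℕ) : ℝ)) * γ| < 2 * XX ψ q r ∧
      ((Nat.lcm q r : ℕ) : ℤ) ∣ ((r / Nat.gcd q r : ℕ) : ℤ) * a - ((q / Nat.gcd q r : ℕ) : ℤ) * b - c := by
  obtain ⟨hd, hq', hr', hq1, hr1, hl, -⟩ := setup hq hr
  have hdn := (Finset.mem_filter.1 h).2
  simp only at hdn
  unfold XX
  set d := Nat.gcd q r with hdd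
  set q' := q / d with hqq
  set r' := r / d with hrr
  have hdR : (0:ℝ) < d := by exact_mod_cast hd
  have hq'R : (0:ℝ) < q' := by exact_mod_cast hq'
  have hr'R : (0:ℝ) < r' := by exact_mod_cast hr'
  have hqR : (q:ℝ) = d * q' := by exact_mod_cast hq1
  have hrR : (r:ℝ) = d * r' := by exact_mod_cast hr1
  have hlR : ((Nat.lcm q r : ℕ) : ℝ) = d * q' * r' := by exact_mod_cast hl
  set t : ℝ := ((a:ℝ) + γ) / q - ((b:ℝ) + γ) / r with ht
  have hdn' : |t - round t| < ψ q / q + ψ r / r := hdn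
  set w : ℤ := round t with hw
  have hψq := hψ.nonneg q
  have hψr := hψ.nonneg r
  refine ⟨(r':ℤ) * a - (q':ℤ) * b - (Nat.lcm q r : ℤ) * w, ?_, ?_⟩
  · have key : (((r':ℤ) * a - (q':ℤ) * b - (Nat.lcm q r : ℤ) * w : ℤ) : ℝ) + ((r':ℝ) - (q':ℝ)) * γ
        = ((d:ℝ) * q' * r') * (t - w) := by
      push_cast
      rw [hlR, ht, hqR, hrR]
      field_simp
      ring
    rw [key, abs_mul, abs_of_pos (by positivity : (0:ℝ) < (d:ℝ) * q' * r')]
    have h1 : ((d:ℝ) * q' * r') * |t - w| < ((d:ℝ) * q' * r') * (ψ q / q + ψ r / r) :=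
      mul_lt_mul_of_pos_left hdn' (by positivity)
    have h2 : ((d:ℝ) * q' * r') * (ψ q / q + ψ r / r) = (r':ℝ) * ψ q + (q':ℝ) * ψ r := by
      rw [hqR, hrR]
      field_simp
    have h3 : (r':ℝ) * ψ q ≤ max ((r':ℝ) * ψ q) ((q':ℝ) * ψ r) := le_max_left _ _
    have h4 : (q':ℝ) * ψ r ≤ max ((r':ℝ) * ψ q) ((q':ℝ) * ψ r) := le_max_right _ _
    linarith
  · refine ⟨w, ?_⟩
    ring

/-- The fibres of `(a,b) ↦ r' a - q' b` modulo the lcm have at most `gcd` elements. -/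
lemma fiber_card {q r : ℕ} (hq : 1 ≤ q) (hr : 1 ≤ r) (c : ℤ) :
    (((range q) ×ˢ (range r)).filter fun ab : ℕ × ℕ =>
      ((Nat.lcm q r : ℕ) : ℤ) ∣ ((r / Nat.gcd q r : ℕ) : ℤ) * ab.1 - ((q / Nat.gcd q r : ℕ) : ℤ) * ab.2 - c).card
      ≤ Nat.gcd q r := by
  obtain ⟨hd, hq', hr', hq1, hr1, hl, hcop⟩ := setup hq hr
  set d := Nat.gcd q r with hdd
  set q' := q / d with hqq
  set r' := r / d with hrr
  have hcard : (range d).card = d := Finset.card_range d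
  rw [← hcard]
  apply Finset.card_le_card_of_injOn (fun ab : ℕ × ℕ => ab.1 / q')
  · intro ab hab
    have hab' := (Finset.mem_filter.1 (Finset.mem_coe.1 hab)).1
    have h1 : ab.1 < q := Finset.mem_range.1 (Finset.mem_product.1 hab').1
    simp only [Finset.coe_range, Set.mem_Iio]
    apply Nat.div_lt_of_lt_mul
    rw [mul_comm]
    rwa [← hq1]
  · rintro ⟨a1, b1⟩ h1 ⟨a2, b2⟩ h2 he
    simp only at he
    have h1' := Finset.mem_filter.1 (Finset.mem_coe.1 h1)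
    have h2' := Finset.mem_filter.1 (Finset.mem_coe.1 h2)
    have hb1 : b1 < r := Finset.mem_range.1 (Finset.mem_product.1 h1'.1).2
    have hb2 : b2 < r := Finset.mem_range.1 (Finset.mem_product.1 h2'.1).2
    have hlI : ((Nat.lcm q r : ℕ) : ℤ) = (d:ℤ) * q' * r' := by exact_mod_cast hl
    have hdiff : ((Nat.lcm q r : ℕ) : ℤ) ∣ (r':ℤ) * ((a1:ℤ) - a2) - (q':ℤ) * ((b1:ℤ) - b2) := by
      have := dvd_sub h1'.2 h2'.2
      simp only at this
      have e : (r':ℤ) * ((a1:ℤ) - a2) - (q':ℤ) * ((b1:ℤ) - b2)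
          = (r':ℤ) * a1 - (q':ℤ) * b1 - c - ((r':ℤ) * a2 - (q':ℤ) * b2 - c) := by ring
      rw [e]
      exact this
    have hq'dvd : (q':ℤ) ∣ (r':ℤ) * ((a1:ℤ) - a2) := by
      have h3 : (q':ℤ) ∣ ((Nat.lcm q r : ℕ) : ℤ) := by
        rw [hlI]
        exact ⟨(d:ℤ) * r', by ring⟩
      have h4 := dvd_trans h3 hdiff
      have h5 : (q':ℤ) ∣ (q':ℤ) * ((b1:ℤ) - b2) := dvd_mul_right _ _
      have := dvd_add h4 h5
      simpa using this
    have hq'dvd2 : (q':ℤ) ∣ (a1:ℤ) - a2 := by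
      have hc : IsCoprime (q':ℤ) (r':ℤ) := Nat.isCoprime_iff_coprime.2 hcop
      exact hc.dvd_of_dvd_mul_left hq'dvd
    have hmod : a1 % q' = a2 % q' := by
      have : (a1:ℤ) % q' = (a2:ℤ) % q' :=
        Int.emod_eq_emod_iff_emod_sub_eq_zero.2 (Int.emod_eq_zero_of_dvd hq'dvd2)
      exact_mod_cast this
    have ha : a1 = a2 := by
      have e1 := Nat.div_add_mod a1 q'
      have e2 := Nat.div_add_mod a2 q'
      rw [← e1, ← e2, he, hmod]
    subst ha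
    have hb : (b1:ℤ) - b2 = 0 := by
      have h6 : ((d:ℤ) * q' * r') ∣ (q':ℤ) * ((b1:ℤ) - b2) := by
        rw [← hlI]
        have := hdiff
        simp only [sub_self, mul_zero, zero_sub, dvd_neg] at this
        exact this
      have h7 : ((d:ℤ) * r') ∣ ((b1:ℤ) - b2) := by
        have hq'0 : (q':ℤ) ≠ 0 := by exact_mod_cast hq'.ne'
        have : (q':ℤ) * ((d:ℤ) * r') ∣ (q':ℤ) * ((b1:ℤ) - b2) := by
          convert h6 using 1
          ring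
        exact (mul_dvd_mul_iff_left hq'0).1 this
      have hrI : (r:ℤ) = (d:ℤ) * r' := by exact_mod_cast hr1
      rw [← hrI] at h7
      apply Int.eq_zero_of_abs_lt_dvd h7
      have : |(b1:ℤ) - b2| < r := by
        rw [abs_lt]
        constructor <;> omega
      exact this
    have hb' : b1 = b2 := by omega
    rw [hb']

/-- `X d min(ψ q / q, ψ r / r) = ψ q ψ r`. -/
lemma xx_mul {q r : ℕ} (hq : 1 ≤ q) (hr : 1 ≤ r) (hψq : 0 < ψ q) (hψr : 0 < ψ r) :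
    XX ψ q r * (Nat.gcd q r : ℝ) * min (ψ q / q) (ψ r / r) = ψ q * ψ r := by
  obtain ⟨hd, hq', hr', hq1, hr1, -, -⟩ := setup hq hr
  unfold XX
  set d := Nat.gcd q r with hdd
  set q' := q / d with hqq
  set r' := r / d with hrr
  have hdR : (0:ℝ) < d := by exact_mod_cast hd
  have hq'R : (0:ℝ) < q' := by exact_mod_cast hq'
  have hr'R : (0:ℝ) < r' := by exact_mod_cast hr'
  have hqR : (q:ℝ) = d * q' := by exact_mod_cast hq1
  have hrR : (r:ℝ) = d * r' := by exact_mod_cast hr1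
  rw [hqR, hrR]
  rcases le_total (ψ q / ((d:ℝ) * q')) (ψ r / ((d:ℝ) * r')) with h | h
  · rw [min_eq_left h]
    have h2 : (r':ℝ) * ψ q ≤ (q':ℝ) * ψ r := by
      rw [div_le_div_iff₀ (by positivity) (by positivity)] at h
      have : (d:ℝ) * ((r':ℝ) * ψ q) ≤ (d:ℝ) * ((q':ℝ) * ψ r) := by nlinarith
      exact le_of_mul_le_mul_left this hdR
    rw [max_eq_right h2]
    field_simp
  · rw [min_eq_right h]
    have h2 : (q':ℝ) * ψ r ≤ (r':ℝ) * ψ q := by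
      rw [div_le_div_iff₀ (by positivity) (by positivity)] at h
      have : (d:ℝ) * ((q':ℝ) * ψ r) ≤ (d:ℝ) * ((r':ℝ) * ψ q) := by nlinarith
      exact le_of_mul_le_mul_left this hdR
    rw [max_eq_left h2]
    field_simp

/-- The integer attached to an overlapping pair (junk value off `Al`). -/
private noncomputable def cOf (γ : ℝ) (ψ : ℕ → ℝ) (q r : ℕ) (ab : ℕ × ℕ) : ℤ :=
  open Classical in
  if h : ∃ c : ℤ, |(c:ℝ) + (((r / Nat.gcd q r : ℕ) : ℝ) - ((q / Nat.gcd q r : ℕ) : ℝ)) * γ| < 2 * XX ψ q r ∧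
      ((Nat.lcm q r : ℕ) : ℤ) ∣ ((r / Nat.gcd q r : ℕ) : ℤ) * ab.1 - ((q / Nat.gcd q r : ℕ) : ℤ) * ab.2 - c
  then h.choose else 0

private lemma cOf_spec (hψ : Adm ψ) {q r : ℕ} (hq : 1 ≤ q) (hr : 1 ≤ r) {ab : ℕ × ℕ} (h : ab ∈ Al γ ψ q r) :
    |((cOf γ ψ q r ab : ℤ):ℝ) + (((r / Nat.gcd q r : ℕ) : ℝ) - ((q / Nat.gcd q r : ℕ) : ℝ)) * γ| < 2 * XX ψ q r ∧
      ((Nat.lcm q r : ℕ) : ℤ) ∣ ((r / Nat.gcd q r : ℕ) : ℤ) * ab.1 - ((q / Nat.gcd q r : ℕ) : ℤ) * ab.2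
        - cOf γ ψ q r ab := by
  have h' : (ab.1, ab.2) ∈ Al γ ψ q r := h
  have hex := alive_struct hψ hq hr h'
  unfold cOf
  rw [dif_pos hex]
  exact hex.choose_spec

private lemma mem_range_of_Al {q r : ℕ} {ab : ℕ × ℕ} (h : ab ∈ Al γ ψ q r) :
    ab ∈ (range q) ×ˢ (range r) := by
  have h1 := (Finset.mem_filter.1 h).1
  have h2 := Finset.mem_product.1 h1
  exact Finset.mem_product.2 ⟨(Finset.mem_filter.1 h2.1).1, (Finset.mem_filter.1 h2.2).1⟩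

/-- `Al` is bounded by the gcd times the number of integers which occur. -/
private lemma Al_card_le (hψ : Adm ψ) {q r : ℕ} (hq : 1 ≤ q) (hr : 1 ≤ r) :
    (Al γ ψ q r).card ≤ ((Al γ ψ q r).image (cOf γ ψ q r)).card * Nat.gcd q r := by
  rw [mul_comm]
  apply Finset.card_le_mul_card_image
  intro c _
  refine le_trans (Finset.card_le_card ?_) (fiber_card hq hr c)
  intro ab hab
  have hab' := Finset.mem_filter.1 hab
  refine Finset.mem_filter.2 ⟨mem_range_of_Al hab'.1, ?_⟩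
  have := (cOf_spec hψ hq hr hab'.1).2
  rwa [hab'.2] at this

/-- Integers within `Y` of a fixed real number: at most `2Y + 1`. -/
private lemma int_window_card (S : Finset ℤ) (u Y : ℝ) (hY : 0 ≤ Y) (hS : ∀ c ∈ S, |(c:ℝ) + u| < Y) :
    (S.card : ℝ) ≤ 2 * Y + 1 := by
  have hsub : S ⊆ Finset.Icc ⌈-u - Y⌉ ⌊-u + Y⌋ := by
    intro c hc
    have h := abs_lt.1 (hS c hc)
    refine Finset.mem_Icc.2 ⟨Int.ceil_le.2 (by linarith [h.1]), Int.le_floor.2 (by linarith [h.2])⟩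
  have h1 : (S.card : ℝ) ≤ ((Finset.Icc ⌈-u - Y⌉ ⌊-u + Y⌋).card : ℝ) := by
    exact_mod_cast Finset.card_le_card hsub
  refine le_trans h1 ?_
  rw [Int.card_Icc]
  have h2 : ((⌊-u + Y⌋ + 1 - ⌈-u - Y⌉ : ℤ) : ℝ) ≤ 2 * Y + 1 := by
    have h3 := Int.floor_le (-u + Y)
    have h4 := Int.le_ceil (-u - Y)
    push_cast
    linarith
  rcases le_total 0 (⌊-u + Y⌋ + 1 - ⌈-u - Y⌉ : ℤ) with h5 | h5
  · have h6 : (((⌊-u + Y⌋ + 1 - ⌈-u - Y⌉ : ℤ).toNat : ℕ) : ℝ) = ((⌊-u + Y⌋ + 1 - ⌈-u - Y⌉ : ℤ) : ℝ) := by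
      have := Int.toNat_of_nonneg h5
      exact_mod_cast this
    rw [h6]
    exact h2
  · rw [Int.toNat_of_nonpos h5]
    simp only [Nat.cast_zero]
    linarith

private lemma XX_nonneg (hψ : Adm ψ) (q r : ℕ) : 0 ≤ XX ψ q r := by
  unfold XX
  exact le_trans (mul_nonneg (Nat.cast_nonneg _) (hψ.nonneg q)) (le_max_left _ _)

/-- Middle range. -/
lemma mid_bound (hψ : Adm ψ) {q r : ℕ} (hq : 1 ≤ q) (hr : 1 ≤ r) (hψq : 0 < ψ q) (hψr : 0 < ψ r)
    (hX : 1 / 64 ≤ XX ψ q r) :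
    ((Al γ ψ q r).card : ℝ) * min (ψ q / q) (ψ r / r) ≤ 68 * (ψ q * ψ r) := by
  have hcard := Al_card_le (γ := γ) hψ hq hr
  have himg : (((Al γ ψ q r).image (cOf γ ψ q r)).card : ℝ) ≤ 2 * (2 * XX ψ q r) + 1 := by
    apply int_window_card _ ((((r / Nat.gcd q r : ℕ) : ℝ) - ((q / Nat.gcd q r : ℕ) : ℝ)) * γ) _
      (by linarith)
    intro c hc
    obtain ⟨ab, hab, rfl⟩ := Finset.mem_image.1 hc
    exact (cOf_spec hψ hq hr hab).1
  have hmin : 0 ≤ min (ψ q / q) (ψ r / r) :=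
    le_min (div_nonneg hψq.le (Nat.cast_nonneg _)) (div_nonneg hψr.le (Nat.cast_nonneg _))
  have hd : (0:ℝ) ≤ (Nat.gcd q r : ℝ) := Nat.cast_nonneg _
  have h1 : ((Al γ ψ q r).card : ℝ) ≤ (2 * (2 * XX ψ q r) + 1) * (Nat.gcd q r : ℝ) := by
    have h2 : ((Al γ ψ q r).card : ℝ) ≤ (((Al γ ψ q r).image (cOf γ ψ q r)).card : ℝ) * (Nat.gcd q r : ℝ) := by
      exact_mod_cast hcard
    exact le_trans h2 (mul_le_mul_of_nonneg_right himg hd)
  have h3 : (2 * (2 * XX ψ q r) + 1) * (Nat.gcd q r : ℝ) ≤ 68 * XX ψ q r * (Nat.gcd q r : ℝ) :=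
    mul_le_mul_of_nonneg_right (by linarith) hd
  have h4 := xx_mul (ψ := ψ) hq hr hψq hψr
  calc ((Al γ ψ q r).card : ℝ) * min (ψ q / q) (ψ r / r)
      ≤ (68 * XX ψ q r * (Nat.gcd q r : ℝ)) * min (ψ q / q) (ψ r / r) :=
        mul_le_mul_of_nonneg_right (le_trans h1 h3) hmin
    _ = 68 * (XX ψ q r * (Nat.gcd q r : ℝ) * min (ψ q / q) (ψ r / r)) := by ring
    _ = 68 * (ψ q * ψ r) := by rw [h4]

/-- For small `X` the integer of an overlapping pair does not depend on the pair. -/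
private lemma cOf_unique (hψ : Adm ψ) {q r : ℕ} (hq : 1 ≤ q) (hr : 1 ≤ r) (hX : XX ψ q r < 1 / 64)
    {ab ab' : ℕ × ℕ} (h : ab ∈ Al γ ψ q r) (h' : ab' ∈ Al γ ψ q r) :
    cOf γ ψ q r ab = cOf γ ψ q r ab' := by
  have h1 := abs_lt.1 (cOf_spec hψ hq hr h).1
  have h2 := abs_lt.1 (cOf_spec hψ hq hr h').1
  have h3 : |(((cOf γ ψ q r ab - cOf γ ψ q r ab' : ℤ)) : ℝ)| < 1 := by
    push_cast
    rw [abs_lt]
    constructor <;> linarith [h1.1, h1.2, h2.1, h2.2]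
  have h4 : |cOf γ ψ q r ab - cOf γ ψ q r ab'| < 1 := by exact_mod_cast h3
  have h5 := Int.abs_lt_one_iff.1 h4
  omega

/-- Small `X`: at most one integer `c`, hence at most `gcd` overlapping pairs. -/
lemma bohr_card (hψ : Adm ψ) {q r : ℕ} (hq : 1 ≤ q) (hr : 1 ≤ r) (hX : XX ψ q r < 1 / 64) :
    (Al γ ψ q r).card ≤ Nat.gcd q r := by
  have hcard := Al_card_le (γ := γ) hψ hq hr
  have himg : ((Al γ ψ q r).image (cOf γ ψ q r)).card ≤ 1 := by
    rw [Finset.card_le_one]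
    intro c hc c' hc'
    obtain ⟨ab, hab, rfl⟩ := Finset.mem_image.1 hc
    obtain ⟨ab', hab', rfl⟩ := Finset.mem_image.1 hc'
    exact cOf_unique hψ hq hr hX hab hab'
  calc (Al γ ψ q r).card ≤ ((Al γ ψ q r).image (cOf γ ψ q r)).card * Nat.gcd q r := hcard
    _ ≤ 1 * Nat.gcd q r := Nat.mul_le_mul_right _ himg
    _ = Nat.gcd q r := one_mul _

/-- Small `X` and `q ∣ r`: `b` is determined by `a`. -/
lemma left_card (hψ : Adm ψ) {q r : ℕ} (hq : 1 ≤ q) (hr : 1 ≤ r) (hdvd : q ∣ r) (hX : XX ψ q r < 1 / 64) :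
    (Al γ ψ q r).card ≤ (Ap γ ψ q).card := by
  apply Finset.card_le_card_of_injOn (fun ab : ℕ × ℕ => ab.1)
  · intro ab hab
    have h1 := (Finset.mem_filter.1 (Finset.mem_coe.1 hab)).1
    exact Finset.mem_coe.2 (Finset.mem_product.1 h1).1
  · rintro ⟨a1, b1⟩ h1 ⟨a2, b2⟩ h2 he
    simp only at he
    subst he
    have h1' := Finset.mem_coe.1 h1
    have h2' := Finset.mem_coe.1 h2
    have hc := cOf_unique hψ hq hr hX h1' h2'
    have s1 := (cOf_spec hψ hq hr h1').2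
    have s2 := (cOf_spec hψ hq hr h2').2
    rw [hc] at s1
    have hb1 : b1 < r := Finset.mem_range.1 (Finset.mem_product.1 (mem_range_of_Al h1')).2
    have hb2 : b2 < r := Finset.mem_range.1 (Finset.mem_product.1 (mem_range_of_Al h2')).2
    have hg : Nat.gcd q r = q := Nat.gcd_eq_left hdvd
    have hl : Nat.lcm q r = r := Nat.lcm_eq_right hdvd
    have hqq : q / q = 1 := Nat.div_self (by omega)
    rw [hg, hqq, hl] at s1 s2
    have h3 := dvd_sub s1 s2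
    have h4 : (r:ℤ) ∣ (b1:ℤ) - b2 := by
      have h5 : (r:ℤ) ∣ -((b1:ℤ) - b2) := by
        have e : -((b1:ℤ) - b2) = ((r / q : ℕ) : ℤ) * a1 - ((1:ℕ):ℤ) * b1 - cOf γ ψ q r (a1, b2)
            - (((r / q : ℕ) : ℤ) * a1 - ((1:ℕ):ℤ) * b2 - cOf γ ψ q r (a1, b2)) := by
          push_cast
          ring
        rw [e]
        exact h3
      exact (dvd_neg).1 h5
    have hb : (b1:ℤ) - b2 = 0 := by
      apply Int.eq_zero_of_abs_lt_dvd h4
      rw [abs_lt]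
      constructor <;> omega
    have hb' : b1 = b2 := by omega
    rw [hb']

/-- Nonempty overlap with small `X` forces the Bohr condition and identifies the integer. -/
lemma alive_bohr (hψ : Adm ψ) {q r : ℕ} (hq : 1 ≤ q) (hr : 1 ≤ r) (hX : XX ψ q r < 1 / 64)
    (hne : (Al γ ψ q r).Nonempty) :
    dn ((((r / Nat.gcd q r : ℕ) : ℝ) - ((q / Nat.gcd q r : ℕ) : ℝ)) * γ) < 2 * XX ψ q r := by
  obtain ⟨⟨a, b⟩, hab⟩ := hne
  obtain ⟨c, hc, -⟩ := alive_struct hψ hq hr hab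
  refine lt_of_le_of_lt ?_ hc
  have := dn_le_abs_sub ((((r / Nat.gcd q r : ℕ) : ℝ) - ((q / Nat.gcd q r : ℕ) : ℝ)) * γ) (-c)
  refine le_trans this (le_of_eq ?_)
  congr 1
  push_cast
  ring

end Vale.Agent.Lib.P028V
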