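import Vale.Agent.Lib.P028V.Defs

/-! Module B. Elementary properties of `Phi`. -/

open MeasureTheory intervalIntegral Finset

namespace Vale.Agent.Lib.P028V

open Vale.Agent.Lib.P028

variable {γ : ℝ} {ψ : ℕ → ℝ}

/-- Triangle inequality for the distance to the nearest integer. -/
lemma dn_sub_le (s t : ℝ) : dn (s - t) ≤ dn s + dn t := by
  have h := dn_le_abs_sub (s - t) (round s - round t)
  refine h.trans ?_
  push_cast
  have : s - t - ((round s : ℝ) - (round t : ℝ)) = (s - round s) - (t - round t) := by ring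
  rw [this]
  exact abs_sub _ _

lemma phi_nonneg (q : ℕ) (x : ℝ) : 0 ≤ Phi γ ψ q x := by
  unfold Phi
  split_ifs with h
  · exact Finset.sum_nonneg fun a _ => tent_nonneg _ _
  · exact le_rfl

/-- The centres of different tents are far apart. -/
private lemma dn_centre_ge {q a a' : ℕ} (hq : 1 ≤ q) (ha : a < q) (ha' : a' < q) (hne : a ≠ a') :
    1 / (q:ℝ) ≤ dn (((a:ℝ) + γ) / q - ((a':ℝ) + γ) / q) := by
  have hq0 : (0:ℝ) < q := by exact_mod_cast hq
  unfold dn
  set z := round (((a:ℝ) + γ) / q - ((a':ℝ) + γ) / q) with hz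
  have e : ((a:ℝ) + γ) / q - ((a':ℝ) + γ) / q - z = (((a:ℤ) - (a':ℤ) - z * (q:ℤ) : ℤ) : ℝ) / q := by
    push_cast
    field_simp
    ring
  rw [e, abs_div, abs_of_pos hq0]
  refine div_le_div_of_nonneg_right ?_ hq0.le
  have hne' : (a:ℤ) - (a':ℤ) - z * (q:ℤ) ≠ 0 := by
    intro h0
    have hdvd : (q:ℤ) ∣ (a:ℤ) - (a':ℤ) := ⟨z, by linarith⟩
    have h1 : |(a:ℤ) - (a':ℤ)| < q := by
      rw [abs_lt]
      constructor <;> omega
    have h2 := Int.eq_zero_of_abs_lt_dvd hdvd h1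
    omega
  have : (1:ℤ) ≤ |(a:ℤ) - (a':ℤ) - z * (q:ℤ)| := Int.one_le_abs hne'
  exact_mod_cast this

/-- Supports of different tents are disjoint when `ψ q ≤ 1/2`. -/
lemma phi_le_one (hψ : Adm ψ) {q : ℕ} (hq : 2 ≤ q) (x : ℝ) : Phi γ ψ q x ≤ 1 := by
  unfold Phi
  split_ifs with h
  · have hq0 : (0:ℝ) < q := by exact_mod_cast (by omega : 0 < q)
    have hq2 : (2:ℝ) ≤ q := by exact_mod_cast hq
    set ρ := ψ q / q with hρ
    have hρ0 : 0 < ρ := div_pos h hq0
    have hψq : ψ q ≤ 1 / q := hψ.le q (by omega)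
    have hρ2 : 2 * ρ ≤ 1 / q := by
      have h1 : ρ ≤ 1 / q / q := div_le_div_of_nonneg_right hψq hq0.le
      have h2 : 1 / (q:ℝ) / q * 2 ≤ 1 / q := by
        have : 0 < 1 / (q:ℝ) := by positivity
        have h3 : 2 / (q:ℝ) ≤ 1 := by rw [div_le_one hq0]; exact hq2
        calc 1 / (q:ℝ) / q * 2 = 1 / q * (2 / q) := by ring
          _ ≤ 1 / q * 1 := mul_le_mul_of_nonneg_left h3 this.le
          _ = 1 / q := by ring
      linarith
    by_cases hex : ∃ a ∈ Ap γ ψ q, 0 < tent ρ (x - ((a:ℝ) + γ) / q)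
    · obtain ⟨a, ha, hpos⟩ := hex
      have hunique : ∀ b ∈ Ap γ ψ q, b ≠ a → tent ρ (x - ((b:ℝ) + γ) / q) = 0 := by
        intro b hb hne
        by_contra hb0
        have hbpos : 0 < tent ρ (x - ((b:ℝ) + γ) / q) :=
          lt_of_le_of_ne (tent_nonneg _ _) (Ne.symm hb0)
        have h1 := tent_pos_imp hρ0 hpos
        have h2 := tent_pos_imp hρ0 hbpos
        have hba : b < q := Finset.mem_range.mp (Finset.mem_filter.mp hb).1
        have haa : a < q := Finset.mem_range.mp (Finset.mem_filter.mp ha).1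
        have h3 := @dn_centre_ge γ q b a (by omega) hba haa hne
        have h4 := dn_sub_le (x - ((a:ℝ) + γ) / q) (x - ((b:ℝ) + γ) / q)
        have e : x - ((a:ℝ) + γ) / q - (x - ((b:ℝ) + γ) / q) = ((b:ℝ) + γ) / q - ((a:ℝ) + γ) / q := by
          ring
        rw [e] at h4
        linarith
      rw [Finset.sum_eq_single_of_mem a ha hunique]
      exact tent_le_one hρ0 _
    · push Not at hex
      have : ∑ a ∈ Ap γ ψ q, tent ρ (x - ((a:ℝ) + γ) / q) = 0 :=
        Finset.sum_eq_zero fun a ha => le_antisymm (hex a ha) (tent_nonneg _ _)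
      rw [this]
      exact zero_le_one
  · exact zero_le_one

lemma phi_lip (hψ : Adm ψ) (q : ℕ) :
    ∃ L : ℝ, 0 ≤ L ∧ ∀ x y, |Phi γ ψ q x - Phi γ ψ q y| ≤ L * |x - y| := by
  by_cases h : 0 < ψ q
  · refine ⟨((Ap γ ψ q).card : ℝ) * (ψ q / q)⁻¹, ?_, fun x y => ?_⟩
    · have : 0 ≤ ψ q / (q:ℝ) := div_nonneg h.le (Nat.cast_nonneg _)
      positivity
    · unfold Phi
      rw [if_pos h, if_pos h, ← Finset.sum_sub_distrib]
      refine (Finset.abs_sum_le_sum_abs _ _).trans ?_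
      have hbd : ∀ a ∈ Ap γ ψ q, |tent (ψ q / q) (x - ((a:ℝ) + γ) / q)
            - tent (ψ q / q) (y - ((a:ℝ) + γ) / q)| ≤ (ψ q / q)⁻¹ * |x - y| := by
        intro a ha
        have haq : a < q := Finset.mem_range.mp (Finset.mem_filter.mp ha).1
        have hq0 : (0:ℝ) < q := by exact_mod_cast (by omega : 0 < q)
        have := tent_lip (div_pos h hq0) (x - ((a:ℝ) + γ) / q) (y - ((a:ℝ) + γ) / q)
        have e : x - ((a:ℝ) + γ) / q - (y - ((a:ℝ) + γ) / q) = x - y := by ring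
        rwa [e] at this
      calc _ ≤ ∑ _a ∈ Ap γ ψ q, (ψ q / q)⁻¹ * |x - y| := Finset.sum_le_sum hbd
        _ = _ := by rw [Finset.sum_const, nsmul_eq_mul]; ring
  · refine ⟨0, le_rfl, fun x y => ?_⟩
    unfold Phi
    simp [h]

lemma phi_periodic (q : ℕ) (x : ℝ) : Phi γ ψ q (x + 1) = Phi γ ψ q x := by
  unfold Phi
  split_ifs with h
  · refine Finset.sum_congr rfl fun a _ => ?_
    have e : x + 1 - ((a:ℝ) + γ) / q = (x - ((a:ℝ) + γ) / q) + 1 := by ring
    rw [e, tent_add_one]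
  · rfl

/-- Positive `Phi` means the approximation inequality holds. -/
lemma phi_pos_imp (hψ : Adm ψ) {q : ℕ} (hq : 1 ≤ q) {x : ℝ} (h : 0 < Phi γ ψ q x) :
    dn ((q:ℝ) * x - γ) < ψ q := by
  have hq0 : (0:ℝ) < q := by exact_mod_cast hq
  unfold Phi at h
  split_ifs at h with hψq
  · obtain ⟨a, _, ha⟩ := Finset.exists_lt_of_sum_lt (s := Ap γ ψ q) (f := fun _ : ℕ => (0:ℝ))
      (g := fun a : ℕ => tent (ψ q / q) (x - ((a:ℝ) + γ) / q)) (by simpa using h)
    have h1 := tent_pos_imp (div_pos hψq hq0) ha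
    unfold dn at h1
    set w := round (x - ((a:ℝ) + γ) / q) with hw
    have h2 := dn_le_abs_sub ((q:ℝ) * x - γ) ((a:ℤ) + (q:ℤ) * w)
    refine lt_of_le_of_lt h2 ?_
    have e : (q:ℝ) * x - γ - (((a:ℤ) + (q:ℤ) * w : ℤ) : ℝ)
        = q * (x - ((a:ℝ) + γ) / q - w) := by
      push_cast
      field_simp
      ring
    rw [e, abs_mul, abs_of_pos hq0]
    have := (lt_div_iff₀ hq0).mp h1
    linarith
  · exact absurd h (lt_irrefl _)

lemma integral_phi (hψ : Adm ψ) {q : ℕ} (hq : 2 ≤ q) :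
    ∫ x in (0:ℝ)..1, Phi γ ψ q x = mass γ ψ q := by
  have hq0 : (0:ℝ) < q := by exact_mod_cast (by omega : 0 < q)
  have hq2 : (2:ℝ) ≤ q := by exact_mod_cast hq
  unfold Phi mass
  by_cases h : 0 < ψ q
  · simp only [if_pos h]
    have hψq : ψ q ≤ 1 / q := hψ.le q (by omega)
    have hρ : ψ q / q ≤ 1 / 2 := by
      rw [div_le_iff₀ hq0]
      have h1 : 1 / (q:ℝ) ≤ 1 / 2 := one_div_le_one_div_of_le (by norm_num) hq2
      nlinarith
    rw [intervalIntegral.integral_finsetSum]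
    · rw [Finset.sum_congr rfl (fun (a : ℕ) _ => tent_integral (div_pos h hq0) hρ (((a:ℝ) + γ) / q)),
        Finset.sum_const, nsmul_eq_mul]
      ring
    · intro a _
      exact ((tent_continuous _).comp (continuous_id.sub continuous_const)).intervalIntegrable _ _
  · simp only [if_neg h]
    have : ψ q = 0 := le_antisymm (not_lt.mp h) (hψ.nonneg q)
    simp [this]

/-- Overlap integral bounded by the number of overlapping pairs times the smaller tent mass. -/
lemma pair_integral_le (hψ : Adm ψ) {q r : ℕ} (hq : 2 ≤ q) (hr : 2 ≤ r) :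
    ∫ x in (0:ℝ)..1, Phi γ ψ q x * Phi γ ψ r x
      ≤ ((Al γ ψ q r).card : ℝ) * min (ψ q / q) (ψ r / r) := by
  have hq0 : (0:ℝ) < q := by exact_mod_cast (by omega : 0 < q)
  have hq2 : (2:ℝ) ≤ q := by exact_mod_cast hq
  have hr0 : (0:ℝ) < r := by exact_mod_cast (by omega : 0 < r)
  have hr2 : (2:ℝ) ≤ r := by exact_mod_cast hr
  have hnn : 0 ≤ ((Al γ ψ q r).card : ℝ) * min (ψ q / q) (ψ r / r) := by
    have h1 : 0 ≤ ψ q / (q:ℝ) := div_nonneg (hψ.nonneg q) hq0.le
    have h2 : 0 ≤ ψ r / (r:ℝ) := div_nonneg (hψ.nonneg r) hr0.le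
    exact mul_nonneg (Nat.cast_nonneg _) (le_min h1 h2)
  by_cases h1 : 0 < ψ q
  swap
  · have : ∀ x, Phi γ ψ q x * Phi γ ψ r x = 0 := by
      intro x
      unfold Phi
      simp [h1]
    simp only [this, intervalIntegral.integral_zero]
    exact hnn
  by_cases h2 : 0 < ψ r
  swap
  · have : ∀ x, Phi γ ψ q x * Phi γ ψ r x = 0 := by
      intro x
      unfold Phi
      simp [h2]
    simp only [this, intervalIntegral.integral_zero]
    exact hnn
  set ρq := ψ q / q with hρq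
  set ρr := ψ r / r with hρr
  have hρq0 : 0 < ρq := div_pos h1 hq0
  have hρr0 : 0 < ρr := div_pos h2 hr0
  have hρq2 : ρq ≤ 1 / 2 := by
    have hψq : ψ q ≤ 1 / q := hψ.le q (by omega)
    rw [hρq, div_le_iff₀ hq0]
    have h1 : 1 / (q:ℝ) ≤ 1 / 2 := one_div_le_one_div_of_le (by norm_num) hq2
    nlinarith
  have hρr2 : ρr ≤ 1 / 2 := by
    have hψr : ψ r ≤ 1 / r := hψ.le r (by omega)
    rw [hρr, div_le_iff₀ hr0]
    have h1 : 1 / (r:ℝ) ≤ 1 / 2 := one_div_le_one_div_of_le (by norm_num) hr2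
    nlinarith
  -- the functions
  let f : ℕ → ℝ → ℝ := fun a x => tent ρq (x - ((a:ℝ) + γ) / q)
  let g : ℕ → ℝ → ℝ := fun b x => tent ρr (x - ((b:ℝ) + γ) / r)
  have hfc : ∀ a, Continuous (f a) := fun a =>
    (tent_continuous _).comp (continuous_id.sub continuous_const)
  have hgc : ∀ b, Continuous (g b) := fun b =>
    (tent_continuous _).comp (continuous_id.sub continuous_const)
  have hexp : ∀ x, Phi γ ψ q x * Phi γ ψ r x
      = ∑ p ∈ Ap γ ψ q ×ˢ Ap γ ψ r, f p.1 x * g p.2 x := by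
    intro x
    unfold Phi
    rw [if_pos h1, if_pos h2, Finset.sum_mul_sum, Finset.sum_product]
  simp only [hexp]
  rw [intervalIntegral.integral_finsetSum (fun p _ =>
    ((hfc p.1).mul (hgc p.2)).intervalIntegrable _ _)]
  -- terms outside `Al` vanish
  have hzero : ∀ p ∈ Ap γ ψ q ×ˢ Ap γ ψ r, p ∉ Al γ ψ q r →
      ∫ x in (0:ℝ)..1, f p.1 x * g p.2 x = 0 := by
    intro p hp hnot
    have hx : ∀ x, f p.1 x * g p.2 x = 0 := by
      intro x
      by_contra hne
      have hf : 0 < f p.1 x := lt_of_le_of_ne (tent_nonneg _ _)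
        (Ne.symm (left_ne_zero_of_mul hne))
      have hg : 0 < g p.2 x := lt_of_le_of_ne (tent_nonneg _ _)
        (Ne.symm (right_ne_zero_of_mul hne))
      have a1 := tent_pos_imp hρq0 hf
      have a2 := tent_pos_imp hρr0 hg
      apply hnot
      refine Finset.mem_filter.mpr ⟨hp, ?_⟩
      have h4 := dn_sub_le (x - ((p.2:ℝ) + γ) / r) (x - ((p.1:ℝ) + γ) / q)
      have e : x - ((p.2:ℝ) + γ) / r - (x - ((p.1:ℝ) + γ) / q)
          = ((p.1:ℝ) + γ) / q - ((p.2:ℝ) + γ) / r := by ring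
      rw [e] at h4
      linarith
    simp [hx]
  have hle : ∀ p ∈ Al γ ψ q r, ∫ x in (0:ℝ)..1, f p.1 x * g p.2 x ≤ min ρq ρr := by
    intro p _
    refine le_min ?_ ?_
    · calc ∫ x in (0:ℝ)..1, f p.1 x * g p.2 x ≤ ∫ x in (0:ℝ)..1, f p.1 x := by
            refine intervalIntegral.integral_mono_on (by norm_num)
              (((hfc p.1).mul (hgc p.2)).intervalIntegrable _ _)
              ((hfc p.1).intervalIntegrable _ _) ?_
            intro x _
            have : g p.2 x ≤ 1 := tent_le_one hρr0 _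
            have h0 : 0 ≤ f p.1 x := tent_nonneg _ _
            nlinarith
        _ = ρq := tent_integral hρq0 hρq2 _
    · calc ∫ x in (0:ℝ)..1, f p.1 x * g p.2 x ≤ ∫ x in (0:ℝ)..1, g p.2 x := by
            refine intervalIntegral.integral_mono_on (by norm_num)
              (((hfc p.1).mul (hgc p.2)).intervalIntegrable _ _)
              ((hgc p.2).intervalIntegrable _ _) ?_
            intro x _
            have : f p.1 x ≤ 1 := tent_le_one hρq0 _
            have h0 : 0 ≤ g p.2 x := tent_nonneg _ _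
            nlinarith
        _ = ρr := tent_integral hρr0 hρr2 _
  have hsub : Al γ ψ q r ⊆ Ap γ ψ q ×ˢ Ap γ ψ r := Finset.filter_subset _ _
  rw [← Finset.sum_subset hsub (fun p hp hnot => hzero p hp hnot)]
  calc ∑ p ∈ Al γ ψ q r, ∫ x in (0:ℝ)..1, f p.1 x * g p.2 x
      ≤ ∑ _p ∈ Al γ ψ q r, min ρq ρr := Finset.sum_le_sum hle
    _ = _ := by rw [Finset.sum_const, nsmul_eq_mul]

end Vale.Agent.Lib.P028V
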