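import Vale.Agent.Lib.P028.Core5

/-! Module A. The block descent of `Core4`/`Core5` for an arbitrary family of Lipschitz bumps. -/

open MeasureTheory intervalIntegral Filter

namespace Vale.Agent.Lib.P028V

open Vale.Agent.Lib.P028

/-- Admissible majorants of the indicator of the complement of the tail union. -/
def AGood (Φ : ℕ → ℝ → ℝ) (X : ℕ) (H : ℝ → ℝ) : Prop :=
  (∃ L : ℝ, 0 ≤ L ∧ ∀ x y, |H x - H y| ≤ L * |x - y|) ∧ (∀ x, H (x + 1) = H x) ∧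
    (∀ x, 0 ≤ H x ∧ H x ≤ 1) ∧ ∀ x, (∀ r : ℕ, X ≤ r → ¬ 0 < Φ r x) → H x = 1

lemma agood_one (Φ : ℕ → ℝ → ℝ) (X : ℕ) : AGood Φ X (fun _ => 1) :=
  ⟨⟨0, le_rfl, fun x y => by simp⟩, fun _ => rfl, fun x => by simp, fun _ _ => rfl⟩

lemma aintegral_nonneg {Φ : ℕ → ℝ → ℝ} {X : ℕ} {H : ℝ → ℝ} (hH : AGood Φ X H) :
    0 ≤ ∫ x in (0:ℝ)..1, H x :=
  intervalIntegral.integral_nonneg (by norm_num) (fun x _ => (hH.2.2.1 x).1)

/-- One step of the descent. -/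
lemma astep {Φ : ℕ → ℝ → ℝ}
    (hlip : ∀ r, ∃ L : ℝ, 0 ≤ L ∧ ∀ x y, |Φ r x - Φ r y| ≤ L * |x - y|)
    (h0 : ∀ r x, 0 ≤ Φ r x)
    (h1 : ∀ r, 2 ≤ r → ∀ x, Φ r x ≤ 1)
    (hper : ∀ r x, Φ r (x + 1) = Φ r x)
    (hmix : ∀ L ε : ℝ, 0 ≤ L → 0 < ε → ∃ Y : ℕ, ∀ r, Y ≤ r → ∀ H : ℝ → ℝ,
      (∀ x y, |H x - H y| ≤ L * |x - y|) → (∀ x, H (x + 1) = H x) → (∀ x, 0 ≤ H x ∧ H x ≤ 1) →
      ((∫ x in (0:ℝ)..1, H x) - ε) * (∫ x in (0:ℝ)..1, Φ r x) ≤ ∫ x in (0:ℝ)..1, H x * Φ r x)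
    {C : ℝ} (hC : 1 ≤ C)
    (hblock : ∀ Y : ℕ, ∃ F : Finset ℕ, (∀ r ∈ F, Y ≤ r) ∧
      1 ≤ ∑ r ∈ F, ∫ x in (0:ℝ)..1, Φ r x ∧
      ∑ r ∈ F, ∑ q ∈ F.filter (· < r), ∫ x in (0:ℝ)..1, Φ q x * Φ r x
        ≤ C * (∑ r ∈ F, ∫ x in (0:ℝ)..1, Φ r x) ^ 2)
    {X : ℕ} {H : ℝ → ℝ} (hH : AGood Φ X H) (hgpos : 0 < ∫ x in (0:ℝ)..1, H x) :
    ∃ H', AGood Φ X H' ∧
      ∫ x in (0:ℝ)..1, H' x ≤ (∫ x in (0:ℝ)..1, H x) - (∫ x in (0:ℝ)..1, H x) ^ 2 / (16 * C) := by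
  classical
  obtain ⟨⟨L, hL0, hL⟩, hHper, hH01, hH1⟩ := hH
  have hHc : Continuous H := continuous_of_lip hL0 hL
  set g := ∫ x in (0:ℝ)..1, H x with hg
  have hgle : g ≤ 1 := by
    have : ∫ x in (0:ℝ)..1, H x ≤ ∫ x in (0:ℝ)..1, (1:ℝ) := by
      apply intervalIntegral.integral_mono_on (by norm_num)
      · exact hHc.intervalIntegrable _ _
      · exact continuous_const.intervalIntegrable _ _
      · intro x _
        exact (hH01 x).2
    simpa using this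
  choose Lr hLr0 hLr using hlip
  have hΦc : ∀ r, Continuous (Φ r) := fun r => continuous_of_lip (hLr0 r) (hLr r)
  obtain ⟨Y0, hY0⟩ := hmix L (g / 2) hL0 (by positivity)
  set Y := max (max X 2) Y0 with hY
  obtain ⟨F, hF, hM1, hMC⟩ := hblock Y
  set M := ∑ r ∈ F, ∫ x in (0:ℝ)..1, Φ r x with hM
  have hMpos : 0 < M := by linarith
  have hCpos : 0 < C := by linarith
  set p := g / (4 * C * M) with hp
  have hp0 : 0 < p := by positivity
  have hp1 : p ≤ 1 := by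
    rw [hp, div_le_one (by positivity)]
    nlinarith [mul_le_mul hC hM1 (by norm_num) hCpos.le]
  have hr2 : ∀ r ∈ F, 2 ≤ r := by
    intro r hr
    have h1 : Y ≤ r := hF r hr
    have h2 : 2 ≤ Y := le_trans (le_max_right _ _) (le_max_left _ _)
    omega
  have hrX : ∀ r ∈ F, X ≤ r := by
    intro r hr
    have h1 : Y ≤ r := hF r hr
    have h2 : X ≤ Y := le_trans (le_max_left _ _) (le_max_left _ _)
    omega
  have hrY0 : ∀ r ∈ F, Y0 ≤ r := by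
    intro r hr
    have h1 : Y ≤ r := hF r hr
    have h2 : Y0 ≤ Y := le_max_right _ _
    omega
  have hΦ1 : ∀ r ∈ F, ∀ x, Φ r x ≤ 1 := fun r hr x => h1 r (hr2 r hr) x
  have hx01 : ∀ x, ∀ r ∈ F, 0 ≤ p * Φ r x ∧ p * Φ r x ≤ 1 := by
    intro x r hr
    refine ⟨mul_nonneg hp0.le (h0 r x), ?_⟩
    have := hΦ1 r hr x
    nlinarith [h0 r x]
  have hfac : ∀ r ∈ F, ∀ x, 0 ≤ 1 - p * Φ r x ∧ 1 - p * Φ r x ≤ 1 := by
    intro r hr x
    have := hx01 x r hr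
    constructor <;> linarith
  have hfacL : ∀ r ∈ F, ∀ x y, |(1 - p * Φ r x) - (1 - p * Φ r y)|
      ≤ (p * Lr r) * |x - y| := by
    intro r _ x y
    have h1' : (1 - p * Φ r x) - (1 - p * Φ r y) = p * (Φ r y - Φ r x) := by ring
    rw [h1', abs_mul, abs_of_pos hp0, mul_assoc]
    apply mul_le_mul_of_nonneg_left _ hp0.le
    have h2 := hLr r y x
    rwa [abs_sub_comm y x] at h2
  obtain ⟨hP01, LP, hLP0, hLP⟩ := lip_prod F (fun r x => 1 - p * Φ r x) hfac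
    (fun r => p * Lr r)
    (fun r _ => mul_nonneg hp0.le (hLr0 r)) hfacL
  set P : ℝ → ℝ := fun x => ∏ r ∈ F, (1 - p * Φ r x) with hPdef
  set H' : ℝ → ℝ := fun x => H x * P x with hH'
  have hH'good : AGood Φ X H' := by
    refine ⟨⟨L + LP, by linarith, fun x y => lip_mul hH01 hP01 hL hLP x y⟩, fun x => ?_,
      fun x => ?_, fun x hx => ?_⟩
    · simp only [hH', hPdef, hHper, hper]
    · have h1 := hH01 x
      have h2 := hP01 x
      exact ⟨mul_nonneg h1.1 h2.1, by nlinarith [h1.1, h1.2, h2.1, h2.2]⟩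
    · have h1 : H x = 1 := hH1 x hx
      have h2 : P x = 1 := by
        apply Finset.prod_eq_one
        intro r hr
        have h3 : Φ r x = 0 := le_antisymm (not_lt.mp (hx r (hrX r hr))) (h0 r x)
        rw [h3]
        ring
      simp only [hH', h1, h2, one_mul]
  refine ⟨H', hH'good, ?_⟩
  -- the pointwise bound
  set R : ℝ → ℝ := fun x => H x - p * ∑ r ∈ F, (H x * Φ r x)
      + p ^ 2 * ∑ r ∈ F, ∑ q ∈ F.filter (· < r), Φ q x * Φ r x with hR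
  have hptw : ∀ x, H' x ≤ R x := by
    intro x
    have hb := bonferroni (F := F) (x := fun r => p * Φ r x) (hx01 x)
    have hH0 := hH01 x
    have h1 : H' x ≤ H x * (1 - ∑ r ∈ F, p * Φ r x
        + ∑ r ∈ F, ∑ q ∈ F.filter (· < r), (p * Φ q x) * (p * Φ r x)) :=
      mul_le_mul_of_nonneg_left hb hH0.1
    refine h1.trans ?_
    have h2 : ∑ r ∈ F, p * Φ r x = p * ∑ r ∈ F, Φ r x := by rw [Finset.mul_sum]
    have h3 : ∑ r ∈ F, ∑ q ∈ F.filter (· < r), (p * Φ q x) * (p * Φ r x)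
        = p ^ 2 * ∑ r ∈ F, ∑ q ∈ F.filter (· < r), Φ q x * Φ r x := by
      rw [Finset.mul_sum]
      apply Finset.sum_congr rfl
      intro r _
      rw [Finset.mul_sum]
      apply Finset.sum_congr rfl
      intro q _
      ring
    have h4 : ∑ r ∈ F, (H x * Φ r x) = H x * ∑ r ∈ F, Φ r x := by rw [Finset.mul_sum]
    simp only [hR]
    rw [h2, h3, h4]
    set S := ∑ r ∈ F, Φ r x
    set T := ∑ r ∈ F, ∑ q ∈ F.filter (· < r), Φ q x * Φ r x
    have hT : 0 ≤ T := Finset.sum_nonneg (fun r _ => Finset.sum_nonneg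
      (fun q _ => mul_nonneg (h0 q x) (h0 r x)))
    have hp2T : 0 ≤ p ^ 2 * T := by positivity
    nlinarith [hH0.1, hH0.2, mul_nonneg hp2T (sub_nonneg.mpr hH0.2)]
  -- integrate
  have hH'c : Continuous H' := continuous_of_lip (by linarith)
    (fun x y => lip_mul hH01 hP01 hL hLP x y)
  have h1c : ∀ r, Continuous fun x => H x * Φ r x := fun r => hHc.mul (hΦc r)
  have h2c : ∀ q r, Continuous fun x => Φ q x * Φ r x := fun q r => (hΦc q).mul (hΦc r)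
  have hRc : Continuous R := by
    simp only [hR]
    refine (hHc.sub (continuous_const.mul ?_)).add (continuous_const.mul ?_)
    · exact continuous_finsetSum _ (fun r _ => h1c r)
    · exact continuous_finsetSum _ (fun r _ => continuous_finsetSum _ (fun q _ => h2c q r))
  have hint1 : ∫ x in (0:ℝ)..1, H' x ≤ ∫ x in (0:ℝ)..1, R x := by
    apply intervalIntegral.integral_mono_on (by norm_num)
    · exact hH'c.intervalIntegrable _ _
    · exact hRc.intervalIntegrable _ _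
    · intro x _
      exact hptw x
  have a1 : ∫ x in (0:ℝ)..1, p * ∑ r ∈ F, (H x * Φ r x)
      = p * ∑ r ∈ F, ∫ x in (0:ℝ)..1, H x * Φ r x := by
    rw [intervalIntegral.integral_const_mul, intervalIntegral.integral_finsetSum]
    intro r _
    exact (h1c r).intervalIntegrable _ _
  have a2 : ∫ x in (0:ℝ)..1, p ^ 2 * ∑ r ∈ F, ∑ q ∈ F.filter (· < r), Φ q x * Φ r x
      = p ^ 2 * ∑ r ∈ F, ∑ q ∈ F.filter (· < r), ∫ x in (0:ℝ)..1, Φ q x * Φ r x := by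
    rw [intervalIntegral.integral_const_mul, intervalIntegral.integral_finsetSum]
    · congr 1
      apply Finset.sum_congr rfl
      intro r _
      rw [intervalIntegral.integral_finsetSum]
      intro q _
      exact (h2c q r).intervalIntegrable _ _
    · intro r _
      exact (continuous_finsetSum _ (fun q _ => h2c q r)).intervalIntegrable _ _
  have hRint : ∫ x in (0:ℝ)..1, R x = g - p * (∑ r ∈ F, ∫ x in (0:ℝ)..1, H x * Φ r x)
      + p ^ 2 * ∑ r ∈ F, ∑ q ∈ F.filter (· < r), ∫ x in (0:ℝ)..1, Φ q x * Φ r x := by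
    have ii1 : IntervalIntegrable (fun x => H x) volume 0 1 := hHc.intervalIntegrable _ _
    have c2 : Continuous (fun x => p * ∑ r ∈ F, (H x * Φ r x)) :=
      continuous_const.mul (continuous_finsetSum _ (fun r _ => h1c r))
    have c3 : Continuous (fun x => p ^ 2 * ∑ r ∈ F, ∑ q ∈ F.filter (· < r), Φ q x * Φ r x) :=
      continuous_const.mul (continuous_finsetSum _ (fun r _ =>
        continuous_finsetSum _ (fun q _ => h2c q r)))
    have ii2 : IntervalIntegrable (fun x => p * ∑ r ∈ F, (H x * Φ r x)) volume 0 1 :=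
      c2.intervalIntegrable _ _
    have ii3 : IntervalIntegrable
        (fun x => p ^ 2 * ∑ r ∈ F, ∑ q ∈ F.filter (· < r), Φ q x * Φ r x) volume 0 1 :=
      c3.intervalIntegrable _ _
    simp only [hR]
    rw [intervalIntegral.integral_add (ii1.sub ii2) ii3, intervalIntegral.integral_sub ii1 ii2, a1, a2]
  -- first order term
  have hA : ∀ r ∈ F, g / 2 * ∫ x in (0:ℝ)..1, Φ r x ≤ ∫ x in (0:ℝ)..1, H x * Φ r x := by
    intro r hr
    have hm := hY0 r (hrY0 r hr) H hL hHper hH01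
    have h3 : g - g / 2 = g / 2 := by ring
    rwa [← hg, h3] at hm
  have hAsum : g / 2 * M ≤ ∑ r ∈ F, ∫ x in (0:ℝ)..1, H x * Φ r x := by
    rw [hM, Finset.mul_sum]
    exact Finset.sum_le_sum hA
  -- conclude
  have hpM : p * M = g / (4 * C) := by
    rw [hp]
    field_simp
  have h1 : p * (g / 2 * M) ≤ p * ∑ r ∈ F, ∫ x in (0:ℝ)..1, H x * Φ r x :=
    mul_le_mul_of_nonneg_left hAsum hp0.le
  have h2 : p ^ 2 * ∑ r ∈ F, ∑ q ∈ F.filter (· < r), ∫ x in (0:ℝ)..1, Φ q x * Φ r x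
      ≤ p ^ 2 * (C * M ^ 2) := mul_le_mul_of_nonneg_left hMC (by positivity)
  have h3 : p * (g / 2 * M) = g ^ 2 / (8 * C) := by
    calc p * (g / 2 * M) = (p * M) * (g / 2) := by ring
      _ = g ^ 2 / (8 * C) := by rw [hpM]; field_simp; ring
  have h4 : p ^ 2 * (C * M ^ 2) = g ^ 2 / (16 * C) := by
    calc p ^ 2 * (C * M ^ 2) = C * (p * M) ^ 2 := by ring
      _ = g ^ 2 / (16 * C) := by rw [hpM]; field_simp; ring
  have h5 : g ^ 2 / (8 * C) = 2 * (g ^ 2 / (16 * C)) := by field_simp; ring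
  calc ∫ x in (0:ℝ)..1, H' x ≤ ∫ x in (0:ℝ)..1, R x := hint1
    _ = g - p * (∑ r ∈ F, ∫ x in (0:ℝ)..1, H x * Φ r x)
      + p ^ 2 * ∑ r ∈ F, ∑ q ∈ F.filter (· < r), ∫ x in (0:ℝ)..1, Φ q x * Φ r x := hRint
    _ ≤ g - g ^ 2 / (16 * C) := by
      rw [h3] at h1
      rw [h4] at h2
      linarith

/-- Abstract a.e. statement: global quasi independence on blocks plus mixing of the first moment. -/
theorem abstract_main (Φ : ℕ → ℝ → ℝ)
    (hlip : ∀ r, ∃ L : ℝ, 0 ≤ L ∧ ∀ x y, |Φ r x - Φ r y| ≤ L * |x - y|)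
    (h0 : ∀ r x, 0 ≤ Φ r x)
    (h1 : ∀ r, 2 ≤ r → ∀ x, Φ r x ≤ 1)
    (hper : ∀ r x, Φ r (x + 1) = Φ r x)
    (hmix : ∀ L ε : ℝ, 0 ≤ L → 0 < ε → ∃ Y : ℕ, ∀ r, Y ≤ r → ∀ H : ℝ → ℝ,
      (∀ x y, |H x - H y| ≤ L * |x - y|) → (∀ x, H (x + 1) = H x) → (∀ x, 0 ≤ H x ∧ H x ≤ 1) →
      ((∫ x in (0:ℝ)..1, H x) - ε) * (∫ x in (0:ℝ)..1, Φ r x) ≤ ∫ x in (0:ℝ)..1, H x * Φ r x)
    (hblock : ∃ C₀ : ℝ, 0 < C₀ ∧ ∀ Y : ℕ, ∃ F : Finset ℕ, (∀ r ∈ F, Y ≤ r) ∧
      1 ≤ ∑ r ∈ F, ∫ x in (0:ℝ)..1, Φ r x ∧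
      ∑ r ∈ F, ∑ q ∈ F.filter (· < r), ∫ x in (0:ℝ)..1, Φ q x * Φ r x
        ≤ C₀ * (∑ r ∈ F, ∫ x in (0:ℝ)..1, Φ r x) ^ 2) :
    ∀ᵐ x : ℝ, ∃ᶠ r : ℕ in atTop, 0 < Φ r x := by
  classical
  obtain ⟨C₀, _, hb⟩ := hblock
  set C := max C₀ 1 with hCdef
  have hC : 1 ≤ C := le_max_right _ _
  have hCpos : 0 < C := by linarith
  have hblock' : ∀ Y : ℕ, ∃ F : Finset ℕ, (∀ r ∈ F, Y ≤ r) ∧
      1 ≤ ∑ r ∈ F, ∫ x in (0:ℝ)..1, Φ r x ∧
      ∑ r ∈ F, ∑ q ∈ F.filter (· < r), ∫ x in (0:ℝ)..1, Φ q x * Φ r x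
        ≤ C * (∑ r ∈ F, ∫ x in (0:ℝ)..1, Φ r x) ^ 2 := by
    intro Y
    obtain ⟨F, h1F, h2F, h3F⟩ := hb Y
    exact ⟨F, h1F, h2F, h3F.trans (mul_le_mul_of_nonneg_right (le_max_left _ _) (sq_nonneg _))⟩
  -- small majorants
  have hsmall : ∀ (X : ℕ) (ε : ℝ), 0 < ε → ∃ H, AGood Φ X H ∧ ∫ x in (0:ℝ)..1, H x < ε := by
    intro X ε hε
    by_contra hcon
    push Not at hcon
    set I : Set ℝ := {v | ∃ H, AGood Φ X H ∧ v = ∫ x in (0:ℝ)..1, H x} with hI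
    have hne : I.Nonempty := ⟨_, fun _ => 1, agood_one Φ X, rfl⟩
    have hbd : BddBelow I := ⟨0, by
      rintro v ⟨H, hH, rfl⟩
      exact aintegral_nonneg hH⟩
    set i := sInf I with hi
    have hiε : ε ≤ i := by
      apply le_csInf hne
      rintro v ⟨H, hH, rfl⟩
      exact hcon H hH
    have hipos : 0 < i := lt_of_lt_of_le hε hiε
    have hκ : 0 < i ^ 2 / (32 * C) := by positivity
    obtain ⟨v, hv, hvlt⟩ := exists_lt_of_csInf_lt hne (show sInf I < i + i ^ 2 / (32 * C) by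
      linarith)
    obtain ⟨H, hH, rfl⟩ := hv
    have hge : i ≤ ∫ x in (0:ℝ)..1, H x := csInf_le hbd ⟨H, hH, rfl⟩
    have hgpos : 0 < ∫ x in (0:ℝ)..1, H x := lt_of_lt_of_le hipos hge
    obtain ⟨H', hH', hle⟩ := astep hlip h0 h1 hper hmix hC hblock' hH hgpos
    have hge' : i ≤ ∫ x in (0:ℝ)..1, H' x := csInf_le hbd ⟨H', hH', rfl⟩
    set g := ∫ x in (0:ℝ)..1, H x
    have h1' : i ^ 2 ≤ g ^ 2 := by nlinarith
    have h2' : i ^ 2 / (16 * C) ≤ g ^ 2 / (16 * C) :=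
      div_le_div_of_nonneg_right h1' (by positivity)
    have h3' : i ^ 2 / (16 * C) = 2 * (i ^ 2 / (32 * C)) := by field_simp; ring
    linarith
  -- the tail sets are null
  have hnull : ∀ X : ℕ,
      volume {x : ℝ | x ∈ Set.Ioc (0:ℝ) 1 ∧ ∀ r : ℕ, X ≤ r → ¬ 0 < Φ r x} = 0 := by
    intro X
    set D := {x : ℝ | x ∈ Set.Ioc (0:ℝ) 1 ∧ ∀ r : ℕ, X ≤ r → ¬ 0 < Φ r x} with hD
    have hkey : ∀ ε : ℝ, 0 < ε → volume D ≤ ENNReal.ofReal ε := by
      intro ε hε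
      obtain ⟨H, hH, hlt⟩ := hsmall X ε hε
      obtain ⟨⟨L, hL0, hL⟩, _, hH01, hH1⟩ := hH
      have hHc : Continuous H := continuous_of_lip hL0 hL
      set μ := (volume : Measure ℝ).restrict (Set.Ioc (0:ℝ) 1) with hμ
      have hint : Integrable H μ := (hHc.integrableOn_Ioc).integrable
      have hnn : 0 ≤ᵐ[μ] H := Eventually.of_forall (fun x => (hH01 x).1)
      have h1' := mul_meas_ge_le_integral_of_nonneg hnn hint 1
      rw [one_mul] at h1'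
      have h2' : ∫ x, H x ∂μ = ∫ x in (0:ℝ)..1, H x :=
        (intervalIntegral.integral_of_le (by norm_num)).symm
      rw [h2'] at h1'
      have hsub : D ⊆ {x | 1 ≤ H x} := by
        intro x hx
        have := hH1 x hx.2
        simp [this]
      have hfin : μ {x | 1 ≤ H x} ≠ ⊤ := measure_ne_top _ _
      have h3' : volume D = μ D := by
        rw [hμ, Measure.restrict_apply' measurableSet_Ioc]
        congr 1
        ext x
        constructor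
        · intro hx
          exact ⟨hx, hx.1⟩
        · intro hx
          exact hx.1
      rw [h3']
      calc μ D ≤ μ {x | 1 ≤ H x} := measure_mono hsub
        _ = ENNReal.ofReal (μ.real {x | 1 ≤ H x}) := (ofReal_measureReal hfin).symm
        _ ≤ ENNReal.ofReal ε := ENNReal.ofReal_le_ofReal (by linarith)
    apply le_antisymm _ zero_le
    apply ENNReal.le_of_forall_pos_le_add
    intro ε hε _
    rw [zero_add]
    have := hkey ε hε
    simpa using this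
  set D : Set ℝ := ⋃ X : ℕ,
    {x : ℝ | x ∈ Set.Ioc (0:ℝ) 1 ∧ ∀ r : ℕ, X ≤ r → ¬ 0 < Φ r x} with hD
  have hDnull : volume D = 0 := measure_iUnion_null hnull
  rw [ae_iff]
  set B : Set ℝ := {x : ℝ | ¬ ∃ᶠ r : ℕ in atTop, 0 < Φ r x} with hB
  have hsub : B ⊆ ⋃ n : ℤ, (fun x : ℝ => x + -(n:ℝ)) ⁻¹' D := by
    intro x hx
    have hcover : x ∈ ⋃ n : ℤ, Set.Ioc (n:ℝ) ((n:ℝ) + 1) := by
      rw [iUnion_Ioc_intCast]
      exact Set.mem_univ x
    obtain ⟨n, hn⟩ := Set.mem_iUnion.mp hcover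
    refine Set.mem_iUnion.mpr ⟨n, ?_⟩
    simp only [Set.mem_preimage]
    have hx' : ∀ᶠ r : ℕ in atTop, ¬ 0 < Φ r x := Filter.not_frequently.mp hx
    obtain ⟨X, hX⟩ := eventually_atTop.mp hx'
    refine Set.mem_iUnion.mpr ⟨X, ?_, ?_⟩
    · constructor
      · linarith [hn.1]
      · linarith [hn.2]
    · intro r hr
      have hP : Function.Periodic (Φ r) 1 := hper r
      have h2' : Φ r (x + -(n:ℝ)) = Φ r x := by
        have := hP.int_mul (-n) x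
        simp only [mul_one] at this
        have h3' : x + -(n:ℝ) = x + ((-n : ℤ) : ℝ) := by push_cast; ring
        rw [h3']
        exact this
      rw [h2']
      exact hX r hr
  apply measure_mono_null hsub
  apply measure_iUnion_null
  intro n
  rw [measure_preimage_add_right]
  exact hDnull

end Vale.Agent.Lib.P028V
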