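import Vale.Agent.Lib.P028V.Defs

/-! Module H. Moments over the integers and divisor tails. -/

open Finset
open scoped Classical

namespace Vale.Agent.Lib.P028V

/-- Exponential moment lemma: for `u ≥ 0`, `∑_{q ≤ x} ∏_{p ∣ q} (1 + u p) ≤ x exp (∑_{p ≤ x} u p / p)`. -/
lemma em_lemma (u : ℕ → ℝ) (hu : ∀ n, 0 ≤ u n) (x : ℕ) :
    ∑ q ∈ Icc 1 x, ∏ p ∈ q.primeFactors, (1 + u p)
      ≤ (x:ℝ) * Real.exp (∑ p ∈ (range (x + 1)).filter Nat.Prime, u p / (p:ℝ)) := by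
  set P := (range (x + 1)).filter Nat.Prime with hP
  have hsub : ∀ q ∈ Icc 1 x, q.primeFactors ⊆ P := by
    intro q hq p hp
    have hq' := mem_Icc.1 hq
    have hpp := Nat.prime_of_mem_primeFactors hp
    have hdvd := Nat.dvd_of_mem_primeFactors hp
    have := Nat.le_of_dvd (by omega) hdvd
    simp only [hP, mem_filter, mem_range]
    exact ⟨by omega, hpp⟩
  have h1 : ∀ q ∈ Icc 1 x, ∏ p ∈ q.primeFactors, (1 + u p) =
      ∑ t ∈ P.powerset, if t ⊆ q.primeFactors then ∏ p ∈ t, u p else 0 := by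
    intro q hq
    rw [Finset.prod_one_add, ← Finset.sum_filter]
    apply Finset.sum_congr _ (fun _ _ => rfl)
    ext t
    simp only [mem_powerset, mem_filter]
    constructor
    · intro ht
      exact ⟨ht.trans (hsub q hq), ht⟩
    · exact fun h => h.2
  rw [Finset.sum_congr rfl h1, Finset.sum_comm]
  have h2 : ∀ t ∈ P.powerset, ∑ q ∈ Icc 1 x, (if t ⊆ q.primeFactors then ∏ p ∈ t, u p else 0)
      ≤ (x:ℝ) * ∏ p ∈ t, (u p / (p:ℝ)) := by
    intro t ht
    have ht' := mem_powerset.1 ht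
    have hprime : ∀ p ∈ t, Nat.Prime p := fun p hp => (mem_filter.1 (ht' hp)).2
    rw [← Finset.sum_filter, Finset.sum_const, nsmul_eq_mul]
    set d := ∏ p ∈ t, p with hd
    have hdpos : 0 < d := Finset.prod_pos (fun p hp => (hprime p hp).pos)
    have hdposR : (0:ℝ) < d := by exact_mod_cast hdpos
    have hcount : (((Icc 1 x).filter (fun q => t ⊆ q.primeFactors)).card : ℝ) ≤ (x:ℝ) / d := by
      have hsub2 : (Icc 1 x).filter (fun q => t ⊆ q.primeFactors) ⊆ (Ioc 0 x).filter (fun q => d ∣ q) := by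
        intro q hq
        obtain ⟨hq1, hq2⟩ := mem_filter.1 hq
        have hq3 := mem_Icc.1 hq1
        refine mem_filter.2 ⟨mem_Ioc.2 ⟨by omega, hq3.2⟩, ?_⟩
        exact Finset.prod_primes_dvd q (fun p hp => (hprime p hp).prime)
          (fun p hp => Nat.dvd_of_mem_primeFactors (hq2 hp))
      calc (((Icc 1 x).filter (fun q => t ⊆ q.primeFactors)).card : ℝ)
          ≤ (((Ioc 0 x).filter (fun q => d ∣ q)).card : ℝ) := by
            exact_mod_cast card_le_card hsub2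
        _ = ((x / d : ℕ) : ℝ) := by rw [Nat.Ioc_filter_dvd_card_eq_div]
        _ ≤ (x:ℝ) / d := Nat.cast_div_le
    have hprod : ∏ p ∈ t, (u p / (p:ℝ)) = (∏ p ∈ t, u p) / d := by
      rw [Finset.prod_div_distrib, hd, Nat.cast_prod]
    have hnn : 0 ≤ ∏ p ∈ t, u p := Finset.prod_nonneg (fun p _ => hu p)
    rw [hprod]
    calc (((Icc 1 x).filter (fun q => t ⊆ q.primeFactors)).card : ℝ) * ∏ p ∈ t, u p
        ≤ ((x:ℝ) / d) * ∏ p ∈ t, u p := mul_le_mul_of_nonneg_right hcount hnn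
      _ = (x:ℝ) * ((∏ p ∈ t, u p) / d) := by ring
  calc ∑ t ∈ P.powerset, ∑ q ∈ Icc 1 x, (if t ⊆ q.primeFactors then ∏ p ∈ t, u p else 0)
      ≤ ∑ t ∈ P.powerset, (x:ℝ) * ∏ p ∈ t, (u p / (p:ℝ)) := Finset.sum_le_sum h2
    _ = (x:ℝ) * ∏ p ∈ P, (1 + u p / (p:ℝ)) := by
        rw [← Finset.mul_sum, Finset.prod_one_add]
    _ ≤ (x:ℝ) * Real.exp (∑ p ∈ P, u p / (p:ℝ)) := by
        apply mul_le_mul_of_nonneg_left _ (Nat.cast_nonneg x)
        exact Real.prod_one_add_le_exp_sum P (fun n => div_nonneg (hu n) (Nat.cast_nonneg n))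

/-- Telescoping bound for the tail of `∑ 1 / n ^ 2`. -/
lemma sum_inv_sq_Ioc {n : ℕ} (hn : 1 ≤ n) (m : ℕ) :
    ∑ d ∈ Ioc n m, (1:ℝ) / (d:ℝ) ^ 2 ≤ 1 / (n:ℝ) := by
  have key : ∀ k : ℕ, ∑ d ∈ Ioc n (n + k), (1:ℝ) / (d:ℝ) ^ 2 ≤ 1 / (n:ℝ) - 1 / ((n + k : ℕ):ℝ) := by
    intro k
    induction k with
    | zero => simp
    | succ k ih =>
      rw [← add_assoc, Finset.sum_Ioc_succ_top (by omega)]
      have hpos : (0:ℝ) < ((n + k : ℕ):ℝ) := by
        have : 0 < n + k := by omega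
        exact_mod_cast this
      have hstep : (1:ℝ) / (((n + k + 1 : ℕ):ℝ)) ^ 2 ≤
          1 / ((n + k : ℕ):ℝ) - 1 / ((n + k + 1 : ℕ):ℝ) := by
        push_cast at hpos ⊢
        rw [div_sub_div _ _ hpos.ne' (by positivity), div_le_div_iff₀ (by positivity) (by positivity)]
        nlinarith [hpos]
      linarith
  by_cases hm : m ≤ n
  · rw [Finset.Ioc_eq_empty (by omega)]
    simp
  · obtain ⟨k, rfl⟩ := Nat.exists_eq_add_of_le (not_le.1 hm).le
    have h := key k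
    have : (0:ℝ) ≤ 1 / ((n + k : ℕ):ℝ) := by positivity
    linarith

/-- Tail of `R1`. -/
lemma r1_tail {z x : ℕ} (hz : 1 ≤ z) :
    (((Icc 1 x).filter (fun q => ¬ R1 q z)).card : ℝ) ≤ (x:ℝ) * Real.exp (2 - (z:ℝ)) := by
  have hzpos : (0:ℝ) < z := by exact_mod_cast hz
  set u : ℕ → ℝ := fun n => if z < n then Real.exp ((z:ℝ) / (n:ℝ)) - 1 else 0 with hu
  have hu0 : ∀ n, 0 ≤ u n := by
    intro n
    simp only [hu]
    split_ifs with h
    · have : (0:ℝ) ≤ (z:ℝ) / (n:ℝ) := by positivity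
      have := Real.add_one_le_exp ((z:ℝ) / (n:ℝ))
      linarith
    · exact le_rfl
  -- the product
  have hprod : ∀ q : ℕ, ∏ p ∈ q.primeFactors, (1 + u p) =
      Real.exp ((z:ℝ) * ∑ p ∈ q.primeFactors.filter (fun p => z < p), (1:ℝ) / (p:ℝ)) := by
    intro q
    rw [Finset.mul_sum, Real.exp_sum, Finset.prod_filter]
    refine Finset.prod_congr rfl fun p _ => ?_
    simp only [hu]
    split_ifs with h
    · rw [mul_one_div]; ring
    · simp
  have hem := em_lemma u hu0 x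
  -- the sum of the exponents
  have hexp : ∑ p ∈ (range (x + 1)).filter Nat.Prime, u p / (p:ℝ) ≤ 2 := by
    calc ∑ p ∈ (range (x + 1)).filter Nat.Prime, u p / (p:ℝ)
        ≤ ∑ p ∈ (range (x + 1)).filter Nat.Prime, if z < p then 2 * (z:ℝ) * (1 / (p:ℝ) ^ 2) else 0 := by
          refine Finset.sum_le_sum fun p _ => ?_
          simp only [hu]
          split_ifs with h
          · have hp : (0:ℝ) < p := by
              have : 0 < p := by omega
              exact_mod_cast this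
            have hle : (z:ℝ) / (p:ℝ) ≤ 1 := by
              rw [div_le_one hp]
              exact_mod_cast h.le
            have hnn : 0 ≤ (z:ℝ) / (p:ℝ) := by positivity
            have h3 := Real.abs_exp_sub_one_le (x := (z:ℝ) / (p:ℝ)) (by rwa [abs_of_nonneg hnn])
            rw [abs_of_nonneg hnn] at h3
            have h4 : Real.exp ((z:ℝ) / (p:ℝ)) - 1 ≤ 2 * ((z:ℝ) / (p:ℝ)) := (le_abs_self _).trans h3
            calc (Real.exp ((z:ℝ) / (p:ℝ)) - 1) / (p:ℝ) ≤ (2 * ((z:ℝ) / (p:ℝ))) / (p:ℝ) :=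
                  div_le_div_of_nonneg_right h4 hp.le
              _ = 2 * (z:ℝ) * (1 / (p:ℝ) ^ 2) := by field_simp
          · simp
      _ = ∑ p ∈ ((range (x + 1)).filter Nat.Prime).filter (fun p => z < p), 2 * (z:ℝ) * (1 / (p:ℝ) ^ 2) :=
          (Finset.sum_filter _ _).symm
      _ ≤ ∑ p ∈ Ioc z x, 2 * (z:ℝ) * (1 / (p:ℝ) ^ 2) := by
          apply Finset.sum_le_sum_of_subset_of_nonneg
          · intro p hp
            simp only [mem_filter, mem_range] at hp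
            exact mem_Ioc.2 ⟨hp.2, by omega⟩
          · intro p _ _
            positivity
      _ = 2 * (z:ℝ) * ∑ p ∈ Ioc z x, (1 / (p:ℝ) ^ 2) := by rw [Finset.mul_sum]
      _ ≤ 2 * (z:ℝ) * (1 / (z:ℝ)) := by
          gcongr
          exact sum_inv_sq_Ioc hz x
      _ = 2 := by field_simp
  -- Markov
  have hM : (((Icc 1 x).filter (fun q => ¬ R1 q z)).card : ℝ) * Real.exp (z:ℝ)
      ≤ ∑ q ∈ Icc 1 x, ∏ p ∈ q.primeFactors, (1 + u p) := by
    calc (((Icc 1 x).filter (fun q => ¬ R1 q z)).card : ℝ) * Real.exp (z:ℝ)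
        = ∑ _q ∈ (Icc 1 x).filter (fun q => ¬ R1 q z), Real.exp (z:ℝ) := by
          rw [Finset.sum_const, nsmul_eq_mul]
      _ ≤ ∑ q ∈ (Icc 1 x).filter (fun q => ¬ R1 q z), ∏ p ∈ q.primeFactors, (1 + u p) := by
          refine Finset.sum_le_sum fun q hq => ?_
          have hR : ¬ R1 q z := (mem_filter.1 hq).2
          rw [hprod]
          apply Real.exp_le_exp.2
          have : 1 < ∑ p ∈ q.primeFactors.filter (fun p => z < p), (1:ℝ) / (p:ℝ) := by
            simpa [R1] using hR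
          nlinarith
      _ ≤ ∑ q ∈ Icc 1 x, ∏ p ∈ q.primeFactors, (1 + u p) := by
          apply Finset.sum_le_sum_of_subset_of_nonneg (filter_subset _ _)
          intro q _ _
          exact Finset.prod_nonneg fun p _ => by linarith [hu0 p]
  have hfinal : (((Icc 1 x).filter (fun q => ¬ R1 q z)).card : ℝ) * Real.exp (z:ℝ)
      ≤ (x:ℝ) * Real.exp 2 := by
    refine hM.trans (hem.trans ?_)
    apply mul_le_mul_of_nonneg_left _ (Nat.cast_nonneg x)
    exact Real.exp_le_exp.2 hexp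
  have hexpz : 0 < Real.exp (z:ℝ) := Real.exp_pos _
  rw [Real.exp_sub, ← mul_div_assoc, le_div_iff₀ hexpz]
  exact hfinal

/-- Power bound near `1`. -/
lemma inv_pow_sub_one_le (s : ℕ) {t : ℝ} (h0 : 0 ≤ t) (h1 : t ≤ 3 / 4) :
    ((1 - t)⁻¹) ^ s - 1 ≤ (8:ℝ) ^ s * t := by
  have hpos : 0 < 1 - t := by linarith
  have hA0 : 0 ≤ (1 - t)⁻¹ := (inv_pos.2 hpos).le
  have hA4 : (1 - t)⁻¹ ≤ 4 := by
    rw [inv_le_comm₀ hpos (by norm_num)]
    linarith
  have hA1 : (1 - t)⁻¹ - 1 ≤ 4 * t := by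
    have : (1 - t)⁻¹ - 1 = t * (1 - t)⁻¹ := by
      field_simp
      ring
    rw [this]
    nlinarith
  induction s with
  | zero => simp [h0]
  | succ s ih =>
    have h8 : (1:ℝ) ≤ (8:ℝ) ^ s := one_le_pow₀ (by norm_num)
    have h3 : ((1 - t)⁻¹) ^ (s + 1) - 1 =
        (((1 - t)⁻¹) ^ s - 1) * (1 - t)⁻¹ + ((1 - t)⁻¹ - 1) := by
      rw [pow_succ]
      ring
    rw [h3, pow_succ]
    have h4 : (((1 - t)⁻¹) ^ s - 1) * (1 - t)⁻¹ ≤ (8:ℝ) ^ s * t * 4 := by
      calc (((1 - t)⁻¹) ^ s - 1) * (1 - t)⁻¹ ≤ ((8:ℝ) ^ s * t) * (1 - t)⁻¹ :=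
            mul_le_mul_of_nonneg_right ih hA0
        _ ≤ ((8:ℝ) ^ s * t) * 4 := mul_le_mul_of_nonneg_left hA4 (by positivity)
    nlinarith

/-- The multiplicative structure of `Lam`. -/
noncomputable def lamFn : ArithmeticFunction ℝ :=
  ⟨fun n => 1 / Real.sqrt (n:ℝ), by simp⟩

lemma lamFn_apply (n : ℕ) : lamFn n = 1 / Real.sqrt (n:ℝ) := rfl

lemma lamFn_mult : lamFn.IsMultiplicative := by
  refine ⟨by simp [lamFn_apply], ?_⟩
  intro m n _
  simp only [lamFn_apply]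
  rw [Nat.cast_mul, Real.sqrt_mul (Nat.cast_nonneg m), one_div_mul_one_div]

lemma lam_eq (q : ℕ) : Lam q = (lamFn * ArithmeticFunction.zeta) q := by
  rw [ArithmeticFunction.coe_mul_zeta_apply]
  rfl

lemma lam_mul {a b : ℕ} (h : a.Coprime b) : Lam (a * b) = Lam a * Lam b := by
  simp only [lam_eq]
  exact (lamFn_mult.mul ArithmeticFunction.isMultiplicative_zeta.natCast).map_mul_of_coprime h

lemma sqrt_prime_ge {p : ℕ} (hp : 2 ≤ p) : 1 / Real.sqrt (p:ℝ) ≤ 3 / 4 := by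
  have h2 : (2:ℝ) ≤ p := by exact_mod_cast hp
  have h3 : (4 / 3 : ℝ) ≤ Real.sqrt (p:ℝ) := by
    apply Real.le_sqrt_of_sq_le
    nlinarith
  rw [div_le_div_iff₀ (by linarith) (by norm_num)]
  linarith

/-- The Euler product bound for `Lam`. -/
lemma lam_le_prod (q : ℕ) :
    Lam q ≤ ∏ p ∈ q.primeFactors, (1 - 1 / Real.sqrt (p:ℝ))⁻¹ := by
  induction q using Nat.recOnPosPrimePosCoprime with
  | zero => simp [Lam]
  | one => simp [Lam]
  | prime_pow p n hp hn =>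
    rw [Nat.primeFactors_prime_pow hn.ne' hp, Finset.prod_singleton]
    have h1 := sqrt_prime_ge hp.two_le
    have hsp : 0 < Real.sqrt (p:ℝ) := Real.sqrt_pos.2 (by exact_mod_cast hp.pos)
    set t := 1 / Real.sqrt (p:ℝ) with ht
    have ht0 : 0 ≤ t := by positivity
    have hpos : 0 < 1 - t := by linarith
    have hsum : Lam (p ^ n) = ∑ i ∈ range (n + 1), t ^ i := by
      simp only [Lam]
      rw [Nat.divisors_prime_pow hp, Finset.sum_map]
      refine Finset.sum_congr rfl fun i _ => ?_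
      simp only [Function.Embedding.coeFn_mk, Nat.cast_pow]
      rw [Real.sqrt_eq_rpow, ← Real.rpow_natCast, ← Real.rpow_mul (Nat.cast_nonneg p), mul_comm,
        Real.rpow_mul (Nat.cast_nonneg p), ← Real.sqrt_eq_rpow, Real.rpow_natCast, ht, one_div_pow]
    rw [hsum]
    have hgeom : (∑ i ∈ range (n + 1), t ^ i) * (1 - t) = 1 - t ^ (n + 1) := by
      rw [geom_sum_mul_neg]
    rw [← one_div, le_div_iff₀ hpos, hgeom]
    have : 0 ≤ t ^ (n + 1) := pow_nonneg ht0 _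
    linarith
  | coprime a b ha hb hab iha ihb =>
    rw [lam_mul hab, hab.primeFactors_mul, Finset.prod_union hab.disjoint_primeFactors]
    have hnn : 0 ≤ Lam a := Finset.sum_nonneg fun d _ => by positivity
    have hnb : 0 ≤ Lam b := Finset.sum_nonneg fun d _ => by positivity
    exact mul_le_mul iha ihb hnb (hnn.trans iha)

/-- The 64th moment of `Lam`. -/
lemma lam_moment : ∃ C : ℝ, 1 ≤ C ∧ ∀ x : ℕ, ∑ q ∈ Icc 1 x, (Lam q) ^ 64 ≤ (x:ℝ) * C := by
  have hsumm : Summable (fun n : ℕ => ((n:ℝ) ^ ((3:ℝ) / 2))⁻¹) :=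
    Real.summable_nat_rpow_inv.2 (by norm_num)
  set S := ∑' n : ℕ, ((n:ℝ) ^ ((3:ℝ) / 2))⁻¹ with hS
  have hS0 : 0 ≤ S := tsum_nonneg fun n => by positivity
  refine ⟨Real.exp ((8:ℝ) ^ 64 * S), Real.one_le_exp (by positivity), fun x => ?_⟩
  set u : ℕ → ℝ := fun n => if 2 ≤ n then ((1 - 1 / Real.sqrt (n:ℝ))⁻¹) ^ 64 - 1 else 0 with hu
  have hbase : ∀ n : ℕ, 2 ≤ n → 0 ≤ 1 / Real.sqrt (n:ℝ) ∧ 1 / Real.sqrt (n:ℝ) ≤ 3 / 4 :=
    fun n hn => ⟨by positivity, sqrt_prime_ge hn⟩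
  have hu0 : ∀ n, 0 ≤ u n := by
    intro n
    simp only [hu]
    split_ifs with h
    · obtain ⟨h0, h1⟩ := hbase n h
      have hpos : 0 < 1 - 1 / Real.sqrt (n:ℝ) := by linarith
      have h2 : 1 ≤ (1 - 1 / Real.sqrt (n:ℝ))⁻¹ := by
        rw [one_le_inv₀ hpos]
        linarith
      have := one_le_pow₀ h2 (n := 64)
      linarith
    · exact le_rfl
  have hq : ∀ q ∈ Icc 1 x, (Lam q) ^ 64 ≤ ∏ p ∈ q.primeFactors, (1 + u p) := by
    intro q _
    have hnn : 0 ≤ Lam q := Finset.sum_nonneg fun d _ => by positivity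
    calc (Lam q) ^ 64 ≤ (∏ p ∈ q.primeFactors, (1 - 1 / Real.sqrt (p:ℝ))⁻¹) ^ 64 :=
          pow_le_pow_left₀ hnn (lam_le_prod q) 64
      _ = ∏ p ∈ q.primeFactors, ((1 - 1 / Real.sqrt (p:ℝ))⁻¹) ^ 64 := by
          rw [Finset.prod_pow]
      _ = ∏ p ∈ q.primeFactors, (1 + u p) := by
          refine Finset.prod_congr rfl fun p hp => ?_
          have h2 : 2 ≤ p := (Nat.prime_of_mem_primeFactors hp).two_le
          simp only [hu, if_pos h2]
          ring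
  have hexp : ∑ p ∈ (range (x + 1)).filter Nat.Prime, u p / (p:ℝ) ≤ (8:ℝ) ^ 64 * S := by
    calc ∑ p ∈ (range (x + 1)).filter Nat.Prime, u p / (p:ℝ)
        ≤ ∑ p ∈ (range (x + 1)).filter Nat.Prime, (8:ℝ) ^ 64 * ((p:ℝ) ^ ((3:ℝ) / 2))⁻¹ := by
          refine Finset.sum_le_sum fun p hp => ?_
          have h2 : 2 ≤ p := (mem_filter.1 hp).2.two_le
          obtain ⟨h0, h1⟩ := hbase p h2
          have hb := inv_pow_sub_one_le 64 h0 h1
          have hpR : (0:ℝ) < p := by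
            have : 0 < p := by omega
            exact_mod_cast this
          have hrpow : (p:ℝ) ^ ((3:ℝ) / 2) = (p:ℝ) * Real.sqrt (p:ℝ) := by
            rw [Real.sqrt_eq_rpow, show (3:ℝ) / 2 = 1 + 1 / 2 by norm_num, Real.rpow_add hpR, Real.rpow_one]
          simp only [hu, if_pos h2]
          rw [hrpow]
          calc (((1 - 1 / Real.sqrt (p:ℝ))⁻¹) ^ 64 - 1) / (p:ℝ)
              ≤ ((8:ℝ) ^ 64 * (1 / Real.sqrt (p:ℝ))) / (p:ℝ) := div_le_div_of_nonneg_right hb hpR.le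
            _ = (8:ℝ) ^ 64 * ((p:ℝ) * Real.sqrt (p:ℝ))⁻¹ := by
                rw [mul_inv, one_div]
                ring
      _ = (8:ℝ) ^ 64 * ∑ p ∈ (range (x + 1)).filter Nat.Prime, ((p:ℝ) ^ ((3:ℝ) / 2))⁻¹ := by
          rw [Finset.mul_sum]
      _ ≤ (8:ℝ) ^ 64 * S := by
          apply mul_le_mul_of_nonneg_left _ (by positivity)
          exact hsumm.sum_le_tsum _ (fun n _ => by positivity)
  calc ∑ q ∈ Icc 1 x, (Lam q) ^ 64 ≤ ∑ q ∈ Icc 1 x, ∏ p ∈ q.primeFactors, (1 + u p) :=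
        Finset.sum_le_sum hq
    _ ≤ (x:ℝ) * Real.exp (∑ p ∈ (range (x + 1)).filter Nat.Prime, u p / (p:ℝ)) := em_lemma u hu0 x
    _ ≤ (x:ℝ) * Real.exp ((8:ℝ) ^ 64 * S) := by
        apply mul_le_mul_of_nonneg_left _ (Nat.cast_nonneg x)
        exact Real.exp_le_exp.2 hexp

/-- The constant of the regularity bound. -/
noncomputable def CL : ℝ := (16 * Classical.choose lam_moment) ^ ((1:ℝ) / 64)

lemma CL_ge_one : 1 ≤ CL := by
  have h := (Classical.choose_spec lam_moment).1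
  apply Real.one_le_rpow _ (by norm_num)
  linarith

/-- The regularity bound attached to block mass `M`. -/
noncomputable def KK (M : ℝ) : ℝ := CL * M ^ (-(1:ℝ) / 64)

/-- Tail of the `Lam` bound: at most `x M / 16` integers up to `x` have `Lam q > KK M`. -/
lemma lam_tail {M : ℝ} (hM : 0 < M) (x : ℕ) :
    (((Icc 1 x).filter (fun q => KK M < Lam q)).card : ℝ) ≤ (x:ℝ) * (M / 16) := by
  obtain ⟨hC, hmom⟩ := Classical.choose_spec lam_moment
  set C := Classical.choose lam_moment with hCdef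
  have hCpos : 0 < C := by linarith
  have hKpos : 0 < KK M := by
    have : 0 < CL := by linarith [CL_ge_one]
    exact mul_pos this (Real.rpow_pos_of_pos hM _)
  have hK64 : (KK M) ^ 64 = 16 * C / M := by
    have e1 : (1:ℝ) / 64 * ((64:ℕ):ℝ) = 1 := by norm_num
    have e2 : (-(1:ℝ) / 64) * ((64:ℕ):ℝ) = -1 := by norm_num
    have h16 : (0:ℝ) ≤ 16 * C := by positivity
    have h1 : CL ^ 64 = 16 * C := by
      simp only [CL]
      rw [← hCdef, ← Real.rpow_natCast, ← Real.rpow_mul h16, e1, Real.rpow_one]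
    have h2 : (M ^ (-(1:ℝ) / 64)) ^ 64 = M⁻¹ := by
      rw [← Real.rpow_natCast, ← Real.rpow_mul hM.le, e2, Real.rpow_neg_one]
    simp only [KK]
    rw [mul_pow, h1, h2, div_eq_mul_inv]
  have hM2 : (((Icc 1 x).filter (fun q => KK M < Lam q)).card : ℝ) * (16 * C / M) ≤ (x:ℝ) * C := by
    calc (((Icc 1 x).filter (fun q => KK M < Lam q)).card : ℝ) * (16 * C / M)
        = ∑ _q ∈ (Icc 1 x).filter (fun q => KK M < Lam q), (KK M) ^ 64 := by
          rw [Finset.sum_const, nsmul_eq_mul, hK64]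
      _ ≤ ∑ q ∈ (Icc 1 x).filter (fun q => KK M < Lam q), (Lam q) ^ 64 := by
          refine Finset.sum_le_sum fun q hq => ?_
          exact pow_le_pow_left₀ hKpos.le (mem_filter.1 hq).2.le 64
      _ ≤ ∑ q ∈ Icc 1 x, (Lam q) ^ 64 := by
          apply Finset.sum_le_sum_of_subset_of_nonneg (filter_subset _ _)
          intro q _ _
          have hnn : 0 ≤ Lam q := Finset.sum_nonneg fun d _ => by positivity
          exact pow_nonneg hnn 64
      _ ≤ (x:ℝ) * C := hmom x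
  have h16 : (0:ℝ) < 16 * C / M := by positivity
  have h3 : (((Icc 1 x).filter (fun q => KK M < Lam q)).card : ℝ) ≤ (x:ℝ) * C / (16 * C / M) := by
    rw [le_div_iff₀ h16]
    exact hM2
  refine h3.trans (le_of_eq ?_)
  field_simp

/-- Divisor tail versus `Lam`. -/
lemma Tq_le_Lam (q : ℕ) {D : ℝ} (hD : 0 < D) : Tq q D ≤ Lam q / Real.sqrt D := by
  simp only [Tq, Lam]
  rw [Finset.sum_div]
  calc ∑ d ∈ q.divisors.filter (fun d : ℕ => D < (d:ℝ)), 1 / (d:ℝ)
      ≤ ∑ d ∈ q.divisors.filter (fun d : ℕ => D < (d:ℝ)), 1 / Real.sqrt (d:ℝ) / Real.sqrt D := by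
        refine Finset.sum_le_sum fun d hd => ?_
        have hDd : D < (d:ℝ) := (mem_filter.1 hd).2
        have hdpos : 0 < (d:ℝ) := hD.trans hDd
        have hs : Real.sqrt D ≤ Real.sqrt (d:ℝ) := Real.sqrt_le_sqrt hDd.le
        have hsD : 0 < Real.sqrt D := Real.sqrt_pos.2 hD
        have hsd : 0 < Real.sqrt (d:ℝ) := Real.sqrt_pos.2 hdpos
        have hmul : Real.sqrt (d:ℝ) * Real.sqrt (d:ℝ) = (d:ℝ) := Real.mul_self_sqrt hdpos.le
        have hle : Real.sqrt (d:ℝ) * Real.sqrt D ≤ (d:ℝ) := by nlinarith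
        rw [div_div]
        exact one_div_le_one_div_of_le (by positivity) hle
    _ ≤ ∑ d ∈ q.divisors, 1 / Real.sqrt (d:ℝ) / Real.sqrt D := by
        apply Finset.sum_le_sum_of_subset_of_nonneg (filter_subset _ _)
        intro d _ _
        positivity

/-- Number of small divisors versus `Lam`. -/
lemma card_small_div (q : ℕ) {D : ℝ} (hD : 0 ≤ D) :
    (((q.divisors.filter (fun d : ℕ => (d:ℝ) < D)).card : ℕ) : ℝ) ≤ Real.sqrt D * Lam q := by
  simp only [Lam]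
  rw [Finset.mul_sum, Finset.card_eq_sum_ones]
  push_cast
  calc ∑ d ∈ q.divisors.filter (fun d : ℕ => (d:ℝ) < D), (1:ℝ)
      ≤ ∑ d ∈ q.divisors.filter (fun d : ℕ => (d:ℝ) < D), Real.sqrt D * (1 / Real.sqrt (d:ℝ)) := by
        refine Finset.sum_le_sum fun d hd => ?_
        obtain ⟨hd1, hd2⟩ := mem_filter.1 hd
        have hdpos : 0 < d := Nat.pos_of_mem_divisors hd1
        have hdR : (0:ℝ) < d := by exact_mod_cast hdpos
        have hsd : 0 < Real.sqrt (d:ℝ) := Real.sqrt_pos.2 hdR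
        rw [mul_one_div, le_div_iff₀ hsd, one_mul]
        exact Real.sqrt_le_sqrt hd2.le
    _ ≤ ∑ d ∈ q.divisors, Real.sqrt D * (1 / Real.sqrt (d:ℝ)) := by
        apply Finset.sum_le_sum_of_subset_of_nonneg (filter_subset _ _)
        intro d _ _
        positivity

/-- The harmonic sum up to a power of two. -/
lemma harmonic_two_pow (m : ℕ) : ∑ d ∈ Ico (1:ℕ) (2 ^ m), (1:ℝ) / (d:ℝ) ≤ m := by
  induction m with
  | zero => simp
  | succ m ih =>
    rw [← Finset.sum_Ico_consecutive _ (Nat.one_le_two_pow)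
      (Nat.pow_le_pow_right (by norm_num) (Nat.le_succ m) : 2 ^ m ≤ 2 ^ (m + 1))]
    have h1 : ∑ d ∈ Ico ((2:ℕ) ^ m) (2 ^ (m + 1)), (1:ℝ) / (d:ℝ) ≤ 1 := by
      calc ∑ d ∈ Ico ((2:ℕ) ^ m) (2 ^ (m + 1)), (1:ℝ) / (d:ℝ)
          ≤ ∑ _d ∈ Ico ((2:ℕ) ^ m) (2 ^ (m + 1)), (1:ℝ) / ((2:ℝ) ^ m) := by
            refine Finset.sum_le_sum fun d hd => ?_
            have hd1 := (mem_Ico.1 hd).1
            have h2 : ((2:ℝ) ^ m) ≤ d := by exact_mod_cast hd1
            exact one_div_le_one_div_of_le (by positivity) h2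
        _ = 1 := by
            rw [Finset.sum_const, Nat.card_Ico, nsmul_eq_mul]
            have : 2 ^ (m + 1) - 2 ^ m = 2 ^ m := by
              rw [pow_succ]; omega
            rw [this]
            push_cast
            field_simp
    push_cast
    linarith

/-- Sum of `1 / d ^ 2` over the integers above `D`. -/
lemma sum_inv_sq_above {D : ℝ} (hD : 0 ≤ D) (S : Finset ℕ) (hS : ∀ d ∈ S, 1 ≤ d ∧ D < (d:ℝ)) :
    ∑ d ∈ S, (1:ℝ) / (d:ℝ) ^ 2 ≤ 2 / max 1 D := by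
  set m := S.sup id with hm
  have hmem : ∀ d ∈ S, d ≤ m := fun d hd => Finset.le_sup (f := id) hd
  set n := ⌊D⌋₊ with hn
  have hsub : S ⊆ Ioc n m := by
    intro d hd
    obtain ⟨h1, h2⟩ := hS d hd
    refine mem_Ioc.2 ⟨?_, hmem d hd⟩
    exact (Nat.floor_lt hD).2 h2
  have h1 : ∑ d ∈ S, (1:ℝ) / (d:ℝ) ^ 2 ≤ ∑ d ∈ Ioc n m, (1:ℝ) / (d:ℝ) ^ 2 :=
    Finset.sum_le_sum_of_subset_of_nonneg hsub (fun d _ _ => by positivity)
  refine h1.trans ?_
  by_cases hn0 : n = 0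
  · -- `D < 1`
    have hD1 : D < 1 := by
      have := Nat.lt_floor_add_one D
      rw [← hn, hn0] at this
      simpa using this
    rw [max_eq_left hD1.le, hn0]
    by_cases hm0 : m = 0
    · rw [hm0]
      simp
    · have h2 : Ioc 0 m = insert 1 (Ioc 1 m) := by
        ext d
        simp only [mem_Ioc, mem_insert]
        omega
      rw [h2, Finset.sum_insert (by simp)]
      have h3 := sum_inv_sq_Ioc (n := 1) le_rfl m
      norm_num at h3 ⊢
      linarith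
  · have hn1 : 1 ≤ n := Nat.pos_of_ne_zero hn0
    have hnR : (1:ℝ) ≤ n := by exact_mod_cast hn1
    have h2 := sum_inv_sq_Ioc hn1 m
    refine h2.trans ?_
    have hDn : (n:ℝ) ≤ D := Nat.floor_le hD
    have hDlt : D < n + 1 := Nat.lt_floor_add_one D
    have hD1 : 1 ≤ D := hnR.trans hDn
    rw [max_eq_right hD1, div_le_div_iff₀ (by linarith) (by linarith)]
    linarith

/-- Average of the divisor tail over a dyadic block. -/
lemma Tq_avg (k : ℕ) {D : ℝ} (hD : 0 ≤ D) :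
    ∑ q ∈ Ico (2 ^ k) (2 ^ (k + 1)), Tq q D
      ≤ (2:ℝ) ^ (k + 1) / max 1 D + ((k:ℝ) + 2) := by
  -- the set of divisors
  set S := (Ico (1:ℕ) (2 ^ (k + 1))).filter (fun d : ℕ => D < (d:ℝ)) with hS
  have hswap : ∑ q ∈ Ico (2 ^ k) (2 ^ (k + 1)), Tq q D =
      ∑ d ∈ S, ∑ q ∈ (Ico (2 ^ k) (2 ^ (k + 1))).filter (fun q => d ∣ q), (1:ℝ) / (d:ℝ) := by
    simp only [Tq]
    rw [Finset.sum_sigma', Finset.sum_sigma']
    refine Finset.sum_bij' (fun x _ => ⟨x.2, x.1⟩) (fun x _ => ⟨x.2, x.1⟩) ?_ ?_ ?_ ?_ ?_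
    · rintro ⟨q, d⟩ hx
      simp only [mem_sigma, mem_filter, Nat.mem_divisors, mem_Ico, hS] at hx ⊢
      obtain ⟨⟨h1, h2⟩, ⟨h3, h4⟩, h5⟩ := hx
      have hqpos : 0 < q := lt_of_lt_of_le (by positivity) h1
      have hle := Nat.le_of_dvd hqpos h3
      have hdpos := Nat.pos_of_dvd_of_pos h3 hqpos
      exact ⟨⟨⟨hdpos, by omega⟩, h5⟩, ⟨h1, h2⟩, h3⟩
    · rintro ⟨d, q⟩ hx
      simp only [mem_sigma, mem_filter, Nat.mem_divisors, mem_Ico, hS] at hx ⊢
      obtain ⟨⟨⟨h1, h2⟩, h3⟩, ⟨h4, h5⟩, h6⟩ := hx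
      have hqpos : 0 < q := lt_of_lt_of_le (by positivity) h4
      exact ⟨⟨h4, h5⟩, ⟨h6, hqpos.ne'⟩, h3⟩
    · rintro ⟨q, d⟩ _; rfl
    · rintro ⟨d, q⟩ _; rfl
    · rintro ⟨q, d⟩ _; rfl
  have hcount : ∀ d ∈ S, (((Ico (2 ^ k) (2 ^ (k + 1))).filter (fun q => d ∣ q)).card : ℝ)
      ≤ (2:ℝ) ^ k / d + 1 := by
    intro d hd
    have hd1 : 1 ≤ d := (mem_Ico.1 (mem_filter.1 hd).1).1
    have hdR : (0:ℝ) < d := by exact_mod_cast hd1
    set a' := 2 ^ k - 1 with ha'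
    set b' := 2 ^ (k + 1) - 1 with hb'
    have hpos : 1 ≤ 2 ^ k := Nat.one_le_two_pow
    have hdouble : 2 ^ (k + 1) = 2 * 2 ^ k := by rw [pow_succ]; ring
    have hab : b' = a' + 2 ^ k := by omega
    set A := (Ioc 0 a').filter (fun q => d ∣ q) with hA
    set B := (Ioc 0 b').filter (fun q => d ∣ q) with hB
    have hAB : A ⊆ B := by
      intro q hq
      simp only [hA, hB, mem_filter, mem_Ioc] at hq ⊢
      exact ⟨⟨hq.1.1, by omega⟩, hq.2⟩
    have hsub : (Ico (2 ^ k) (2 ^ (k + 1))).filter (fun q => d ∣ q) ⊆ B \ A := by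
      intro q hq
      simp only [hA, hB, mem_filter, mem_Ioc, mem_Ico, mem_sdiff] at hq ⊢
      refine ⟨⟨⟨by omega, by omega⟩, hq.2⟩, ?_⟩
      intro h
      omega
    have hcA : (A.card : ℝ) = ((a' / d : ℕ) : ℝ) := by
      rw [hA, Nat.Ioc_filter_dvd_card_eq_div]
    have hcB : (B.card : ℝ) = ((b' / d : ℕ) : ℝ) := by
      rw [hB, Nat.Ioc_filter_dvd_card_eq_div]
    have hsd : ((B \ A).card : ℝ) + A.card = B.card := by
      exact_mod_cast card_sdiff_add_card_eq_card hAB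
    have hlow : (a':ℝ) / d ≤ ((a' / d : ℕ) : ℝ) + 1 := by
      rw [div_le_iff₀ hdR]
      have h1 : a' < d * (a' / d + 1) := by
        have := Nat.lt_mul_div_succ a' hd1
        simpa [Nat.succ_eq_add_one] using this
      have h2 : (a':ℝ) ≤ d * (((a' / d : ℕ) : ℝ) + 1) := by exact_mod_cast h1.le
      linarith
    have hup : ((b' / d : ℕ) : ℝ) ≤ (b':ℝ) / d := Nat.cast_div_le
    have hbR : (b':ℝ) = a' + (2:ℝ) ^ k := by
      rw [hab]; push_cast; ring
    have hle : (((Ico (2 ^ k) (2 ^ (k + 1))).filter (fun q => d ∣ q)).card : ℝ) ≤ ((B \ A).card : ℝ) := by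
      exact_mod_cast card_le_card hsub
    have hfrac : (b':ℝ) / d = (a':ℝ) / d + (2:ℝ) ^ k / d := by
      rw [hbR, add_div]
    linarith
  rw [hswap]
  have hsum : ∑ d ∈ S, ∑ q ∈ (Ico (2 ^ k) (2 ^ (k + 1))).filter (fun q => d ∣ q), (1:ℝ) / (d:ℝ)
      ≤ ∑ d ∈ S, ((2:ℝ) ^ k * ((1:ℝ) / (d:ℝ) ^ 2) + (1:ℝ) / (d:ℝ)) := by
    refine Finset.sum_le_sum fun d hd => ?_
    rw [Finset.sum_const, nsmul_eq_mul]
    have hd1 : 1 ≤ d := (mem_Ico.1 (mem_filter.1 hd).1).1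
    have hdR : (0:ℝ) < d := by exact_mod_cast hd1
    calc (((Ico (2 ^ k) (2 ^ (k + 1))).filter (fun q => d ∣ q)).card : ℝ) * (1 / (d:ℝ))
        ≤ ((2:ℝ) ^ k / d + 1) * (1 / (d:ℝ)) :=
          mul_le_mul_of_nonneg_right (hcount d hd) (by positivity)
      _ = (2:ℝ) ^ k * ((1:ℝ) / (d:ℝ) ^ 2) + (1:ℝ) / (d:ℝ) := by field_simp
  refine hsum.trans ?_
  rw [Finset.sum_add_distrib, ← Finset.mul_sum]
  have h1 : ∑ d ∈ S, (1:ℝ) / (d:ℝ) ^ 2 ≤ 2 / max 1 D := by
    apply sum_inv_sq_above hD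
    intro d hd
    obtain ⟨h1, h2⟩ := mem_filter.1 hd
    exact ⟨(mem_Ico.1 h1).1, h2⟩
  have h2 : ∑ d ∈ S, (1:ℝ) / (d:ℝ) ≤ (k:ℝ) + 2 := by
    calc ∑ d ∈ S, (1:ℝ) / (d:ℝ) ≤ ∑ d ∈ Ico (1:ℕ) (2 ^ (k + 1)), (1:ℝ) / (d:ℝ) :=
          Finset.sum_le_sum_of_subset_of_nonneg (filter_subset _ _) (fun d _ _ => by positivity)
      _ ≤ ((k + 1 : ℕ) : ℝ) := harmonic_two_pow (k + 1)
      _ ≤ (k:ℝ) + 2 := by push_cast; linarith
  have h3 : (2:ℝ) ^ k * ∑ d ∈ S, (1:ℝ) / (d:ℝ) ^ 2 ≤ (2:ℝ) ^ (k + 1) / max 1 D := by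
    calc (2:ℝ) ^ k * ∑ d ∈ S, (1:ℝ) / (d:ℝ) ^ 2 ≤ (2:ℝ) ^ k * (2 / max 1 D) := by gcongr
      _ = (2:ℝ) ^ (k + 1) / max 1 D := by rw [pow_succ]; ring
  linarith

/-- `q / φ q` under `R1`. -/
lemma div_totient_le {q z : ℕ} (hq : 1 ≤ q) (hz : 2 ≤ z) (h : R1 q z) :
    (q:ℝ) / (Nat.totient q : ℝ) ≤ Real.exp 2 * (z:ℝ) := by
  have hqR : (0:ℝ) < q := by exact_mod_cast hq
  have hzR : (0:ℝ) < z := by
    have : 0 < z := by omega
    exact_mod_cast this
  -- the Euler product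
  have htot : (Nat.totient q : ℝ) = q * ∏ p ∈ q.primeFactors, (1 - ((p:ℝ))⁻¹) := by
    have := congrArg (Rat.cast : ℚ → ℝ) (Nat.totient_eq_mul_prod_factors q)
    push_cast at this
    exact this
  set g : ℕ → ℝ := fun p => (1 - ((p:ℝ))⁻¹)⁻¹ with hg
  have hgbase : ∀ p : ℕ, 2 ≤ p → 0 < 1 - ((p:ℝ))⁻¹ ∧ 1 ≤ g p := by
    intro p hp
    have hpR : (2:ℝ) ≤ p := by exact_mod_cast hp
    have hinv : ((p:ℝ))⁻¹ ≤ 1 / 2 := by
      rw [inv_eq_one_div]
      exact one_div_le_one_div_of_le (by norm_num) hpR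
    have hinv0 : 0 < ((p:ℝ))⁻¹ := by positivity
    have hpos : 0 < 1 - ((p:ℝ))⁻¹ := by linarith
    refine ⟨hpos, ?_⟩
    simp only [hg]
    rw [one_le_inv₀ hpos]
    linarith
  have hq_eq : (q:ℝ) / (Nat.totient q : ℝ) = ∏ p ∈ q.primeFactors, g p := by
    rw [htot]
    simp only [hg]
    rw [Finset.prod_inv_distrib]
    have hprod : ∏ p ∈ q.primeFactors, (1 - ((p:ℝ))⁻¹) ≠ 0 :=
      Finset.prod_ne_zero_iff.2 fun p hp =>
        (hgbase p (Nat.prime_of_mem_primeFactors hp).two_le).1.ne'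
    field_simp
  rw [hq_eq, ← Finset.prod_filter_mul_prod_filter_not q.primeFactors (fun p => z < p), mul_comm,
    mul_comm (Real.exp 2)]
  -- the telescoping product
  have htele : ∀ m : ℕ, ∏ n ∈ Ioc 1 (m + 1), g n = ((m + 1 : ℕ) : ℝ) := by
    intro m
    induction m with
    | zero => simp
    | succ m ih =>
      rw [Finset.prod_Ioc_succ_top (by omega), ih]
      simp only [hg]
      have hm : ((m + 1 + 1 : ℕ) : ℝ) ≠ 0 := by positivity
      have hm1 : ((m + 1 : ℕ) : ℝ) ≠ 0 := by positivity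
      have h1 : 1 - (((m + 1 + 1 : ℕ) : ℝ))⁻¹ = ((m + 1 : ℕ) : ℝ) / ((m + 1 + 1 : ℕ) : ℝ) := by
        push_cast at hm hm1 ⊢
        field_simp
        ring
      rw [h1, inv_div]
      field_simp
  have hsmall : ∏ p ∈ q.primeFactors.filter (fun p => ¬ z < p), g p ≤ (z:ℝ) := by
    obtain ⟨m, rfl⟩ : ∃ m, z = m + 1 := ⟨z - 1, by omega⟩
    rw [← htele m]
    have hsubset : q.primeFactors.filter (fun p => ¬ m + 1 < p) ⊆ Ioc 1 (m + 1) := by
      intro p hp
      obtain ⟨h1, h2⟩ := mem_filter.1 hp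
      have := (Nat.prime_of_mem_primeFactors h1).two_le
      exact mem_Ioc.2 ⟨by omega, by omega⟩
    rw [← Finset.prod_sdiff hsubset]
    have hge : 1 ≤ ∏ n ∈ Ioc 1 (m + 1) \ q.primeFactors.filter (fun p => ¬ m + 1 < p), g n := by
      apply Finset.prod_induction _ (fun y => 1 ≤ y) (fun a b ha hb => one_le_mul_of_one_le_of_one_le ha hb) le_rfl
      intro n hn
      have := (mem_Ioc.1 (mem_sdiff.1 hn).1).1
      exact (hgbase n (by omega)).2
    have hnn : 0 ≤ ∏ p ∈ q.primeFactors.filter (fun p => ¬ m + 1 < p), g p :=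
      Finset.prod_nonneg fun p hp =>
        (zero_le_one.trans (hgbase p (Nat.prime_of_mem_primeFactors (mem_filter.1 hp).1).two_le).2)
    nlinarith
  have hbig : ∏ p ∈ q.primeFactors.filter (fun p => z < p), g p ≤ Real.exp 2 := by
    calc ∏ p ∈ q.primeFactors.filter (fun p => z < p), g p
        ≤ ∏ p ∈ q.primeFactors.filter (fun p => z < p), Real.exp (2 * ((1:ℝ) / (p:ℝ))) := by
          refine Finset.prod_le_prod (fun p hp => ?_) (fun p hp => ?_)
          · exact zero_le_one.trans (hgbase p (Nat.prime_of_mem_primeFactors (mem_filter.1 hp).1).two_le).2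
          · have h2 := (Nat.prime_of_mem_primeFactors (mem_filter.1 hp).1).two_le
            obtain ⟨hpos, _⟩ := hgbase p h2
            have hpR : (2:ℝ) ≤ p := by exact_mod_cast h2
            set y := ((p:ℝ))⁻¹ with hy
            have hy0 : 0 < y := by positivity
            have hy1 : y ≤ 1 / 2 := by
              rw [hy, inv_eq_one_div]
              exact one_div_le_one_div_of_le (by norm_num) hpR
            simp only [hg]
            rw [← hy, inv_le_comm₀ hpos (Real.exp_pos _), ← Real.exp_neg]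
            have hexp := Real.add_one_le_exp (2 * y)
            rw [one_div, ← hy]
            rw [Real.exp_neg]
            rw [inv_le_comm₀ (Real.exp_pos _) hpos]
            rw [inv_eq_one_div, div_le_iff₀ hpos]
            nlinarith
      _ = Real.exp (∑ p ∈ q.primeFactors.filter (fun p => z < p), 2 * ((1:ℝ) / (p:ℝ))) := by
          rw [Real.exp_sum]
      _ ≤ Real.exp 2 := by
          apply Real.exp_le_exp.2
          rw [← Finset.mul_sum]
          have : ∑ p ∈ q.primeFactors.filter (fun p => z < p), (1:ℝ) / (p:ℝ) ≤ 1 := h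
          linarith
  have hnn : 0 ≤ ∏ p ∈ q.primeFactors.filter (fun p => ¬ z < p), g p :=
    Finset.prod_nonneg fun p hp =>
      (zero_le_one.trans (hgbase p (Nat.prime_of_mem_primeFactors (mem_filter.1 hp).1).two_le).2)
  have hnn2 : 0 ≤ ∏ p ∈ q.primeFactors.filter (fun p => z < p), g p :=
    Finset.prod_nonneg fun p hp =>
      (zero_le_one.trans (hgbase p (Nat.prime_of_mem_primeFactors (mem_filter.1 hp).1).two_le).2)
  nlinarith [Real.exp_pos 2]

end Vale.Agent.Lib.P028V
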