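import Vale.Agent.Lib.P028V.Alive

/-! Module F. First return times, identification of levels, removal of resonant pairs. -/

open Finset

namespace Vale.Agent.Lib.P028V

open Vale.Agent.Lib.P028

lemma lvl_set_nonempty (γ : ℝ) {τ : ℝ} (hτ : 0 < τ) :
    {Q : ℕ | 1 ≤ Q ∧ dn ((Q:ℝ) * γ) < τ}.Nonempty := by
  obtain ⟨n, hn⟩ := exists_nat_one_div_lt hτ
  obtain ⟨k, hk0, hk1, hk2⟩ := Real.exists_nat_abs_mul_sub_round_le γ (Nat.succ_pos n)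
  refine ⟨k, hk0, ?_⟩
  have h3 : (1:ℝ) / (((n.succ:ℕ):ℝ) + 1) ≤ 1 / ((n:ℝ) + 1) := by
    apply one_div_le_one_div_of_le
    · positivity
    · push_cast; linarith
  unfold dn
  linarith

/-- Existence (Dirichlet) and minimality. -/
lemma lvl_spec (γ : ℝ) {τ : ℝ} (hτ : 0 < τ) :
    1 ≤ lvl γ τ ∧ dn ((lvl γ τ : ℝ) * γ) < τ ∧ ∀ Q : ℕ, 1 ≤ Q → Q < lvl γ τ → τ ≤ dn ((Q:ℝ) * γ) := by
  have hne := lvl_set_nonempty γ hτ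
  have hmem := Nat.sInf_mem hne
  refine ⟨hmem.1, hmem.2, ?_⟩
  intro Q hQ hlt
  by_contra hcon
  push Not at hcon
  exact Nat.notMem_of_lt_sInf hlt ⟨hQ, hcon⟩

/-- The first return is coprime to its numerator. -/
lemma lvl_coprime (γ : ℝ) {τ : ℝ} (hτ : 0 < τ) :
    IsCoprime (round ((lvl γ τ : ℝ) * γ)) (lvl γ τ : ℤ) := by
  obtain ⟨h1, h2, h3⟩ := lvl_spec γ hτ
  rw [Int.isCoprime_iff_gcd_eq_one]
  by_contra hg
  set Q := lvl γ τ with hQ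
  set P := round ((Q:ℝ) * γ) with hP
  set g := Int.gcd P (Q:ℤ) with hgdef
  have hgP : (g:ℤ) ∣ P := Int.gcd_dvd_left P (Q:ℤ)
  have hgQ : (g:ℤ) ∣ (Q:ℤ) := Int.gcd_dvd_right P (Q:ℤ)
  have hgQ' : g ∣ Q := Int.natCast_dvd_natCast.mp hgQ
  obtain ⟨Q', hQ'⟩ := hgQ'
  obtain ⟨P', hP'⟩ := hgP
  have hg0 : g ≠ 0 := by
    intro h0
    rw [h0] at hQ'
    omega
  have hg2 : 2 ≤ g := by omega
  have hQ'0 : 1 ≤ Q' := by
    rcases Nat.eq_zero_or_pos Q' with h | h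
    · rw [h] at hQ'
      omega
    · exact h
  have hlt : Q' < Q := by
    rw [hQ']
    nlinarith
  have hmin := h3 Q' hQ'0 hlt
  have hgR : (2:ℝ) ≤ (g:ℝ) := by exact_mod_cast hg2
  have hle : dn ((Q':ℝ) * γ) ≤ |(Q':ℝ) * γ - (P':ℝ)| := dn_le_abs_sub _ _
  have heq : (Q':ℝ) * γ - (P':ℝ) = ((Q:ℝ) * γ - (P:ℝ)) / (g:ℝ) := by
    have e1 : (Q:ℝ) = (g:ℝ) * (Q':ℝ) := by exact_mod_cast hQ'
    have e2 : (P:ℝ) = (g:ℝ) * (P':ℝ) := by exact_mod_cast hP'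
    rw [e1, e2]
    field_simp
  have hdn : dn ((Q:ℝ) * γ) = |(Q:ℝ) * γ - (P:ℝ)| := rfl
  rw [heq, abs_div, abs_of_pos (by linarith : (0:ℝ) < g)] at hle
  have hnn : 0 ≤ |(Q:ℝ) * γ - (P:ℝ)| := abs_nonneg _
  have : |(Q:ℝ) * γ - (P:ℝ)| / (g:ℝ) ≤ |(Q:ℝ) * γ - (P:ℝ)| := div_le_self hnn (by linarith)
  linarith

/-- A fraction with denominator `Q` that is not an integer is at distance at least `1/Q` from the integers. -/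
lemma dn_frac_ge {P : ℤ} {Q : ℕ} (hQ : 1 ≤ Q) (hcop : IsCoprime P (Q:ℤ)) {h : ℤ} (hn : ¬ (Q:ℤ) ∣ h) :
    1 / (Q:ℝ) ≤ dn ((h:ℝ) * (P:ℝ) / (Q:ℝ)) := by
  have hQR : (0:ℝ) < (Q:ℝ) := by exact_mod_cast hQ
  set n := round ((h:ℝ) * (P:ℝ) / (Q:ℝ)) with hndef
  have hdn : dn ((h:ℝ) * (P:ℝ) / (Q:ℝ)) = |(h:ℝ) * (P:ℝ) / (Q:ℝ) - (n:ℝ)| := rfl
  have hne : h * P - n * (Q:ℤ) ≠ 0 := by
    intro h0
    apply hn
    have hd : (Q:ℤ) ∣ h * P := ⟨n, by linarith⟩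
    exact (hcop.symm).dvd_of_dvd_mul_right hd
  have habs : (1:ℤ) ≤ |h * P - n * (Q:ℤ)| := Int.one_le_abs hne
  have habsR : (1:ℝ) ≤ |(h:ℝ) * (P:ℝ) - (n:ℝ) * (Q:ℝ)| := by exact_mod_cast habs
  have heq : (h:ℝ) * (P:ℝ) / (Q:ℝ) - (n:ℝ) = ((h:ℝ) * (P:ℝ) - (n:ℝ) * (Q:ℝ)) / (Q:ℝ) := by
    field_simp
  rw [hdn, heq, abs_div, abs_of_pos hQR]
  exact div_le_div_of_nonneg_right habsR hQR.le

lemma dn_le_add_abs (s t : ℝ) : dn s ≤ dn t + |s - t| := by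
  have := dn_lip s t
  have h2 := le_abs_self (dn s - dn t)
  linarith

/-- Symmetry of the distance to the integers. -/
lemma dn_eq_of_close {x : ℝ} {c : ℤ} (h : |x - (c:ℝ)| < 1 / 2) : round x = c ∧ dn x = |x - (c:ℝ)| := by
  have hx : x = (x - (c:ℝ)) + (c:ℝ) := by ring
  have hr : round (x - (c:ℝ)) = 0 := by
    rw [round_eq_zero_iff]
    rw [abs_lt] at h
    exact ⟨by linarith [h.1], h.2⟩
  have hc : round x = c := by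
    rw [hx, round_add_intCast, hr]
    simp
  refine ⟨hc, ?_⟩
  unfold dn
  rw [hc]

/-- Identification of levels: a first return `Q₁` with `dn (Q₁ γ) < τ` and `Q₁ τ ≤ 1/5` is the first return below `τ`. -/
lemma level_id (γ : ℝ) {t τ : ℝ} (ht : 0 < t) (hτ : 0 < τ)
    (h1 : dn ((lvl γ t : ℝ) * γ) < τ) (h2 : (lvl γ t : ℝ) * τ ≤ 1 / 5) :
    lvl γ t = lvl γ τ := by
  obtain ⟨a1, a2, a3⟩ := lvl_spec γ ht
  obtain ⟨b1, b2, b3⟩ := lvl_spec γ hτ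
  have hcop := lvl_coprime γ hτ
  set Q1 := lvl γ t with hQ1
  set Q0 := lvl γ τ with hQ0
  -- Q0 ≤ Q1
  have hle : Q0 ≤ Q1 := by
    by_contra hcon
    push Not at hcon
    have := b3 Q1 a1 hcon
    linarith
  have hQ0R : (0:ℝ) < (Q0:ℝ) := by exact_mod_cast b1
  have hQ1R : (0:ℝ) < (Q1:ℝ) := by exact_mod_cast a1
  have hleR : (Q0:ℝ) ≤ (Q1:ℝ) := by exact_mod_cast hle
  set P0 := round ((Q0:ℝ) * γ) with hP0
  set δ := (Q0:ℝ) * γ - (P0:ℝ) with hδ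
  have hδabs : |δ| < τ := b2
  have hdvd : (Q0:ℤ) ∣ (Q1:ℤ) := by
    by_contra hn
    have hge := dn_frac_ge b1 hcop hn
    have hcomp : (((Q1:ℕ):ℤ):ℝ) * (P0:ℝ) / (Q0:ℝ) = (Q1:ℝ) * γ - (Q1:ℝ) * δ / (Q0:ℝ) := by
      rw [hδ]
      push_cast
      field_simp
      ring
    have hle2 := dn_le_add_abs (((Q1:ℕ):ℤ):ℝ) 0
    rw [hcomp] at hge
    have h3 := dn_le_add_abs ((Q1:ℝ) * γ - (Q1:ℝ) * δ / (Q0:ℝ)) ((Q1:ℝ) * γ)
    have h4 : |(Q1:ℝ) * γ - (Q1:ℝ) * δ / (Q0:ℝ) - (Q1:ℝ) * γ| = (Q1:ℝ) * |δ| / (Q0:ℝ) := by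
      have : (Q1:ℝ) * γ - (Q1:ℝ) * δ / (Q0:ℝ) - (Q1:ℝ) * γ = -((Q1:ℝ) * δ / (Q0:ℝ)) := by ring
      rw [this, abs_neg, abs_div, abs_mul, abs_of_pos hQ1R, abs_of_pos hQ0R]
    rw [h4] at h3
    have h5 : (Q1:ℝ) * |δ| ≤ (Q1:ℝ) * τ := by
      apply mul_le_mul_of_nonneg_left hδabs.le hQ1R.le
    have h6 : (Q1:ℝ) * |δ| / (Q0:ℝ) ≤ (1 / 5) / (Q0:ℝ) :=
      div_le_div_of_nonneg_right (by linarith) hQ0R.le
    have h7 : 1 / (Q0:ℝ) ≤ τ + (1 / 5) / (Q0:ℝ) := by linarith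
    have h8 : (Q0:ℝ) * τ ≤ 1 / 5 := by
      have : (Q0:ℝ) * τ ≤ (Q1:ℝ) * τ := mul_le_mul_of_nonneg_right hleR hτ.le
      linarith
    have h9 : 1 ≤ (Q0:ℝ) * τ + 1 / 5 := by
      have := mul_le_mul_of_nonneg_left h7 hQ0R.le
      have e1 : (Q0:ℝ) * (1 / (Q0:ℝ)) = 1 := by field_simp
      have e2 : (Q0:ℝ) * (τ + (1 / 5) / (Q0:ℝ)) = (Q0:ℝ) * τ + 1 / 5 := by field_simp
      linarith
    linarith
  obtain ⟨w, hw⟩ := Int.natCast_dvd_natCast.mp hdvd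
  by_contra hne
  have hlt : Q0 < Q1 := lt_of_le_of_ne hle (Ne.symm hne)
  have hw1 : 1 ≤ w := by
    rcases Nat.eq_zero_or_pos w with h | h
    · rw [h] at hw
      omega
    · exact h
  have hwR : (1:ℝ) ≤ (w:ℝ) := by exact_mod_cast hw1
  have hQ1eq : (Q1:ℝ) = (Q0:ℝ) * (w:ℝ) := by exact_mod_cast hw
  have hgam : (Q1:ℝ) * γ - ((w:ℤ) * P0 : ℤ) = (w:ℝ) * δ := by
    rw [hδ, hQ1eq]
    push_cast
    ring
  have hwδ : |(w:ℝ) * δ| < 1 / 2 := by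
    rw [abs_mul, abs_of_pos (by linarith : (0:ℝ) < w)]
    have h5 : (w:ℝ) * |δ| ≤ (w:ℝ) * τ :=
      mul_le_mul_of_nonneg_left hδabs.le (by linarith)
    have h6 : (w:ℝ) * τ ≤ (Q1:ℝ) * τ := by
      apply mul_le_mul_of_nonneg_right _ hτ.le
      rw [hQ1eq]
      have : (1:ℝ) ≤ (Q0:ℝ) := by exact_mod_cast b1
      nlinarith
    linarith
  have hclose : |(Q1:ℝ) * γ - (((w:ℤ) * P0 : ℤ):ℝ)| < 1 / 2 := by
    rw [hgam]; exact hwδ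
  have hd := (dn_eq_of_close hclose).2
  rw [hgam, abs_mul, abs_of_pos (by linarith : (0:ℝ) < w)] at hd
  have hfinal : |δ| ≤ dn ((Q1:ℝ) * γ) := by
    rw [hd]
    nlinarith [abs_nonneg δ]
  have hmin := a3 Q0 b1 hlt
  have hd0 : dn ((Q0:ℝ) * γ) = |δ| := rfl
  linarith

/-- The basic divisibility lemma. Let `Q = lvl γ t`, `ρ = dn (Q γ)`, `8 t Q < 1`, `|h| ρ < 1/2`, `dn (h γ) < t`.
Then `Q ∣ h`, `round (h γ) = (h / Q) * round (Q γ)` and `dn (h γ) = |h| / Q * ρ`. -/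
lemma level_dvd (γ : ℝ) {t : ℝ} (ht : 0 < t) (htQ : 8 * t * (lvl γ t : ℝ) < 1) {h : ℤ}
    (hh : |(h:ℝ)| * dn ((lvl γ t : ℝ) * γ) < 1 / 2) (hd : dn ((h:ℝ) * γ) < t) :
    (lvl γ t : ℤ) ∣ h ∧
      round ((h:ℝ) * γ) = (h / (lvl γ t : ℤ)) * round ((lvl γ t : ℝ) * γ) ∧
      dn ((h:ℝ) * γ) = |(h:ℝ)| / (lvl γ t : ℝ) * dn ((lvl γ t : ℝ) * γ) := by
  obtain ⟨a1, a2, a3⟩ := lvl_spec γ ht
  have hcop := lvl_coprime γ ht
  set Q := lvl γ t with hQ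
  set P := round ((Q:ℝ) * γ) with hP
  set δ := (Q:ℝ) * γ - (P:ℝ) with hδ
  have hρ : dn ((Q:ℝ) * γ) = |δ| := rfl
  rw [hρ] at hh a2 ⊢
  have hQR : (0:ℝ) < (Q:ℝ) := by exact_mod_cast a1
  have hQ1R : (1:ℝ) ≤ (Q:ℝ) := by exact_mod_cast a1
  have hdvd : (Q:ℤ) ∣ h := by
    by_contra hn
    have hge := dn_frac_ge a1 hcop hn
    have hcomp : (h:ℝ) * (P:ℝ) / (Q:ℝ) = (h:ℝ) * γ - (h:ℝ) * δ / (Q:ℝ) := by
      rw [hδ]
      field_simp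
      ring
    rw [hcomp] at hge
    have h3 := dn_le_add_abs ((h:ℝ) * γ - (h:ℝ) * δ / (Q:ℝ)) ((h:ℝ) * γ)
    have h4 : |(h:ℝ) * γ - (h:ℝ) * δ / (Q:ℝ) - (h:ℝ) * γ| = |(h:ℝ)| * |δ| / (Q:ℝ) := by
      have : (h:ℝ) * γ - (h:ℝ) * δ / (Q:ℝ) - (h:ℝ) * γ = -((h:ℝ) * δ / (Q:ℝ)) := by ring
      rw [this, abs_neg, abs_div, abs_mul, abs_of_pos hQR]
    rw [h4] at h3
    have h6 : |(h:ℝ)| * |δ| / (Q:ℝ) ≤ (1 / 2) / (Q:ℝ) :=
      div_le_div_of_nonneg_right hh.le hQR.le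
    have h7 : 1 / (Q:ℝ) < t + (1 / 2) / (Q:ℝ) := by linarith
    have h9 : 1 < (Q:ℝ) * t + 1 / 2 := by
      have := mul_lt_mul_of_pos_left h7 hQR
      have e1 : (Q:ℝ) * (1 / (Q:ℝ)) = 1 := by field_simp
      have e2 : (Q:ℝ) * (t + (1 / 2) / (Q:ℝ)) = (Q:ℝ) * t + 1 / 2 := by field_simp
      linarith
    nlinarith
  obtain ⟨w, hw⟩ := hdvd
  have hdiv : h / (Q:ℤ) = w := by
    rw [hw]
    exact Int.mul_ediv_cancel_left w (by exact_mod_cast (Nat.pos_iff_ne_zero.mp a1))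
  have hhR : (h:ℝ) = (Q:ℝ) * (w:ℝ) := by exact_mod_cast hw
  have hgam : (h:ℝ) * γ - ((w * P : ℤ):ℝ) = (w:ℝ) * δ := by
    rw [hδ, hhR]
    push_cast
    ring
  have hhabs : |(h:ℝ)| = (Q:ℝ) * |(w:ℝ)| := by
    rw [hhR, abs_mul, abs_of_pos hQR]
  have hwδ : |(w:ℝ) * δ| < 1 / 2 := by
    rw [abs_mul]
    rw [hhabs] at hh
    have : |(w:ℝ)| * |δ| ≤ (Q:ℝ) * |(w:ℝ)| * |δ| := by
      have hnn : 0 ≤ |(w:ℝ)| * |δ| := by positivity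
      nlinarith
    linarith
  have hclose : |(h:ℝ) * γ - ((w * P : ℤ):ℝ)| < 1 / 2 := by
    rw [hgam]; exact hwδ
  obtain ⟨h5, h6⟩ := dn_eq_of_close hclose
  refine ⟨⟨w, hw⟩, ?_, ?_⟩
  · rw [h5, hdiv]
  · rw [h6, hgam, abs_mul, hhabs]
    field_simp

lemma round_eq_neg_of_close {x : ℝ} {c : ℤ} (h : |(c:ℝ) + x| < 1 / 2) : round x = -c := by
  have h2 : |x - ((-c : ℤ) : ℝ)| < 1 / 2 := by
    have : x - ((-c : ℤ) : ℝ) = (c:ℝ) + x := by push_cast; ring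
    rw [this]; exact h
  exact (dn_eq_of_close h2).1

lemma prime_dvd_gcd_false {p : ℕ} (hp : p.Prime) {x y : ℤ} (hg : Int.gcd x y = 1)
    (h1 : (p:ℤ) ∣ x) (h2 : (p:ℤ) ∣ y) : False := by
  have h3 : (p:ℤ) ∣ (Int.gcd x y : ℤ) := Int.dvd_coe_gcd h1 h2
  rw [hg] at h3
  have h4 : p ∣ 1 := by exact_mod_cast h3
  exact hp.one_lt.ne' (Nat.dvd_one.mp h4)

/-- Removal by `q`: if `r' - q' = u Q_q`, the unique admissible integer is `- u P_q` and `q' > 1`, there are no overlapping pairs. -/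
lemma kill_q {γ : ℝ} {ψ : ℕ → ℝ} (hψ : Adm ψ) {q r : ℕ} (hq : 2 ≤ q) (hqr : q < r) (hψq : 0 < ψ q) (hψr : 0 < ψ r)
    (hX : XX ψ q r < 1 / 64) {u : ℤ}
    (hm : ((r / Nat.gcd q r : ℕ) : ℤ) - ((q / Nat.gcd q r : ℕ) : ℤ) = u * (Qlv γ ψ q : ℤ))
    (hround : round ((((r / Nat.gcd q r : ℕ) : ℝ) - ((q / Nat.gcd q r : ℕ) : ℝ)) * γ) = u * Pq γ ψ q)
    (hq' : 1 < q / Nat.gcd q r) : Al γ ψ q r = ∅ := by
  classical
  apply Finset.eq_empty_of_forall_notMem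
  rintro ⟨a, b⟩ hab
  have hq1 : 1 ≤ q := by omega
  have hr1 : 1 ≤ r := by omega
  obtain ⟨c, hc1, hc2⟩ := alive_struct hψ hq1 hr1 hab
  have hclose : |(c:ℝ) + (((r / Nat.gcd q r : ℕ) : ℝ) - ((q / Nat.gcd q r : ℕ) : ℝ)) * γ| < 1 / 2 := by
    linarith
  have hround' := round_eq_neg_of_close hclose
  have hc : c = - (u * Pq γ ψ q) := by
    rw [hround] at hround'
    linarith
  have hgpos : 0 < Nat.gcd q r := Nat.gcd_pos_of_pos_left r (by omega)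
  have hcopr := Nat.coprime_div_gcd_div_gcd hgpos
  obtain ⟨p, hp, hpq'⟩ := Nat.exists_prime_and_dvd (ne_of_gt hq')
  have hpq : p ∣ q := hpq'.trans (Nat.div_dvd_of_dvd (Nat.gcd_dvd_left q r))
  have hpl : p ∣ Nat.lcm q r := hpq.trans (Nat.dvd_lcm_left q r)
  have hpr' : ¬ p ∣ r / Nat.gcd q r := fun h =>
    Nat.not_coprime_of_dvd_of_dvd hp.one_lt hpq' h hcopr
  have hpint := (Nat.prime_iff_prime_int.mp hp)
  have hmemA := (Finset.mem_filter.mp hab).1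
  have ha := (Finset.mem_filter.mp (Finset.mem_product.mp hmemA).1).2
  simp only at ha
  set q' := q / Nat.gcd q r with hq'def
  set r' := r / Nat.gcd q r with hr'def
  set Q := Qlv γ ψ q with hQ
  set P := Pq γ ψ q with hP
  have h1 : (p:ℤ) ∣ (r':ℤ) * a - (q':ℤ) * b - c :=
    (Int.natCast_dvd_natCast.mpr hpl).trans hc2
  have h2 : (p:ℤ) ∣ (q':ℤ) := Int.natCast_dvd_natCast.mpr hpq'
  have h3 : (p:ℤ) ∣ (r':ℤ) * ((a:ℤ) * (Q:ℤ) + P) := by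
    have e : (r':ℤ) * ((a:ℤ) * (Q:ℤ) + P) = ((r':ℤ) * a - (q':ℤ) * b - c) * (Q:ℤ) + (q':ℤ) * (b * (Q:ℤ) + P) := by
      rw [hc]
      have hr'' : (r':ℤ) = (q':ℤ) + u * (Q:ℤ) := by linarith
      rw [hr'']
      ring
    rw [e]
    exact dvd_add (h1.mul_right _) (h2.mul_right _)
  have h4 : (p:ℤ) ∣ (a:ℤ) * (Q:ℤ) + P := by
    rcases hpint.dvd_or_dvd h3 with h | h
    · exact absurd (Int.natCast_dvd_natCast.mp h) hpr'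
    · exact h
  exact prime_dvd_gcd_false hp ha h4 (Int.natCast_dvd_natCast.mpr hpq)

/-- Removal by `r`. -/
lemma kill_r {γ : ℝ} {ψ : ℕ → ℝ} (hψ : Adm ψ) {q r : ℕ} (hq : 2 ≤ q) (hqr : q < r) (hψq : 0 < ψ q) (hψr : 0 < ψ r)
    (hX : XX ψ q r < 1 / 64) {u : ℤ}
    (hm : ((r / Nat.gcd q r : ℕ) : ℤ) - ((q / Nat.gcd q r : ℕ) : ℤ) = u * (Qlv γ ψ r : ℤ))
    (hround : round (((((r / Nat.gcd q r : ℕ) : ℝ) - ((q / Nat.gcd q r : ℕ) : ℝ))) * γ) = u * Pq γ ψ r)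
    (hr' : 1 < r / Nat.gcd q r) : Al γ ψ q r = ∅ := by
  classical
  apply Finset.eq_empty_of_forall_notMem
  rintro ⟨a, b⟩ hab
  have hq1 : 1 ≤ q := by omega
  have hr1 : 1 ≤ r := by omega
  obtain ⟨c, hc1, hc2⟩ := alive_struct hψ hq1 hr1 hab
  have hclose : |(c:ℝ) + (((r / Nat.gcd q r : ℕ) : ℝ) - ((q / Nat.gcd q r : ℕ) : ℝ)) * γ| < 1 / 2 := by
    linarith
  have hround' := round_eq_neg_of_close hclose
  have hc : c = - (u * Pq γ ψ r) := by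
    rw [hround] at hround'
    linarith
  have hgpos : 0 < Nat.gcd q r := Nat.gcd_pos_of_pos_left r (by omega)
  have hcopr := Nat.coprime_div_gcd_div_gcd hgpos
  obtain ⟨p, hp, hpr'⟩ := Nat.exists_prime_and_dvd (ne_of_gt hr')
  have hpr : p ∣ r := hpr'.trans (Nat.div_dvd_of_dvd (Nat.gcd_dvd_right q r))
  have hpl : p ∣ Nat.lcm q r := hpr.trans (Nat.dvd_lcm_right q r)
  have hpq' : ¬ p ∣ q / Nat.gcd q r := fun h =>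
    Nat.not_coprime_of_dvd_of_dvd hp.one_lt h hpr' hcopr
  have hpint := (Nat.prime_iff_prime_int.mp hp)
  have hmemA := (Finset.mem_filter.mp hab).1
  have hb := (Finset.mem_filter.mp (Finset.mem_product.mp hmemA).2).2
  simp only at hb
  set q' := q / Nat.gcd q r with hq'def
  set r' := r / Nat.gcd q r with hr'def
  set Q := Qlv γ ψ r with hQ
  set P := Pq γ ψ r with hP
  have h1 : (p:ℤ) ∣ (r':ℤ) * a - (q':ℤ) * b - c :=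
    (Int.natCast_dvd_natCast.mpr hpl).trans hc2
  have h2 : (p:ℤ) ∣ (r':ℤ) := Int.natCast_dvd_natCast.mpr hpr'
  have h3 : (p:ℤ) ∣ (q':ℤ) * ((b:ℤ) * (Q:ℤ) + P) := by
    have e : (q':ℤ) * ((b:ℤ) * (Q:ℤ) + P) = (r':ℤ) * (a * (Q:ℤ) + P) - ((r':ℤ) * a - (q':ℤ) * b - c) * (Q:ℤ) := by
      rw [hc]
      have hr'' : (r':ℤ) = (q':ℤ) + u * (Q:ℤ) := by linarith
      rw [hr'']
      ring
    rw [e]
    exact dvd_sub (h2.mul_right _) (h1.mul_right _)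
  have h4 : (p:ℤ) ∣ (b:ℤ) * (Q:ℤ) + P := by
    rcases hpint.dvd_or_dvd h3 with h | h
    · exact absurd (Int.natCast_dvd_natCast.mp h) hpq'
    · exact h
  exact prime_dvd_gcd_false hp hb h4 (Int.natCast_dvd_natCast.mpr hpr)

end Vale.Agent.Lib.P028V
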