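import Vale.Agent.Lib.P028V.Count
import Vale.Agent.Lib.P028V.Alive
import Vale.Agent.Lib.P028V.Level

/-! Module G2. The sum over `r` with given gcd and scale. -/

open Finset
open scoped Classical

namespace Vale.Agent.Lib.P028V

open Vale.Agent.Lib.P028

variable {γ : ℝ} {ψ : ℕ → ℝ}

/-- Arithmetic of the quotients by the gcd. -/
private lemma quot_facts {q d k' r : ℕ} (hq : 2 ≤ q) (hd : d ∣ q) (h1 : 2 ^ k' ≤ r) (h2 : r < 2 ^ (k' + 1))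
    (hqr : q < r) (hg : Nat.gcd q r = d) :
    0 < d ∧ (1 ≤ q / d) ∧ q / d < r / d ∧ (r:ℝ) = (d:ℝ) * ((r / d : ℕ) : ℝ) ∧ (q:ℝ) = (d:ℝ) * ((q / d : ℕ) : ℝ) ∧
      (2:ℝ) ^ k' / d ≤ ((r / d : ℕ) : ℝ) ∧ ((r / d : ℕ) : ℝ) < 2 * ((2:ℝ) ^ k' / d) := by
  have hd0 : 0 < d := Nat.pos_of_dvd_of_pos hd (by omega)
  have hdr : d ∣ r := hg ▸ Nat.gcd_dvd_right q r
  obtain ⟨q', rfl⟩ := hd
  obtain ⟨n, rfl⟩ := hdr
  have hd0R : (0:ℝ) < d := by exact_mod_cast hd0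
  simp only [Nat.mul_div_cancel_left _ hd0]
  have h1' : (2:ℝ) ^ k' ≤ (d:ℝ) * n := by exact_mod_cast h1
  have h2' : (d:ℝ) * n < 2 * (2:ℝ) ^ k' := by
    have : (d:ℝ) * n < (2:ℝ) ^ (k' + 1) := by exact_mod_cast h2
    rwa [pow_succ, mul_comm ((2:ℝ) ^ k') 2] at this
  refine ⟨hd0, ?_, ?_, by push_cast; ring, by push_cast; ring, ?_, ?_⟩
  · rcases Nat.eq_zero_or_pos q' with h | h
    · subst h; simp at hq
    · exact h
  · exact lt_of_mul_lt_mul_left hqr (Nat.zero_le d)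
  · rw [div_le_iff₀ hd0R]; linarith
  · rw [← mul_div_assoc, lt_div_iff₀ hd0R]; linarith

private lemma xx_of_R1 {q d r : ℕ} (hg : Nat.gcd q r = d) (hqR : (q:ℝ) = (d:ℝ) * ((q / d : ℕ) : ℝ))
    (hrR : (r:ℝ) = (d:ℝ) * ((r / d : ℕ) : ℝ)) (hd : 0 < d) (hq : 0 < q) (hr : 0 < r)
    (h : ψ r / r ≤ ψ q / q) :
    XX ψ q r = ((r / d : ℕ) : ℝ) * ψ q := by
  unfold XX
  rw [hg]
  apply max_eq_left
  have hqp : (0:ℝ) < q := by exact_mod_cast hq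
  have hrp : (0:ℝ) < r := by exact_mod_cast hr
  have hdp : (0:ℝ) < d := by exact_mod_cast hd
  rw [div_le_div_iff₀ hrp hqp, hqR, hrR] at h
  have : (d:ℝ) * (ψ r * ((q / d : ℕ) : ℝ)) ≤ (d:ℝ) * (ψ q * ((r / d : ℕ) : ℝ)) := by linarith
  have := le_of_mul_le_mul_left this hdp
  linarith

private lemma xx_of_R2 {q d r : ℕ} (hg : Nat.gcd q r = d) (hqR : (q:ℝ) = (d:ℝ) * ((q / d : ℕ) : ℝ))
    (hrR : (r:ℝ) = (d:ℝ) * ((r / d : ℕ) : ℝ)) (hd : 0 < d) (hq : 0 < q) (hr : 0 < r)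
    (h : ψ q / q < ψ r / r) :
    XX ψ q r = ((q / d : ℕ) : ℝ) * ψ r := by
  unfold XX
  rw [hg]
  apply max_eq_right
  have hqp : (0:ℝ) < q := by exact_mod_cast hq
  have hrp : (0:ℝ) < r := by exact_mod_cast hr
  have hdp : (0:ℝ) < d := by exact_mod_cast hd
  rw [div_lt_div_iff₀ hqp hrp, hqR, hrR] at h
  have : (d:ℝ) * (ψ q * ((r / d : ℕ) : ℝ)) ≤ (d:ℝ) * (ψ r * ((q / d : ℕ) : ℝ)) := by linarith
  have := le_of_mul_le_mul_left this hdp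
  linarith

private lemma card_image_div {S : Finset ℕ} {d : ℕ} (h : ∀ r ∈ S, d ∣ r) :
    (S.image (· / d)).card = S.card := by
  apply Finset.card_image_of_injOn
  intro a ha b hb hab
  have h1 := Nat.div_mul_cancel (h a ha)
  have h2 := Nat.div_mul_cancel (h b hb)
  simp only at hab
  rw [← h1, ← h2, hab]

private lemma real_a {Q N s η : ℝ} (hs : 0 < s) (hQ : 0 ≤ Q) (hQ2 : Q < 2 * N) (hη : η = 4 * N * s)
    (h : 16 * η * Q < 1) : Q * Real.sqrt s ≤ 1 / 5 := by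
  have hss := Real.mul_self_sqrt hs.le
  subst hη
  have h1 : Q * Q * s ≤ (2 * N) * Q * s := by gcongr
  have h2 : Q * Q * s < 1 / 32 := by linarith
  by_contra hcon
  push Not at hcon
  have h3 : (1 / 5 : ℝ) * (1 / 5) < (Q * Real.sqrt s) * (Q * Real.sqrt s) :=
    mul_self_lt_mul_self (by norm_num) hcon
  have h4 : (Q * Real.sqrt s) * (Q * Real.sqrt s) = Q * Q * s := by
    calc _ = Q * Q * (Real.sqrt s * Real.sqrt s) := by ring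
      _ = _ := by rw [hss]
  linarith

private lemma real_b {ρ N s c : ℝ} (hs : 0 < s) (hρ : 0 ≤ ρ) (h0 : ρ < c) (hc : c ≤ 8 * N * s)
    (h2 : N * ρ < 1 / 16) : ρ < Real.sqrt s := by
  apply (Real.lt_sqrt hρ).mpr
  have h3 : ρ ^ 2 ≤ (8 * N * s) * ρ := by
    rw [pow_two]
    exact mul_le_mul_of_nonneg_right (h0.le.trans hc) hρ
  have h4 : s * (N * ρ) ≤ s * (1 / 16) := mul_le_mul_of_nonneg_left h2.le hs.le
  linarith

private lemma R1_contra (hψ : Adm ψ) {q d r : ℕ} (hq : 2 ≤ q) (hψq : 0 < ψ q) (hd : d ∣ q)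
    {N η : ℝ} (hNpos : 0 < N) (hη : η = 4 * N * ψ q)
    (h3 : q < r) (h4 : 0 < ψ r) (h6 : Nat.gcd q r = d) (h7 : XX ψ q r < 1 / 64)
    (h8 : (Al γ ψ q r).Nonempty) (h9 : ¬ LeftP γ ψ q r) (h10 : ψ r / r ≤ ψ q / q)
    (hq'1 : 1 ≤ q / d) (hq'n : q / d < r / d)
    (h16 : 16 * η * (lvl γ (2 * η) : ℝ) < 1) (hNρ : N * dn ((lvl γ (2 * η) : ℝ) * γ) < 1 / 16)
    (hQ2N : (lvl γ (2 * η) : ℝ) < 2 * N) {u : ℤ}
    (hm : ((r / d : ℕ) : ℤ) - ((q / d : ℕ) : ℤ) = u * (lvl γ (2 * η) : ℤ))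
    (hrd : round ((((r / d : ℕ) : ℝ) - ((q / d : ℕ) : ℝ)) * γ) = u * round ((lvl γ (2 * η) : ℝ) * γ)) :
    False := by
  have hηpos : 0 < η := by rw [hη]; positivity
  have h2η : 0 < 2 * η := by positivity
  have hspec := lvl_spec γ h2η
  have hs0 : 0 < Real.sqrt (ψ q) := Real.sqrt_pos.mpr hψq
  have h2' : (lvl γ (2 * η) : ℝ) * Real.sqrt (ψ q) ≤ 1 / 5 :=
    real_a hψq (Nat.cast_nonneg _) hQ2N hη h16
  have h1' : dn ((lvl γ (2 * η) : ℝ) * γ) < Real.sqrt (ψ q) :=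
    real_b hψq (dn_nonneg _) hspec.2.1 (by rw [hη]; linarith) hNρ
  have hlev : lvl γ (2 * η) = Qlv γ ψ q := level_id γ h2η hs0 h1' h2'
  have hP : Pq γ ψ q = round ((lvl γ (2 * η) : ℝ) * γ) := by
    unfold Pq; rw [← hlev]
  have hne' : (Al γ ψ q r).Nonempty := h8
  have hq'eq : q / d = 1 := by
    by_contra hcon
    have hq'2 : 1 < q / d := by omega
    have := kill_q (γ := γ) hψ hq h3 hψq h4 h7 (u := u)
      (by rw [h6, ← hlev]; exact hm)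
      (by rw [h6, hP]; exact hrd)
      (by rw [h6]; exact hq'2)
    rw [this] at hne'
    simp at hne'
  have hQr : Qlv γ ψ r ≠ Qlv γ ψ q := by
    intro hcon
    have hPr : Pq γ ψ r = round ((lvl γ (2 * η) : ℝ) * γ) := by
      unfold Pq; rw [hcon, ← hlev]
    have := kill_r (γ := γ) hψ hq h3 hψq h4 h7 (u := u)
      (by rw [h6, hcon, ← hlev]; exact hm)
      (by rw [h6, hPr]; exact hrd)
      (by rw [h6]; omega)
    rw [this] at hne'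
    simp at hne'
  apply h9
  have hdq : d = q := by
    have := Nat.div_mul_cancel hd
    rw [hq'eq] at this
    omega
  subst hdq
  refine ⟨by rw [← h6]; exact Nat.gcd_dvd_right _ _, h10, hQr, ?_⟩
  rw [← hlev]
  refine ⟨u, ?_⟩
  rw [hq'eq, Nat.cast_one] at hm
  rw [hm, mul_comm]

private lemma R1_part (hψ : Adm ψ) {q d k' : ℕ} (hq : 2 ≤ q) (hψq : 0 < ψ q) (hd : d ∣ q) {B : ℝ} (hB : 0 ≤ B)
    (S : Finset ℕ)
    (hS : ∀ r ∈ S, 2 ^ k' ≤ r ∧ r < 2 ^ (k' + 1) ∧ q < r ∧ 0 < ψ r ∧ (r:ℝ) * ψ r ≤ B ∧ Nat.gcd q r = d ∧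
      XX ψ q r < 1 / 64 ∧ (Al γ ψ q r).Nonempty ∧ ¬ LeftP γ ψ q r ∧ ψ r / r ≤ ψ q / q) :
    ∑ r ∈ S, (d:ℝ) * min (ψ q / q) (ψ r / r) ≤ 288 * ψ q * B / d := by
  have hd0 : 0 < d := Nat.pos_of_dvd_of_pos hd (by omega)
  have hd0R : (0:ℝ) < d := by exact_mod_cast hd0
  have hNpos : 0 < (2:ℝ) ^ k' / d := by positivity
  obtain ⟨N, hN⟩ : ∃ N : ℝ, N = (2:ℝ) ^ k' / d := ⟨_, rfl⟩
  rw [← hN] at hNpos
  obtain ⟨η, hη⟩ : ∃ η : ℝ, η = 4 * N * ψ q := ⟨_, rfl⟩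
  have hηpos : 0 < η := by rw [hη]; positivity
  have hAprop : ∀ n ∈ S.image (· / d), N ≤ (n:ℝ) ∧ (n:ℝ) < 2 * N ∧ q / d < n ∧
      dn (((n:ℝ) - ((q / d : ℕ):ℝ)) * γ) < η := by
    intro n hn
    obtain ⟨r, hr, rfl⟩ := Finset.mem_image.mp hn
    obtain ⟨h1, h2, h3, h4, h5, h6, h7, h8, h9, h10⟩ := hS r hr
    obtain ⟨_, hq'1, hq'n, hrR, hqR, hNl, hNu⟩ := quot_facts hq hd h1 h2 h3 h6
    rw [← hN] at hNl hNu
    refine ⟨hNl, hNu, hq'n, ?_⟩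
    have := alive_bohr hψ (γ := γ) (by omega) (by omega) h7 h8
    rw [h6] at this
    refine lt_of_lt_of_le this ?_
    rw [xx_of_R1 h6 hqR hrR hd0 (by omega) (by omega) h10, hη]
    have : ((r / d : ℕ) : ℝ) * ψ q ≤ (2 * N) * ψ q := mul_le_mul_of_nonneg_right hNu.le hψq.le
    linarith
  rcases bohr_count γ hηpos hNpos (q / d) (S.image (· / d)) hAprop with hgen | hstr
  · -- generic
    rw [card_image_div (fun r hr => by
      have := (hS r hr).2.2.2.2.2.1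
      exact this ▸ Nat.gcd_dvd_right q r)] at hgen
    have hv : ∀ r ∈ S, (d:ℝ) * min (ψ q / q) (ψ r / r) ≤ B / (d * N ^ 2) := by
      intro r hr
      obtain ⟨h1, h2, h3, h4, h5, h6, h7, h8, h9, h10⟩ := hS r hr
      have hr1 : (2:ℝ) ^ k' ≤ r := by exact_mod_cast h1
      have hrp : (0:ℝ) < r := lt_of_lt_of_le (by positivity) hr1
      have h11 : ψ r / r ≤ B / (r:ℝ) ^ 2 := by
        rw [div_le_div_iff₀ hrp (by positivity)]
        have : (r:ℝ) * ((r:ℝ) * ψ r) ≤ (r:ℝ) * B := mul_le_mul_of_nonneg_left h5 hrp.le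
        nlinarith
      have h12 : B / (r:ℝ) ^ 2 ≤ B / ((2:ℝ) ^ k') ^ 2 := by
        apply div_le_div_of_nonneg_left hB (by positivity)
        gcongr
      have h13 : (d:ℝ) * (B / ((2:ℝ) ^ k') ^ 2) = B / (d * N ^ 2) := by
        rw [hN]; field_simp
      calc (d:ℝ) * min (ψ q / q) (ψ r / r) ≤ (d:ℝ) * (ψ r / r) :=
            mul_le_mul_of_nonneg_left (min_le_right _ _) hd0R.le
        _ ≤ (d:ℝ) * (B / ((2:ℝ) ^ k') ^ 2) :=
            mul_le_mul_of_nonneg_left (h11.trans h12) hd0R.le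
        _ = B / (d * N ^ 2) := h13
    calc ∑ r ∈ S, (d:ℝ) * min (ψ q / q) (ψ r / r) ≤ S.card • (B / (d * N ^ 2)) :=
          Finset.sum_le_card_nsmul _ _ _ hv
      _ = (S.card : ℝ) * (B / (d * N ^ 2)) := by simp
      _ ≤ (72 * N * η) * (B / (d * N ^ 2)) := by
          gcongr
      _ = 288 * ψ q * B / d := by
          rw [hη]; field_simp; ring
  · -- structured: the set is empty
    obtain ⟨h16, hNρ, hcardQ, hQN, hu⟩ := hstr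
    have hSempty : S = ∅ := by
      by_contra hne
      obtain ⟨r, hr⟩ := Finset.nonempty_iff_ne_empty.mpr hne
      obtain ⟨h1, h2, h3, h4, h5, h6, h7, h8, h9, h10⟩ := hS r hr
      obtain ⟨_, hq'1, hq'n, hrR, hqR, hNl, hNu⟩ := quot_facts hq hd h1 h2 h3 h6
      have hnA : r / d ∈ S.image (· / d) := Finset.mem_image.mpr ⟨r, hr, rfl⟩
      have hQ2N := hQN ⟨_, hnA⟩
      obtain ⟨u, hu1, hm, hrd, hdn⟩ := hu _ hnA
      exact R1_contra hψ hq hψq hd hNpos hη h3 h4 h6 h7 h8 h9 h10 hq'1 hq'n h16 hNρ hQ2N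
        (by simpa using hm) (by simpa using hrd)
    rw [hSempty]
    simp only [Finset.sum_empty]
    positivity

/-- The structured case for `r` dominant forces the level to be large. -/
private lemma R2_large (hψ : Adm ψ) {q d k' r : ℕ} (hq : 2 ≤ q) (hψq : 0 < ψ q)
    {N η : ℝ}
    (h1 : 2 ^ k' ≤ r)
    (h3 : q < r) (h4 : 0 < ψ r) (h6 : Nat.gcd q r = d) (h7 : XX ψ q r < 1 / 64)
    (h8 : (Al γ ψ q r).Nonempty) (hxx : XX ψ q r = ((q / d : ℕ) : ℝ) * ψ r)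
    (hq'1 : 1 ≤ q / d) (hq'n : q / d < r / d) (hq'2N : ((q / d : ℕ) : ℝ) < 2 * N)
    (hηpos : 0 < η)
    (hNρ : N * dn ((lvl γ (2 * η) : ℝ) * γ) < 1 / 16) {u : ℤ} (hu1 : 1 ≤ u)
    (hm : ((r / d : ℕ) : ℤ) - ((q / d : ℕ) : ℤ) = u * (lvl γ (2 * η) : ℤ))
    (hrd : round ((((r / d : ℕ) : ℝ) - ((q / d : ℕ) : ℝ)) * γ) = u * round ((lvl γ (2 * η) : ℝ) * γ))
    (hdn : dn ((((r / d : ℕ) : ℝ) - ((q / d : ℕ) : ℝ)) * γ) = (u:ℝ) * dn ((lvl γ (2 * η) : ℝ) * γ)) :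
    Real.sqrt ((2:ℝ) ^ k') / 5 < (lvl γ (2 * η) : ℝ) := by
  have h2η : 0 < 2 * η := by positivity
  have hrpos : 0 < r := by omega
  have hrR : (0:ℝ) < r := by exact_mod_cast hrpos
  have hs0 : 0 < Real.sqrt (ψ r) := Real.sqrt_pos.mpr h4
  have hal := alive_bohr hψ (γ := γ) (by omega) (by omega) h7 h8
  rw [h6, hxx, hdn] at hal
  have hρ0 := dn_nonneg ((lvl γ (2 * η) : ℝ) * γ)
  have hu1R : (1:ℝ) ≤ (u:ℝ) := by exact_mod_cast hu1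
  have hρlt : dn ((lvl γ (2 * η) : ℝ) * γ) < 2 * (((q / d : ℕ) : ℝ) * ψ r) := by nlinarith
  have h1' : dn ((lvl γ (2 * η) : ℝ) * γ) < Real.sqrt (ψ r) := by
    refine real_b (N := N) h4 hρ0 hρlt ?_ hNρ
    have : ((q / d : ℕ) : ℝ) * ψ r ≤ (2 * N) * ψ r := mul_le_mul_of_nonneg_right hq'2N.le h4.le
    nlinarith
  -- the level is large
  have hbig : 1 / 5 < (lvl γ (2 * η) : ℝ) * Real.sqrt (ψ r) := by
    by_contra hcon
    push Not at hcon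
    have hlev : lvl γ (2 * η) = Qlv γ ψ r := level_id γ h2η hs0 h1' hcon
    have hPr : Pq γ ψ r = round ((lvl γ (2 * η) : ℝ) * γ) := by
      unfold Pq; rw [← hlev]
    have := kill_r (γ := γ) hψ hq h3 hψq h4 h7 (u := u)
      (by rw [h6, ← hlev]; exact hm)
      (by rw [h6, hPr]; exact hrd)
      (by rw [h6]; omega)
    rw [this] at h8
    simp at h8
  -- `sqrt (ψ r) ≤ 1 / sqrt r ≤ 1 / sqrt (2 ^ k')`
  have hle : ψ r ≤ 1 / (r:ℝ) := hψ.le r (by omega)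
  have h2k : (2:ℝ) ^ k' ≤ (r:ℝ) := by exact_mod_cast h1
  have hs2k : 0 < Real.sqrt ((2:ℝ) ^ k') := Real.sqrt_pos.mpr (by positivity)
  have hprod : Real.sqrt (ψ r) * Real.sqrt ((2:ℝ) ^ k') ≤ 1 := by
    rw [← Real.sqrt_mul h4.le]
    apply Real.sqrt_le_one.mpr ?_ 
    calc ψ r * (2:ℝ) ^ k' ≤ (1 / (r:ℝ)) * (r:ℝ) := by gcongr
      _ = 1 := by field_simp
  have hQ0 : (0:ℝ) ≤ (lvl γ (2 * η) : ℝ) := Nat.cast_nonneg _
  have : (1 / 5 : ℝ) * Real.sqrt ((2:ℝ) ^ k') <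
      ((lvl γ (2 * η) : ℝ) * Real.sqrt (ψ r)) * Real.sqrt ((2:ℝ) ^ k') :=
    mul_lt_mul_of_pos_right hbig hs2k
  have h5 : ((lvl γ (2 * η) : ℝ) * Real.sqrt (ψ r)) * Real.sqrt ((2:ℝ) ^ k') ≤ (lvl γ (2 * η) : ℝ) := by
    calc ((lvl γ (2 * η) : ℝ) * Real.sqrt (ψ r)) * Real.sqrt ((2:ℝ) ^ k')
        = (lvl γ (2 * η) : ℝ) * (Real.sqrt (ψ r) * Real.sqrt ((2:ℝ) ^ k')) := by ring
      _ ≤ (lvl γ (2 * η) : ℝ) * 1 := mul_le_mul_of_nonneg_left hprod hQ0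
      _ = _ := by ring
  linarith

private lemma negl_nonneg {q d k' : ℕ} (hψq : 0 < ψ q) : 0 ≤ negl ψ q d k' := by
  unfold negl
  split_ifs
  · positivity
  · exact le_rfl

private lemma real_d {c N Q s d p : ℝ} (hs : 0 < s) (hd : 0 < d) (hp : 0 ≤ p) (hN : N = s * s / d)
    (hc : c ≤ N / Q + 1) (hQ : Q < 2 * N) (hsQ : s / 5 < Q) (hN0 : 0 < N) :
    c * (d * p) ≤ 15 * p * s := by
  have hQ0 : 0 < Q := lt_trans (by positivity) hsQ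
  have h1 : 1 ≤ 2 * N / Q := by rw [le_div_iff₀ hQ0]; linarith
  have h2 : N / Q ≤ N * (5 / s) := by
    rw [div_eq_mul_inv]
    apply mul_le_mul_of_nonneg_left _ hN0.le
    rw [inv_le_comm₀ hQ0 (by positivity)]
    rw [inv_div]
    linarith
  have h3 : c ≤ 15 * s / d := by
    have h4 : 2 * N / Q = 2 * (N / Q) := by ring
    have h5 : N * (5 / s) = 5 * s / d := by rw [hN]; field_simp
    have h6 : 3 * (5 * s / d) = 15 * s / d := by ring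
    rw [h5] at h2
    linarith
  calc c * (d * p) ≤ (15 * s / d) * (d * p) := by gcongr
    _ = 15 * p * s := by field_simp

private lemma R2_part (hψ : Adm ψ) {q d k' : ℕ} (hq : 2 ≤ q) (hψq : 0 < ψ q) (hd : d ∣ q) {B : ℝ} (hB : 0 ≤ B)
    (S : Finset ℕ)
    (hS : ∀ r ∈ S, 2 ^ k' ≤ r ∧ r < 2 ^ (k' + 1) ∧ q < r ∧ 0 < ψ r ∧ (r:ℝ) * ψ r ≤ B ∧ Nat.gcd q r = d ∧
      XX ψ q r < 1 / 64 ∧ (Al γ ψ q r).Nonempty ∧ ψ q / q < ψ r / r) :
    ∑ r ∈ S, (d:ℝ) * min (ψ q / q) (ψ r / r) ≤ 288 * ψ q * B / d + negl ψ q d k' := by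
  have hd0 : 0 < d := Nat.pos_of_dvd_of_pos hd (by omega)
  have hd0R : (0:ℝ) < d := by exact_mod_cast hd0
  have hq0R : (0:ℝ) < q := by exact_mod_cast (by omega : 0 < q)
  have hnegl : 0 ≤ negl ψ q d k' := negl_nonneg hψq
  have hpos1 : 0 ≤ 288 * ψ q * B / d := by positivity
  rcases S.eq_empty_or_nonempty with rfl | ⟨r₀, hr₀⟩
  · simp only [Finset.sum_empty]; linarith
  have hNpos : 0 < (2:ℝ) ^ k' / d := by positivity
  obtain ⟨N, hN⟩ : ∃ N : ℝ, N = (2:ℝ) ^ k' / d := ⟨_, rfl⟩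
  rw [← hN] at hNpos
  have h2k : (0:ℝ) < (2:ℝ) ^ k' := by positivity
  obtain ⟨h10, h20, h30, h40, h50, h60, h70, h80, h90⟩ := hS r₀ hr₀
  have hBpos : 0 < B := by
    have hr0 : (0:ℝ) < r₀ := by exact_mod_cast (by omega : 0 < r₀)
    exact lt_of_lt_of_le (by positivity) h50
  obtain ⟨_, hq'10, hq'n0, hrR0, hqR0, hNl0, hNu0⟩ := quot_facts hq hd h10 h20 h30 h60
  have hq'pos : (0:ℝ) < ((q / d : ℕ) : ℝ) := by exact_mod_cast hq'10
  obtain ⟨η, hη⟩ : ∃ η : ℝ, η = 4 * ((q / d : ℕ) : ℝ) * B / (2:ℝ) ^ k' := ⟨_, rfl⟩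
  have hηpos : 0 < η := by rw [hη]; positivity
  have hAprop : ∀ n ∈ S.image (· / d), N ≤ (n:ℝ) ∧ (n:ℝ) < 2 * N ∧ q / d < n ∧
      dn (((n:ℝ) - ((q / d : ℕ):ℝ)) * γ) < η := by
    intro n hn
    obtain ⟨r, hr, rfl⟩ := Finset.mem_image.mp hn
    obtain ⟨h1, h2, h3, h4, h5, h6, h7, h8, h9⟩ := hS r hr
    obtain ⟨_, hq'1, hq'n, hrR, hqR, hNl, hNu⟩ := quot_facts hq hd h1 h2 h3 h6
    rw [← hN] at hNl hNu
    refine ⟨hNl, hNu, hq'n, ?_⟩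
    have := alive_bohr hψ (γ := γ) (by omega) (by omega) h7 h8
    rw [h6] at this
    refine lt_of_lt_of_le this ?_
    rw [xx_of_R2 h6 hqR hrR hd0 (by omega) (by omega) h9, hη]
    have hr1 : (2:ℝ) ^ k' ≤ r := by exact_mod_cast h1
    have hrp : (0:ℝ) < r := lt_of_lt_of_le h2k hr1
    have h11 : ψ r ≤ B / (2:ℝ) ^ k' := by
      rw [le_div_iff₀ h2k]
      have : ψ r * (2:ℝ) ^ k' ≤ ψ r * r := mul_le_mul_of_nonneg_left hr1 h4.le
      linarith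
    have h12 : ((q / d : ℕ) : ℝ) * ψ r ≤ ((q / d : ℕ) : ℝ) * (B / (2:ℝ) ^ k') :=
      mul_le_mul_of_nonneg_left h11 hq'pos.le
    have h13 : 4 * ((q / d : ℕ) : ℝ) * B / (2:ℝ) ^ k' = 4 * (((q / d : ℕ) : ℝ) * (B / (2:ℝ) ^ k')) := by
      ring
    rw [h13]
    have h14 : 0 ≤ ((q / d : ℕ) : ℝ) * (B / (2:ℝ) ^ k') := by positivity
    linarith
  have hcard := card_image_div (S := S) (d := d) (fun r hr => by
      have := (hS r hr).2.2.2.2.2.1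
      exact this ▸ Nat.gcd_dvd_right q r)
  have hsum : ∑ r ∈ S, (d:ℝ) * min (ψ q / q) (ψ r / r) = (S.card : ℝ) * ((d:ℝ) * (ψ q / q)) := by
    rw [Finset.sum_congr rfl (g := fun _ => (d:ℝ) * (ψ q / q))]
    · simp
    · intro r hr
      rw [min_eq_left (hS r hr).2.2.2.2.2.2.2.2.le]
  rw [hsum]
  have hp : 0 ≤ ψ q / q := by positivity
  rcases bohr_count γ hηpos hNpos (q / d) (S.image (· / d)) hAprop with hgen | hstr
  · rw [hcard] at hgen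
    have : (S.card : ℝ) * ((d:ℝ) * (ψ q / q)) ≤ (72 * N * η) * ((d:ℝ) * (ψ q / q)) := by
      gcongr
    have heq : (72 * N * η) * ((d:ℝ) * (ψ q / q)) = 288 * ψ q * B / d := by
      rw [hη, hN, hqR0]
      field_simp
      ring
    linarith
  · obtain ⟨h16, hNρ, hcardQ, hQN, hu⟩ := hstr
    rw [hcard] at hcardQ
    have hnA : r₀ / d ∈ S.image (· / d) := Finset.mem_image.mpr ⟨r₀, hr₀, rfl⟩
    have hQ2N := hQN ⟨_, hnA⟩
    obtain ⟨u, hu1, hm, hrd, hdn⟩ := hu _ hnA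
    have hq'2N : ((q / d : ℕ) : ℝ) < 2 * N := by
      have : ((q / d : ℕ) : ℝ) < ((r₀ / d : ℕ) : ℝ) := by exact_mod_cast hq'n0
      rw [hN]; linarith
    have hxx := xx_of_R2 h60 hqR0 hrR0 hd0 (by omega) (by omega) h90
    have hlarge := R2_large (k' := k') hψ hq hψq h10 h30 h40 h60 h70 h80 hxx hq'10 hq'n0 hq'2N hηpos hNρ hu1
      (by simpa using hm) (by simpa using hrd) (by simpa using hdn)
    obtain ⟨s, hs⟩ : ∃ s : ℝ, s = Real.sqrt ((2:ℝ) ^ k') := ⟨_, rfl⟩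
    rw [← hs] at hlarge
    have hs0 : 0 < s := by rw [hs]; exact Real.sqrt_pos.mpr h2k
    have hss : s * s = (2:ℝ) ^ k' := by rw [hs]; exact Real.mul_self_sqrt h2k.le
    have hNs : N = s * s / d := by rw [hN, hss]
    have hkey := real_d hs0 hd0R hp hNs hcardQ hQ2N hlarge hNpos
    -- the condition of the negligible term
    have hcond1 : (d:ℝ) < 10 * Real.sqrt ((2:ℝ) ^ k') := by
      rw [← hs]
      have h1 : s / 5 < 2 * (s * s / d) := by rw [← hNs]; linarith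
      have h2 : (s / 5) * d < 2 * (s * s) := by
        have := (lt_div_iff₀ hd0R).mp (show s / 5 < 2 * (s * s) / d by
          rw [mul_div_assoc]; exact h1)
        exact this
      nlinarith
    have hcond2 : (4:ℝ) ^ k' < (q:ℝ) / ψ q := by
      have hr1 : (2:ℝ) ^ k' ≤ r₀ := by exact_mod_cast h10
      have hrp : (0:ℝ) < r₀ := lt_of_lt_of_le h2k hr1
      have hle : ψ r₀ ≤ 1 / (r₀:ℝ) := hψ.le r₀ (by omega)
      have h1 : ψ q / q < 1 / ((r₀:ℝ) * r₀) := by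
        refine lt_of_lt_of_le h90 ?_
        rw [div_le_iff₀ hrp]
        calc ψ r₀ ≤ 1 / (r₀:ℝ) := hle
          _ = 1 / ((r₀:ℝ) * r₀) * r₀ := by field_simp
      have h2 : (r₀:ℝ) * r₀ < q / ψ q := by
        rw [lt_div_iff₀ hψq]
        rw [div_lt_div_iff₀ hq0R (by positivity)] at h1
        linarith
      have h3 : (4:ℝ) ^ k' = (2:ℝ) ^ k' * (2:ℝ) ^ k' := by
        rw [← mul_pow]; norm_num
      rw [h3]
      have h4 : (2:ℝ) ^ k' * (2:ℝ) ^ k' ≤ (r₀:ℝ) * r₀ := mul_le_mul hr1 hr1 h2k.le hrp.le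
      linarith
    have hnegl_eq : negl ψ q d k' = 15 * ψ q * Real.sqrt ((2:ℝ) ^ k') / (q:ℝ) := by
      unfold negl
      rw [if_pos ⟨hcond1, hcond2⟩]
    rw [hnegl_eq, ← hs]
    have : 15 * (ψ q / q) * s = 15 * ψ q * s / q := by ring
    linarith

/-- The pairs `q < r`, `gcd q r = d`, `r` in the dyadic block `k'`, small `X`, nonempty overlap, not of type `LeftP`, contribute
at most `576 ψ q B / d` plus a negligible term. Here `B` bounds `r ψ r`. -/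
theorem bohr_sum (hψ : Adm ψ) {q d k' : ℕ} (hq : 2 ≤ q) (hψq : 0 < ψ q) (hd : d ∣ q) {B : ℝ} (hB : 0 ≤ B)
    (T' : Finset ℕ)
    (hT' : ∀ r ∈ T', 2 ^ k' ≤ r ∧ r < 2 ^ (k' + 1) ∧ q < r ∧ 0 < ψ r ∧ (r:ℝ) * ψ r ≤ B) :
    ∑ r ∈ T'.filter (fun r => Nat.gcd q r = d ∧ XX ψ q r < 1 / 64 ∧ (Al γ ψ q r).Nonempty ∧ ¬ LeftP γ ψ q r),
        (d:ℝ) * min (ψ q / q) (ψ r / r)
      ≤ 576 * ψ q * B / d + negl ψ q d k' := by
  rw [← Finset.sum_filter_add_sum_filter_not _ (fun r => ψ r / (r:ℝ) ≤ ψ q / (q:ℝ))]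
  have h1 := R1_part (γ := γ) hψ hq hψq hd hB
    ((T'.filter (fun r => Nat.gcd q r = d ∧ XX ψ q r < 1 / 64 ∧ (Al γ ψ q r).Nonempty ∧ ¬ LeftP γ ψ q r)).filter
      (fun r => ψ r / (r:ℝ) ≤ ψ q / (q:ℝ))) (k' := k') (by
      intro r hr
      obtain ⟨hr1, hr2⟩ := Finset.mem_filter.mp hr
      obtain ⟨hr3, hr4⟩ := Finset.mem_filter.mp hr1
      obtain ⟨a1, a2, a3, a4, a5⟩ := hT' r hr3
      obtain ⟨b1, b2, b3, b4⟩ := hr4
      exact ⟨a1, a2, a3, a4, a5, b1, b2, b3, b4, hr2⟩)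
  have h2 := R2_part (γ := γ) hψ hq hψq hd hB
    ((T'.filter (fun r => Nat.gcd q r = d ∧ XX ψ q r < 1 / 64 ∧ (Al γ ψ q r).Nonempty ∧ ¬ LeftP γ ψ q r)).filter
      (fun r => ¬ ψ r / (r:ℝ) ≤ ψ q / (q:ℝ))) (k' := k') (by
      intro r hr
      obtain ⟨hr1, hr2⟩ := Finset.mem_filter.mp hr
      obtain ⟨hr3, hr4⟩ := Finset.mem_filter.mp hr1
      obtain ⟨a1, a2, a3, a4, a5⟩ := hT' r hr3
      obtain ⟨b1, b2, b3, b4⟩ := hr4
      exact ⟨a1, a2, a3, a4, a5, b1, b2, b3, not_le.mp hr2⟩)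
  have h3 : 576 * ψ q * B / d = 288 * ψ q * B / d + 288 * ψ q * B / d := by ring
  rw [h3]
  linarith

end Vale.Agent.Lib.P028V
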