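import Vale.Agent.Lib.P028V.Alive
import Vale.Agent.Lib.P028V.Level

/-! Module E. Large `X`: exact sieve at the primes up to `z`. -/

open Finset

namespace Vale.Agent.Lib.P028V

open Vale.Agent.Lib.P028

variable {γ : ℝ} {ψ : ℕ → ℝ}

/-- Split `n` into a part coprime to `Q` and a part all of whose primes divide `Q`. -/
lemma exists_coprime_split (Q : ℕ) {n : ℕ} (hn : n ≠ 0) :
    ∃ n1 n2 : ℕ, n = n1 * n2 ∧ Nat.Coprime n1 Q ∧ ∀ p : ℕ, p.Prime → p ∣ n2 → p ∣ Q := by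
  induction n using Nat.recOnMul with
  | zero => exact absurd rfl hn
  | one => exact ⟨1, 1, rfl, by simp, fun p hp h => absurd h (Nat.Prime.not_dvd_one hp)⟩
  | prime p hp =>
    by_cases h : p ∣ Q
    · exact ⟨1, p, by simp, by simp, fun r hr hrp => by
        rcases (Nat.prime_dvd_prime_iff_eq hr hp).1 hrp with rfl; exact h⟩
    · exact ⟨p, 1, by simp, (Nat.Prime.coprime_iff_not_dvd hp).2 h,
        fun r hr hrp => absurd hrp (Nat.Prime.not_dvd_one hr)⟩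
  | mul a b iha ihb =>
    obtain ⟨a1, a2, rfl, h1, h2⟩ := iha (left_ne_zero_of_mul hn)
    obtain ⟨b1, b2, rfl, h3, h4⟩ := ihb (right_ne_zero_of_mul hn)
    refine ⟨a1 * b1, a2 * b2, by ring, Nat.Coprime.mul_left h1 h3, fun p hp hd => ?_⟩
    rcases (Nat.Prime.dvd_mul hp).1 hd with h | h
    exacts [h2 p hp h, h4 p hp h]

/-- A periodic predicate: count over `k` periods. -/
lemma count_mul_period (p : ℕ → Prop) [DecidablePred p] (N : ℕ) (hp : ∀ a, p (N + a) ↔ p a) (k : ℕ) :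
    Nat.count p (N * k) = k * Nat.count p N := by
  have hper : ∀ k a, p (N * k + a) ↔ p a := by
    intro k
    induction k with
    | zero => intro a; simp
    | succ k ih =>
      intro a
      have : N * (k + 1) + a = N + (N * k + a) := by ring
      rw [this, hp, ih]
  induction k with
  | zero => simp
  | succ k ih =>
    rw [Nat.mul_succ, Nat.count_add, ih]
    have : Nat.count (fun j => p (N * k + j)) N = Nat.count p N :=
      le_antisymm (Nat.count_mono_left fun j _ h => (hper k j).1 h)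
        (Nat.count_mono_left fun j _ h => (hper k j).2 h)
    rw [this, Nat.succ_mul]

/-- The number of `a < n` with `a Q + P` coprime to `n`, when `Q` is coprime to `n`: the totient. -/
lemma card_gcd_one_coprime (n Q : ℕ) (hn : n ≠ 0) (hQ : Nat.Coprime n Q) (P : ℤ) :
    ((range n).filter (fun a : ℕ => Int.gcd ((a:ℤ) * (Q:ℤ) + P) (n:ℤ) = 1)).card = Nat.totient n := by
  classical
  have hnpos : (0:ℤ) < n := by exact_mod_cast Nat.pos_of_ne_zero hn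
  let σ : ℕ → ℕ := fun a => (((a:ℤ) * (Q:ℤ) + P) % (n:ℤ)).toNat
  have hσ0 : ∀ a, ((σ a : ℕ) : ℤ) = ((a:ℤ) * (Q:ℤ) + P) % (n:ℤ) := fun a =>
    Int.toNat_of_nonneg (Int.emod_nonneg _ hnpos.ne')
  have hσlt : ∀ a, σ a < n := by
    intro a
    have := Int.emod_lt_of_pos ((a:ℤ) * (Q:ℤ) + P) hnpos
    rw [← hσ0] at this
    exact_mod_cast this
  have hinj : Set.InjOn σ (range n : Set ℕ) := by
    intro a ha b hb hab
    have ha' : a < n := by simpa using ha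
    have hb' : b < n := by simpa using hb
    have h1 : ((a:ℤ) * (Q:ℤ) + P) % (n:ℤ) = ((b:ℤ) * (Q:ℤ) + P) % (n:ℤ) := by
      rw [← hσ0, ← hσ0, hab]
    have h2 : (n:ℤ) ∣ ((a:ℤ) - b) * (Q:ℤ) := by
      have := Int.ModEq.dvd (show ((b:ℤ) * (Q:ℤ) + P) ≡ ((a:ℤ) * (Q:ℤ) + P) [ZMOD n] from h1.symm)
      have e : ((a:ℤ) * (Q:ℤ) + P) - ((b:ℤ) * (Q:ℤ) + P) = ((a:ℤ) - b) * (Q:ℤ) := by ring
      rwa [e] at this
    have h3 : IsCoprime (n:ℤ) (Q:ℤ) := Nat.isCoprime_iff_coprime.2 hQ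
    have h4 : (n:ℤ) ∣ (a:ℤ) - b := h3.dvd_of_dvd_mul_right h2
    have h5 : |(a:ℤ) - b| < n := by
      rw [abs_lt]; constructor <;> omega
    have h6 : (a:ℤ) - b = 0 := Int.eq_zero_of_abs_lt_dvd h4 h5
    omega
  have himg : (range n).image σ = range n := by
    apply Finset.eq_of_subset_of_card_le
    · intro x hx
      obtain ⟨a, _, rfl⟩ := mem_image.1 hx
      exact mem_range.2 (hσlt a)
    · rw [card_image_of_injOn hinj]
  rw [Nat.totient_eq_card_coprime]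
  apply Finset.card_bij (fun a _ => σ a)
  · intro a ha
    obtain ⟨ha1, ha2⟩ := mem_filter.1 ha
    refine mem_filter.2 ⟨mem_range.2 (hσlt a), ?_⟩
    have h1 : IsCoprime ((a:ℤ) * (Q:ℤ) + P) (n:ℤ) := Int.isCoprime_iff_gcd_eq_one.2 ha2
    have h2 : IsCoprime ((σ a : ℕ) : ℤ) (n:ℤ) := by
      rw [hσ0, Int.emod_def]
      have := h1.add_mul_left_left (-(((a:ℤ) * (Q:ℤ) + P) / (n:ℤ)))
      have e : (a:ℤ) * (Q:ℤ) + P - (n:ℤ) * (((a:ℤ) * (Q:ℤ) + P) / (n:ℤ)) =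
          (a:ℤ) * (Q:ℤ) + P + (n:ℤ) * (-(((a:ℤ) * (Q:ℤ) + P) / (n:ℤ))) := by ring
      rw [e]; exact this
    exact (Nat.isCoprime_iff_coprime.1 h2).symm
  · intro a ha b hb hab
    exact hinj (by simpa using (mem_filter.1 ha).1) (by simpa using (mem_filter.1 hb).1) hab
  · intro x hx
    obtain ⟨hx1, hx2⟩ := mem_filter.1 hx
    rw [← himg] at hx1
    obtain ⟨a, ha, rfl⟩ := mem_image.1 hx1
    refine ⟨a, mem_filter.2 ⟨ha, ?_⟩, rfl⟩
    have h2 : IsCoprime ((σ a : ℕ) : ℤ) (n:ℤ) := Nat.isCoprime_iff_coprime.2 hx2.symm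
    rw [hσ0, Int.emod_def] at h2
    apply Int.isCoprime_iff_gcd_eq_one.1
    have := h2.add_mul_left_left (((a:ℤ) * (Q:ℤ) + P) / (n:ℤ))
    have e : (a:ℤ) * (Q:ℤ) + P - (n:ℤ) * (((a:ℤ) * (Q:ℤ) + P) / (n:ℤ)) +
        (n:ℤ) * (((a:ℤ) * (Q:ℤ) + P) / (n:ℤ)) = (a:ℤ) * (Q:ℤ) + P := by ring
    rw [e] at this; exact this

/-- The count of residues `a < n` with `a Q + P` coprime to `n`, for `P` coprime to `Q`. -/
lemma card_gcd_one (n Q : ℕ) (hn : n ≠ 0) (P : ℤ) (hPQ : IsCoprime P (Q:ℤ)) :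
    (((range n).filter (fun a : ℕ => Int.gcd ((a:ℤ) * (Q:ℤ) + P) (n:ℤ) = 1)).card : ℝ) =
      n * ∏ p ∈ n.primeFactors.filter (fun p => ¬ p ∣ Q), (1 - 1 / (p:ℝ)) := by
  classical
  obtain ⟨n1, n2, rfl, h1, h2⟩ := exists_coprime_split Q hn
  have hn1 : n1 ≠ 0 := left_ne_zero_of_mul hn
  have hn2 : n2 ≠ 0 := right_ne_zero_of_mul hn
  -- reduce the gcd condition to `n1`
  have hiff : ∀ a : ℕ, Int.gcd ((a:ℤ) * (Q:ℤ) + P) ((n1 * n2 : ℕ):ℤ) = 1 ↔
      Int.gcd ((a:ℤ) * (Q:ℤ) + P) (n1:ℤ) = 1 := by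
    intro a
    rw [← Int.isCoprime_iff_gcd_eq_one, ← Int.isCoprime_iff_gcd_eq_one]
    push_cast
    constructor
    · intro h; exact h.of_mul_right_left
    · intro h
      refine h.mul_right ?_
      apply Int.isCoprime_iff_gcd_eq_one.2
      have key : Nat.Coprime ((a:ℤ) * (Q:ℤ) + P).natAbs n2 := by
        refine Nat.coprime_of_dvd fun k hk hkx hkn => ?_
        have hkQ : (k:ℤ) ∣ (Q:ℤ) := Int.natCast_dvd_natCast.2 (h2 k hk hkn)
        have hkx' : (k:ℤ) ∣ (a:ℤ) * (Q:ℤ) + P := Int.natCast_dvd.2 hkx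
        have hkP : (k:ℤ) ∣ P := (Int.dvd_add_right (hkQ.mul_left _)).1 hkx'
        have hu : IsUnit (k:ℤ) := hPQ.isUnit_of_dvd' hkP hkQ
        have := Int.isUnit_iff_natAbs_eq.1 hu
        simp only [Int.natAbs_natCast] at this
        exact hk.one_lt.ne' this
      simpa [Int.gcd] using key
  have hcount : ((range (n1 * n2)).filter
      (fun a : ℕ => Int.gcd ((a:ℤ) * (Q:ℤ) + P) ((n1 * n2 : ℕ):ℤ) = 1)).card =
      n2 * Nat.totient n1 := by
    rw [← card_gcd_one_coprime n1 Q hn1 h1 P]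
    have e1 : (range (n1 * n2)).filter
        (fun a : ℕ => Int.gcd ((a:ℤ) * (Q:ℤ) + P) ((n1 * n2 : ℕ):ℤ) = 1) =
        (range (n1 * n2)).filter (fun a : ℕ => Int.gcd ((a:ℤ) * (Q:ℤ) + P) (n1:ℤ) = 1) :=
      filter_congr fun a _ => hiff a
    rw [e1, ← Nat.count_eq_card_filter_range, ← Nat.count_eq_card_filter_range]
    apply count_mul_period
    intro a
    rw [← Int.isCoprime_iff_gcd_eq_one, ← Int.isCoprime_iff_gcd_eq_one]
    have e2 : (((n1 + a : ℕ):ℤ)) * (Q:ℤ) + P = (a:ℤ) * (Q:ℤ) + P + (n1:ℤ) * (Q:ℤ) := by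
      push_cast; ring
    rw [e2]
    exact IsCoprime.add_mul_left_left_iff
  rw [hcount]
  have hprod : (n1 * n2).primeFactors.filter (fun p => ¬ p ∣ Q) = n1.primeFactors := by
    ext p
    simp only [mem_filter, Nat.mem_primeFactors]
    constructor
    · rintro ⟨⟨hp, hd, _⟩, hQ⟩
      refine ⟨hp, ?_, hn1⟩
      rcases (Nat.Prime.dvd_mul hp).1 hd with h | h
      · exact h
      · exact absurd (h2 p hp h) hQ
    · rintro ⟨hp, hd, _⟩
      refine ⟨⟨hp, hd.mul_right _, hn⟩, fun hQ => ?_⟩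
      have := Nat.dvd_gcd hd hQ
      rw [h1] at this
      exact hp.one_lt.ne' (Nat.dvd_one.1 this)
  rw [hprod]
  have htot := congrArg (fun x : ℚ => (x:ℝ)) (Nat.totient_eq_mul_prod_factors n1)
  simp only [Rat.cast_natCast, Rat.cast_mul, Rat.cast_prod, Rat.cast_sub, Rat.cast_one,
    Rat.cast_inv] at htot
  push_cast
  rw [htot]
  have : ∏ p ∈ n1.primeFactors, (1 - 1 / (p:ℝ)) = ∏ p ∈ n1.primeFactors, (1 - ((p:ℝ))⁻¹) :=
    prod_congr rfl fun p _ => by rw [one_div]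
  rw [this]; ring

/-- Coprimality of the numerator and level. -/
lemma Pq_coprime (γ : ℝ) {ψ : ℕ → ℝ} {q : ℕ} (hψq : 0 < ψ q) :
    IsCoprime (Pq γ ψ q) (Qlv γ ψ q : ℤ) :=
  lvl_coprime γ (Real.sqrt_pos.2 hψq)

/-- The number of allowed residues is `q` times the product over primes of `q` not dividing the level. -/
lemma card_Ap (hψ : Adm ψ) {q : ℕ} (hq : 1 ≤ q) (hψq : 0 < ψ q) :
    ((Ap γ ψ q).card : ℝ) = q * ∏ p ∈ q.primeFactors.filter (fun p => ¬ p ∣ Qlv γ ψ q), (1 - 1 / (p:ℝ)) :=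
  card_gcd_one q (Qlv γ ψ q) (by omega) (Pq γ ψ q) (Pq_coprime γ hψq)

/-- In particular at least the totient many. -/
lemma totient_le_card_Ap (hψ : Adm ψ) {q : ℕ} (hq : 1 ≤ q) (hψq : 0 < ψ q) :
    Nat.totient q ≤ (Ap γ ψ q).card := by
  have hq0 : (0:ℝ) ≤ q := Nat.cast_nonneg q
  have hfac : ∀ p ∈ q.primeFactors, (0:ℝ) ≤ 1 - 1 / (p:ℝ) ∧ 1 - 1 / (p:ℝ) ≤ 1 := by
    intro p hp
    have hp1 : (1:ℝ) ≤ p := by exact_mod_cast (Nat.prime_of_mem_primeFactors hp).one_lt.le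
    have : 1 / (p:ℝ) ≤ 1 := by rw [div_le_one (by linarith)]; exact hp1
    have h0 : 0 ≤ 1 / (p:ℝ) := by positivity
    constructor <;> linarith
  have htot := congrArg (fun x : ℚ => (x:ℝ)) (Nat.totient_eq_mul_prod_factors q)
  simp only [Rat.cast_natCast, Rat.cast_mul, Rat.cast_prod, Rat.cast_sub, Rat.cast_one,
    Rat.cast_inv] at htot
  have hle : ∏ p ∈ q.primeFactors, (1 - ((p:ℝ))⁻¹) ≤
      ∏ p ∈ q.primeFactors.filter (fun p => ¬ p ∣ Qlv γ ψ q), (1 - 1 / (p:ℝ)) := by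
    have e : ∏ p ∈ q.primeFactors, (1 - ((p:ℝ))⁻¹) = ∏ p ∈ q.primeFactors, (1 - 1 / (p:ℝ)) :=
      prod_congr rfl fun p _ => by rw [one_div]
    rw [e, ← prod_filter_mul_prod_filter_not q.primeFactors (fun p => ¬ p ∣ Qlv γ ψ q)]
    apply mul_le_of_le_one_right
    · exact prod_nonneg fun p hp => (hfac p (mem_filter.1 hp).1).1
    · exact prod_le_one (fun p hp => (hfac p (mem_filter.1 hp).1).1)
        (fun p hp => (hfac p (mem_filter.1 hp).1).2)
  have : (Nat.totient q : ℝ) ≤ ((Ap γ ψ q).card : ℝ) := by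
    rw [htot, card_Ap hψ hq hψq]
    exact mul_le_mul_of_nonneg_left hle hq0
  exact_mod_cast this

/-- Reduced density versus density under `R1`. -/
lemma Ez_le (hψ : Adm ψ) {q z : ℕ} (hq : 1 ≤ q) (hψq : 0 < ψ q) (h1 : R1 q z) :
    Ez γ ψ z q ≤ Real.exp 2 * (((Ap γ ψ q).card : ℝ) / q) := by
  classical
  have hq0 : (0:ℝ) < q := by exact_mod_cast hq
  have hfac : ∀ p ∈ q.primeFactors, (0:ℝ) < 1 - 1 / (p:ℝ) ∧ Real.exp (-(2 / (p:ℝ))) ≤ 1 - 1 / (p:ℝ) := by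
    intro p hp
    have hp2 : (2:ℝ) ≤ p := by exact_mod_cast (Nat.prime_of_mem_primeFactors hp).two_le
    have hp0 : (0:ℝ) < p := by linarith
    have ht : 1 / (p:ℝ) ≤ 1 / 2 := one_div_le_one_div_of_le (by norm_num) hp2
    have ht0 : 0 < 1 / (p:ℝ) := by positivity
    refine ⟨by linarith, ?_⟩
    have e1 : 2 / (p:ℝ) = 2 * (1 / p) := by ring
    set t := 1 / (p:ℝ) with ht_def
    have h3 : 2 * t + 1 ≤ Real.exp (2 * t) := Real.add_one_le_exp _
    have h4 : Real.exp (-(2 / (p:ℝ))) * Real.exp (2 * t) = 1 := by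
      rw [← Real.exp_add, e1, neg_add_cancel, Real.exp_zero]
    have h5 : 0 < Real.exp (-(2 / (p:ℝ))) := Real.exp_pos _
    have h6 : (1 - t) * Real.exp (2 * t) ≥ 1 := by
      have h7 : (1 - t) * (2 * t + 1) ≥ 1 := by nlinarith
      have h8 : (1 - t) * (2 * t + 1) ≤ (1 - t) * Real.exp (2 * t) :=
        mul_le_mul_of_nonneg_left h3 (by linarith)
      linarith
    have h9 : 0 < Real.exp (2 * t) := Real.exp_pos _
    by_contra hcon
    push Not at hcon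
    have : (1 - t) * Real.exp (2 * t) < Real.exp (-(2 / (p:ℝ))) * Real.exp (2 * t) :=
      mul_lt_mul_of_pos_right hcon h9
    linarith
  -- split the product
  set Q := Qlv γ ψ q with hQdef
  have hsplit : ∏ p ∈ q.primeFactors.filter (fun p => ¬ p ∣ Q), (1 - 1 / (p:ℝ)) =
      Ez γ ψ z q * ∏ p ∈ q.primeFactors.filter (fun p => z < p ∧ ¬ p ∣ Q), (1 - 1 / (p:ℝ)) := by
    unfold Ez
    rw [← prod_filter_mul_prod_filter_not (q.primeFactors.filter (fun p => ¬ p ∣ Q)) (fun p => p ≤ z),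
      filter_filter, filter_filter]
    congr 1
    · apply prod_congr _ (fun _ _ => rfl)
      ext p; simp only [mem_filter]; tauto
    · apply prod_congr _ (fun _ _ => rfl)
      ext p; simp only [mem_filter, not_le]; tauto
  have hlower : Real.exp (-2) ≤ ∏ p ∈ q.primeFactors.filter (fun p => z < p ∧ ¬ p ∣ Q), (1 - 1 / (p:ℝ)) := by
    have h3 : ∑ p ∈ q.primeFactors.filter (fun p => z < p ∧ ¬ p ∣ Q), (-(2 / (p:ℝ))) ≥ -2 := by
      have h4 : ∑ p ∈ q.primeFactors.filter (fun p => z < p ∧ ¬ p ∣ Q), ((1:ℝ) / (p:ℝ)) ≤ 1 := by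
        refine le_trans ?_ h1
        apply sum_le_sum_of_subset_of_nonneg
        · intro p hp
          simp only [mem_filter] at hp ⊢
          exact ⟨hp.1, hp.2.1⟩
        · intro p _ _; positivity
      have h5 : ∑ p ∈ q.primeFactors.filter (fun p => z < p ∧ ¬ p ∣ Q), (-(2 / (p:ℝ))) =
          -2 * ∑ p ∈ q.primeFactors.filter (fun p => z < p ∧ ¬ p ∣ Q), ((1:ℝ) / (p:ℝ)) := by
        rw [mul_sum]; apply sum_congr rfl; intro p _; ring
      rw [h5]; linarith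
    calc Real.exp (-2) ≤ Real.exp (∑ p ∈ q.primeFactors.filter (fun p => z < p ∧ ¬ p ∣ Q), (-(2 / (p:ℝ)))) :=
          Real.exp_le_exp.2 h3
      _ = ∏ p ∈ q.primeFactors.filter (fun p => z < p ∧ ¬ p ∣ Q), Real.exp (-(2 / (p:ℝ))) := Real.exp_sum _ _
      _ ≤ _ := prod_le_prod (fun p _ => (Real.exp_pos _).le)
          (fun p hp => (hfac p (mem_filter.1 hp).1).2)
  have hEz0 : 0 ≤ Ez γ ψ z q := by
    unfold Ez
    exact prod_nonneg fun p hp => (hfac p (mem_filter.1 hp).1).1.le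
  have hcard : ((Ap γ ψ q).card : ℝ) / q = Ez γ ψ z q *
      ∏ p ∈ q.primeFactors.filter (fun p => z < p ∧ ¬ p ∣ Q), (1 - 1 / (p:ℝ)) := by
    rw [card_Ap hψ hq hψq, ← hsplit]; field_simp; rfl
  rw [hcard]
  have h2exp : Real.exp 2 * Real.exp (-2) = 1 := by
    rw [← Real.exp_add]; simp
  calc Ez γ ψ z q = Real.exp 2 * (Ez γ ψ z q * Real.exp (-2)) := by
        rw [mul_comm (Ez γ ψ z q), ← mul_assoc, h2exp, one_mul]
    _ ≤ _ := by
        apply mul_le_mul_of_nonneg_left _ (Real.exp_pos _).le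
        exact mul_le_mul_of_nonneg_left hlower hEz0

/-- The squarefree part at the primes up to `z`. -/
noncomputable def wP (q z : ℕ) : ℕ := ∏ p ∈ q.primeFactors.filter (fun p => p ≤ z), p

lemma wP_prime {q z p : ℕ} (hp : p ∈ q.primeFactors.filter (fun p => p ≤ z)) : p.Prime :=
  Nat.prime_of_mem_primeFactors (mem_filter.1 hp).1

lemma wP_primeFactors (q z : ℕ) : (wP q z).primeFactors = q.primeFactors.filter (fun p => p ≤ z) :=
  Nat.primeFactors_prod fun _ hp => wP_prime hp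

lemma wP_pos (q z : ℕ) : 0 < wP q z :=
  prod_pos fun _ hp => (wP_prime hp).pos

lemma wP_dvd_of_primes {q z : ℕ} {x : ℕ} (h : ∀ p ∈ q.primeFactors.filter (fun p => p ≤ z), p ∣ x) :
    wP q z ∣ x := by
  unfold wP
  have := Finset.prod_primes_dvd (s := q.primeFactors.filter (fun p => p ≤ z)) x
    (fun p hp => (wP_prime hp).prime) h
  exact this

lemma wP_dvd_int_of_primes {q z : ℕ} {x : ℤ}
    (h : ∀ p ∈ q.primeFactors.filter (fun p => p ≤ z), (p:ℤ) ∣ x) : (wP q z : ℤ) ∣ x := by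
  rw [Int.natCast_dvd]
  exact wP_dvd_of_primes fun p hp => Int.natCast_dvd.1 (h p hp)

lemma wP_dvd (q z : ℕ) : wP q z ∣ q :=
  wP_dvd_of_primes fun _ hp => Nat.dvd_of_mem_primeFactors (mem_filter.1 hp).1

lemma wP_dvd_primorial (q z : ℕ) : wP q z ∣ primorial z := by
  unfold primorial wP
  apply prod_dvd_prod_of_subset
  intro p hp
  have hp' := mem_filter.1 hp
  exact mem_filter.2 ⟨mem_range.2 (Nat.lt_succ_of_le hp'.2), Nat.prime_of_mem_primeFactors hp'.1⟩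

lemma dvd_wP {q z p : ℕ} (hq : q ≠ 0) (hp : p.Prime) (hpq : p ∣ q) (hz : p ≤ z) : p ∣ wP q z := by
  apply Nat.dvd_of_mem_primeFactors
  rw [wP_primeFactors]
  exact mem_filter.2 ⟨Nat.mem_primeFactors.2 ⟨hp, hpq, hq⟩, hz⟩

lemma squarefree_wP (q z : ℕ) : Squarefree (wP q z) := by
  unfold wP
  apply Finset.squarefree_prod_of_pairwise_isCoprime
  · intro a ha b hb hab
    exact Nat.coprime_iff_isRelPrime.1 ((Nat.coprime_primes (wP_prime ha) (wP_prime hb)).2 hab)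
  · intro p hp
    exact (wP_prime hp).prime.squarefree

/-- The count of reduced residues modulo the squarefree part. -/
lemma card_Uq (q z Q : ℕ) (hq : q ≠ 0) (P : ℤ) (hPQ : IsCoprime P (Q:ℤ)) :
    (((range (wP q z)).filter
      (fun a : ℕ => Int.gcd ((a:ℤ) * (Q:ℤ) + P) ((wP q z : ℕ):ℤ) = 1)).card : ℝ) =
      (wP q z : ℝ) * ∏ p ∈ q.primeFactors.filter (fun p => p ≤ z ∧ ¬ p ∣ Q), (1 - 1 / (p:ℝ)) := by
  rw [card_gcd_one (wP q z) Q (wP_pos q z).ne' P hPQ, wP_primeFactors, filter_filter]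

/-- A finite set of integers in a short interval, pairwise congruent modulo `W`. -/
lemma card_le_of_pairwise_dvd (C : Finset ℤ) {W : ℕ} (hW : 0 < W) {A δ : ℝ} (hδ : 0 ≤ δ)
    (hC : ∀ c ∈ C, |(c:ℝ) + A| < δ) (hD : ∀ c₁ ∈ C, ∀ c₂ ∈ C, (W:ℤ) ∣ c₁ - c₂) :
    (C.card : ℝ) ≤ 2 * δ / W + 1 := by
  classical
  have hW' : (0:ℝ) < W := by exact_mod_cast hW
  rcases C.eq_empty_or_nonempty with rfl | hne
  · simp; positivity
  set c₀ := C.min' hne with hc₀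
  have hc₀mem : c₀ ∈ C := C.min'_mem hne
  have hspec : ∀ c ∈ C, ∃ t : ℕ, c = c₀ + (W:ℤ) * t ∧ (W:ℝ) * t < 2 * δ := by
    intro c hc
    obtain ⟨t, ht⟩ := hD c hc c₀ hc₀mem
    have hle : c₀ ≤ c := C.min'_le c hc
    have ht0 : 0 ≤ t := by
      by_contra hneg
      push Not at hneg
      have hWz : (0:ℤ) < W := by exact_mod_cast hW
      have : (W:ℤ) * t < 0 := mul_neg_of_pos_of_neg hWz hneg
      omega
    refine ⟨t.toNat, ?_, ?_⟩
    · rw [Int.toNat_of_nonneg ht0]; omega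
    · have h1 := hC c hc
      have h2 := hC c₀ hc₀mem
      rw [abs_lt] at h1 h2
      have h3 : ((c:ℝ) - c₀) = (W:ℝ) * t := by
        have : c - c₀ = (W:ℤ) * t := ht
        exact_mod_cast this
      have h4 : ((t.toNat : ℕ) : ℝ) = (t:ℝ) := by
        have : ((t.toNat : ℕ) : ℤ) = t := Int.toNat_of_nonneg ht0
        exact_mod_cast this
      rw [h4, ← h3]
      linarith [h1.1, h1.2, h2.1, h2.2]
  choose! τ hτ1 hτ2 using hspec
  have hfl : C.card ≤ ⌊2 * δ / W⌋₊ + 1 := by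
    have hmaps : ∀ c ∈ C, τ c ∈ range (⌊2 * δ / W⌋₊ + 1) := by
      intro c hc
      rw [mem_range, Nat.lt_succ_iff]
      apply Nat.le_floor
      rw [le_div_iff₀ hW', mul_comm]
      exact (hτ2 c hc).le
    have hinj : Set.InjOn τ (C : Set ℤ) := by
      intro a ha b hb hab
      have := hτ1 a ha
      have h2 := hτ1 b hb
      rw [this, h2, hab]
    have := Finset.card_le_card_of_injOn τ hmaps hinj
    simpa using this
  have h2 : ((⌊2 * δ / W⌋₊ : ℕ) : ℝ) ≤ 2 * δ / W := Nat.floor_le (by positivity)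
  have h3 : (C.card : ℝ) ≤ ((⌊2 * δ / W⌋₊ + 1 : ℕ) : ℝ) := by exact_mod_cast hfl
  push_cast at h3
  linarith

/-- Fibre count: with the residues modulo the squarefree parts fixed and `c` fixed, at most `d / W_d` pairs. -/
lemma fiber_card_refined {q r z : ℕ} (hq : 1 ≤ q) (hr : 1 ≤ r) (u v : ℕ) (c : ℤ) :
    (((range q) ×ˢ (range r)).filter fun ab : ℕ × ℕ =>
      ab.1 % wP q z = u ∧ ab.2 % wP r z = v ∧
      ((Nat.lcm q r : ℕ) : ℤ) ∣ ((r / Nat.gcd q r : ℕ) : ℤ) * ab.1 - ((q / Nat.gcd q r : ℕ) : ℤ) * ab.2 - c).card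
      ≤ Nat.gcd q r / Nat.gcd (wP q z) (wP r z) := by
  classical
  set d := Nat.gcd q r with hd
  have hdpos : 0 < d := Nat.gcd_pos_of_pos_left _ hq
  set q' := q / d with hq'
  set r' := r / d with hr'
  have hqq : q = q' * d := (Nat.div_mul_cancel (Nat.gcd_dvd_left q r)).symm
  have hrr : r = r' * d := (Nat.div_mul_cancel (Nat.gcd_dvd_right q r)).symm
  have hq'pos : 0 < q' := Nat.div_pos (Nat.le_of_dvd hq (Nat.gcd_dvd_left q r)) hdpos
  have hr'pos : 0 < r' := Nat.div_pos (Nat.le_of_dvd hr (Nat.gcd_dvd_right q r)) hdpos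
  have hcop : Nat.Coprime q' r' := Nat.coprime_div_gcd_div_gcd hdpos
  have hl : Nat.lcm q r = q' * r' * d := by
    have h := Nat.gcd_mul_lcm q r
    rw [← hd] at h
    have : d * Nat.lcm q r = d * (q' * r' * d) := by
      rw [h]; nth_rewrite 1 [hqq]; nth_rewrite 1 [hrr]; ring
    exact Nat.eq_of_mul_eq_mul_left hdpos this
  set Wd := Nat.gcd (wP q z) (wP r z) with hWd
  have hWdpos : 0 < Wd := Nat.gcd_pos_of_pos_left _ (wP_pos q z)
  have hWdd : Wd ∣ d := Nat.dvd_gcd ((Nat.gcd_dvd_left _ _).trans (wP_dvd q z))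
    ((Nat.gcd_dvd_right _ _).trans (wP_dvd r z))
  have hWdsq : Squarefree Wd := (squarefree_wP q z).squarefree_of_dvd (Nat.gcd_dvd_left _ _)
  set S := ((range q) ×ˢ (range r)).filter fun ab : ℕ × ℕ =>
      ab.1 % wP q z = u ∧ ab.2 % wP r z = v ∧
      ((Nat.lcm q r : ℕ) : ℤ) ∣ ((r' : ℕ) : ℤ) * ab.1 - ((q' : ℕ) : ℤ) * ab.2 - c with hS
  rcases S.eq_empty_or_nonempty with hemp | ⟨⟨a₀, b₀⟩, hne⟩
  · simp [hemp]
  -- any two elements of `S`
  have key : ∀ ab ∈ S, ∀ ab' ∈ S, ∃ t : ℤ, (ab.1:ℤ) - ab'.1 = (q':ℤ) * t ∧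
      (r:ℤ) ∣ (r':ℤ) * t - ((ab.2:ℤ) - ab'.2) ∧ (Wd:ℤ) ∣ t := by
    intro ab hab ab' hab'
    obtain ⟨hm, hu, hv, hdv⟩ := mem_filter.1 hab
    obtain ⟨hm', hu', hv', hdv'⟩ := mem_filter.1 hab'
    set A : ℤ := (ab.1:ℤ) - ab'.1 with hA
    set B : ℤ := (ab.2:ℤ) - ab'.2 with hB
    have h1 : ((q' * r' * d : ℕ):ℤ) ∣ (r':ℤ) * A - (q':ℤ) * B := by
      have := dvd_sub hdv hdv'
      rw [hl] at this
      have e : ((r':ℕ):ℤ) * ab.1 - ((q':ℕ):ℤ) * ab.2 - c - (((r':ℕ):ℤ) * ab'.1 - ((q':ℕ):ℤ) * ab'.2 - c)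
          = (r':ℤ) * A - (q':ℤ) * B := by rw [hA, hB]; ring
      rwa [e] at this
    have hqA : (q':ℤ) ∣ A := by
      have h20 : ((q':ℕ):ℤ) ∣ ((q' * r' * d : ℕ):ℤ) := ⟨(r':ℤ) * d, by push_cast; ring⟩
      have h2 : (q':ℤ) ∣ (r':ℤ) * A - (q':ℤ) * B := h20.trans h1
      have h3 : (q':ℤ) ∣ (r':ℤ) * A := (Int.dvd_iff_dvd_of_dvd_sub h2).2 (Dvd.intro _ rfl)
      exact (Nat.isCoprime_iff_coprime.2 hcop).dvd_of_dvd_mul_left h3
    obtain ⟨t, ht⟩ := hqA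
    refine ⟨t, ht, ?_, ?_⟩
    · -- cancel `q'`
      have h4 : ((q':ℤ)) * (((r':ℤ) * d)) ∣ (q':ℤ) * ((r':ℤ) * t - B) := by
        have e : (q':ℤ) * ((r':ℤ) * t - B) = (r':ℤ) * A - (q':ℤ) * B := by rw [ht]; ring
        rw [e]
        have : ((q' * r' * d : ℕ):ℤ) = (q':ℤ) * ((r':ℤ) * d) := by push_cast; ring
        rwa [← this]
      have h5 : ((r':ℤ) * d) ∣ (r':ℤ) * t - B :=
        (mul_dvd_mul_iff_left (by exact_mod_cast hq'pos.ne')).1 h4
      have h6 : (r:ℤ) = (r':ℤ) * d := by exact_mod_cast hrr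
      rwa [h6]
    · -- each prime of `W_d` divides `t`
      rw [Int.natCast_dvd]
      rw [← Nat.prod_primeFactors_of_squarefree hWdsq]
      apply Finset.prod_primes_dvd
      · intro p hp; exact (Nat.prime_of_mem_primeFactors hp).prime
      intro p hp
      have hpp := Nat.prime_of_mem_primeFactors hp
      have hpW : p ∣ Wd := Nat.dvd_of_mem_primeFactors hp
      have hp1 : p ∣ wP q z := hpW.trans (Nat.gcd_dvd_left _ _)
      have hp2 : p ∣ wP r z := hpW.trans (Nat.gcd_dvd_right _ _)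
      have hWA : (wP q z : ℤ) ∣ A := by
        have : (ab'.1) ≡ (ab.1) [MOD wP q z] := by
          unfold Nat.ModEq; rw [hu, hu']
        exact (Nat.modEq_iff_dvd.1 this)
      have hWB : (wP r z : ℤ) ∣ B := by
        have : (ab'.2) ≡ (ab.2) [MOD wP r z] := by
          unfold Nat.ModEq; rw [hv, hv']
        exact (Nat.modEq_iff_dvd.1 this)
      have hpA : (p:ℤ) ∣ A := (Int.natCast_dvd_natCast.2 hp1).trans hWA
      have hpB : (p:ℤ) ∣ B := (Int.natCast_dvd_natCast.2 hp2).trans hWB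
      have hpr : (p:ℤ) ∣ (r:ℤ) := Int.natCast_dvd_natCast.2 (hp2.trans (wP_dvd r z))
      have hrd : (r:ℤ) ∣ (r':ℤ) * t - B := by
        have h4 : ((q':ℤ)) * (((r':ℤ) * d)) ∣ (q':ℤ) * ((r':ℤ) * t - B) := by
          have e : (q':ℤ) * ((r':ℤ) * t - B) = (r':ℤ) * A - (q':ℤ) * B := by rw [ht]; ring
          rw [e]
          have : ((q' * r' * d : ℕ):ℤ) = (q':ℤ) * ((r':ℤ) * d) := by push_cast; ring
          rwa [← this]
        have h5 : ((r':ℤ) * d) ∣ (r':ℤ) * t - B :=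
          (mul_dvd_mul_iff_left (by exact_mod_cast hq'pos.ne')).1 h4
        have h6 : (r:ℤ) = (r':ℤ) * d := by exact_mod_cast hrr
        rwa [h6]
      have hpRT : (p:ℤ) ∣ (r':ℤ) * t := by
        have := hpr.trans hrd
        exact (Int.dvd_iff_dvd_of_dvd_sub this).2 hpB
      have hpQT : (p:ℤ) ∣ (q':ℤ) * t := by rw [← ht]; exact hpA
      have hpi : Prime (p:ℤ) := Nat.prime_iff_prime_int.1 hpp
      apply Int.natCast_dvd.1
      rcases hpi.dvd_or_dvd hpQT with h7 | h7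
      · rcases hpi.dvd_or_dvd hpRT with h8 | h8
        · exfalso
          have h9 : p ∣ q' := Int.natCast_dvd_natCast.1 h7
          have h10 : p ∣ r' := Int.natCast_dvd_natCast.1 h8
          have := Nat.dvd_gcd h9 h10
          rw [hcop] at this
          exact hpp.one_lt.ne' (Nat.dvd_one.1 this)
        · exact h8
      · exact h7
  -- the counting
  set N := q' * Wd with hN
  have hNpos : 0 < N := Nat.mul_pos hq'pos hWdpos
  have hNq : N ∣ q := by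
    rw [hqq]; exact Nat.mul_dvd_mul_left _ hWdd
  have hcount : ((range q).filter (fun a => a ≡ a₀ [MOD N])).card = d / Wd := by
    rw [← Nat.count_eq_card_filter_range, Nat.count_modEq_card q hNpos a₀]
    have h0 : q % N = 0 := Nat.mod_eq_zero_of_dvd hNq
    rw [h0]
    simp only [Nat.not_lt_zero, if_false, add_zero]
    rw [hN]
    nth_rewrite 1 [hqq]
    exact Nat.mul_div_mul_left _ _ hq'pos
  rw [← hcount]
  apply Finset.card_le_card_of_injOn (fun ab => ab.1)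
  · intro ab hab
    have hm := (mem_filter.1 (show ab ∈ S from hab)).1
    refine mem_coe.2 (mem_filter.2 ⟨(mem_product.1 hm).1, ?_⟩)
    obtain ⟨t, ht, _, ht3⟩ := key ab hab (a₀, b₀) hne
    apply Nat.ModEq.symm
    apply Nat.modEq_iff_dvd.2
    rw [ht, hN]
    push_cast
    exact mul_dvd_mul_left _ ht3
  · intro ab hab ab' hab' heq
    obtain ⟨t, ht, ht2, _⟩ := key ab hab ab' hab'
    have heq' : ab.1 = ab'.1 := heq
    have h0 : t = 0 := by
      have : (q':ℤ) * t = 0 := by rw [← ht, heq']; ring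
      rcases mul_eq_zero.1 this with h | h
      · exact absurd (by exact_mod_cast h) hq'pos.ne'
      · exact h
    rw [h0] at ht2
    have hm := (mem_filter.1 (show ab ∈ S from hab)).1
    have hm' := (mem_filter.1 (show ab' ∈ S from hab')).1
    have hb1 : ab.2 < r := mem_range.1 (mem_product.1 hm).2
    have hb2 : ab'.2 < r := mem_range.1 (mem_product.1 hm').2
    have hb : (r:ℤ) ∣ (ab.2:ℤ) - ab'.2 := by
      have := (dvd_neg.2 ht2)
      simpa using this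
    have hlt : |(ab.2:ℤ) - ab'.2| < r := by
      rw [abs_lt]; constructor <;> omega
    have := Int.eq_zero_of_abs_lt_dvd hb hlt
    apply Prod.ext heq'
    omega

/-- Overlapping pairs with the same residues modulo the squarefree parts have integers in one class. -/
lemma lcm_wP_dvd {q r z : ℕ} (hq : 1 ≤ q) (hr : 1 ≤ r) {a₁ b₁ a₂ b₂ : ℕ} {c₁ c₂ : ℤ}
    (ha : a₁ % wP q z = a₂ % wP q z) (hb : b₁ % wP r z = b₂ % wP r z)
    (h₁ : ((Nat.lcm q r : ℕ) : ℤ) ∣ ((r / Nat.gcd q r : ℕ) : ℤ) * a₁ - ((q / Nat.gcd q r : ℕ) : ℤ) * b₁ - c₁)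
    (h₂ : ((Nat.lcm q r : ℕ) : ℤ) ∣ ((r / Nat.gcd q r : ℕ) : ℤ) * a₂ - ((q / Nat.gcd q r : ℕ) : ℤ) * b₂ - c₂) :
    ((Nat.lcm (wP q z) (wP r z) : ℕ) : ℤ) ∣ c₁ - c₂ := by
  classical
  set d := Nat.gcd q r with hd
  set q' := q / d with hq'
  set r' := r / d with hr'
  have hqq : q = q' * d := (Nat.div_mul_cancel (Nat.gcd_dvd_left q r)).symm
  have hrr : r = r' * d := (Nat.div_mul_cancel (Nat.gcd_dvd_right q r)).symm
  set A : ℤ := (a₁:ℤ) - a₂ with hA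
  set B : ℤ := (b₁:ℤ) - b₂ with hB
  have hWA : (wP q z : ℤ) ∣ A := by
    have : a₂ ≡ a₁ [MOD wP q z] := ha.symm
    exact Nat.modEq_iff_dvd.1 this
  have hWB : (wP r z : ℤ) ∣ B := by
    have : b₂ ≡ b₁ [MOD wP r z] := hb.symm
    exact Nat.modEq_iff_dvd.1 this
  have hsub : ((Nat.lcm q r : ℕ) : ℤ) ∣ ((r':ℤ) * A - (q':ℤ) * B) - (c₁ - c₂) := by
    have := dvd_sub h₁ h₂
    have e : ((r':ℕ):ℤ) * a₁ - ((q':ℕ):ℤ) * b₁ - c₁ - (((r':ℕ):ℤ) * a₂ - ((q':ℕ):ℤ) * b₂ - c₂) =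
        ((r':ℤ) * A - (q':ℤ) * B) - (c₁ - c₂) := by rw [hA, hB]; ring
    rwa [e] at this
  have hq0 : q ≠ 0 := by omega
  have hr0 : r ≠ 0 := by omega
  have h1 : (wP q z : ℤ) ∣ c₁ - c₂ := by
    apply wP_dvd_int_of_primes
    intro p hp
    obtain ⟨hpf, hpz⟩ := mem_filter.1 hp
    have hpp := Nat.prime_of_mem_primeFactors hpf
    have hpq := Nat.dvd_of_mem_primeFactors hpf
    have hpl : (p:ℤ) ∣ ((Nat.lcm q r : ℕ) : ℤ) :=
      Int.natCast_dvd_natCast.2 (hpq.trans (Nat.dvd_lcm_left q r))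
    have h2 := hpl.trans hsub
    have hpA : (p:ℤ) ∣ A := (Int.natCast_dvd_natCast.2 (dvd_wP hq0 hpp hpq hpz)).trans hWA
    have hpq'B : (p:ℤ) ∣ (q':ℤ) * B := by
      by_cases hpr : p ∣ r
      · exact ((Int.natCast_dvd_natCast.2 (dvd_wP hr0 hpp hpr hpz)).trans hWB).mul_left _
      · have hpd : ¬ p ∣ d := fun h => hpr (h.trans (Nat.gcd_dvd_right q r))
        have : p ∣ q' := by
          rw [hqq] at hpq
          exact ((Nat.Prime.dvd_mul hpp).1 hpq).resolve_right hpd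
        exact (Int.natCast_dvd_natCast.2 this).mul_right _
    have h3 : (p:ℤ) ∣ (r':ℤ) * A - (q':ℤ) * B := dvd_sub (hpA.mul_left _) hpq'B
    exact (Int.dvd_iff_dvd_of_dvd_sub h2).1 h3
  have h2 : (wP r z : ℤ) ∣ c₁ - c₂ := by
    apply wP_dvd_int_of_primes
    intro p hp
    obtain ⟨hpf, hpz⟩ := mem_filter.1 hp
    have hpp := Nat.prime_of_mem_primeFactors hpf
    have hpr := Nat.dvd_of_mem_primeFactors hpf
    have hpl : (p:ℤ) ∣ ((Nat.lcm q r : ℕ) : ℤ) :=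
      Int.natCast_dvd_natCast.2 (hpr.trans (Nat.dvd_lcm_right q r))
    have h2 := hpl.trans hsub
    have hpB : (p:ℤ) ∣ B := (Int.natCast_dvd_natCast.2 (dvd_wP hr0 hpp hpr hpz)).trans hWB
    have hpr'A : (p:ℤ) ∣ (r':ℤ) * A := by
      by_cases hpq : p ∣ q
      · exact ((Int.natCast_dvd_natCast.2 (dvd_wP hq0 hpp hpq hpz)).trans hWA).mul_left _
      · have hpd : ¬ p ∣ d := fun h => hpq (h.trans (Nat.gcd_dvd_left q r))
        have : p ∣ r' := by
          rw [hrr] at hpr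
          exact ((Nat.Prime.dvd_mul hpp).1 hpr).resolve_right hpd
        exact (Int.natCast_dvd_natCast.2 this).mul_right _
    have h3 : (p:ℤ) ∣ (r':ℤ) * A - (q':ℤ) * B := dvd_sub hpr'A (hpB.mul_left _)
    exact (Int.dvd_iff_dvd_of_dvd_sub h2).1 h3
  rw [Int.natCast_dvd]
  exact Nat.lcm_dvd (Int.natCast_dvd.1 h1) (Int.natCast_dvd.1 h2)

/-- Allowed residues reduce to allowed residues modulo the squarefree part. -/
lemma mod_mem_U {q z a Q : ℕ} {P : ℤ} (ha : Int.gcd ((a:ℤ) * (Q:ℤ) + P) (q:ℤ) = 1) :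
    a % wP q z ∈ (range (wP q z)).filter
      (fun a : ℕ => Int.gcd ((a:ℤ) * (Q:ℤ) + P) ((wP q z : ℕ):ℤ) = 1) := by
  refine mem_filter.2 ⟨mem_range.2 (Nat.mod_lt _ (wP_pos q z)), ?_⟩
  have h1 : IsCoprime ((a:ℤ) * (Q:ℤ) + P) (q:ℤ) := Int.isCoprime_iff_gcd_eq_one.2 ha
  have h2 : IsCoprime ((a:ℤ) * (Q:ℤ) + P) (wP q z:ℤ) :=
    h1.of_isCoprime_of_dvd_right (Int.natCast_dvd_natCast.2 (wP_dvd q z))
  have h3 := h2.add_mul_left_left (-((a / wP q z : ℕ):ℤ) * (Q:ℤ))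
  apply Int.isCoprime_iff_gcd_eq_one.1
  have e : (((a % wP q z : ℕ):ℤ)) * (Q:ℤ) + P =
      (a:ℤ) * (Q:ℤ) + P + (wP q z:ℤ) * (-((a / wP q z : ℕ):ℤ) * (Q:ℤ)) := by
    have h4 : a = wP q z * (a / wP q z) + a % wP q z := (Nat.div_add_mod a (wP q z)).symm
    have h5 : (a:ℤ) = (wP q z:ℤ) * ((a / wP q z : ℕ):ℤ) + ((a % wP q z : ℕ):ℤ) := by
      exact_mod_cast h4
    have h6 : ((a % wP q z : ℕ):ℤ) = (a:ℤ) - (wP q z:ℤ) * ((a / wP q z : ℕ):ℤ) := by linarith [h5]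
    rw [h6]
    ring
  rw [e]; exact h3

lemma Ez_nonneg (γ : ℝ) (ψ : ℕ → ℝ) (z q : ℕ) : 0 ≤ Ez γ ψ z q := by
  unfold Ez
  apply prod_nonneg
  intro p hp
  have hpp := Nat.prime_of_mem_primeFactors (mem_filter.1 hp).1
  have hp1 : (1:ℝ) ≤ p := by exact_mod_cast hpp.one_lt.le
  have : 1 / (p:ℝ) ≤ 1 := by rw [div_le_one (by linarith)]; exact hp1
  linarith

/-- The exact count for large `X`. -/
lemma far_card (hψ : Adm ψ) {q r z : ℕ} (hq : 1 ≤ q) (hr : 1 ≤ r) (hψq : 0 < ψ q) (hψr : 0 < ψ r)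
    (hX : (4:ℝ) ^ z ≤ XX ψ q r) :
    ((Al γ ψ q r).card : ℝ) ≤ 6 * XX ψ q r * (Nat.gcd q r : ℝ) * Ez γ ψ z q * Ez γ ψ z r := by
  classical
  set X := XX ψ q r with hXdef
  set d := Nat.gcd q r with hd
  set Wq := wP q z with hWq
  set Wr := wP r z with hWr
  set W := Nat.lcm Wq Wr with hW
  set Wd := Nat.gcd Wq Wr with hWd
  have hWqpos : 0 < Wq := wP_pos q z
  have hWrpos : 0 < Wr := wP_pos r z
  have hWpos : 0 < W := Nat.lcm_pos hWqpos hWrpos
  have hWdpos : 0 < Wd := Nat.gcd_pos_of_pos_left _ hWqpos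
  have hWdd : Wd ∣ d := Nat.dvd_gcd ((Nat.gcd_dvd_left _ _).trans (wP_dvd q z))
    ((Nat.gcd_dvd_right _ _).trans (wP_dvd r z))
  have hWle : (W:ℝ) ≤ 4 ^ z := by
    have h1 : W ∣ primorial z := Nat.lcm_dvd (wP_dvd_primorial q z) (wP_dvd_primorial r z)
    have h2 : W ≤ primorial z := Nat.le_of_dvd (primorial_pos z) h1
    have h3 : W ≤ 4 ^ z := h2.trans (primorial_le_four_pow z)
    exact_mod_cast h3
  have hX1 : (1:ℝ) ≤ X := le_trans (one_le_pow₀ (by norm_num)) hX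
  have hX0 : 0 < X := by linarith
  have hWX : (W:ℝ) ≤ X := hWle.trans hX
  set Uq := (range Wq).filter
      (fun a : ℕ => Int.gcd ((a:ℤ) * (Qlv γ ψ q:ℤ) + Pq γ ψ q) ((Wq : ℕ):ℤ) = 1) with hUq
  set Ur := (range Wr).filter
      (fun a : ℕ => Int.gcd ((a:ℤ) * (Qlv γ ψ r:ℤ) + Pq γ ψ r) ((Wr : ℕ):ℤ) = 1) with hUr
  have hUqc : (Uq.card:ℝ) = Wq * Ez γ ψ z q :=
    card_Uq q z (Qlv γ ψ q) (by omega) (Pq γ ψ q) (Pq_coprime γ hψq)
  have hUrc : (Ur.card:ℝ) = Wr * Ez γ ψ z r :=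
    card_Uq r z (Qlv γ ψ r) (by omega) (Pq γ ψ r) (Pq_coprime γ hψr)
  -- choice of the integers
  have hc : ∀ ab : ℕ × ℕ, ab ∈ Al γ ψ q r → ∃ c : ℤ,
      |(c:ℝ) + (((r / d : ℕ) : ℝ) - ((q / d : ℕ) : ℝ)) * γ| < 2 * X ∧
      ((Nat.lcm q r : ℕ) : ℤ) ∣ ((r / d : ℕ) : ℤ) * ab.1 - ((q / d : ℕ) : ℤ) * ab.2 - c := by
    intro ab hab
    exact alive_struct hψ hq hr (a := ab.1) (b := ab.2) hab
  choose! c hc1 hc2 using hc
  let f : ℕ × ℕ → ℕ × ℕ := fun ab => (ab.1 % Wq, ab.2 % Wr)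
  have himg : (Al γ ψ q r).image f ⊆ Uq ×ˢ Ur := by
    intro x hx
    obtain ⟨ab, hab, rfl⟩ := mem_image.1 hx
    have hm := (mem_filter.1 hab).1
    obtain ⟨h1, h2⟩ := mem_product.1 hm
    exact mem_product.2 ⟨mod_mem_U (mem_filter.1 h1).2, mod_mem_U (mem_filter.1 h2).2⟩
  -- bound of one fibre
  set R : ℝ := (2 * (2 * X) / W + 1) * ((d / Wd : ℕ) : ℝ) with hR
  have hfib : ∀ x ∈ (Al γ ψ q r).image f, (((Al γ ψ q r).filter (fun ab => f ab = x)).card : ℝ) ≤ R := by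
    rintro ⟨u, v⟩ -
    set S := (Al γ ψ q r).filter (fun ab => f ab = (u, v)) with hS
    have hSmem : ∀ ab ∈ S, ab ∈ Al γ ψ q r ∧ ab.1 % Wq = u ∧ ab.2 % Wr = v := by
      intro ab hab
      obtain ⟨h1, h2⟩ := mem_filter.1 hab
      have h3 : (ab.1 % Wq, ab.2 % Wr) = (u, v) := h2
      exact ⟨h1, (Prod.ext_iff.1 h3).1, (Prod.ext_iff.1 h3).2⟩
    have hfibc : S.card ≤ (d / Wd) * (S.image c).card := by
      apply card_le_mul_card_image
      intro c₀ _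
      refine le_trans (card_le_card ?_) (fiber_card_refined (z := z) hq hr u v c₀)
      intro ab hab
      obtain ⟨h1, h2⟩ := mem_filter.1 hab
      obtain ⟨h3, h4, h5⟩ := hSmem ab h1
      have h6 := hc2 ab h3
      rw [h2] at h6
      have hm := mem_product.1 (mem_filter.1 h3).1
      exact mem_filter.2 ⟨mem_product.2 ⟨(mem_filter.1 hm.1).1, (mem_filter.1 hm.2).1⟩, h4, h5, h6⟩
    have himc : ((S.image c).card : ℝ) ≤ 2 * (2 * X) / W + 1 := by
      apply card_le_of_pairwise_dvd (S.image c) hWpos (A := (((r / d : ℕ) : ℝ) - ((q / d : ℕ) : ℝ)) * γ)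
        (by positivity : (0:ℝ) ≤ 2 * X)
      · intro c₀ hc₀
        obtain ⟨ab, hab, rfl⟩ := mem_image.1 hc₀
        exact hc1 ab (hSmem ab hab).1
      · intro c₁ hc₁ c₂ hc₂
        obtain ⟨ab, hab, rfl⟩ := mem_image.1 hc₁
        obtain ⟨ab', hab', rfl⟩ := mem_image.1 hc₂
        obtain ⟨h1, h2, h3⟩ := hSmem ab hab
        obtain ⟨h1', h2', h3'⟩ := hSmem ab' hab'
        exact lcm_wP_dvd hq hr (h2.trans h2'.symm) (h3.trans h3'.symm) (hc2 ab h1) (hc2 ab' h1')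
    have h1 : (S.card : ℝ) ≤ ((d / Wd : ℕ) : ℝ) * ((S.image c).card : ℝ) := by
      exact_mod_cast hfibc
    have h2 : ((d / Wd : ℕ) : ℝ) * ((S.image c).card : ℝ) ≤ ((d / Wd : ℕ) : ℝ) * (2 * (2 * X) / W + 1) :=
      mul_le_mul_of_nonneg_left himc (Nat.cast_nonneg _)
    rw [hR]
    linarith
  have hR0 : 0 ≤ R := by positivity
  have hsum : ((Al γ ψ q r).card : ℝ) ≤ (Uq.card : ℝ) * (Ur.card : ℝ) * R := by
    have h1 : (Al γ ψ q r).card = ∑ x ∈ (Al γ ψ q r).image f, ((Al γ ψ q r).filter (fun ab => f ab = x)).card :=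
      card_eq_sum_card_image f _
    have h2 : ((Al γ ψ q r).card : ℝ) ≤ ∑ _x ∈ (Al γ ψ q r).image f, R := by
      rw [h1]; push_cast
      exact sum_le_sum hfib
    rw [sum_const, nsmul_eq_mul] at h2
    have h3 : (((Al γ ψ q r).image f).card : ℝ) ≤ (Uq.card : ℝ) * (Ur.card : ℝ) := by
      have := card_le_card himg
      rw [card_product] at this
      exact_mod_cast this
    exact h2.trans (mul_le_mul_of_nonneg_right h3 hR0)
  -- arithmetic
  have hWW : (Wq:ℝ) * Wr = Wd * W := by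
    have := Nat.gcd_mul_lcm Wq Wr
    exact_mod_cast this.symm
  have hdiv : ((d / Wd : ℕ) : ℝ) = (d:ℝ) / Wd := Nat.cast_div hWdd (by exact_mod_cast hWdpos.ne')
  have hW0 : (0:ℝ) < W := by exact_mod_cast hWpos
  have hWd0 : (0:ℝ) < Wd := by exact_mod_cast hWdpos
  have hE1 := Ez_nonneg γ ψ z q
  have hE2 := Ez_nonneg γ ψ z r
  have hval : (Uq.card : ℝ) * (Ur.card : ℝ) * R = Ez γ ψ z q * Ez γ ψ z r * d * (4 * X + W) := by
    rw [hUqc, hUrc, hR, hdiv]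
    have : (Wq:ℝ) * Ez γ ψ z q * (Wr * Ez γ ψ z r) = ((Wq:ℝ) * Wr) * (Ez γ ψ z q * Ez γ ψ z r) := by ring
    rw [this, hWW]
    field_simp
    ring
  rw [hval] at hsum
  have hd0 : (0:ℝ) ≤ d := Nat.cast_nonneg d
  have hfin : Ez γ ψ z q * Ez γ ψ z r * d * (4 * X + W) ≤ Ez γ ψ z q * Ez γ ψ z r * d * (6 * X) :=
    mul_le_mul_of_nonneg_left (by linarith) (by positivity)
  calc ((Al γ ψ q r).card : ℝ) ≤ _ := hsum
    _ ≤ _ := hfin
    _ = _ := by ring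

lemma R1_mono {q z₁ z : ℕ} (hz : z₁ ≤ z) (h : R1 q z₁) : R1 q z := by
  unfold R1 at *
  refine le_trans ?_ h
  apply sum_le_sum_of_subset_of_nonneg
  · intro p hp
    obtain ⟨h1, h2⟩ := mem_filter.1 hp
    exact mem_filter.2 ⟨h1, by omega⟩
  · intro p _ _; positivity

/-- Consequence: quasi independence for large `X`. -/
lemma far_bound (hψ : Adm ψ) {q r z₁ z₂ z : ℕ} (hq : 1 ≤ q) (hr : 1 ≤ r) (hψq : 0 < ψ q) (hψr : 0 < ψ r)
    (hz1 : z₁ ≤ z) (hz2 : z₂ ≤ z) (h1 : R1 q z₁) (h2 : R1 r z₂) (hX : (4:ℝ) ^ z ≤ XX ψ q r) :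
    ((Al γ ψ q r).card : ℝ) * min (ψ q / q) (ψ r / r)
      ≤ 6 * Real.exp 4 * (mass γ ψ q * mass γ ψ r) := by
  have hfc := far_card (γ := γ) hψ hq hr hψq hψr hX
  have hE1 := Ez_le (γ := γ) hψ hq hψq (R1_mono hz1 h1)
  have hE2 := Ez_le (γ := γ) hψ hr hψr (R1_mono hz2 h2)
  have hq0 : (0:ℝ) < q := by exact_mod_cast hq
  have hr0 : (0:ℝ) < r := by exact_mod_cast hr
  have hmin : 0 ≤ min (ψ q / q) (ψ r / r) := le_min (by positivity) (by positivity)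
  have hxm := xx_mul (ψ := ψ) hq hr hψq hψr
  have hE1n := Ez_nonneg γ ψ z q
  have hE2n := Ez_nonneg γ ψ z r
  have hexp : Real.exp 4 = Real.exp 2 * Real.exp 2 := by
    rw [← Real.exp_add]; norm_num
  calc ((Al γ ψ q r).card : ℝ) * min (ψ q / q) (ψ r / r)
      ≤ (6 * XX ψ q r * (Nat.gcd q r : ℝ) * Ez γ ψ z q * Ez γ ψ z r) * min (ψ q / q) (ψ r / r) :=
        mul_le_mul_of_nonneg_right hfc hmin
    _ = 6 * Ez γ ψ z q * Ez γ ψ z r * (XX ψ q r * (Nat.gcd q r : ℝ) * min (ψ q / q) (ψ r / r)) := by ring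
    _ = 6 * Ez γ ψ z q * Ez γ ψ z r * (ψ q * ψ r) := by rw [hxm]
    _ ≤ 6 * (Real.exp 2 * (((Ap γ ψ q).card : ℝ) / q)) * (Real.exp 2 * (((Ap γ ψ r).card : ℝ) / r)) * (ψ q * ψ r) := by
        apply mul_le_mul_of_nonneg_right _ (by positivity)
        apply mul_le_mul _ hE2 hE2n (by positivity)
        linarith
    _ = _ := by
        unfold mass; rw [hexp]; ring

end Vale.Agent.Lib.P028V
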