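import Vale.Agent.Lib.P028V.Anatomy
import Vale.Agent.Lib.P028V.Far

/-! Cleaned blocks. -/

open Finset
open scoped Classical

namespace Vale.Agent.Lib.P028V

open Vale.Agent.Lib.P028

/-- A cleaned element of the dyadic block `k` relative to block mass `M`. -/
structure Clean (ψ : ℕ → ℝ) (k : ℕ) (M : ℝ) (q : ℕ) : Prop where
  lo : 2 ^ k ≤ q
  hi : q < 2 ^ (k + 1)
  pos : 0 < ψ q
  alow : M / 8 ≤ (q:ℝ) * ψ q
  r1 : R1 q (zz M)
  lam : Lam q ≤ KK M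

/-- A cleaned block. -/
structure Blk (ψ : ℕ → ℝ) (k : ℕ) (M : ℝ) (T : Finset ℕ) : Prop where
  clean : ∀ q ∈ T, Clean ψ k M q
  Mpos : 0 < M
  Mle : M ≤ 1
  Mlow : 1 / (k:ℝ) ^ 2 ≤ M
  kpos : 1 ≤ k
  hsum : ∑ q ∈ T, ψ q * ((Nat.totient q : ℝ) / (q:ℝ)) ≤ M

private lemma log_sixteen_div_nonneg {M : ℝ} (h0 : 0 < M) (h1 : M ≤ 1) : 0 ≤ Real.log (16 / M) := by
  apply Real.log_nonneg
  rw [le_div_iff₀ h0]
  linarith

private lemma zz_le {M : ℝ} (h0 : 0 < M) (h1 : M ≤ 1) : (zz M : ℝ) ≤ 3 + Real.log (16 / M) := by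
  have h2 := log_sixteen_div_nonneg h0 h1
  have := Nat.ceil_lt_add_one (show (0:ℝ) ≤ 2 + Real.log (16 / M) by linarith)
  unfold zz
  linarith

private lemma two_le_zz {M : ℝ} (h0 : 0 < M) (h1 : M ≤ 1) : 2 ≤ zz M := by
  have h2 := log_sixteen_div_nonneg h0 h1
  have h3 : ((2:ℕ):ℝ) ≤ ((⌈2 + Real.log (16 / M)⌉₊ : ℕ) : ℝ) := by
    have := Nat.le_ceil (2 + Real.log (16 / M))
    push_cast
    linarith
  unfold zz
  exact_mod_cast h3

/-- The unweighted mass of a cleaned block. -/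
lemma sigma_le {ψ : ℕ → ℝ} (hψ : Adm ψ) {k : ℕ} {M : ℝ} {T : Finset ℕ} (hB : Blk ψ k M T) :
    ∑ q ∈ T, ψ q ≤ 520 * M ^ ((63:ℝ) / 64) := by
  have h0 := hB.Mpos
  have h1 := hB.Mle
  have hz2 : 2 ≤ zz M := two_le_zz h0 h1
  -- termwise bound
  have hterm : ∀ q ∈ T, ψ q ≤ (Real.exp 2 * (zz M : ℝ)) * (ψ q * ((Nat.totient q : ℝ) / (q:ℝ))) := by
    intro q hq
    have hc := hB.clean q hq
    have hq1 : 1 ≤ q := le_trans (Nat.one_le_two_pow) hc.lo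
    have hqpos : (0:ℝ) < q := by exact_mod_cast hq1
    have hphi : (0:ℝ) < (Nat.totient q : ℝ) := by
      exact_mod_cast Nat.totient_pos.mpr hq1
    have hd := div_totient_le hq1 hz2 hc.r1
    have hψq : 0 ≤ ψ q := hψ.nonneg q
    have hpos : 0 ≤ ψ q * ((Nat.totient q : ℝ) / (q:ℝ)) := by positivity
    calc ψ q = ((q:ℝ) / (Nat.totient q : ℝ)) * (ψ q * ((Nat.totient q : ℝ) / (q:ℝ))) := by
            field_simp
      _ ≤ (Real.exp 2 * (zz M : ℝ)) * (ψ q * ((Nat.totient q : ℝ) / (q:ℝ))) :=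
            mul_le_mul_of_nonneg_right hd hpos
  have hsum : ∑ q ∈ T, ψ q ≤ (Real.exp 2 * (zz M : ℝ)) * M := by
    calc ∑ q ∈ T, ψ q
        ≤ ∑ q ∈ T, (Real.exp 2 * (zz M : ℝ)) * (ψ q * ((Nat.totient q : ℝ) / (q:ℝ))) :=
          Finset.sum_le_sum hterm
      _ = (Real.exp 2 * (zz M : ℝ)) * ∑ q ∈ T, ψ q * ((Nat.totient q : ℝ) / (q:ℝ)) := by
          rw [Finset.mul_sum]
      _ ≤ (Real.exp 2 * (zz M : ℝ)) * M :=
          mul_le_mul_of_nonneg_left hB.hsum (by positivity)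
  -- bound on `zz M`
  have hzz : (zz M : ℝ) ≤ 70 * M ^ (-(1:ℝ) / 64) := by
    have h3 := zz_le h0 h1
    have hlog : Real.log (16 / M) = Real.log 16 + Real.log (1 / M) := by
      rw [← Real.log_mul (by norm_num) (by positivity)]
      congr 1
      ring
    have hlog16 : Real.log 16 ≤ 3 := by
      have h16 : (16:ℝ) = 2 ^ (4:ℕ) := by norm_num
      rw [h16, Real.log_pow]
      have := Real.log_two_lt_d9
      push_cast
      linarith
    have hinv : 1 / M = M⁻¹ := by ring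
    have hlogM : Real.log (1 / M) ≤ 64 * M ^ (-(1:ℝ) / 64) := by
      have hM1 : 0 ≤ 1 / M := by positivity
      have := Real.log_le_rpow_div hM1 (show (0:ℝ) < 1 / 64 by norm_num)
      have hrw : (1 / M) ^ ((1:ℝ) / 64) = M ^ (-(1:ℝ) / 64) := by
        rw [hinv, Real.inv_rpow h0.le, ← Real.rpow_neg h0.le]
        congr 1
        ring
      rw [hrw] at this
      have h64 : M ^ (-(1:ℝ) / 64) / (1 / 64) = 64 * M ^ (-(1:ℝ) / 64) := by ring
      linarith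
    have hone : 1 ≤ M ^ (-(1:ℝ) / 64) := by
      apply Real.one_le_rpow_of_pos_of_le_one_of_nonpos h0 h1
      norm_num
    rw [hlog] at h3
    linarith
  have he : Real.exp 2 ≤ 7.39 := by
    have h2e : Real.exp 2 = Real.exp 1 * Real.exp 1 := by
      rw [← Real.exp_add]; norm_num
    rw [h2e]
    have := Real.exp_one_lt_d9
    have hpos := Real.exp_pos 1
    nlinarith
  have hMsplit : M ^ (-(1:ℝ) / 64) * M = M ^ ((63:ℝ) / 64) := by
    have : M ^ (-(1:ℝ) / 64) * M ^ (1:ℝ) = M ^ ((63:ℝ) / 64) := by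
      rw [← Real.rpow_add h0]
      norm_num
    rwa [Real.rpow_one] at this
  have hpow : 0 ≤ M ^ ((63:ℝ) / 64) := by positivity
  calc ∑ q ∈ T, ψ q ≤ (Real.exp 2 * (zz M : ℝ)) * M := hsum
    _ ≤ (Real.exp 2 * (70 * M ^ (-(1:ℝ) / 64))) * M := by
        apply mul_le_mul_of_nonneg_right _ h0.le
        exact mul_le_mul_of_nonneg_left hzz (Real.exp_pos 2).le
    _ = Real.exp 2 * 70 * (M ^ (-(1:ℝ) / 64) * M) := by ring
    _ = Real.exp 2 * 70 * M ^ ((63:ℝ) / 64) := by rw [hMsplit]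
    _ ≤ 520 * M ^ ((63:ℝ) / 64) := by
        apply mul_le_mul_of_nonneg_right _ hpow
        linarith

/-- `4 ^ zz M ≤ 4096 M ^ (-3/2)`. -/
lemma four_pow_zz {M : ℝ} (h0 : 0 < M) (h1 : M ≤ 1) : (4:ℝ) ^ (zz M) ≤ 4096 * M ^ (-(3:ℝ) / 2) := by
  have h3 := zz_le h0 h1
  have h2 := log_sixteen_div_nonneg h0 h1
  have hb : (1:ℝ) ≤ 16 / M := by
    rw [le_div_iff₀ h0]; linarith
  have hb0 : (0:ℝ) < 16 / M := by positivity
  have h4 : (4:ℝ) ^ (zz M) = (4:ℝ) ^ ((zz M : ℕ) : ℝ) := (Real.rpow_natCast _ _).symm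
  have hlog4 : Real.log 4 ≤ 3 / 2 := by
    have h44 : (4:ℝ) = 2 ^ (2:ℕ) := by norm_num
    rw [h44, Real.log_pow]
    have := Real.log_two_lt_d9
    push_cast
    linarith
  have hswap : (4:ℝ) ^ Real.log (16 / M) = (16 / M) ^ Real.log 4 := by
    rw [Real.rpow_def_of_pos (by norm_num : (0:ℝ) < 4), Real.rpow_def_of_pos hb0]
    congr 1
    ring
  have h16 : ((16:ℝ) / M) ^ ((3:ℝ) / 2) = 64 * M ^ (-(3:ℝ) / 2) := by
    rw [Real.div_rpow (by norm_num) h0.le]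
    have h64 : (16:ℝ) ^ ((3:ℝ) / 2) = 64 := by
      have : (16:ℝ) = 4 ^ (2:ℝ) := by norm_num
      rw [this, ← Real.rpow_mul (by norm_num)]
      norm_num
    rw [h64, div_eq_mul_inv, ← Real.rpow_neg h0.le]
    congr 2
    ring
  calc (4:ℝ) ^ (zz M) = (4:ℝ) ^ ((zz M : ℕ) : ℝ) := h4
    _ ≤ (4:ℝ) ^ (3 + Real.log (16 / M)) :=
        Real.rpow_le_rpow_of_exponent_le (by norm_num) h3
    _ = (4:ℝ) ^ (3:ℝ) * (4:ℝ) ^ Real.log (16 / M) := Real.rpow_add (by norm_num) _ _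
    _ = 64 * (16 / M) ^ Real.log 4 := by
        rw [hswap]
        norm_num
    _ ≤ 64 * (16 / M) ^ ((3:ℝ) / 2) := by
        apply mul_le_mul_of_nonneg_left _ (by norm_num)
        exact Real.rpow_le_rpow_of_exponent_le hb hlog4
    _ = 4096 * M ^ (-(3:ℝ) / 2) := by
        rw [h16]; ring

/-- The weighted mass is at most the mass. -/
lemma weighted_le_mass {γ : ℝ} {ψ : ℕ → ℝ} (hψ : Adm ψ) {q : ℕ} (hq : 1 ≤ q) (hψq : 0 < ψ q) :
    ψ q * ((Nat.totient q : ℝ) / (q:ℝ)) ≤ mass γ ψ q := by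
  have h := totient_le_card_Ap (γ := γ) hψ hq hψq
  have hqpos : (0:ℝ) < q := by exact_mod_cast hq
  have h' : (Nat.totient q : ℝ) ≤ ((Ap γ ψ q).card : ℝ) := by exact_mod_cast h
  unfold mass
  calc ψ q * ((Nat.totient q : ℝ) / (q:ℝ)) = ((Nat.totient q : ℝ) / (q:ℝ)) * ψ q := by ring
    _ ≤ ((Ap γ ψ q).card : ℝ) / q * ψ q := by
        apply mul_le_mul_of_nonneg_right _ hψq.le
        exact div_le_div_of_nonneg_right h' hqpos.le

end Vale.Agent.Lib.P028V
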