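import Vale.Agent.Lib.P028V.Level

/-! Module G. The count of integers in a Bohr set: generic bound or structured case. -/

open Finset

namespace Vale.Agent.Lib.P028V

open Vale.Agent.Lib.P028

lemma dn_sub_le' (a b : ℝ) : dn (a - b) ≤ dn a + dn b := by
  have h := dn_le_abs_sub (a - b) (round a - round b)
  push_cast at h
  have h2 : |a - b - ((round a : ℝ) - (round b : ℝ))| ≤ |a - round a| + |b - round b| := by
    have : a - b - ((round a : ℝ) - (round b : ℝ)) = (a - round a) - (b - round b) := by ring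
    rw [this]; exact abs_sub _ _
  unfold dn at *
  linarith

/-- A set of naturals with separation at least `s` and differences below `L` has at most
`L / s + 1` elements. -/
lemma card_le_of_sep (A : Finset ℕ) {s L : ℝ} (hs : 0 < s) (hL : 0 < L)
    (hsep : ∀ a ∈ A, ∀ b ∈ A, b < a → s ≤ (a:ℝ) - b)
    (hdiam : ∀ a ∈ A, ∀ b ∈ A, b < a → (a:ℝ) - b < L) :
    (A.card : ℝ) ≤ L / s + 1 := by
  classical
  rcases A.eq_empty_or_nonempty with rfl | hne
  · simp only [card_empty, Nat.cast_zero]; positivity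
  set m := A.min' hne with hmdef
  have hm : ∀ a ∈ A, m ≤ a := fun a ha => A.min'_le a ha
  have hmA : m ∈ A := A.min'_mem hne
  let f : ℕ → ℕ := fun n => ⌊((n:ℝ) - m) / s⌋₊
  have hnonneg : ∀ a ∈ A, 0 ≤ ((a:ℝ) - m) / s := fun a ha =>
    div_nonneg (sub_nonneg.2 (by exact_mod_cast hm a ha)) hs.le
  have hmaps : ∀ a ∈ A, f a ∈ range ⌈L / s⌉₊ := by
    intro a ha
    rw [mem_range]
    have h1 : ((a:ℝ) - m) / s < L / s := by
      apply div_lt_div_of_pos_right _ hs
      rcases (hm a ha).eq_or_lt with h | h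
      · rw [← h]; simpa using hL
      · exact hdiam a ha m hmA h
    have h2 : (f a : ℝ) ≤ ((a:ℝ) - m) / s := Nat.floor_le (hnonneg a ha)
    have h3 : L / s ≤ (⌈L / s⌉₊ : ℝ) := Nat.le_ceil _
    exact_mod_cast (lt_of_le_of_lt h2 (lt_of_lt_of_le h1 h3))
  have hinj : Set.InjOn f A := by
    intro a ha b hb hab
    by_contra hne'
    wlog hlt : b < a generalizing a b
    · exact this hb ha hab.symm (Ne.symm hne') (lt_of_le_of_ne (not_lt.mp hlt) hne')
    have h1 := hsep a ha b hb hlt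
    have h2 : ((a:ℝ) - m) / s < (f a : ℝ) + 1 := Nat.lt_floor_add_one _
    have h3 : (f b : ℝ) ≤ ((b:ℝ) - m) / s := Nat.floor_le (hnonneg b hb)
    rw [hab] at h2
    have h5 : ((a:ℝ) - b) / s < 1 := by
      have : ((a:ℝ) - b) / s = ((a:ℝ) - m) / s - ((b:ℝ) - m) / s := by ring
      linarith
    rw [div_lt_one hs] at h5
    linarith
  have hcard : A.card ≤ (range ⌈L / s⌉₊).card := Finset.card_le_card_of_injOn f hmaps hinj
  rw [card_range] at hcard
  have h6 : (⌈L / s⌉₊ : ℝ) < L / s + 1 := Nat.ceil_lt_add_one (by positivity)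
  have h7 : (A.card : ℝ) ≤ (⌈L / s⌉₊ : ℝ) := by exact_mod_cast hcard
  linarith

/-- Let `A ⊆ [N, 2N)`, all `n > q'`, with `dn ((n - q') γ) < η`. Put `Q = lvl γ (2η)`, `ρ = dn (Q γ)`.
Either `|A| ≤ 72 N η`, or `16 η Q < 1`, `N ρ < 1/16` and for `n ∈ A` one has `Q ∣ n - q'`, with the nearest integer of `(n-q') γ`
equal to `(n - q')/Q` times the nearest integer of `Q γ`. Moreover `|A| ≤ N / Q + 1` and (if `A` is nonempty) `Q < 2 N`. -/
theorem bohr_count (γ : ℝ) {η N : ℝ} (hη : 0 < η) (hN : 0 < N) (q' : ℕ) (A : Finset ℕ)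
    (hA : ∀ n ∈ A, N ≤ (n:ℝ) ∧ (n:ℝ) < 2 * N ∧ q' < n ∧ dn (((n:ℝ) - (q':ℝ)) * γ) < η) :
    ((A.card : ℝ) ≤ 72 * N * η) ∨
    (16 * η * (lvl γ (2 * η) : ℝ) < 1 ∧ N * dn ((lvl γ (2 * η) : ℝ) * γ) < 1 / 16 ∧
      (A.card : ℝ) ≤ N / (lvl γ (2 * η) : ℝ) + 1 ∧
      (A.Nonempty → (lvl γ (2 * η) : ℝ) < 2 * N) ∧
      ∀ n ∈ A, ∃ u : ℤ, 1 ≤ u ∧ ((n:ℤ) - (q':ℤ)) = u * (lvl γ (2 * η) : ℤ) ∧
        round (((n:ℝ) - (q':ℝ)) * γ) = u * round ((lvl γ (2 * η) : ℝ) * γ) ∧
        dn (((n:ℝ) - (q':ℝ)) * γ) = (u:ℝ) * dn ((lvl γ (2 * η) : ℝ) * γ)) := by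
  classical
  have h2η : 0 < 2 * η := by positivity
  obtain ⟨hQ1, hρlt, hmin⟩ := lvl_spec γ h2η
  set Q := lvl γ (2 * η) with hQdef
  set ρ := dn ((Q:ℝ) * γ) with hρdef
  have hρ0 : 0 ≤ ρ := dn_nonneg _
  have hQpos : (0:ℝ) < Q := by exact_mod_cast hQ1
  have hQposZ : (0:ℤ) < (Q:ℤ) := by exact_mod_cast hQ1
  -- differences
  have hdiff : ∀ a ∈ A, ∀ b ∈ A, dn (((a:ℝ) - b) * γ) < 2 * η := by
    intro a ha b hb
    have h1 := (hA a ha).2.2.2
    have h2 := (hA b hb).2.2.2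
    have h3 : ((a:ℝ) - b) * γ = ((a:ℝ) - q') * γ - ((b:ℝ) - q') * γ := by ring
    rw [h3]
    have h4 := dn_sub_le' (((a:ℝ) - q') * γ) (((b:ℝ) - q') * γ)
    linarith
  have hsep : ∀ a ∈ A, ∀ b ∈ A, b < a → (Q:ℝ) ≤ (a:ℝ) - b := by
    intro a ha b hb hlt
    by_contra hcon
    push Not at hcon
    have hc : ((a - b : ℕ) : ℝ) = (a:ℝ) - b := by rw [Nat.cast_sub hlt.le]
    have hlt' : a - b < Q := by
      have h3 : ((a - b : ℕ) : ℝ) < Q := by rw [hc]; exact hcon
      exact_mod_cast h3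
    have h4 := hmin (a - b) (by omega) hlt'
    rw [hc] at h4
    have h5 := hdiff a ha b hb
    linarith
  have hdiam : ∀ a ∈ A, ∀ b ∈ A, b < a → (a:ℝ) - b < N := by
    intro a ha b hb _
    have h1 := (hA a ha).2.1
    have h2 := (hA b hb).1
    linarith
  have hcard1 : (A.card:ℝ) ≤ N / Q + 1 := card_le_of_sep A hQpos hN hsep hdiam
  have hQle : ∀ n ∈ A, (Q:ℝ) ≤ (n:ℝ) - q' := by
    intro n hn
    obtain ⟨_, _, h3, h4⟩ := hA n hn
    by_contra hcon
    push Not at hcon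
    have hc : ((n - q' : ℕ) : ℝ) = (n:ℝ) - q' := by rw [Nat.cast_sub h3.le]
    have hlt' : n - q' < Q := by
      have h5 : ((n - q' : ℕ) : ℝ) < Q := by rw [hc]; exact hcon
      exact_mod_cast h5
    have h5 := hmin (n - q') (by omega) hlt'
    rw [hc] at h5
    linarith
  have hq'0 : (0:ℝ) ≤ q' := Nat.cast_nonneg _
  have hQ2N : A.Nonempty → (Q:ℝ) < 2 * N := by
    rintro ⟨n, hn⟩
    have h1 := hQle n hn
    have h2 := (hA n hn).2.1
    linarith
  by_cases hcase1 : 1 ≤ 16 * η * Q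
  · left
    rcases A.eq_empty_or_nonempty with rfl | hne
    · simp only [card_empty, Nat.cast_zero]; positivity
    have hQ2 := hQ2N hne
    have h1 : 1 ≤ 2 * (N / Q) := by
      rw [← mul_div_assoc, le_div_iff₀ hQpos]; linarith
    have h2 : N / Q ≤ N * (16 * η) := by
      rw [div_le_iff₀ hQpos]
      have : N * 1 ≤ N * (16 * η * Q) := mul_le_mul_of_nonneg_left hcase1 hN.le
      nlinarith
    have h3 : 0 < N * η := by positivity
    nlinarith
  by_cases hcase2 : 1 / 16 ≤ N * ρ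
  · left
    have hNρ : 0 < N * ρ := by linarith
    have hρ : 0 < ρ := by
      by_contra hcon
      have : ρ = 0 := le_antisymm (not_lt.mp hcon) hρ0
      rw [this] at hNρ
      simp at hNρ
    have hcase1' : 16 * η * (Q:ℝ) < 1 := not_le.mp hcase1
    let K : ℕ := ⌈N * (2 * ρ)⌉₊
    let f : ℕ → ℕ := fun n => ⌊((n:ℝ) - N) * (2 * ρ)⌋₊
    have hx0 : ∀ n ∈ A, 0 ≤ ((n:ℝ) - N) * (2 * ρ) := fun n hn =>
      mul_nonneg (sub_nonneg.2 (hA n hn).1) (by positivity)
    have hmaps : ∀ n ∈ A, f n ∈ range K := by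
      intro n hn
      rw [mem_range]
      have h1 : (f n : ℝ) ≤ ((n:ℝ) - N) * (2 * ρ) := Nat.floor_le (hx0 n hn)
      have h2 : ((n:ℝ) - N) * (2 * ρ) < N * (2 * ρ) := by
        apply mul_lt_mul_of_pos_right _ (by positivity)
        have := (hA n hn).2.1
        linarith
      have h3 : N * (2 * ρ) ≤ (K:ℝ) := Nat.le_ceil _
      exact_mod_cast (lt_of_le_of_lt h1 (lt_of_lt_of_le h2 h3))
    have hfib : ∀ b ∈ range K, (((A.filter (fun n => f n = b)).card : ℕ) : ℝ) ≤ 2 * η / ρ + 1 := by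
      intro b _
      have hL : 0 < 2 * η * (Q:ℝ) / ρ := by positivity
      have hc := card_le_of_sep (A.filter (fun n => f n = b)) hQpos hL
        (fun x hx y hy hxy => hsep x (mem_filter.1 hx).1 y (mem_filter.1 hy).1 hxy)
        (by
          intro x hx y hy hxy
          obtain ⟨hxA, hfx⟩ := mem_filter.1 hx
          obtain ⟨hyA, hfy⟩ := mem_filter.1 hy
          have h1 : ((x:ℝ) - N) * (2 * ρ) < (f x : ℝ) + 1 := Nat.lt_floor_add_one _
          have h2 : (f y : ℝ) ≤ ((y:ℝ) - N) * (2 * ρ) := Nat.floor_le (hx0 y hyA)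
          rw [hfx] at h1
          rw [hfy] at h2
          have h3 : ((x:ℝ) - y) * (2 * ρ) < 1 := by nlinarith
          have hxy' : (0:ℝ) < (x:ℝ) - y := by
            have : (y:ℝ) < x := by exact_mod_cast hxy
            linarith
          have hhc : (((x:ℤ) - (y:ℤ) : ℤ) : ℝ) = (x:ℝ) - y := by push_cast; ring
          have hlev := level_dvd γ h2η (by rw [← hQdef]; nlinarith) (h := (x:ℤ) - (y:ℤ))
            (by
              rw [← hQdef, ← hρdef, hhc, abs_of_pos hxy']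
              nlinarith)
            (by rw [hhc]; exact hdiff x hxA y hyA)
          obtain ⟨_, _, hdn⟩ := hlev
          rw [← hQdef, ← hρdef, hhc, abs_of_pos hxy'] at hdn
          have h4 := hdiff x hxA y hyA
          rw [hdn] at h4
          rw [lt_div_iff₀ hρ]
          have h5 : ((x:ℝ) - y) / Q * ρ * Q < 2 * η * Q := mul_lt_mul_of_pos_right h4 hQpos
          have h6 : ((x:ℝ) - y) / Q * ρ * Q = ((x:ℝ) - y) * ρ := by field_simp
          rwa [h6] at h5)
      have he : 2 * η * (Q:ℝ) / ρ / Q = 2 * η / ρ := by field_simp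
      rwa [he] at hc
    have hsum : (A.card : ℝ) ≤ (K:ℝ) * (2 * η / ρ + 1) := by
      rw [Finset.card_eq_sum_card_fiberwise (f := f) (t := range K) (fun x hx => hmaps x hx)]
      push_cast
      have := Finset.sum_le_card_nsmul (range K)
        (fun b => (((A.filter (fun n => f n = b)).card : ℕ) : ℝ)) (2 * η / ρ + 1) hfib
      rw [card_range, nsmul_eq_mul] at this
      exact this
    have hK : (K:ℝ) ≤ 18 * (N * ρ) := by
      have h1 : (K:ℝ) < N * (2 * ρ) + 1 := Nat.ceil_lt_add_one (by positivity)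
      nlinarith
    have hw : 2 * η / ρ + 1 ≤ 4 * η / ρ := by
      have h1 : 1 ≤ 2 * η / ρ := by
        rw [le_div_iff₀ hρ]; linarith
      have h2 : 4 * η / ρ = 2 * (2 * η / ρ) := by ring
      linarith
    calc (A.card : ℝ) ≤ (K:ℝ) * (2 * η / ρ + 1) := hsum
      _ ≤ 18 * (N * ρ) * (4 * η / ρ) :=
          mul_le_mul hK hw (by positivity) (by positivity)
      _ = 72 * N * η := by field_simp; ring
  · right
    have hcase1' : 16 * η * (Q:ℝ) < 1 := not_le.mp hcase1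
    have hcase2' : N * ρ < 1 / 16 := not_le.mp hcase2
    refine ⟨hcase1', hcase2', hcard1, hQ2N, ?_⟩
    intro n hn
    obtain ⟨h1, h2, h3, h4⟩ := hA n hn
    have hpos : (0:ℝ) < (n:ℝ) - q' := by
      have : (q':ℝ) < n := by exact_mod_cast h3
      linarith
    have hhc : (((n:ℤ) - (q':ℤ) : ℤ) : ℝ) = (n:ℝ) - q' := by push_cast; ring
    have hlev := level_dvd γ h2η (by rw [← hQdef]; nlinarith) (h := (n:ℤ) - (q':ℤ))
      (by
        rw [← hQdef, ← hρdef, hhc, abs_of_pos hpos]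
        have h5 : ((n:ℝ) - q') * ρ ≤ 2 * N * ρ := by
          apply mul_le_mul_of_nonneg_right _ hρ0
          linarith
        nlinarith)
      (by rw [hhc]; linarith)
    rw [← hQdef, ← hρdef, hhc, abs_of_pos hpos] at hlev
    obtain ⟨⟨u, hu⟩, hround, hdn⟩ := hlev
    have hupos : 1 ≤ u := by
      by_contra hcon
      have hle : u ≤ 0 := by omega
      have h6 : (Q:ℤ) * u ≤ 0 := mul_nonpos_of_nonneg_of_nonpos hQposZ.le hle
      have h7 : (0:ℤ) < (n:ℤ) - q' := by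
        have : (q':ℤ) < n := by exact_mod_cast h3
        omega
      omega
    have hdiv : ((n:ℤ) - (q':ℤ)) / (Q:ℤ) = u := by
      rw [hu]
      exact Int.mul_ediv_cancel_left _ hQposZ.ne'
    refine ⟨u, hupos, by rw [hu]; ring, ?_, ?_⟩
    · rw [hround, hdiv]
    · rw [hdn]
      have h8 : (n:ℝ) - q' = (u:ℝ) * Q := by
        rw [← hhc, hu]; push_cast; ring
      rw [h8]
      field_simp

end Vale.Agent.Lib.P028V
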