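import Vale.Agent.Lib.P028.Core1

/-! Shared definitions for the Vaaler-range theorem on the weak inhomogeneous problem. See notes/P028V_blueprint.md -/

open Finset

namespace Vale.Agent.Lib.P028V

open Vale.Agent.Lib.P028

/-- First return time below `τ` of the rotation by `γ`. -/
noncomputable def lvl (γ τ : ℝ) : ℕ := sInf {Q : ℕ | 1 ≤ Q ∧ dn ((Q:ℝ) * γ) < τ}

/-- The level of `q`: first return below `sqrt (ψ q)`. -/
noncomputable def Qlv (γ : ℝ) (ψ : ℕ → ℝ) (q : ℕ) : ℕ := lvl γ (Real.sqrt (ψ q))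

/-- The numerator of the level of `q`. -/
noncomputable def Pq (γ : ℝ) (ψ : ℕ → ℝ) (q : ℕ) : ℤ := round ((Qlv γ ψ q : ℝ) * γ)

/-- The allowed residues of `q`: `a < q` with `gcd (a Q + P, q) = 1`. -/
noncomputable def Ap (γ : ℝ) (ψ : ℕ → ℝ) (q : ℕ) : Finset ℕ :=
  (range q).filter (fun a => Int.gcd ((a:ℤ) * (Qlv γ ψ q : ℤ) + Pq γ ψ q) (q:ℤ) = 1)

/-- The function attached to `q`: sum of tents of half width `ψ q / q` around `(a + γ) / q`, `a` allowed. -/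
noncomputable def Phi (γ : ℝ) (ψ : ℕ → ℝ) (q : ℕ) (x : ℝ) : ℝ :=
  if 0 < ψ q then ∑ a ∈ Ap γ ψ q, tent (ψ q / q) (x - ((a:ℝ) + γ) / q) else 0

/-- The integral of `Phi`. -/
noncomputable def mass (γ : ℝ) (ψ : ℕ → ℝ) (q : ℕ) : ℝ := ((Ap γ ψ q).card : ℝ) / q * ψ q

/-- Pairs of allowed residues whose tents overlap. -/
noncomputable def Al (γ : ℝ) (ψ : ℕ → ℝ) (q r : ℕ) : Finset (ℕ × ℕ) :=
  ((Ap γ ψ q) ×ˢ (Ap γ ψ r)).filter fun ab =>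
    dn (((ab.1:ℝ) + γ) / q - ((ab.2:ℝ) + γ) / r) < ψ q / q + ψ r / r

/-- The overlap parameter `X = max (r' ψ q, q' ψ r)` with `q' = q / gcd`, `r' = r / gcd`. -/
noncomputable def XX (ψ : ℕ → ℝ) (q r : ℕ) : ℝ :=
  max (((r / Nat.gcd q r : ℕ) : ℝ) * ψ q) (((q / Nat.gcd q r : ℕ) : ℝ) * ψ r)

/-- The standing hypothesis. -/
structure Adm (ψ : ℕ → ℝ) : Prop where
  nonneg : ∀ q, 0 ≤ ψ q
  le : ∀ q : ℕ, 1 ≤ q → ψ q ≤ 1 / (q:ℝ)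

/-- Large prime factors carry small reciprocal sum. -/
def R1 (q z : ℕ) : Prop := ∑ p ∈ q.primeFactors.filter (fun p => z < p), (1:ℝ) / (p:ℝ) ≤ 1

/-- The divisor sum `∑_{d ∣ q} d^(-1/2)`. -/
noncomputable def Lam (q : ℕ) : ℝ := ∑ d ∈ q.divisors, 1 / Real.sqrt (d:ℝ)

/-- The level of regularity attached to block mass `M`. -/
noncomputable def zz (M : ℝ) : ℕ := ⌈2 + Real.log (16 / M)⌉₊

/-- The divisor tail `∑_{d ∣ q, d > D} 1 / d`. -/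
noncomputable def Tq (q : ℕ) (D : ℝ) : ℝ := ∑ d ∈ q.divisors.filter (fun d : ℕ => D < (d:ℝ)), 1 / (d:ℝ)

/-- The reduced density of allowed residues at the primes up to `z`. -/
noncomputable def Ez (γ : ℝ) (ψ : ℕ → ℝ) (z q : ℕ) : ℝ :=
  ∏ p ∈ q.primeFactors.filter (fun p => p ≤ z ∧ ¬ p ∣ Qlv γ ψ q), (1 - 1 / (p:ℝ))

/-- Pairs `q ∣ r` whose structured resonance is not removed by the allowed residues of `r`. -/
def LeftP (γ : ℝ) (ψ : ℕ → ℝ) (q r : ℕ) : Prop :=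
  q ∣ r ∧ ψ r / (r:ℝ) ≤ ψ q / (q:ℝ) ∧ Qlv γ ψ r ≠ Qlv γ ψ q ∧
    ((Qlv γ ψ q : ℤ) ∣ ((r / q : ℕ) : ℤ) - 1)

/-- The elements just below a threshold after a small level. -/
def UU (γ : ℝ) (ψ : ℕ → ℝ) (q : ℕ) : Prop :=
  (Qlv γ ψ q : ℝ) * ((q:ℝ) * ψ q) < 1 ∧
    ψ q < (3 + Real.log (1 / ((q:ℝ) * ψ q))) * (dn ((Qlv γ ψ q : ℝ) * γ)) ^ 2

/-- The negligible term in the count of structured pairs with `r` dominant. -/
noncomputable def negl (ψ : ℕ → ℝ) (q d k' : ℕ) : ℝ :=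
  if (d:ℝ) < 10 * Real.sqrt ((2:ℝ) ^ k') ∧ (4:ℝ) ^ k' < (q:ℝ) / ψ q then
    15 * ψ q * Real.sqrt ((2:ℝ) ^ k') / (q:ℝ)
  else 0

end Vale.Agent.Lib.P028V
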