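import Vale.Agent.Lib.P028V.Clean
import Vale.Agent.Lib.P028V.Level

/-! Module K. The pairs of type `LeftP`. -/

open Finset
open scoped Classical

namespace Vale.Agent.Lib.P028V

open Vale.Agent.Lib.P028

variable {γ : ℝ} {ψ : ℕ → ℝ}

private lemma left_num (k : ℕ) (hk : 40 ≤ k) : (16 * (3 * (k:ℝ) + 3) ^ 2) ^ 2 ≤ (2:ℝ) ^ k := by
  induction k, hk using Nat.le_induction with
  | base => norm_num
  | succ n hn ih =>
    have hn' : (40:ℝ) ≤ n := by exact_mod_cast hn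
    have ht : (123:ℝ) ≤ 3 * (n:ℝ) + 3 := by linarith
    set t : ℝ := 3 * (n:ℝ) + 3 with ht_def
    have e : 3 * ((n + 1 : ℕ) : ℝ) + 3 = t + 3 := by push_cast; rw [ht_def]; ring
    rw [e]
    have h1 : (t + 3) ^ 4 ≤ 2 * t ^ 4 := by
      have h3 : t ^ 3 * 123 ≤ t ^ 4 := by
        have : t ^ 4 = t ^ 3 * t := by ring
        rw [this]
        exact mul_le_mul_of_nonneg_left ht (by positivity)
      have h2 : t ^ 2 * 123 ≤ t ^ 3 := by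
        have : t ^ 3 = t ^ 2 * t := by ring
        rw [this]
        exact mul_le_mul_of_nonneg_left ht (by positivity)
      have h4 : t * 123 ≤ t ^ 2 := by
        have : t ^ 2 = t * t := by ring
        rw [this]
        exact mul_le_mul_of_nonneg_left ht (by positivity)
      nlinarith
    have e1 : (16 * (t + 3) ^ 2) ^ 2 = 256 * (t + 3) ^ 4 := by ring
    have e2 : (16 * t ^ 2) ^ 2 = 256 * t ^ 4 := by ring
    have e3 : (2:ℝ) ^ (n + 1) = 2 * 2 ^ n := by ring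
    rw [e1, e3]
    rw [e2] at ih
    linarith

private lemma left_sqrt (k : ℕ) (hk : 40 ≤ k) :
    16 * (3 * (k:ℝ) + 3) ^ 2 ≤ Real.sqrt ((2:ℝ) ^ k) :=
  Real.le_sqrt_of_sq_le (left_num k hk)

/-- Non divisibility gives a lower bound for the distance to the nearest integer. -/
private lemma dn_ge_of_not_dvd {h Q : ℤ} (hQ : 0 < Q) (hd : ¬ Q ∣ h) :
    1 / (Q:ℝ) ≤ dn ((h:ℝ) / Q) := by
  have hQ' : (0:ℝ) < Q := by exact_mod_cast hQ
  unfold dn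
  set w : ℤ := round ((h:ℝ) / Q) with hw
  have e : (h:ℝ) / Q - w = ((h - w * Q : ℤ) : ℝ) / Q := by
    push_cast
    field_simp
  rw [e, abs_div, abs_of_pos hQ']
  apply div_le_div_of_nonneg_right _ hQ'.le
  have hne : h - w * Q ≠ 0 := by
    intro h0
    apply hd
    exact ⟨w, by linarith⟩
  have : (1:ℤ) ≤ |h - w * Q| := Int.one_le_abs hne
  have h2 : ((|h - w * Q| : ℤ) : ℝ) = |((h - w * Q : ℤ) : ℝ)| := by push_cast; rfl
  rw [← h2]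
  exact_mod_cast this

/-- A first return `Q` does not divide `N`: then `1 / Q ≤ dn (N γ) + N dn (Q γ) / Q`. -/
private lemma frac_bound (γ : ℝ) {t : ℝ} (ht : 0 < t) {N : ℕ} (hN : ¬ lvl γ t ∣ N) :
    1 / (lvl γ t : ℝ) ≤ dn ((N:ℝ) * γ) + (N:ℝ) * dn ((lvl γ t : ℝ) * γ) / (lvl γ t : ℝ) := by
  obtain ⟨h1, -, -⟩ := lvl_spec γ ht
  have hcop := lvl_coprime γ ht
  set Q := lvl γ t with hQdef
  set P : ℤ := round ((Q:ℝ) * γ) with hP
  have hQpos : (0:ℝ) < Q := by exact_mod_cast h1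
  have hQi : (0:ℤ) < (Q:ℤ) := by exact_mod_cast h1
  have hnd : ¬ (Q:ℤ) ∣ (N:ℤ) * P := by
    intro hd
    apply hN
    have := hcop.symm.dvd_of_dvd_mul_right hd
    exact_mod_cast this
  have h2 := dn_ge_of_not_dvd hQi hnd
  have h3 := dn_lip (((N:ℤ) * P : ℤ) / ((Q:ℤ):ℝ)) ((N:ℝ) * γ)
  have e : ((((N:ℤ) * P : ℤ) : ℝ) / ((Q:ℤ):ℝ)) - (N:ℝ) * γ
      = - ((N:ℝ) * ((Q:ℝ) * γ - P) / Q) := by
    push_cast
    field_simp
    ring
  have e3 : |((((N:ℤ) * P : ℤ) : ℝ) / ((Q:ℤ):ℝ)) - (N:ℝ) * γ|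
      = (N:ℝ) * dn ((Q:ℝ) * γ) / Q := by
    rw [e, abs_neg, abs_div, abs_mul, abs_of_pos hQpos, abs_of_nonneg (Nat.cast_nonneg N)]
    rfl
  rw [e3] at h3
  have h4 := (abs_le.1 h3).2
  have h5 : (((Q:ℤ):ℝ)) = (Q:ℝ) := by push_cast; rfl
  rw [h5] at h2 h4
  linarith

private lemma sum_inv_sq_gt {S : Finset ℕ} {N : ℕ} (hN : 1 ≤ N) (hS : ∀ n ∈ S, N < n) :
    ∑ n ∈ S, 1 / (n:ℝ) ^ 2 ≤ 1 / (N:ℝ) := by
  set B := S.sup id + N + 1 with hB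
  have hsub : S ⊆ Ioc N B := by
    intro n hn
    rw [mem_Ioc]
    refine ⟨hS n hn, ?_⟩
    have : n ≤ S.sup id := Finset.le_sup (f := id) hn
    omega
  have h1 : ∑ n ∈ S, 1 / (n:ℝ) ^ 2 ≤ ∑ n ∈ Ioc N B, 1 / (n:ℝ) ^ 2 :=
    Finset.sum_le_sum_of_subset_of_nonneg hsub (fun _ _ _ => by positivity)
  have h2 := sum_Ioc_inv_sq_le_sub (α := ℝ) (k := N) (n := B) (by omega) (by omega)
  have h3 : ∑ n ∈ Ioc N B, 1 / (n:ℝ) ^ 2 = ∑ i ∈ Ioc N B, ((i:ℝ) ^ 2)⁻¹ := by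
    apply Finset.sum_congr rfl
    intro x _
    rw [one_div]
  have h4 : (0:ℝ) ≤ ((B:ℝ))⁻¹ := by positivity
  have h5 : 1 / (N:ℝ) = (N:ℝ)⁻¹ := one_div _
  rw [h5]
  linarith

private lemma sum_inv_le_log {S : Finset ℕ} {N : ℕ} (hS : ∀ n ∈ S, 1 ≤ n ∧ n ≤ N) :
    ∑ n ∈ S, 1 / (n:ℝ) ≤ 1 + Real.log N := by
  have hsub : S ⊆ Icc 1 N := by
    intro n hn
    rw [mem_Icc]
    exact hS n hn
  have h1 : ∑ n ∈ S, 1 / (n:ℝ) ≤ ∑ n ∈ Icc 1 N, 1 / (n:ℝ) :=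
    Finset.sum_le_sum_of_subset_of_nonneg hsub (fun _ _ _ => by positivity)
  have h2 : ((harmonic N : ℚ) : ℝ) ≤ 1 + Real.log N := harmonic_le_one_add_log N
  have h3 : ((harmonic N : ℚ) : ℝ) = ∑ n ∈ Icc 1 N, 1 / (n:ℝ) := by
    rw [harmonic_eq_sum_Icc]
    push_cast
    apply Finset.sum_congr rfl
    intro x _
    rw [one_div]
  linarith

/-- The sum of `min (1 / n ^ 2) (c / n)` over any set of positive integers. -/
private lemma sum_min_le {S : Finset ℕ} {c : ℝ} (hc : 0 < c) (hc1 : c ≤ 1) (hS : ∀ n ∈ S, 1 ≤ n) :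
    ∑ n ∈ S, min (1 / (n:ℝ) ^ 2) (c / (n:ℝ)) ≤ c * (3 + Real.log (1 / c)) := by
  set N : ℕ := ⌊1 / c⌋₊ with hN
  have h1c : 1 ≤ 1 / c := by rw [le_div_iff₀ hc]; linarith
  have hN1 : 1 ≤ N := by
    rw [hN]
    exact Nat.le_floor (by simpa using h1c)
  have hNle : (N:ℝ) ≤ 1 / c := Nat.floor_le (by positivity)
  have hNlt : 1 / c < (N:ℝ) + 1 := Nat.lt_floor_add_one _
  have hNpos : (0:ℝ) < N := by exact_mod_cast hN1
  have hN1' : (1:ℝ) ≤ N := by exact_mod_cast hN1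
  have hlogN : Real.log N ≤ Real.log (1 / c) := Real.log_le_log hNpos hNle
  have hNinv : 1 / (N:ℝ) ≤ 2 * c := by
    rw [div_le_iff₀ hNpos]
    have : 1 < ((N:ℝ) + 1) * c := by
      have := (div_lt_iff₀ hc).1 hNlt
      linarith
    nlinarith
  rw [← Finset.sum_filter_add_sum_filter_not S (fun n => n ≤ N)]
  have hlow : ∑ n ∈ S.filter (fun n => n ≤ N), min (1 / (n:ℝ) ^ 2) (c / (n:ℝ))
      ≤ c * (1 + Real.log (1 / c)) := by
    calc ∑ n ∈ S.filter (fun n => n ≤ N), min (1 / (n:ℝ) ^ 2) (c / (n:ℝ))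
        ≤ ∑ n ∈ S.filter (fun n => n ≤ N), c * (1 / (n:ℝ)) := by
          apply Finset.sum_le_sum
          intro n _
          refine (min_le_right _ _).trans (le_of_eq ?_)
          ring
      _ = c * ∑ n ∈ S.filter (fun n => n ≤ N), 1 / (n:ℝ) := by rw [Finset.mul_sum]
      _ ≤ c * (1 + Real.log N) := by
          apply mul_le_mul_of_nonneg_left _ hc.le
          apply sum_inv_le_log
          intro n hn
          rw [mem_filter] at hn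
          exact ⟨hS n hn.1, hn.2⟩
      _ ≤ c * (1 + Real.log (1 / c)) := by
          apply mul_le_mul_of_nonneg_left _ hc.le
          linarith
  have hhigh : ∑ n ∈ S.filter (fun n => ¬ n ≤ N), min (1 / (n:ℝ) ^ 2) (c / (n:ℝ)) ≤ 2 * c := by
    calc ∑ n ∈ S.filter (fun n => ¬ n ≤ N), min (1 / (n:ℝ) ^ 2) (c / (n:ℝ))
        ≤ ∑ n ∈ S.filter (fun n => ¬ n ≤ N), 1 / (n:ℝ) ^ 2 :=
          Finset.sum_le_sum (fun n _ => min_le_left _ _)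
      _ ≤ 1 / (N:ℝ) := by
          apply sum_inv_sq_gt hN1
          intro n hn
          rw [mem_filter] at hn
          omega
      _ ≤ 2 * c := hNinv
  nlinarith

/-- The bound `√ (ψ x) ≤ 1 / √ (2 ^ k)` for `x` at least `2 ^ k`. -/
private lemma sqrt_psi_le (hψ : Adm ψ) {k x : ℕ} (hx : 2 ^ k ≤ x) :
    Real.sqrt (ψ x) ≤ 1 / Real.sqrt ((2:ℝ) ^ k) := by
  have hx1 : 1 ≤ x := le_trans Nat.one_le_two_pow hx
  have h1 : ψ x ≤ 1 / (x:ℝ) := hψ.le x hx1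
  have hxr : ((2:ℝ) ^ k) ≤ (x:ℝ) := by exact_mod_cast hx
  have h2 : 1 / (x:ℝ) ≤ 1 / (2:ℝ) ^ k := one_div_le_one_div_of_le (by positivity) hxr
  have h3 : Real.sqrt (ψ x) ≤ Real.sqrt (1 / (2:ℝ) ^ k) := Real.sqrt_le_sqrt (h1.trans h2)
  rwa [Real.sqrt_div' _ (by positivity), Real.sqrt_one] at h3

set_option maxHeartbeats 600000 in
/-- No element of type `UU` can occur after a small level of `q`. -/
private lemma left_uu_false (hψ : Adm ψ) {k q r k' : ℕ} {M' : ℝ} (hk : 40 ≤ k) (hqlo : 2 ^ k ≤ q)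
    (hqhi : q < 2 ^ (k + 1)) (hψq : 0 < ψ q) (hak : 1 / (8 * (k:ℝ) ^ 2) ≤ (q:ℝ) * ψ q)
    (hcase' : ((Qlv γ ψ q : ℕ) : ℝ) * ((q:ℝ) * ψ q) < 1) (hqr : q < r) (hc' : Clean ψ k' M' r)
    (hM'0 : 0 < M') (hM'k : 1 / (k':ℝ) ^ 2 ≤ M') (hU : UU γ ψ r) (hdvd : q ∣ r)
    (hX : XX ψ q r < 1 / 64) (hlt : Qlv γ ψ q < Qlv γ ψ r) : False := by
  have hk1 : (1:ℝ) ≤ k := by
    have : 1 ≤ k := by omega
    exact_mod_cast this
  have hq1 : 1 ≤ q := le_trans Nat.one_le_two_pow hqlo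
  have hq0 : (0:ℝ) < q := by exact_mod_cast hq1
  have hq2 : (0:ℝ) < (q:ℝ) ^ 2 := by positivity
  set a : ℝ := (q:ℝ) * ψ q with ha_def
  set w : ℝ := Real.sqrt ((2:ℝ) ^ k) with hw_def
  have hw : 16 * (3 * (k:ℝ) + 3) ^ 2 ≤ w := left_sqrt k hk
  have hw0 : 0 < w := by
    have : 0 < 16 * (3 * (k:ℝ) + 3) ^ 2 := by positivity
    linarith
  have hk2 : 16 * (k:ℝ) ^ 2 ≤ w := by nlinarith
  set τq : ℝ := Real.sqrt (ψ q) with hτq
  have hτq0 : 0 < τq := Real.sqrt_pos.2 hψq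
  have hτqw : τq ≤ 1 / w := sqrt_psi_le hψ hqlo
  set Q0 : ℕ := Qlv γ ψ q with hQ0
  have hQ0eq : Q0 = lvl γ τq := rfl
  obtain ⟨hQ01, hQ0d, -⟩ := lvl_spec γ hτq0
  rw [← hQ0eq] at hQ01 hQ0d
  have hQ0pos : (0:ℝ) < Q0 := by exact_mod_cast hQ01
  set ρ0 : ℝ := dn ((Q0:ℝ) * γ) with hρ0
  have hψr : 0 < ψ r := hc'.pos
  set τr : ℝ := Real.sqrt (ψ r) with hτr
  have hτr0 : 0 < τr := Real.sqrt_pos.2 hψr
  have hrk : 2 ^ k ≤ r := by omega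
  have hτrw : τr ≤ 1 / w := sqrt_psi_le hψ hrk
  have hQr : Qlv γ ψ r = lvl γ τr := rfl
  obtain ⟨hQr1, hQrd, -⟩ := lvl_spec γ hτr0
  rw [← hQr] at hQr1 hQrd
  have hQrpos : (0:ℝ) < Qlv γ ψ r := by exact_mod_cast hQr1
  -- bound for `k'`
  have hr1' : r < 2 ^ (k' + 1) := hc'.hi
  have hr2' : 2 ^ k' ≤ r := hc'.lo
  have hk'1 : 1 ≤ k' := by
    by_contra hcon
    have : k' = 0 := by omega
    rw [this] at hr1'
    have h40 : 1 ≤ 2 ^ k := Nat.one_le_two_pow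
    omega
  have hk'0 : (0:ℝ) < k' := by exact_mod_cast hk'1
  -- `n ψ q < 1 / 64`
  have hdq : Nat.gcd q r = q := Nat.gcd_eq_left hdvd
  have hn64 : ((r / q : ℕ) : ℝ) * ψ q < 1 / 64 := by
    have := le_max_left (((r / Nat.gcd q r : ℕ) : ℝ) * ψ q) (((q / Nat.gcd q r : ℕ) : ℝ) * ψ r)
    rw [hdq] at this
    have hX' : XX ψ q r < 1 / 64 := hX
    unfold XX at hX'
    rw [hdq] at hX'
    linarith
  have hrcast : (r:ℝ) = (q:ℝ) * ((r / q : ℕ) : ℝ) := by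
    have he : q * (r / q) = r := Nat.mul_div_cancel' hdvd
    have : ((q * (r / q) : ℕ) : ℝ) = (r:ℝ) := by rw [he]
    rw [← this]
    push_cast
    rfl
  have hkk : (k:ℝ) ^ 2 ≤ (2:ℝ) ^ k := by
    have h1 := left_num k hk
    nlinarith [sq_nonneg ((k:ℝ) ^ 2), sq_nonneg ((3 * (k:ℝ) + 3) ^ 2)]
  have hn0 : (0:ℝ) ≤ ((r / q : ℕ) : ℝ) := Nat.cast_nonneg _
  have hk20 : (0:ℝ) < 8 * (k:ℝ) ^ 2 := by positivity
  have hra : (r:ℝ) * a < (q:ℝ) ^ 2 / 64 := by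
    rw [hrcast, ha_def]
    have : (q:ℝ) * ((r / q : ℕ) : ℝ) * ((q:ℝ) * ψ q) = (q:ℝ) ^ 2 * (((r / q : ℕ) : ℝ) * ψ q) := by ring
    rw [this]
    have h64 := mul_lt_mul_of_pos_left hn64 hq2
    linarith
  have hrq : (r:ℝ) < (q:ℝ) ^ 2 * (k:ℝ) ^ 2 / 8 := by
    have h1 : 1 ≤ a * (8 * (k:ℝ) ^ 2) := by
      rw [div_le_iff₀ hk20] at hak
      exact hak
    have hr0 : (0:ℝ) ≤ r := Nat.cast_nonneg _
    have h2 : (r:ℝ) ≤ (r:ℝ) * a * (8 * (k:ℝ) ^ 2) := by nlinarith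
    have h3 : (r:ℝ) * a * (8 * (k:ℝ) ^ 2) < (q:ℝ) ^ 2 / 64 * (8 * (k:ℝ) ^ 2) :=
      mul_lt_mul_of_pos_right hra hk20
    have h4 : (q:ℝ) ^ 2 / 64 * (8 * (k:ℝ) ^ 2) = (q:ℝ) ^ 2 * (k:ℝ) ^ 2 / 8 := by ring
    linarith
  have hqr2 : (q:ℝ) ^ 2 ≤ 4 * (4:ℝ) ^ k := by
    have h1 : (q:ℝ) ≤ (2:ℝ) ^ (k + 1) := by exact_mod_cast hqhi.le
    have h2 : (q:ℝ) ^ 2 ≤ ((2:ℝ) ^ (k + 1)) ^ 2 := pow_le_pow_left₀ hq0.le h1 2
    have h3 : ((2:ℝ) ^ (k + 1)) ^ 2 = 4 * (4:ℝ) ^ k := by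
      have : (4:ℝ) = 2 ^ 2 := by norm_num
      rw [this, ← pow_mul, ← pow_mul]
      ring
    linarith
  have hk'le : k' ≤ 3 * k + 3 := by
    by_contra hcon
    have h3 : 3 * k + 4 ≤ k' := by omega
    have h4 : (2:ℝ) ^ (3 * k + 4) ≤ (r:ℝ) := by
      have : 2 ^ (3 * k + 4) ≤ r := le_trans (Nat.pow_le_pow_right (by norm_num) h3) hr2'
      exact_mod_cast this
    have h5 : (2:ℝ) ^ (3 * k + 4) = 16 * ((4:ℝ) ^ k * (2:ℝ) ^ k) := by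
      have : (4:ℝ) = 2 ^ 2 := by norm_num
      rw [this, ← pow_mul, ← pow_add]
      have : 3 * k + 4 = (2 * k + k) + 4 := by ring
      rw [this, pow_add]
      ring
    have h6 : (r:ℝ) < 4 * (4:ℝ) ^ k * (k:ℝ) ^ 2 / 8 := by
      have h7 : (q:ℝ) ^ 2 * (k:ℝ) ^ 2 ≤ 4 * (4:ℝ) ^ k * (k:ℝ) ^ 2 :=
        mul_le_mul_of_nonneg_right hqr2 (by positivity)
      linarith
    have h8 : (0:ℝ) < (4:ℝ) ^ k := by positivity
    have h9 : (0:ℝ) < (2:ℝ) ^ k := by positivity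
    have h10 := mul_le_mul_of_nonneg_left hkk h8.le
    have h11 := mul_pos h8 h9
    rw [h5] at h4
    have h12 : 4 * (4:ℝ) ^ k * (k:ℝ) ^ 2 / 8 = (4:ℝ) ^ k * (k:ℝ) ^ 2 / 2 := by ring
    rw [h12] at h6
    linarith
  have hk'r : (k':ℝ) ≤ 3 * (k:ℝ) + 3 := by exact_mod_cast hk'le
  have hQrup : ((Qlv γ ψ r : ℕ) : ℝ) < 8 * (3 * (k:ℝ) + 3) ^ 2 := by
    have h1 : (Qlv γ ψ r : ℝ) * ((r:ℝ) * ψ r) < 1 := hU.1
    have h2 : M' / 8 ≤ (r:ℝ) * ψ r := hc'.alow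
    have h3 : 1 / (8 * (k':ℝ) ^ 2) ≤ (r:ℝ) * ψ r := by
      have : 1 / (8 * (k':ℝ) ^ 2) = (1 / (k':ℝ) ^ 2) / 8 := by field_simp
      rw [this]
      linarith
    have h4 : (Qlv γ ψ r : ℝ) * (1 / (8 * (k':ℝ) ^ 2)) < 1 :=
      lt_of_le_of_lt (mul_le_mul_of_nonneg_left h3 hQrpos.le) h1
    have h5 : (0:ℝ) < 8 * (k':ℝ) ^ 2 := by positivity
    have h6 : (Qlv γ ψ r : ℝ) < 8 * (k':ℝ) ^ 2 := by
      rw [mul_one_div, div_lt_one h5] at h4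
      exact h4
    have h7 : (k':ℝ) ^ 2 ≤ (3 * (k:ℝ) + 3) ^ 2 := pow_le_pow_left₀ hk'0.le hk'r 2
    linarith
  have hQ0up : (Q0:ℝ) < 8 * (k:ℝ) ^ 2 := by
    have h3 : (Q0:ℝ) * (1 / (8 * (k:ℝ) ^ 2)) < 1 :=
      lt_of_le_of_lt (mul_le_mul_of_nonneg_left hak hQ0pos.le) hcase'
    rwa [mul_one_div, div_lt_one hk20] at h3
  have hnd : ¬ lvl γ τr ∣ Q0 := by
    intro hd
    have := Nat.le_of_dvd (by omega) hd
    rw [← hQr] at this
    omega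
  have hb := frac_bound γ hτr0 hnd
  rw [← hQr] at hb
  have hb2 : 1 ≤ ((Qlv γ ψ r : ℕ) : ℝ) * ρ0 + (Q0:ℝ) * dn (((Qlv γ ψ r : ℕ) : ℝ) * γ) := by
    have h1 : 1 / ((Qlv γ ψ r : ℕ) : ℝ) * ((Qlv γ ψ r : ℕ) : ℝ) = 1 := by
      field_simp
    have h2 := mul_le_mul_of_nonneg_right hb hQrpos.le
    rw [h1] at h2
    have h3 : (dn ((Q0:ℝ) * γ) + (Q0:ℝ) * dn (((Qlv γ ψ r : ℕ) : ℝ) * γ) / ((Qlv γ ψ r : ℕ) : ℝ))
        * ((Qlv γ ψ r : ℕ) : ℝ)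
        = ((Qlv γ ψ r : ℕ) : ℝ) * dn ((Q0:ℝ) * γ) + (Q0:ℝ) * dn (((Qlv γ ψ r : ℕ) : ℝ) * γ) := by
      field_simp
    rw [h3] at h2
    exact h2
  have h1w : ρ0 ≤ 1 / w := by
    have : ρ0 < τq := hQ0d
    linarith
  have h2w : dn (((Qlv γ ψ r : ℕ) : ℝ) * γ) ≤ 1 / w := by linarith
  have h3w : ((Qlv γ ψ r : ℕ) : ℝ) * ρ0 ≤ ((Qlv γ ψ r : ℕ) : ℝ) * (1 / w) :=
    mul_le_mul_of_nonneg_left h1w hQrpos.le
  have h4w : (Q0:ℝ) * dn (((Qlv γ ψ r : ℕ) : ℝ) * γ) ≤ (Q0:ℝ) * (1 / w) :=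
    mul_le_mul_of_nonneg_left h2w hQ0pos.le
  have h5w : ((Qlv γ ψ r : ℕ) : ℝ) * (1 / w) + (Q0:ℝ) * (1 / w) < 1 := by
    have : ((Qlv γ ψ r : ℕ) : ℝ) * (1 / w) + (Q0:ℝ) * (1 / w)
        = (((Qlv γ ψ r : ℕ) : ℝ) + (Q0:ℝ)) / w := by ring
    rw [this, div_lt_one hw0]
    nlinarith
  linarith

theorem left_sum (hψ : Adm ψ) : ∃ k₀ : ℕ, ∀ (k : ℕ) (M : ℝ) (q : ℕ) (F : Finset ℕ), k₀ ≤ k →
    Clean ψ k M q → 0 < M → M ≤ 1 → 1 / (k:ℝ) ^ 2 ≤ M →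
    (∀ r ∈ F, q < r ∧ ∃ (k' : ℕ) (M' : ℝ), Clean ψ k' M' r ∧ 0 < M' ∧ 1 / (k':ℝ) ^ 2 ≤ M') →
    (¬ UU γ ψ q ∨ ∀ r ∈ F, UU γ ψ r) →
    ∑ r ∈ F.filter (fun r => LeftP γ ψ q r ∧ XX ψ q r < 1 / 64),
        ((Ap γ ψ q).card : ℝ) * (ψ r / r)
      ≤ 2 * mass γ ψ q := by
  refine ⟨40, ?_⟩
  intro k M q F hk hcl hM0 hM1 hMk hF hUU
  have hk1 : (1:ℝ) ≤ k := by
    have : 1 ≤ k := by omega
    exact_mod_cast this
  have hqlo : 2 ^ k ≤ q := hcl.lo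
  have hqhi : q < 2 ^ (k + 1) := hcl.hi
  have hq1 : 1 ≤ q := le_trans Nat.one_le_two_pow hqlo
  have hq0 : (0:ℝ) < q := by exact_mod_cast hq1
  have hψq : 0 < ψ q := hcl.pos
  set a : ℝ := (q:ℝ) * ψ q with ha_def
  have ha0 : 0 < a := by positivity
  have ha1 : a ≤ 1 := by
    have := hψ.le q hq1
    rw [ha_def]
    calc (q:ℝ) * ψ q ≤ (q:ℝ) * (1 / q) := mul_le_mul_of_nonneg_left this hq0.le
      _ = 1 := by field_simp
  have hak : 1 / (8 * (k:ℝ) ^ 2) ≤ a := by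
    have h1 := hcl.alow
    have : 1 / (8 * (k:ℝ) ^ 2) = (1 / (k:ℝ) ^ 2) / 8 := by field_simp
    rw [this]
    linarith
  set w : ℝ := Real.sqrt ((2:ℝ) ^ k) with hw_def
  have hw : 16 * (3 * (k:ℝ) + 3) ^ 2 ≤ w := left_sqrt k hk
  have hw0 : 0 < w := by
    have : 0 < 16 * (3 * (k:ℝ) + 3) ^ 2 := by positivity
    linarith
  have hk2 : 16 * (k:ℝ) ^ 2 ≤ w := by nlinarith
  -- the level of `q`
  set τq : ℝ := Real.sqrt (ψ q) with hτq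
  have hτq0 : 0 < τq := Real.sqrt_pos.2 hψq
  have hτqw : τq ≤ 1 / w := sqrt_psi_le hψ hqlo
  set Q0 : ℕ := Qlv γ ψ q with hQ0
  have hQ0eq : Q0 = lvl γ τq := rfl
  obtain ⟨hQ01, hQ0d, hQ0m⟩ := lvl_spec γ hτq0
  rw [← hQ0eq] at hQ01 hQ0d hQ0m
  have hQ0pos : (0:ℝ) < Q0 := by exact_mod_cast hQ01
  set ρ0 : ℝ := dn ((Q0:ℝ) * γ) with hρ0
  have hρ0nn : 0 ≤ ρ0 := dn_nonneg _
  -- reduction to a bound for the sum of `ψ r / r`
  set G : Finset ℕ := F.filter (fun r => LeftP γ ψ q r ∧ XX ψ q r < 1 / 64) with hG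
  suffices hsum : ∑ r ∈ G, ψ r / r ≤ 2 * (ψ q / q) by
    rw [← Finset.mul_sum]
    have hc : (0:ℝ) ≤ ((Ap γ ψ q).card : ℝ) := Nat.cast_nonneg _
    calc ((Ap γ ψ q).card : ℝ) * ∑ r ∈ G, ψ r / r
        ≤ ((Ap γ ψ q).card : ℝ) * (2 * (ψ q / q)) := mul_le_mul_of_nonneg_left hsum hc
      _ = 2 * mass γ ψ q := by
          unfold mass
          ring
  -- elementary facts on the elements of `G`
  have hGmem : ∀ r ∈ G, r ∈ F ∧ LeftP γ ψ q r ∧ XX ψ q r < 1 / 64 := by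
    intro r hr
    rw [hG, mem_filter] at hr
    exact ⟨hr.1, hr.2.1, hr.2.2⟩
  have hGn : ∀ r ∈ G, q * (r / q) = r ∧ 2 ≤ r / q ∧ Q0 + 1 ≤ r / q := by
    intro r hr
    obtain ⟨hrF, hL, -⟩ := hGmem r hr
    have hqr := (hF r hrF).1
    have hdvd : q ∣ r := hL.1
    have he : q * (r / q) = r := Nat.mul_div_cancel' hdvd
    have h2 : 2 ≤ r / q := by
      by_contra hcon
      have : r / q ≤ 1 := by omega
      have : q * (r / q) ≤ q * 1 := Nat.mul_le_mul_left q this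
      omega
    refine ⟨he, h2, ?_⟩
    have hd : (Q0:ℤ) ∣ ((r / q : ℕ) : ℤ) - 1 := hL.2.2.2
    have hpos : (0:ℤ) < ((r / q : ℕ) : ℤ) - 1 := by
      have : (2:ℤ) ≤ ((r / q : ℕ) : ℤ) := by exact_mod_cast h2
      omega
    have := Int.le_of_dvd hpos hd
    omega
  have hGinj : Set.InjOn (fun r => r / q) (G : Set ℕ) := by
    intro r1 h1 r2 h2 he
    have h1' := (hGn r1 h1).1
    have h2' := (hGn r2 h2).1
    simp only at he
    rw [← h1', ← h2', he]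
  set S : Finset ℕ := G.image (fun r => r / q) with hS
  have hcast : ∀ r ∈ G, (r:ℝ) = (q:ℝ) * ((r / q : ℕ) : ℝ) := by
    intro r hr
    obtain ⟨he, -, -⟩ := hGn r hr
    have : ((q * (r / q) : ℕ) : ℝ) = (r:ℝ) := by rw [he]
    rw [← this]
    push_cast
    rfl
  have hGr1 : ∀ r ∈ G, 1 ≤ r ∧ (0:ℝ) < r := by
    intro r hr
    obtain ⟨hrF, -, -⟩ := hGmem r hr
    have hqr := (hF r hrF).1
    have hr1 : 1 ≤ r := by omega
    exact ⟨hr1, by exact_mod_cast hr1⟩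
  have hψr_le : ∀ r ∈ G, ψ r / r ≤ 1 / (q:ℝ) ^ 2 * (1 / ((r / q : ℕ) : ℝ) ^ 2) := by
    intro r hr
    obtain ⟨hr1, hr0⟩ := hGr1 r hr
    have h1 := hψ.le r hr1
    have hn0 : (0:ℝ) < ((r / q : ℕ) : ℝ) := by
      have := (hGn r hr).2.1
      have h2 : 0 < r / q := by omega
      exact_mod_cast h2
    have h3 : ψ r / r ≤ (1 / (r:ℝ)) / r := div_le_div_of_nonneg_right h1 hr0.le
    refine h3.trans (le_of_eq ?_)
    rw [hcast r hr]
    field_simp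
  have hsumS : ∀ f : ℕ → ℝ, ∑ r ∈ G, f (r / q) = ∑ n ∈ S, f n := by
    intro f
    rw [hS, Finset.sum_image hGinj]
  have hSmem : ∀ n ∈ S, 2 ≤ n ∧ Q0 + 1 ≤ n := by
    intro n hn
    rw [hS, mem_image] at hn
    obtain ⟨r, hr, rfl⟩ := hn
    exact (hGn r hr).2
  have hq2 : (0:ℝ) < (q:ℝ) ^ 2 := by positivity
  have hmain2 : ψ q / q = a / (q:ℝ) ^ 2 := by
    rw [ha_def]
    field_simp
  by_cases hcase : 1 ≤ (Q0:ℝ) * a
  · -- Case `Q0 a ≥ 1`.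
    have h1 : ∑ r ∈ G, ψ r / r ≤ 1 / (q:ℝ) ^ 2 * (1 / (Q0:ℝ)) := by
      calc ∑ r ∈ G, ψ r / r
          ≤ ∑ r ∈ G, 1 / (q:ℝ) ^ 2 * (1 / ((r / q : ℕ) : ℝ) ^ 2) := Finset.sum_le_sum hψr_le
        _ = ∑ n ∈ S, 1 / (q:ℝ) ^ 2 * (1 / (n:ℝ) ^ 2) :=
            hsumS (fun n => 1 / (q:ℝ) ^ 2 * (1 / (n:ℝ) ^ 2))
        _ = 1 / (q:ℝ) ^ 2 * ∑ n ∈ S, 1 / (n:ℝ) ^ 2 := by rw [Finset.mul_sum]
        _ ≤ 1 / (q:ℝ) ^ 2 * (1 / (Q0:ℝ)) := by
            apply mul_le_mul_of_nonneg_left _ (by positivity)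
            apply sum_inv_sq_gt hQ01
            intro n hn
            have := (hSmem n hn).2
            omega
    have h2 : 1 / (Q0:ℝ) ≤ a := by
      rw [div_le_iff₀ hQ0pos]
      linarith
    have h3 : 1 / (q:ℝ) ^ 2 * (1 / (Q0:ℝ)) ≤ 1 / (q:ℝ) ^ 2 * a :=
      mul_le_mul_of_nonneg_left h2 (by positivity)
    rw [hmain2]
    have h4 : 1 / (q:ℝ) ^ 2 * a = a / (q:ℝ) ^ 2 := by ring
    have h5 : 0 ≤ a / (q:ℝ) ^ 2 := by positivity
    linarith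
  · -- Case `Q0 a < 1`.
    have hcase' : (Q0:ℝ) * a < 1 := not_le.1 hcase
    have h1Q0 : a < 1 / (Q0:ℝ) := by
      rw [lt_div_iff₀ hQ0pos]
      linarith
    -- the levels of `r`
    have hlev : ∀ r ∈ G, Q0 < Qlv γ ψ r := by
      intro r hr
      obtain ⟨hrF, hL, -⟩ := hGmem r hr
      have hqr := (hF r hrF).1
      obtain ⟨-, k', M', hc', -, -⟩ := hF r hrF
      have hψr : 0 < ψ r := hc'.pos
      set τr : ℝ := Real.sqrt (ψ r) with hτr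
      have hτr0 : 0 < τr := Real.sqrt_pos.2 hψr
      have hrk : 2 ^ k ≤ r := by omega
      have hτrw : τr ≤ 1 / w := sqrt_psi_le hψ hrk
      have hne : Qlv γ ψ r ≠ Q0 := hL.2.2.1
      by_contra hcon
      have hlt : Qlv γ ψ r < Q0 := lt_of_le_of_ne (not_lt.1 hcon) hne
      have hQr : Qlv γ ψ r = lvl γ τr := rfl
      obtain ⟨hQr1, hQrd, -⟩ := lvl_spec γ hτr0
      rw [← hQr] at hQr1 hQrd
      have hnd : ¬ lvl γ τq ∣ Qlv γ ψ r := by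
        intro hd
        have := Nat.le_of_dvd (by omega) hd
        rw [← hQ0eq] at this
        omega
      have hb := frac_bound γ hτq0 hnd
      rw [← hQ0eq] at hb
      have h2 : ((Qlv γ ψ r : ℕ) : ℝ) * dn ((Q0:ℝ) * γ) / (Q0:ℝ) ≤ dn ((Q0:ℝ) * γ) := by
        rw [div_le_iff₀ hQ0pos]
        have : ((Qlv γ ψ r : ℕ) : ℝ) ≤ Q0 := by exact_mod_cast hlt.le
        nlinarith [dn_nonneg ((Q0:ℝ) * γ)]
      have h3 : 1 / (Q0:ℝ) < τr + τq := by linarith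
      have h4 : 1 / (8 * (k:ℝ) ^ 2) < 2 / w := by
        have : τr + τq ≤ 2 / w := by
          have : 2 / w = 1 / w + 1 / w := by ring
          linarith
        linarith
      have hk20 : (0:ℝ) < 8 * (k:ℝ) ^ 2 := by positivity
      rw [div_lt_div_iff₀ hk20 hw0] at h4
      linarith
    have hρψ : ∀ r ∈ G, ψ r ≤ ρ0 ^ 2 := by
      intro r hr
      obtain ⟨hrF, -, -⟩ := hGmem r hr
      obtain ⟨-, k', M', hc', -, -⟩ := hF r hrF
      have hψr : 0 < ψ r := hc'.pos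
      have hτr0 : 0 < Real.sqrt (ψ r) := Real.sqrt_pos.2 hψr
      obtain ⟨-, -, hm⟩ := lvl_spec γ hτr0
      have h1 := hm Q0 hQ01 (hlev r hr)
      have h2 : Real.sqrt (ψ r) ^ 2 = ψ r := Real.sq_sqrt hψr.le
      rw [← h2]
      exact pow_le_pow_left₀ (Real.sqrt_nonneg _) h1 2
    rcases hUU with hnU | hallU
    · -- `q` is not of type `UU`
      have hlarge : (3 + Real.log (1 / a)) * ρ0 ^ 2 ≤ ψ q := by
        by_contra hcon
        exact hnU ⟨hcase', not_le.1 hcon⟩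
      by_cases hGe : G = ∅
      · rw [hGe, Finset.sum_empty]
        positivity
      obtain ⟨r0, hr0⟩ := Finset.nonempty_iff_ne_empty.2 hGe
      have hρ0pos : 0 < ρ0 ^ 2 := by
        obtain ⟨hrF, -, -⟩ := hGmem r0 hr0
        obtain ⟨-, k', M', hc', -, -⟩ := hF r0 hrF
        exact lt_of_lt_of_le hc'.pos (hρψ r0 hr0)
      have hlog0 : 0 ≤ Real.log (1 / a) := Real.log_nonneg (by rw [le_div_iff₀ ha0]; linarith)
      set s : ℝ := ψ q / ρ0 ^ 2 with hs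
      have hs1 : 3 + Real.log (1 / a) ≤ s := by
        rw [hs, le_div_iff₀ hρ0pos]
        exact hlarge
      have hs3 : 3 ≤ s := by linarith
      have hs0 : 0 < s := by linarith
      set c : ℝ := a / s with hc
      have hc0 : 0 < c := by positivity
      have hc1 : c ≤ 1 := by
        rw [hc, div_le_iff₀ hs0]
        linarith
      have hterm : ∀ r ∈ G, ψ r / r ≤ 1 / (q:ℝ) ^ 2 *
          min (1 / ((r / q : ℕ) : ℝ) ^ 2) (c / ((r / q : ℕ) : ℝ)) := by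
        intro r hr
        obtain ⟨hr1, hr00⟩ := hGr1 r hr
        have hn0 : (0:ℝ) < ((r / q : ℕ) : ℝ) := by
          have := (hGn r hr).2.1
          have h2 : 0 < r / q := by omega
          exact_mod_cast h2
        have h1 : ψ r / r ≤ 1 / (q:ℝ) ^ 2 * (1 / ((r / q : ℕ) : ℝ) ^ 2) := hψr_le r hr
        have h2 : ψ r / r ≤ 1 / (q:ℝ) ^ 2 * (c / ((r / q : ℕ) : ℝ)) := by
          have h3 : ψ r ≤ ρ0 ^ 2 := hρψ r hr
          have h4 : ρ0 ^ 2 = ψ q / s := by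
            rw [hs]
            field_simp
          have h5 : 1 / (q:ℝ) ^ 2 * (c / ((r / q : ℕ) : ℝ)) = (ψ q / s) / r := by
            rw [hcast r hr, hc, ha_def]
            field_simp
          rw [h5, ← h4]
          exact div_le_div_of_nonneg_right h3 hr00.le
        have h6 : (0:ℝ) ≤ 1 / (q:ℝ) ^ 2 := by positivity
        rw [mul_min_of_nonneg _ _ h6]
        exact le_min h1 h2
      have hS1 : ∀ n ∈ S, 1 ≤ n := by
        intro n hn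
        have := (hSmem n hn).1
        omega
      have hbound : ∑ n ∈ S, min (1 / (n:ℝ) ^ 2) (c / (n:ℝ)) ≤ 2 * a := by
        have h1 := sum_min_le hc0 hc1 hS1
        have h2 : Real.log (1 / c) = Real.log (1 / a) + Real.log s := by
          rw [hc, one_div_div, div_eq_mul_one_div, mul_comm,
            Real.log_mul (by positivity) (by positivity)]
        have hlogs : Real.log s ≤ s := by
          have := Real.log_le_sub_one_of_pos hs0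
          linarith
        have h3 : c * (3 + Real.log (1 / c)) ≤ 2 * a := by
          rw [h2, hc]
          have h4 : a / s * (3 + (Real.log (1 / a) + Real.log s))
              = a * ((3 + Real.log (1 / a) + Real.log s) / s) := by ring
          rw [h4]
          have h5 : (3 + Real.log (1 / a) + Real.log s) / s ≤ 2 := by
            rw [div_le_iff₀ hs0]
            linarith
          nlinarith
        linarith
      calc ∑ r ∈ G, ψ r / r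
          ≤ ∑ r ∈ G, 1 / (q:ℝ) ^ 2 * min (1 / ((r / q : ℕ) : ℝ) ^ 2) (c / ((r / q : ℕ) : ℝ)) :=
            Finset.sum_le_sum hterm
        _ = ∑ n ∈ S, 1 / (q:ℝ) ^ 2 * min (1 / (n:ℝ) ^ 2) (c / (n:ℝ)) :=
            hsumS (fun n => 1 / (q:ℝ) ^ 2 * min (1 / (n:ℝ) ^ 2) (c / (n:ℝ)))
        _ = 1 / (q:ℝ) ^ 2 * ∑ n ∈ S, min (1 / (n:ℝ) ^ 2) (c / (n:ℝ)) := by rw [Finset.mul_sum]
        _ ≤ 1 / (q:ℝ) ^ 2 * (2 * a) := mul_le_mul_of_nonneg_left hbound (by positivity)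
        _ = 2 * (ψ q / q) := by
            rw [hmain2]
            ring
    · -- all `r` are of type `UU`: there is no `r`
      have hGe : G = ∅ := by
        apply Finset.eq_empty_of_forall_notMem
        intro r hr
        obtain ⟨hrF, hL, hX⟩ := hGmem r hr
        have hqr := (hF r hrF).1
        obtain ⟨-, k', M', hc', hM'0, hM'k⟩ := hF r hrF
        exact left_uu_false hψ hk hqlo hqhi hψq hak hcase' hqr hc' hM'0 hM'k (hallU r hrF) hL.1 hX (hlev r hr)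
      rw [hGe, Finset.sum_empty]
      positivity

end Vale.Agent.Lib.P028V
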