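import Vale.Agent.Lib.P028V.Far
import Vale.Agent.Lib.P028V.PhiBasics
import Vale.Agent.Lib.P028V.Level

/-! Module C. Mixing of the first moment for `Phi`. -/

open MeasureTheory intervalIntegral Finset

namespace Vale.Agent.Lib.P028V

open Vale.Agent.Lib.P028

variable {γ : ℝ} {ψ : ℕ → ℝ}

/-! ### Divisor count against the totient -/

private lemma sq_le_four_three_pow (j : ℕ) : (j + 2) ^ 2 ≤ 4 * 3 ^ j := by
  induction j with
  | zero => norm_num
  | succ j ih =>
    have : (j + 1 + 2) ^ 2 ≤ 3 * (j + 2) ^ 2 := by nlinarith [Nat.zero_le (j ^ 2), Nat.zero_le j]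
    calc (j + 1 + 2) ^ 2 ≤ 3 * (j + 2) ^ 2 := this
      _ ≤ 3 * (4 * 3 ^ j) := by omega
      _ = 4 * 3 ^ (j + 1) := by ring

private lemma sq_two_le (j : ℕ) : 2 * (j + 2) ^ 2 ≤ 9 * 2 ^ j := by
  induction j with
  | zero => norm_num
  | succ j ih =>
    rcases Nat.eq_zero_or_pos j with rfl | hj
    · norm_num
    · have : (j + 1 + 2) ^ 2 ≤ 2 * (j + 2) ^ 2 := by nlinarith
      calc 2 * (j + 1 + 2) ^ 2 ≤ 2 * (2 * (j + 2) ^ 2) := by omega
        _ ≤ 2 * (9 * 2 ^ j) := by omega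
        _ = 9 * 2 ^ (j + 1) := by ring

/-- The correction at the small primes. -/
private noncomputable def cc (n : ℕ) : ℝ :=
  (if 2 ∣ n then 9 else 1) * (if 3 ∣ n then 3 else 1) * (if 5 ∣ n then 5 / 4 else 1)

private lemma cc_pos (n : ℕ) : 0 < cc n := by
  unfold cc
  split_ifs <;> norm_num

private lemma cc_one_le (n : ℕ) : 1 ≤ cc n := by
  unfold cc
  split_ifs <;> norm_num

private lemma cc_le (n : ℕ) : cc n ≤ 34 := by
  unfold cc
  split_ifs <;> norm_num

private lemma ite_mul_coprime {p : ℕ} (hp : p.Prime) {a b : ℕ} (hab : a.Coprime b) (c : ℝ) :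
    (if p ∣ a * b then c else 1) = (if p ∣ a then c else 1) * (if p ∣ b then c else 1) := by
  by_cases ha : p ∣ a
  · have hb : ¬ p ∣ b := fun hb => hp.one_lt.ne' (Nat.eq_one_of_dvd_coprimes hab ha hb)
    simp [ha, hb, Dvd.dvd.mul_right ha b]
  · by_cases hb : p ∣ b
    · simp [ha, hb, Dvd.dvd.mul_left hb a]
    · have : ¬ p ∣ a * b := fun h => (hp.dvd_mul.mp h).elim ha hb
      simp [ha, hb, this]

private lemma cc_mul {a b : ℕ} (hab : a.Coprime b) : cc (a * b) = cc a * cc b := by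
  unfold cc
  rw [ite_mul_coprime Nat.prime_two hab, ite_mul_coprime Nat.prime_three hab,
    ite_mul_coprime Nat.prime_five hab]
  ring

private lemma cc_ge_of_dvd_two {n : ℕ} (h : 2 ∣ n) : 9 ≤ cc n := by
  unfold cc
  simp only [h, if_true]
  split_ifs <;> norm_num

private lemma cc_ge_of_dvd_three {n : ℕ} (h : 3 ∣ n) : 3 ≤ cc n := by
  unfold cc
  simp only [h, if_true]
  split_ifs <;> norm_num

private lemma cc_ge_of_dvd_five {n : ℕ} (h : 5 ∣ n) : 5 / 4 ≤ cc n := by
  unfold cc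
  simp only [h, if_true]
  split_ifs <;> norm_num

/-- The bound at prime powers. -/
private lemma pp_bound {p : ℕ} (hp : p.Prime) (j : ℕ) :
    (((j + 2 : ℕ) : ℝ)) ^ 2 * (p : ℝ) ≤ (p : ℝ) ^ j * ((p : ℝ) - 1) ^ 2 * cc (p ^ (j + 1)) := by
  have hp2 : 2 ≤ p := hp.two_le
  have hpR : (2 : ℝ) ≤ p := by exact_mod_cast hp2
  have hdvd : p ∣ p ^ (j + 1) := dvd_pow_self p (by omega)
  have h3 : (((j + 2 : ℕ) : ℝ)) ^ 2 ≤ 4 * 3 ^ j := by exact_mod_cast sq_le_four_three_pow j
  have hc1 := cc_one_le (p ^ (j + 1))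
  by_cases h2' : p = 2
  · subst h2'
    have hcc := cc_ge_of_dvd_two hdvd
    have h4 : 2 * (((j + 2 : ℕ) : ℝ)) ^ 2 ≤ 9 * 2 ^ j := by exact_mod_cast sq_two_le j
    push_cast at h4 ⊢
    have hpos : (0 : ℝ) < 2 ^ j := by positivity
    nlinarith
  by_cases h3' : p = 3
  · subst h3'
    have hcc := cc_ge_of_dvd_three hdvd
    push_cast at h3 ⊢
    have hpos : (0 : ℝ) < 3 ^ j := by positivity
    nlinarith
  by_cases h5' : p = 5
  · subst h5'
    have hcc := cc_ge_of_dvd_five hdvd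
    push_cast at h3 ⊢
    have h35 : (3 : ℝ) ^ j ≤ 5 ^ j := pow_le_pow_left₀ (by norm_num) (by norm_num) j
    have hpos : (0 : ℝ) < 5 ^ j := by positivity
    nlinarith
  · have hp7 : 7 ≤ p := by
      by_contra hlt
      have : p = 2 ∨ p = 3 ∨ p = 4 ∨ p = 5 ∨ p = 6 := by omega
      rcases this with h | h | h | h | h
      · exact h2' h
      · exact h3' h
      · subst h; norm_num at hp
      · exact h5' h
      · subst h; norm_num at hp
    have hpR7 : (7 : ℝ) ≤ p := by exact_mod_cast hp7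
    have h35 : (3 : ℝ) ^ j ≤ (p : ℝ) ^ j := pow_le_pow_left₀ (by norm_num) (by linarith) j
    have hq : 4 * (p : ℝ) ≤ ((p : ℝ) - 1) ^ 2 := by nlinarith
    have hpos : (0 : ℝ) < (p : ℝ) ^ j := by positivity
    have hppos : (0 : ℝ) < p := by linarith
    calc (((j + 2 : ℕ) : ℝ)) ^ 2 * (p : ℝ) ≤ (4 * (p : ℝ) ^ j) * (p : ℝ) := by
          apply mul_le_mul_of_nonneg_right _ hppos.le
          linarith
      _ = (p : ℝ) ^ j * (4 * (p : ℝ)) := by ring
      _ ≤ (p : ℝ) ^ j * ((p : ℝ) - 1) ^ 2 := by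
          apply mul_le_mul_of_nonneg_left hq hpos.le
      _ ≤ (p : ℝ) ^ j * ((p : ℝ) - 1) ^ 2 * cc (p ^ (j + 1)) := by
          have : 0 ≤ (p : ℝ) ^ j * ((p : ℝ) - 1) ^ 2 := by positivity
          nlinarith

/-- `τ(n)² n ≤ φ(n)² c(n)`. -/
private lemma tau_sq_le (n : ℕ) (hn : 1 ≤ n) :
    ((n.divisors.card : ℝ)) ^ 2 * (n : ℝ) ≤ ((Nat.totient n : ℝ)) ^ 2 * cc n := by
  induction n using Nat.recOnPosPrimePosCoprime with
  | prime_pow p k hp hk =>
    obtain ⟨j, rfl⟩ : ∃ j, k = j + 1 := ⟨k - 1, by omega⟩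
    have hp0 : (p : ℝ) ≠ 0 := by exact_mod_cast hp.ne_zero
    rw [Nat.divisors_prime_pow hp, Finset.card_map, Finset.card_range, Nat.totient_prime_pow hp (by omega)]
    have h1 := pp_bound hp j
    simp only [Nat.add_sub_cancel]
    have hpm : ((p - 1 : ℕ) : ℝ) = (p : ℝ) - 1 := by
      rw [Nat.cast_sub hp.one_le]; simp
    push_cast
    rw [hpm]
    have hpos : (0 : ℝ) ≤ (p : ℝ) ^ j := by positivity
    have h2 : ((j : ℝ) + 1 + 1) ^ 2 * (p : ℝ) ^ (j + 1)
        = (p : ℝ) ^ j * (((j + 2 : ℕ) : ℝ) ^ 2 * (p : ℝ)) := by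
      push_cast; ring
    have h3 : ((p : ℝ) ^ j * ((p : ℝ) - 1)) ^ 2 * cc (p ^ (j + 1))
        = (p : ℝ) ^ j * ((p : ℝ) ^ j * ((p : ℝ) - 1) ^ 2 * cc (p ^ (j + 1))) := by ring
    rw [h2, h3]
    exact mul_le_mul_of_nonneg_left h1 hpos
  | zero => omega
  | one => simp [cc]
  | coprime a b ha hb hab iha ihb =>
    have h1 := iha (by omega)
    have h2 := ihb (by omega)
    rw [hab.card_divisors_mul, Nat.totient_mul hab, cc_mul hab]
    push_cast
    have ha0 : (0 : ℝ) ≤ ((a.divisors.card : ℝ)) ^ 2 * (a : ℝ) := by positivity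
    have hb0 : (0 : ℝ) ≤ ((b.divisors.card : ℝ)) ^ 2 * (b : ℝ) := by positivity
    have := mul_le_mul h1 h2 hb0 (by have := cc_pos a; positivity)
    calc ((a.divisors.card : ℝ) * (b.divisors.card : ℝ)) ^ 2 * ((a : ℝ) * b)
        = ((a.divisors.card : ℝ)) ^ 2 * (a : ℝ) * (((b.divisors.card : ℝ)) ^ 2 * (b : ℝ)) := by ring
      _ ≤ _ := this
      _ = _ := by ring

/-- The number of divisors is small compared with the totient. -/
lemma card_divisors_div_totient_tendsto :
    Filter.Tendsto (fun r : ℕ => ((r.divisors.card : ℕ) : ℝ) / (Nat.totient r : ℝ)) Filter.atTop (nhds 0) := by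
  have hb : ∀ᶠ r : ℕ in Filter.atTop,
      ((r.divisors.card : ℕ) : ℝ) / (Nat.totient r : ℝ) ≤ Real.sqrt (34 / (r : ℝ)) := by
    filter_upwards [Filter.eventually_ge_atTop 1] with r hr
    have hφ : (0 : ℝ) < Nat.totient r := by
      exact_mod_cast Nat.totient_pos.mpr hr
    have hrR : (0 : ℝ) < r := by exact_mod_cast hr
    apply Real.le_sqrt_of_sq_le
    rw [div_pow, div_le_div_iff₀ (by positivity) hrR]
    have h1 := tau_sq_le r hr
    have h2 := cc_le r
    have h3 : (0 : ℝ) ≤ ((Nat.totient r : ℝ)) ^ 2 := by positivity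
    nlinarith
  have hlim : Filter.Tendsto (fun r : ℕ => Real.sqrt (34 / (r : ℝ))) Filter.atTop (nhds 0) := by
    have h0 : Filter.Tendsto (fun r : ℕ => (34 : ℝ) / (r : ℝ)) Filter.atTop (nhds 0) :=
      tendsto_const_div_atTop_nhds_zero_nat 34
    have := (Real.continuous_sqrt.tendsto 0).comp h0
    rw [Real.sqrt_zero] at this
    exact this
  exact tendsto_of_tendsto_of_tendsto_of_le_of_le' tendsto_const_nhds hlim
    (Filter.Eventually.of_forall fun r => by positivity) hb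

/-! ### Riemann sums -/

/-- Riemann sums of a Lipschitz periodic function at `s` equally spaced points. -/
private lemma riemann_sum {H : ℝ → ℝ} {L : ℝ} (hL : 0 ≤ L)
    (hlip : ∀ x y, |H x - H y| ≤ L * |x - y|) (hper : ∀ x, H (x + 1) = H x) {s : ℕ} (hs : 1 ≤ s)
    (w : ℝ) :
    |∑ j ∈ range s, H (w + (j : ℝ) / s) - (s : ℝ) * ∫ x in (0:ℝ)..1, H x| ≤ L := by
  have hcont : Continuous H := by
    have : LipschitzWith (Real.toNNReal L) H := by
      apply LipschitzWith.of_dist_le_mul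
      intro x y
      rw [Real.dist_eq, Real.dist_eq, Real.coe_toNNReal L hL]
      exact hlip x y
    exact this.continuous
  have hsR : (0 : ℝ) < s := by exact_mod_cast hs
  set t : ℕ → ℝ := fun j => w + (j : ℝ) / s with ht
  have hsum : ∑ j ∈ range s, ∫ x in (t j)..(t (j + 1)), H x = ∫ x in (t 0)..(t s), H x :=
    intervalIntegral.sum_integral_adjacent_intervals (fun k _ => hcont.intervalIntegrable _ _)
  have ht0 : t 0 = w := by simp [ht]
  have hts : t s = w + 1 := by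
    simp only [ht]; rw [div_self hsR.ne']
  have hg : ∫ x in (t 0)..(t s), H x = ∫ x in (0:ℝ)..1, H x := by
    rw [ht0, hts]
    have hp : Function.Periodic H 1 := hper
    have := hp.intervalIntegral_add_eq w 0
    simpa using this
  have hstep : ∀ j, t (j + 1) - t j = 1 / s := by
    intro j
    simp only [ht]; push_cast; field_simp; ring_nf
  have hterm : ∀ j ∈ range s, |H (t j) * (1 / s) - ∫ x in (t j)..(t (j + 1)), H x| ≤ L * (1 / s) * (1 / s) := by
    intro j _
    have hle : t j ≤ t (j + 1) := by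
      have := hstep j
      have h1 : (0 : ℝ) < 1 / s := by positivity
      linarith
    have e1 : H (t j) * (1 / s) = ∫ _x in (t j)..(t (j + 1)), H (t j) := by
      rw [intervalIntegral.integral_const, hstep j, smul_eq_mul]; ring
    rw [e1, ← intervalIntegral.integral_sub (continuous_const.intervalIntegrable _ _)
      (hcont.intervalIntegrable _ _)]
    have hb : ∀ x ∈ Set.uIoc (t j) (t (j + 1)), ‖H (t j) - H x‖ ≤ L * (1 / s) := by
      intro x hx
      rw [Set.uIoc_of_le hle] at hx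
      rw [Real.norm_eq_abs]
      refine (hlip _ _).trans (mul_le_mul_of_nonneg_left ?_ hL)
      rw [abs_le]
      have := hstep j
      constructor <;> linarith [hx.1, hx.2]
    have := intervalIntegral.norm_integral_le_of_norm_le_const hb
    rw [hstep j, abs_of_pos (by positivity : (0 : ℝ) < 1 / s)] at this
    rwa [Real.norm_eq_abs] at this
  have htot : |(∑ j ∈ range s, H (t j)) * (1 / s) - ∫ x in (0:ℝ)..1, H x| ≤ L * (1 / s) := by
    rw [← hg, ← hsum, Finset.sum_mul, ← Finset.sum_sub_distrib]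
    refine (Finset.abs_sum_le_sum_abs _ _).trans ?_
    refine (Finset.sum_le_sum hterm).trans ?_
    rw [Finset.sum_const, Finset.card_range, nsmul_eq_mul]
    apply le_of_eq
    field_simp
  have e2 : (∑ j ∈ range s, H (t j)) - (s : ℝ) * ∫ x in (0:ℝ)..1, H x
      = (s : ℝ) * ((∑ j ∈ range s, H (t j)) * (1 / s) - ∫ x in (0:ℝ)..1, H x) := by
    field_simp
  rw [e2, abs_mul, abs_of_pos hsR]
  calc (s : ℝ) * |(∑ j ∈ range s, H (t j)) * (1 / s) - ∫ x in (0:ℝ)..1, H x|
      ≤ (s : ℝ) * (L * (1 / s)) := mul_le_mul_of_nonneg_left htot hsR.le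
    _ = L := by field_simp

/-- A residue class mod `e ∣ r` among `range r`, parametrised. -/
private lemma class_param {r e : ℕ} (hr : 1 ≤ r) (he : e ∣ r) (a0 : ℕ) :
    (range r).filter (fun a => a % e = a0 % e) = (range (r / e)).image (fun j => a0 % e + j * e) := by
  have he0 : 0 < e := Nat.pos_of_dvd_of_pos he hr
  obtain ⟨s, rfl⟩ := he
  have hs : e * s / e = s := Nat.mul_div_cancel_left s he0
  rw [hs]
  ext a
  simp only [Finset.mem_filter, Finset.mem_range, Finset.mem_image]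
  constructor
  · rintro ⟨ha, hmod⟩
    refine ⟨a / e, Nat.div_lt_of_lt_mul ha, ?_⟩
    rw [← hmod]
    have := Nat.mod_add_div a e
    rw [mul_comm] at this
    exact this
  · rintro ⟨j, hj, rfl⟩
    have hb : a0 % e < e := Nat.mod_lt _ he0
    constructor
    · calc a0 % e + j * e < e + j * e := by omega
        _ = (j + 1) * e := by ring
        _ ≤ s * e := Nat.mul_le_mul_right e hj
        _ = e * s := by ring
    · rw [Nat.add_mul_mod_self_right, Nat.mod_mod]

/-- Sum over a residue class compared to the mean. -/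
private lemma class_sum {H : ℝ → ℝ} {L : ℝ} (hL : 0 ≤ L)
    (hlip : ∀ x y, |H x - H y| ≤ L * |x - y|) (hper : ∀ x, H (x + 1) = H x) {r e : ℕ} (hr : 1 ≤ r)
    (he : e ∣ r) (a0 : ℕ) (γ : ℝ) :
    ((range r).filter (fun a => a % e = a0 % e)).card = r / e ∧
    |∑ a ∈ (range r).filter (fun a => a % e = a0 % e), H (((a:ℝ) + γ) / r)
        - ((r / e : ℕ) : ℝ) * ∫ x in (0:ℝ)..1, H x| ≤ L := by
  have he0 : 0 < e := Nat.pos_of_dvd_of_pos he hr
  have hinj : Function.Injective (fun j : ℕ => a0 % e + j * e) := by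
    intro i j hij
    have : i * e = j * e := by simpa using hij
    exact Nat.eq_of_mul_eq_mul_right he0 this
  rw [class_param hr he a0]
  refine ⟨by rw [Finset.card_image_of_injective _ hinj, Finset.card_range], ?_⟩
  rw [Finset.sum_image (fun i _ j _ h => hinj h)]
  obtain ⟨s, rfl⟩ := he
  have hs : e * s / e = s := Nat.mul_div_cancel_left s he0
  rw [hs]
  have hs1 : 1 ≤ s := by
    rcases Nat.eq_zero_or_pos s with h | h
    · subst h; simp at hr
    · exact h
  have key := riemann_sum hL hlip hper hs1 (((a0 % e : ℕ) + γ) / ((e * s : ℕ) : ℝ))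
  have he' : (e : ℝ) ≠ 0 := by positivity
  have hs' : (s : ℝ) ≠ 0 := by
    have : 0 < s := hs1
    positivity
  have heq : ∀ j ∈ range s, H ((((a0 % e + j * e : ℕ) : ℝ) + γ) / ((e * s : ℕ) : ℝ))
      = H (((a0 % e : ℕ) + γ) / ((e * s : ℕ) : ℝ) + (j : ℝ) / s) := by
    intro j _
    congr 1
    push_cast
    field_simp
    ring_nf
  rw [Finset.sum_congr rfl heq]
  exact key

/-- Möbius inversion for the coprimality indicator. -/
private lemma moebius_ind (x : ℤ) {r : ℕ} (hr : 1 ≤ r) :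
    (if Int.gcd x (r:ℤ) = 1 then (1:ℝ) else 0) =
      ∑ e ∈ r.divisors, ((ArithmeticFunction.moebius e : ℤ) : ℝ) * (if (e:ℤ) ∣ x then (1:ℝ) else 0) := by
  set G := Int.gcd x (r:ℤ) with hG
  have hG0 : G ≠ 0 := by
    intro h
    have := Int.gcd_eq_zero_iff.mp h
    have h2 := this.2
    have : r = 0 := by exact_mod_cast h2
    omega
  have h1 : ∑ e ∈ G.divisors, ArithmeticFunction.moebius e = if G = 1 then 1 else 0 := by
    have := congrArg (fun f => f G) ArithmeticFunction.moebius_mul_coe_zeta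
    simp only [ArithmeticFunction.coe_mul_zeta_apply, ArithmeticFunction.one_apply] at this
    exact this
  have h2 : r.divisors.filter (fun e : ℕ => (e:ℤ) ∣ x) = G.divisors := by
    ext e
    simp only [Finset.mem_filter, Nat.mem_divisors]
    constructor
    · rintro ⟨⟨h3, _⟩, h4⟩
      refine ⟨?_, hG0⟩
      have : (e:ℤ) ∣ (G:ℤ) := Int.dvd_coe_gcd h4 (Int.natCast_dvd_natCast.mpr h3)
      exact Int.natCast_dvd_natCast.mp this
    · rintro ⟨h3, _⟩
      have h5 : (e:ℤ) ∣ (G:ℤ) := Int.natCast_dvd_natCast.mpr h3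
      have h6 : (G:ℤ) ∣ x := Int.gcd_dvd_left ..
      have h7 : (G:ℤ) ∣ (r:ℤ) := Int.gcd_dvd_right ..
      exact ⟨⟨Int.natCast_dvd_natCast.mp (h5.trans h7), by omega⟩, h5.trans h6⟩
  have h3 : ∑ e ∈ r.divisors, ((ArithmeticFunction.moebius e : ℤ) : ℝ) * (if (e:ℤ) ∣ x then (1:ℝ) else 0)
      = ∑ e ∈ r.divisors.filter (fun e : ℕ => (e:ℤ) ∣ x), ((ArithmeticFunction.moebius e : ℤ) : ℝ) := by
    rw [Finset.sum_filter]
    apply Finset.sum_congr rfl
    intro e _
    split_ifs <;> simp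
  rw [h3, h2, ← Int.cast_sum, h1]
  split_ifs <;> simp

/-- Riemann sums over allowed residues. For `H` Lipschitz with constant `L` and 1-periodic. -/
lemma sum_Ap_ge (hψ : Adm ψ) {r : ℕ} (hr : 1 ≤ r) (hψr : 0 < ψ r) {H : ℝ → ℝ} {L : ℝ} (hL : 0 ≤ L)
    (hlip : ∀ x y, |H x - H y| ≤ L * |x - y|) (hper : ∀ x, H (x + 1) = H x) :
    ((Ap γ ψ r).card : ℝ) * (∫ x in (0:ℝ)..1, H x) - (r.divisors.card : ℝ) * L
      ≤ ∑ a ∈ Ap γ ψ r, H (((a:ℝ) + γ) / r) := by
  set Q : ℤ := (Qlv γ ψ r : ℤ) with hQ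
  set P : ℤ := Pq γ ψ r with hP
  have hcop : IsCoprime P Q := by
    have := lvl_coprime γ (Real.sqrt_pos.mpr hψr)
    exact this
  set g : ℝ := ∫ x in (0:ℝ)..1, H x with hg
  -- the sums over divisibility classes
  let Se : (ℕ → ℝ) → ℕ → ℝ := fun f e =>
    ∑ a ∈ range r, (if (e:ℤ) ∣ (a:ℤ) * Q + P then (1:ℝ) else 0) * f a
  have hident : ∀ f : ℕ → ℝ, ∑ a ∈ Ap γ ψ r, f a
      = ∑ e ∈ r.divisors, ((ArithmeticFunction.moebius e : ℤ) : ℝ) * Se f e := by
    intro f
    unfold Ap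
    rw [Finset.sum_filter]
    have : ∀ a ∈ range r, (if Int.gcd ((a:ℤ) * (Qlv γ ψ r : ℤ) + Pq γ ψ r) (r:ℤ) = 1 then f a else 0)
        = ∑ e ∈ r.divisors, ((ArithmeticFunction.moebius e : ℤ) : ℝ) *
            ((if (e:ℤ) ∣ (a:ℤ) * Q + P then (1:ℝ) else 0) * f a) := by
      intro a _
      have h1 := moebius_ind ((a:ℤ) * Q + P) hr
      calc (if Int.gcd ((a:ℤ) * (Qlv γ ψ r : ℤ) + Pq γ ψ r) (r:ℤ) = 1 then f a else 0)
          = (if Int.gcd ((a:ℤ) * Q + P) (r:ℤ) = 1 then (1:ℝ) else 0) * f a := by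
            split_ifs <;> simp
        _ = _ := by
            rw [h1, Finset.sum_mul]
            apply Finset.sum_congr rfl
            intro e _
            ring
    rw [Finset.sum_congr rfl this, Finset.sum_comm]
    apply Finset.sum_congr rfl
    intro e _
    simp only [Se]
    rw [Finset.mul_sum]
  -- each class
  have hclass : ∀ e ∈ r.divisors, |Se (fun a => H (((a:ℝ) + γ) / r)) e - Se (fun _ => 1) e * g| ≤ L := by
    intro e he
    have he' : e ∣ r := Nat.dvd_of_mem_divisors he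
    by_cases hne : ∃ a0 ∈ range r, (e:ℤ) ∣ (a0:ℤ) * Q + P
    · obtain ⟨a0, _, ha0⟩ := hne
      have hcop2 : IsCoprime (e:ℤ) Q := by
        have h1 : IsCoprime ((a0:ℤ) * Q + P) Q := by
          have := hcop.add_mul_left_left (a0:ℤ)
          rw [show P + Q * (a0:ℤ) = (a0:ℤ) * Q + P by ring] at this
          exact this
        exact h1.of_isCoprime_of_dvd_left ha0
      have hiff : ∀ a : ℕ, (e:ℤ) ∣ (a:ℤ) * Q + P ↔ a % e = a0 % e := by
        intro a
        constructor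
        · intro h
          have h2 : (e:ℤ) ∣ ((a0:ℤ) - (a:ℤ)) * Q := by
            have := dvd_sub ha0 h
            rwa [show (a0:ℤ) * Q + P - ((a:ℤ) * Q + P) = ((a0:ℤ) - (a:ℤ)) * Q by ring] at this
          have h3 : (e:ℤ) ∣ (a0:ℤ) - (a:ℤ) := hcop2.dvd_of_dvd_mul_right h2
          exact (Nat.modEq_iff_dvd.mpr h3)
        · intro h
          have h3 : (e:ℤ) ∣ (a0:ℤ) - (a:ℤ) := Nat.modEq_iff_dvd.mp h
          have h4 : (a:ℤ) * Q + P = ((a0:ℤ) * Q + P) - ((a0:ℤ) - (a:ℤ)) * Q := by ring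
          rw [h4]
          exact dvd_sub ha0 (h3.mul_right Q)
      have hSe : ∀ f : ℕ → ℝ, Se f e = ∑ a ∈ (range r).filter (fun a => a % e = a0 % e), f a := by
        intro f
        simp only [Se]
        rw [Finset.sum_filter]
        apply Finset.sum_congr rfl
        intro a _
        by_cases h : a % e = a0 % e
        · rw [if_pos h, if_pos ((hiff a).mpr h), one_mul]
        · rw [if_neg h, if_neg (fun h' => h ((hiff a).mp h')), zero_mul]
      obtain ⟨hcard, hsum⟩ := class_sum hL hlip hper hr he' a0 γ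
      rw [hSe, hSe]
      simp only [Finset.sum_const, nsmul_eq_mul, mul_one]
      rw [hcard]
      exact hsum
    · have hzero : ∀ f : ℕ → ℝ, Se f e = 0 := by
        intro f
        simp only [Se]
        apply Finset.sum_eq_zero
        intro a ha
        rw [if_neg (fun h => hne ⟨a, ha, h⟩), zero_mul]
      rw [hzero, hzero]
      simpa using hL
  -- assemble
  have h1 := hident (fun a => H (((a:ℝ) + γ) / r))
  have h2 := hident (fun _ => 1)
  have hcard : ((Ap γ ψ r).card : ℝ) = ∑ a ∈ Ap γ ψ r, (1:ℝ) := by simp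
  have hdiff : ∑ a ∈ Ap γ ψ r, H (((a:ℝ) + γ) / r) - ((Ap γ ψ r).card : ℝ) * g
      = ∑ e ∈ r.divisors, ((ArithmeticFunction.moebius e : ℤ) : ℝ) *
          (Se (fun a => H (((a:ℝ) + γ) / r)) e - Se (fun _ => 1) e * g) := by
    rw [hcard, h1, h2, Finset.sum_mul, ← Finset.sum_sub_distrib]
    apply Finset.sum_congr rfl
    intro e _
    ring
  have habs : |∑ a ∈ Ap γ ψ r, H (((a:ℝ) + γ) / r) - ((Ap γ ψ r).card : ℝ) * g|
      ≤ (r.divisors.card : ℝ) * L := by
    rw [hdiff]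
    refine (Finset.abs_sum_le_sum_abs _ _).trans ?_
    have : ∀ e ∈ r.divisors, |((ArithmeticFunction.moebius e : ℤ) : ℝ) *
          (Se (fun a => H (((a:ℝ) + γ) / r)) e - Se (fun _ => 1) e * g)| ≤ L := by
      intro e he
      rw [abs_mul]
      have hm : |((ArithmeticFunction.moebius e : ℤ) : ℝ)| ≤ 1 := by
        have := ArithmeticFunction.abs_moebius_le_one (n := e)
        exact_mod_cast this
      calc _ ≤ 1 * L := mul_le_mul hm (hclass e he) (abs_nonneg _) zero_le_one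
        _ = L := one_mul L
    refine (Finset.sum_le_sum this).trans ?_
    rw [Finset.sum_const, nsmul_eq_mul]
  have := (abs_le.mp habs).1
  linarith

/-- Mixing. -/
theorem phi_mix (hψ : Adm ψ) (L ε : ℝ) (hL : 0 ≤ L) (hε : 0 < ε) : ∃ Y : ℕ, ∀ r, Y ≤ r → ∀ H : ℝ → ℝ,
      (∀ x y, |H x - H y| ≤ L * |x - y|) → (∀ x, H (x + 1) = H x) → (∀ x, 0 ≤ H x ∧ H x ≤ 1) →
      ((∫ x in (0:ℝ)..1, H x) - ε) * (∫ x in (0:ℝ)..1, Phi γ ψ r x) ≤ ∫ x in (0:ℝ)..1, H x * Phi γ ψ r x := by
  have hL1 : 0 < L + 1 := by linarith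
  have hδ : 0 < ε / (2 * (L + 1)) := by positivity
  have hev := (card_divisors_div_totient_tendsto).eventually (gt_mem_nhds hδ)
  obtain ⟨Y1, hY1⟩ := Filter.eventually_atTop.mp hev
  obtain ⟨Y2, hY2⟩ := exists_nat_gt (2 * L / ε)
  refine ⟨max (max Y1 Y2) 2, fun r hr H hlip hper hb => ?_⟩
  have hrY1 : Y1 ≤ r := le_trans (le_trans (le_max_left _ _) (le_max_left _ _)) hr
  have hrY2 : Y2 ≤ r := le_trans (le_trans (le_max_right _ _) (le_max_left _ _)) hr
  have hr2 : 2 ≤ r := le_trans (le_max_right _ _) hr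
  have hr1 : 1 ≤ r := by omega
  have hrR : (0 : ℝ) < r := by positivity
  have hrR2 : (2 : ℝ) ≤ r := by exact_mod_cast hr2
  by_cases hψr : 0 < ψ r
  swap
  · have h0 : ∀ x, Phi γ ψ r x = 0 := fun x => by simp [Phi, hψr]
    simp [h0]
  have hcont : Continuous H := by
    have : LipschitzWith (Real.toNNReal L) H := by
      apply LipschitzWith.of_dist_le_mul
      intro x y
      rw [Real.dist_eq, Real.dist_eq, Real.coe_toNNReal L hL]
      exact hlip x y
    exact this.continuous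
  set ρ : ℝ := ψ r / r with hρ
  have hρpos : 0 < ρ := by positivity
  have hψle : ψ r ≤ 1 / (r:ℝ) := hψ.le r hr1
  have hρle : ρ ≤ 1 / (r:ℝ) := by
    rw [hρ, div_le_div_iff₀ hrR hrR]
    have h1 : ψ r * r ≤ 1 := by
      have := mul_le_mul_of_nonneg_right hψle hrR.le
      rwa [div_mul_cancel₀ _ hrR.ne'] at this
    nlinarith
  have hρhalf : ρ ≤ 1 / 2 := by
    refine hρle.trans ?_
    apply one_div_le_one_div_of_le (by norm_num) hrR2
  set g : ℝ := ∫ x in (0:ℝ)..1, H x with hg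
  set n : ℕ := (Ap γ ψ r).card with hn
  have hmass : ∫ x in (0:ℝ)..1, Phi γ ψ r x = (n:ℝ) * ρ := by
    rw [integral_phi hψ hr2]
    unfold mass
    rw [hρ, ← hn]
    ring
  have htent : ∀ a ∈ Ap γ ψ r,
      (H (((a:ℝ) + γ) / r) - L * ρ) * ρ ≤ ∫ x in (0:ℝ)..1, H x * tent ρ (x - ((a:ℝ) + γ) / r) := by
    intro a _
    set xa : ℝ := ((a:ℝ) + γ) / r with hxa
    have hint : ∫ x in (0:ℝ)..1, tent ρ (x - xa) = ρ := tent_integral hρpos hρhalf xa
    have hpt : ∀ x, (H xa - L * ρ) * tent ρ (x - xa) ≤ H x * tent ρ (x - xa) := by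
      intro x
      by_cases hpos : 0 < tent ρ (x - xa)
      · have hd := tent_pos_imp hρpos hpos
        apply mul_le_mul_of_nonneg_right _ hpos.le
        set w : ℤ := round (x - xa) with hw
        have hd' : |x - xa - w| < ρ := hd
        have hper' : H (x - (w:ℝ)) = H x := by
          have hp : Function.Periodic H 1 := hper
          have := hp.sub_int_mul_eq (x := x) w
          simpa using this
        have h1 := hlip (x - (w:ℝ)) xa
        rw [hper'] at h1
        have h2 : |x - (w:ℝ) - xa| < ρ := by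
          rw [show x - (w:ℝ) - xa = x - xa - w by ring]; exact hd'
        have h3 : L * |x - (w:ℝ) - xa| ≤ L * ρ := mul_le_mul_of_nonneg_left h2.le hL
        have h4 := (abs_le.mp (h1.trans h3)).1
        linarith
      · have h0 : tent ρ (x - xa) = 0 := le_antisymm (not_lt.mp hpos) (tent_nonneg _ _)
        rw [h0]; simp
    have hc1 : Continuous fun x => tent ρ (x - xa) :=
      (tent_continuous ρ).comp (continuous_id.sub continuous_const)
    calc (H xa - L * ρ) * ρ = ∫ x in (0:ℝ)..1, (H xa - L * ρ) * tent ρ (x - xa) := by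
          rw [intervalIntegral.integral_const_mul, hint]
      _ ≤ _ := by
          apply intervalIntegral.integral_mono_on (by norm_num)
            ((continuous_const.mul hc1).intervalIntegrable _ _)
            ((hcont.mul hc1).intervalIntegrable _ _)
          intro x _
          exact hpt x
  have hsplit : ∫ x in (0:ℝ)..1, H x * Phi γ ψ r x
      = ∑ a ∈ Ap γ ψ r, ∫ x in (0:ℝ)..1, H x * tent ρ (x - ((a:ℝ) + γ) / r) := by
    have : ∀ x, H x * Phi γ ψ r x = ∑ a ∈ Ap γ ψ r, H x * tent ρ (x - ((a:ℝ) + γ) / r) := by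
      intro x
      simp only [Phi, if_pos hψr]
      rw [Finset.mul_sum]
    simp_rw [this]
    apply intervalIntegral.integral_finsetSum
    intro a _
    have hc1 : Continuous fun x => tent ρ (x - ((a:ℝ) + γ) / r) :=
      (tent_continuous ρ).comp (continuous_id.sub continuous_const)
    exact (hcont.mul hc1).intervalIntegrable _ _
  have hsumge := sum_Ap_ge (γ := γ) hψ hr1 hψr hL hlip hper
  rw [← hn] at hsumge
  have hlower : ρ * ((n:ℝ) * g - (r.divisors.card : ℝ) * L - (n:ℝ) * (L * ρ))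
      ≤ ∫ x in (0:ℝ)..1, H x * Phi γ ψ r x := by
    rw [hsplit]
    have h1 : ∑ a ∈ Ap γ ψ r, (H (((a:ℝ) + γ) / r) - L * ρ) * ρ
        ≤ ∑ a ∈ Ap γ ψ r, ∫ x in (0:ℝ)..1, H x * tent ρ (x - ((a:ℝ) + γ) / r) :=
      Finset.sum_le_sum htent
    have h2 : ∑ a ∈ Ap γ ψ r, (H (((a:ℝ) + γ) / r) - L * ρ) * ρ
        = ρ * (∑ a ∈ Ap γ ψ r, H (((a:ℝ) + γ) / r) - (n:ℝ) * (L * ρ)) := by
      rw [← Finset.sum_mul, Finset.sum_sub_distrib, Finset.sum_const, nsmul_eq_mul, ← hn]
      ring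
    rw [h2] at h1
    refine le_trans ?_ h1
    apply mul_le_mul_of_nonneg_left _ hρpos.le
    linarith
  -- the numerics
  have hφpos : (0:ℝ) < Nat.totient r := by exact_mod_cast Nat.totient_pos.mpr hr1
  have hφn : (Nat.totient r : ℝ) ≤ n := by exact_mod_cast totient_le_card_Ap (γ := γ) hψ hr1 hψr
  have hτ : (r.divisors.card : ℝ) / (Nat.totient r : ℝ) < ε / (2 * (L + 1)) := hY1 r hrY1
  have hτL : (r.divisors.card : ℝ) * L ≤ (n:ℝ) * (ε / 2) := by
    have h1 : (r.divisors.card : ℝ) < ε / (2 * (L + 1)) * (Nat.totient r : ℝ) := by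
      rwa [div_lt_iff₀ hφpos] at hτ
    have h2 : (r.divisors.card : ℝ) * (L + 1) ≤ (Nat.totient r : ℝ) * (ε / 2) := by
      have h3 := mul_le_mul_of_nonneg_right h1.le hL1.le
      calc (r.divisors.card : ℝ) * (L + 1) ≤ ε / (2 * (L + 1)) * (Nat.totient r : ℝ) * (L + 1) := h3
        _ = (Nat.totient r : ℝ) * (ε / 2) := by field_simp
    have h4 : (0:ℝ) ≤ (r.divisors.card : ℝ) := by positivity
    have h5 : (Nat.totient r : ℝ) * (ε / 2) ≤ (n:ℝ) * (ε / 2) :=
      mul_le_mul_of_nonneg_right hφn (by positivity)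
    nlinarith
  have hLρ : L * ρ ≤ ε / 2 := by
    have h1 : 2 * L / ε < r := lt_of_lt_of_le hY2 (by exact_mod_cast hrY2)
    have h2 : 2 * L < r * ε := by rwa [div_lt_iff₀ hε] at h1
    have h3 : L * ρ ≤ L * (1 / (r:ℝ)) := mul_le_mul_of_nonneg_left hρle hL
    have h4 : L * (1 / (r:ℝ)) ≤ ε / 2 := by
      rw [mul_one_div, div_le_div_iff₀ hrR (by norm_num)]
      linarith
    linarith
  rw [hmass]
  refine le_trans ?_ hlower
  have hnn : (0:ℝ) ≤ n := by positivity
  have h1 : (n:ℝ) * (L * ρ) ≤ (n:ℝ) * (ε / 2) := mul_le_mul_of_nonneg_left hLρ hnn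
  have h2 : (n:ℝ) * g - (n:ℝ) * ε ≤ (n:ℝ) * g - (r.divisors.card : ℝ) * L - (n:ℝ) * (L * ρ) := by
    linarith
  have h3 := mul_le_mul_of_nonneg_left h2 hρpos.le
  calc (g - ε) * ((n:ℝ) * ρ) = ρ * ((n:ℝ) * g - (n:ℝ) * ε) := by ring
    _ ≤ _ := h3

end Vale.Agent.Lib.P028V
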