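import Vale.Agent.Lib.P028V.Sums
import Vale.Agent.Lib.P028V.Left
import Vale.Agent.Lib.P028V.Mix
import Vale.Agent.Lib.P028V.Abstract

/-! Module L. Assembly. -/

open Finset Filter MeasureTheory
open scoped Classical

namespace Vale.Agent.Lib.P028V

open Vale.Agent.Lib.P028

variable {γ : ℝ} {ψ : ℕ → ℝ}

/-- Block sums. -/
noncomputable def MM (ψ : ℕ → ℝ) (k : ℕ) : ℝ :=
  ∑ q ∈ Ico (2 ^ k) (2 ^ (k + 1)), ψ q * ((Nat.totient q : ℝ) / (q:ℝ))

lemma ff_nonneg (hψ : Adm ψ) (q : ℕ) : 0 ≤ ψ q * ((Nat.totient q : ℝ) / (q:ℝ)) :=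
  mul_nonneg (hψ.nonneg q) (div_nonneg (Nat.cast_nonneg _) (Nat.cast_nonneg _))

lemma ff_le (hψ : Adm ψ) {q : ℕ} (hq : 1 ≤ q) : ψ q * ((Nat.totient q : ℝ) / (q:ℝ)) ≤ ψ q := by
  have hq0 : (0:ℝ) < q := by exact_mod_cast hq
  have h1 : ((Nat.totient q : ℝ) / (q:ℝ)) ≤ 1 := by
    rw [div_le_one hq0]
    exact_mod_cast Nat.totient_le q
  calc ψ q * ((Nat.totient q : ℝ) / (q:ℝ)) ≤ ψ q * 1 :=
        mul_le_mul_of_nonneg_left h1 (hψ.nonneg q)
    _ = ψ q := mul_one _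

lemma block_pos {k q : ℕ} (h : q ∈ Ico (2 ^ k) (2 ^ (k + 1))) : 1 ≤ q :=
  le_trans Nat.one_le_two_pow (mem_Ico.mp h).1

lemma two_pow_le_cast {k q : ℕ} (h : q ∈ Ico (2 ^ k) (2 ^ (k + 1))) : (2:ℝ) ^ k ≤ q := by
  exact_mod_cast (mem_Ico.mp h).1

lemma block_card (k : ℕ) : ((Ico (2 ^ k) (2 ^ (k + 1))).card : ℝ) = 2 ^ k := by
  rw [Nat.card_Ico]
  have : 2 ^ (k + 1) - 2 ^ k = 2 ^ k := by rw [pow_succ]; omega
  rw [this]; push_cast; ring

lemma psi_le_block (hψ : Adm ψ) {k q : ℕ} (h : q ∈ Ico (2 ^ k) (2 ^ (k + 1))) :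
    ψ q ≤ 1 / (2:ℝ) ^ k := by
  have h2 : (2:ℝ) ^ k ≤ q := two_pow_le_cast h
  have hp : (0:ℝ) < 2 ^ k := by positivity
  exact (hψ.le q (block_pos h)).trans (one_div_le_one_div_of_le hp h2)

lemma MM_nonneg (hψ : Adm ψ) (k : ℕ) : 0 ≤ MM ψ k :=
  sum_nonneg fun q _ => ff_nonneg hψ q

lemma MM_le_one (hψ : Adm ψ) (k : ℕ) : MM ψ k ≤ 1 := by
  have hp : (2:ℝ) ^ k ≠ 0 := by positivity
  calc MM ψ k ≤ ∑ _q ∈ Ico (2 ^ k) (2 ^ (k + 1)), 1 / (2:ℝ) ^ k :=
        sum_le_sum fun q hq => (ff_le hψ (block_pos hq)).trans (psi_le_block hψ hq)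
    _ = 1 := by
        rw [sum_const, nsmul_eq_mul, block_card]
        field_simp

/-- The running sums up to a power of two. -/
lemma sum_Ico_one_pow (f : ℕ → ℝ) (K : ℕ) :
    ∑ q ∈ Ico 1 (2 ^ K), f q = ∑ k ∈ range K, ∑ q ∈ Ico (2 ^ k) (2 ^ (k + 1)), f q := by
  induction K with
  | zero => simp
  | succ K ih =>
    rw [sum_range_succ, ← ih]
    rw [sum_Ico_consecutive f Nat.one_le_two_pow (Nat.pow_le_pow_right (by norm_num) (Nat.le_succ K))]

lemma not_summable_MM (hψ : Adm ψ)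
    (hdiv : ¬ Summable fun q : ℕ => ψ q * ((Nat.totient q : ℝ) / (q:ℝ))) :
    ¬ Summable (MM ψ) := by
  intro hs
  apply hdiv
  apply summable_of_sum_le (c := ψ 0 * ((Nat.totient 0 : ℝ) / ((0:ℕ):ℝ)) + ∑' k, MM ψ k) (ff_nonneg hψ)
  intro S
  obtain ⟨K, hK⟩ : ∃ K : ℕ, ∀ q ∈ S, q < 2 ^ K := by
    refine ⟨S.sup id + 1, fun q hq => ?_⟩
    have h1 : q ≤ S.sup id := Finset.le_sup (f := id) hq
    have h2 : S.sup id + 1 < 2 ^ (S.sup id + 1) := Nat.lt_two_pow_self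
    omega
  have hsub : S ⊆ insert 0 (Ico 1 (2 ^ K)) := by
    intro q hq
    rcases Nat.eq_zero_or_pos q with h | h
    · simp [h]
    · exact mem_insert_of_mem (mem_Ico.mpr ⟨h, hK q hq⟩)
  calc ∑ q ∈ S, ψ q * ((Nat.totient q : ℝ) / (q:ℝ))
      ≤ ∑ q ∈ insert 0 (Ico 1 (2 ^ K)), ψ q * ((Nat.totient q : ℝ) / (q:ℝ)) :=
        sum_le_sum_of_subset_of_nonneg hsub fun q _ _ => ff_nonneg hψ q
    _ = ψ 0 * ((Nat.totient 0 : ℝ) / ((0:ℕ):ℝ)) + ∑ q ∈ Ico 1 (2 ^ K), ψ q * ((Nat.totient q : ℝ) / (q:ℝ)) := by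
        rw [sum_insert]; simp
    _ = ψ 0 * ((Nat.totient 0 : ℝ) / ((0:ℕ):ℝ)) + ∑ k ∈ range K, MM ψ k := by
        rw [sum_Ico_one_pow]; rfl
    _ ≤ _ := by
        gcongr
        exact hs.sum_le_tsum _ (fun k _ => MM_nonneg hψ k)

/-- A discard estimate: cleaned elements keep at least `5/8` of the block mass. -/
lemma clean_mass (hψ : Adm ψ) {k : ℕ} (hk : 1 ≤ k) (hM : 0 < MM ψ k) :
    (5:ℝ) / 8 * MM ψ k ≤ ∑ q ∈ (Ico (2 ^ k) (2 ^ (k + 1))).filter (fun q => Clean ψ k (MM ψ k) q),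
      ψ q * ((Nat.totient q : ℝ) / (q:ℝ)) := by
  set M := MM ψ k with hMdef
  set f : ℕ → ℝ := fun q => ψ q * ((Nat.totient q : ℝ) / (q:ℝ)) with hf
  have hMle : M ≤ 1 := MM_le_one hψ k
  have hpk : (0:ℝ) < 2 ^ k := by positivity
  set blk := Ico (2 ^ k) (2 ^ (k + 1)) with hblk
  -- pointwise decomposition
  have hpt : ∀ q ∈ blk, f q ≤ (if Clean ψ k M q then f q else 0) + (if (q:ℝ) * ψ q < M / 8 then f q else 0)
      + (if ¬ R1 q (zz M) then f q else 0) + (if KK M < Lam q then f q else 0) := by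
    intro q hq
    have hf0 : 0 ≤ f q := ff_nonneg hψ q
    by_cases hc : Clean ψ k M q
    · rw [if_pos hc]
      have h2 : 0 ≤ (if (q:ℝ) * ψ q < M / 8 then f q else 0) := by split_ifs <;> simp [hf0]
      have h3 : 0 ≤ (if ¬ R1 q (zz M) then f q else 0) := by split_ifs <;> simp [hf0]
      have h4 : 0 ≤ (if KK M < Lam q then f q else 0) := by split_ifs <;> simp [hf0]
      linarith
    · rw [if_neg hc]
      have h2 : 0 ≤ (if (q:ℝ) * ψ q < M / 8 then f q else 0) := by split_ifs <;> simp [hf0]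
      have h3 : 0 ≤ (if ¬ R1 q (zz M) then f q else 0) := by split_ifs <;> simp [hf0]
      have h4 : 0 ≤ (if KK M < Lam q then f q else 0) := by split_ifs <;> simp [hf0]
      by_cases ha : (q:ℝ) * ψ q < M / 8
      · rw [if_pos ha]; linarith
      by_cases hb : ¬ R1 q (zz M)
      · rw [if_pos hb]; linarith
      by_cases hl : KK M < Lam q
      · rw [if_pos hl]; linarith
      exfalso
      apply hc
      push Not at ha hb hl
      have hq' := mem_Ico.mp hq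
      refine ⟨hq'.1, hq'.2, ?_, ha, hb, hl⟩
      rcases (hψ.nonneg q).lt_or_eq with h | h
      · exact h
      · exfalso
        rw [← h, mul_zero] at ha
        linarith
  have hsum : M ≤ ∑ q ∈ blk, ((if Clean ψ k M q then f q else 0) + (if (q:ℝ) * ψ q < M / 8 then f q else 0)
      + (if ¬ R1 q (zz M) then f q else 0) + (if KK M < Lam q then f q else 0)) := sum_le_sum hpt
  rw [sum_add_distrib, sum_add_distrib, sum_add_distrib, ← sum_filter, ← sum_filter, ← sum_filter, ← sum_filter] at hsum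
  -- the first discard
  have h1 : ∑ q ∈ blk.filter (fun q : ℕ => (q:ℝ) * ψ q < M / 8), f q ≤ M / 8 := by
    calc ∑ q ∈ blk.filter (fun q : ℕ => (q:ℝ) * ψ q < M / 8), f q
        ≤ ∑ q ∈ blk.filter (fun q : ℕ => (q:ℝ) * ψ q < M / 8), (M / 8) / 2 ^ k := by
          apply sum_le_sum
          intro q hq
          obtain ⟨hq1, hq2⟩ := mem_filter.mp hq
          have hq0 : (0:ℝ) < q := by exact_mod_cast block_pos hq1
          have hkq : (2:ℝ) ^ k ≤ q := two_pow_le_cast hq1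
          have hfle : f q ≤ ψ q := ff_le hψ (block_pos hq1)
          have hle : ψ q * 2 ^ k ≤ (q:ℝ) * ψ q := by
            rw [mul_comm (q:ℝ)]
            exact mul_le_mul_of_nonneg_left hkq (hψ.nonneg q)
          rw [le_div_iff₀ hpk]
          calc f q * 2 ^ k ≤ ψ q * 2 ^ k := mul_le_mul_of_nonneg_right hfle hpk.le
            _ ≤ (q:ℝ) * ψ q := hle
            _ ≤ M / 8 := hq2.le
      _ ≤ ∑ _q ∈ blk, (M / 8) / 2 ^ k :=
          sum_le_sum_of_subset_of_nonneg (filter_subset _ _) fun _ _ _ => by positivity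
      _ = M / 8 := by
          rw [sum_const, nsmul_eq_mul, hblk, block_card]
          field_simp
  -- a generic bound from counts
  have hcount : ∀ (P : ℕ → Prop) [DecidablePred P] (c : ℝ), (((Icc 1 (2 ^ (k + 1))).filter P).card : ℝ) ≤ (2:ℝ) ^ (k + 1) * c →
      ∑ q ∈ blk.filter P, f q ≤ 2 * c := by
    intro P _ c hc
    have hsub : blk.filter P ⊆ (Icc 1 (2 ^ (k + 1))).filter P := by
      intro q hq
      obtain ⟨hq1, hq2⟩ := mem_filter.mp hq
      have hq' := mem_Ico.mp hq1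
      exact mem_filter.mpr ⟨mem_Icc.mpr ⟨block_pos hq1, hq'.2.le⟩, hq2⟩
    calc ∑ q ∈ blk.filter P, f q ≤ ∑ _q ∈ blk.filter P, 1 / (2:ℝ) ^ k := by
          apply sum_le_sum
          intro q hq
          have hq1 := (mem_filter.mp hq).1
          exact (ff_le hψ (block_pos hq1)).trans (psi_le_block hψ hq1)
      _ = ((blk.filter P).card : ℝ) * (1 / (2:ℝ) ^ k) := by rw [sum_const, nsmul_eq_mul]
      _ ≤ (((Icc 1 (2 ^ (k + 1))).filter P).card : ℝ) * (1 / (2:ℝ) ^ k) := by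
          gcongr
      _ ≤ ((2:ℝ) ^ (k + 1) * c) * (1 / (2:ℝ) ^ k) := by gcongr
      _ = 2 * c := by
          rw [pow_succ]
          field_simp
  have hz : 2 + Real.log (16 / M) ≤ (zz M : ℝ) := Nat.le_ceil _
  have hlog : 0 ≤ Real.log (16 / M) := by
    apply Real.log_nonneg
    rw [le_div_iff₀ hM]
    linarith
  have hz1 : 1 ≤ zz M := by
    have : (1:ℝ) ≤ (zz M : ℝ) := by linarith
    exact_mod_cast this
  have h2 : ∑ q ∈ blk.filter (fun q => ¬ R1 q (zz M)), f q ≤ M / 8 := by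
    have hexp : Real.exp (2 - (zz M : ℝ)) ≤ M / 16 := by
      have : 2 - (zz M : ℝ) ≤ Real.log (M / 16) := by
        have h16 : Real.log (M / 16) = - Real.log (16 / M) := by
          rw [← Real.log_inv, inv_div]
        rw [h16]; linarith
      calc Real.exp (2 - (zz M : ℝ)) ≤ Real.exp (Real.log (M / 16)) := Real.exp_le_exp.mpr this
        _ = M / 16 := Real.exp_log (by positivity)
    have := hcount (fun q => ¬ R1 q (zz M)) (Real.exp (2 - (zz M : ℝ))) (by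
      have := r1_tail (z := zz M) (x := 2 ^ (k + 1)) hz1
      simpa using this)
    linarith
  have h3 : ∑ q ∈ blk.filter (fun q => KK M < Lam q), f q ≤ M / 8 := by
    have := hcount (fun q => KK M < Lam q) (M / 16) (by
      have := lam_tail hM (2 ^ (k + 1))
      simpa using this)
    linarith
  linarith

/-- Cleaned elements of a given type. -/
noncomputable def TT (γ : ℝ) (ψ : ℕ → ℝ) (t : Bool × Bool) (k : ℕ) : Finset ℕ :=
  (Ico (2 ^ k) (2 ^ (k + 1))).filter (fun q => Clean ψ k (MM ψ k) q ∧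
    (t.1 = true ↔ (MM ψ k) ^ ((3:ℝ) / 4) ≤ (q:ℝ) * ψ q) ∧ (t.2 = true ↔ UU γ ψ q))

/-- The blocks dominated by a given type. -/
def Dom (γ : ℝ) (ψ : ℕ → ℝ) (t : Bool × Bool) (k : ℕ) : Prop :=
  1 ≤ k ∧ 1 / (k:ℝ) ^ 2 ≤ MM ψ k ∧
    MM ψ k / 8 ≤ ∑ q ∈ TT γ ψ t k, ψ q * ((Nat.totient q : ℝ) / (q:ℝ))

lemma exists_type (hψ : Adm ψ) {k : ℕ} (hk : 1 ≤ k) (hM : 0 < MM ψ k) :
    ∃ t : Bool × Bool, MM ψ k / 8 ≤ ∑ q ∈ TT γ ψ t k, ψ q * ((Nat.totient q : ℝ) / (q:ℝ)) := by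
  by_contra hcon
  push Not at hcon
  have h5 := clean_mass hψ hk hM
  set f : ℕ → ℝ := fun q => ψ q * ((Nat.totient q : ℝ) / (q:ℝ)) with hf
  have hle : ∑ q ∈ (Ico (2 ^ k) (2 ^ (k + 1))).filter (fun q => Clean ψ k (MM ψ k) q), f q
      ≤ ∑ t : Bool × Bool, ∑ q ∈ TT γ ψ t k, f q := by
    calc ∑ q ∈ (Ico (2 ^ k) (2 ^ (k + 1))).filter (fun q => Clean ψ k (MM ψ k) q), f q
        ≤ ∑ q ∈ (Ico (2 ^ k) (2 ^ (k + 1))).filter (fun q => Clean ψ k (MM ψ k) q),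
            ∑ t : Bool × Bool, (if q ∈ TT γ ψ t k then f q else 0) := by
          apply sum_le_sum
          intro q hq
          obtain ⟨hq1, hq2⟩ := mem_filter.mp hq
          let t0 : Bool × Bool := (decide ((MM ψ k) ^ ((3:ℝ) / 4) ≤ (q:ℝ) * ψ q), decide (UU γ ψ q))
          have hmem : q ∈ TT γ ψ t0 k := by
            refine mem_filter.mpr ⟨hq1, hq2, ?_, ?_⟩ <;> simp [t0]
          calc f q = (if q ∈ TT γ ψ t0 k then f q else 0) := by rw [if_pos hmem]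
            _ ≤ _ := single_le_sum (f := fun t : Bool × Bool => if q ∈ TT γ ψ t k then f q else 0)
                  (fun t _ => by
                    have := ff_nonneg hψ q
                    split_ifs <;> simp [hf, this]) (mem_univ t0)
      _ = ∑ t : Bool × Bool, ∑ q ∈ (Ico (2 ^ k) (2 ^ (k + 1))).filter (fun q => Clean ψ k (MM ψ k) q),
            (if q ∈ TT γ ψ t k then f q else 0) := sum_comm
      _ ≤ ∑ t : Bool × Bool, ∑ q ∈ TT γ ψ t k, f q := by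
          apply sum_le_sum
          intro t _
          rw [← sum_filter]
          apply sum_le_sum_of_subset_of_nonneg
          · intro q hq
            exact (mem_filter.mp hq).2
          · intro q _ _
            exact ff_nonneg hψ q
  have hlt : ∑ t : Bool × Bool, ∑ q ∈ TT γ ψ t k, f q ≤ ∑ _t : Bool × Bool, MM ψ k / 8 :=
    sum_le_sum fun t _ => (hcon t).le
  have h4 : ∑ _t : Bool × Bool, MM ψ k / 8 = 4 * (MM ψ k / 8) := by
    simp [Finset.card_univ]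
  linarith

lemma Dom_pos {t : Bool × Bool} {k : ℕ} (h : Dom γ ψ t k) : 0 < MM ψ k := by
  have hk : (0:ℝ) < k := by exact_mod_cast h.1
  exact lt_of_lt_of_le (by positivity) h.2.1

lemma blk_TT (hψ : Adm ψ) {t : Bool × Bool} {k : ℕ} (h : Dom γ ψ t k) :
    Blk ψ k (MM ψ k) (TT γ ψ t k) where
  clean := fun _ hq => (mem_filter.mp hq).2.1
  Mpos := Dom_pos h
  Mle := MM_le_one hψ k
  Mlow := h.2.1
  kpos := h.1
  hsum := sum_le_sum_of_subset_of_nonneg (filter_subset _ _) fun q _ _ => ff_nonneg hψ q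

lemma exists_div_type (hψ : Adm ψ) (hdiv : ¬ Summable (MM ψ)) :
    ∃ t : Bool × Bool, ¬ Summable (fun k => if Dom γ ψ t k then MM ψ k else 0) := by
  by_contra hcon
  push Not at hcon
  apply hdiv
  have hs : Summable (fun k : ℕ => ∑ t : Bool × Bool, (if Dom γ ψ t k then MM ψ k else 0)) :=
    summable_sum fun t _ => hcon t
  have h2 : Summable (fun k : ℕ => 1 / (k:ℝ) ^ 2) := Real.summable_one_div_nat_pow.mpr (by norm_num)
  have h3 : Summable (fun k : ℕ => if k = 0 then (1:ℝ) else 0) := (hasSum_ite_eq 0 (1:ℝ)).summable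
  refine Summable.of_nonneg_of_le (MM_nonneg hψ) ?_ ((hs.add h2).add h3)
  intro k
  have hnn : 0 ≤ ∑ t : Bool × Bool, (if Dom γ ψ t k then MM ψ k else 0) :=
    sum_nonneg fun t _ => by
      split_ifs
      · exact MM_nonneg hψ k
      · exact le_rfl
  have hk2 : (0:ℝ) ≤ 1 / (k:ℝ) ^ 2 := by positivity
  have hi : (0:ℝ) ≤ if k = 0 then (1:ℝ) else 0 := by split_ifs <;> norm_num
  rcases Nat.eq_zero_or_pos k with h0 | hk
  · subst h0
    have := MM_le_one hψ 0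
    simp only [if_true]
    linarith
  by_cases hlow : 1 / (k:ℝ) ^ 2 ≤ MM ψ k
  · have hkr : (0:ℝ) < k := by exact_mod_cast hk
    have hM : 0 < MM ψ k := lt_of_lt_of_le (by positivity) hlow
    obtain ⟨t, ht⟩ := exists_type (γ := γ) hψ hk hM
    have hD : Dom γ ψ t k := ⟨hk, hlow, ht⟩
    have : MM ψ k ≤ ∑ t : Bool × Bool, (if Dom γ ψ t k then MM ψ k else 0) := by
      calc MM ψ k = (if Dom γ ψ t k then MM ψ k else 0) := by rw [if_pos hD]
        _ ≤ _ := single_le_sum (f := fun t : Bool × Bool => if Dom γ ψ t k then MM ψ k else 0)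
              (fun t _ => by
                split_ifs
                · exact MM_nonneg hψ k
                · exact le_rfl) (mem_univ t)
    linarith
  · push Not at hlow
    linarith

/-- A finite sum of a geometric sequence along an injective map. -/
lemma sum_geom_le (A : Finset ℕ) (j : ℕ → ℕ) (hj : Set.InjOn j A) {θ : ℝ} (h0 : 0 ≤ θ) (h1 : θ < 1) :
    ∑ a ∈ A, θ ^ j a ≤ 1 / (1 - θ) := by
  rw [← Finset.sum_image (f := fun i => θ ^ i) hj]
  have hs : Summable (fun i : ℕ => θ ^ i) := summable_geometric_of_lt_one h0 h1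
  have := hs.sum_le_tsum (A.image j) (fun i _ => pow_nonneg h0 i)
  rwa [tsum_geometric_of_lt_one h0 h1, ← one_div] at this

lemma geom_pairs (B : Finset ℕ) (M : ℕ → ℝ) (hM : ∀ k, 0 ≤ M k) {θ : ℝ} (h0 : 0 ≤ θ) (h1 : θ < 1) :
    ∑ k ∈ B, ∑ k' ∈ B, (if k ≤ k' then (M k + M k') * θ ^ (k' - k) else 0)
      ≤ 2 * (1 / (1 - θ)) * ∑ k ∈ B, M k := by
  have haux1 : ∀ k, ∑ k' ∈ B, (if k ≤ k' then θ ^ (k' - k) else 0) ≤ 1 / (1 - θ) := by
    intro k
    rw [← sum_filter]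
    apply sum_geom_le _ _ _ h0 h1
    intro a ha b hb hab
    have ha' := (mem_filter.mp (mem_coe.mp ha)).2
    have hb' := (mem_filter.mp (mem_coe.mp hb)).2
    have hab' : a - k = b - k := hab
    omega
  have haux2 : ∀ k', ∑ k ∈ B, (if k ≤ k' then θ ^ (k' - k) else 0) ≤ 1 / (1 - θ) := by
    intro k'
    rw [← sum_filter]
    apply sum_geom_le _ _ _ h0 h1
    intro a ha b hb hab
    have ha' := (mem_filter.mp (mem_coe.mp ha)).2
    have hb' := (mem_filter.mp (mem_coe.mp hb)).2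
    have hab' : k' - a = k' - b := hab
    omega
  have hsplit : ∀ k k', (if k ≤ k' then (M k + M k') * θ ^ (k' - k) else 0)
      = M k * (if k ≤ k' then θ ^ (k' - k) else 0) + M k' * (if k ≤ k' then θ ^ (k' - k) else 0) := by
    intro k k'
    split_ifs <;> ring
  simp_rw [hsplit, sum_add_distrib]
  have hA : ∑ k ∈ B, ∑ k' ∈ B, M k * (if k ≤ k' then θ ^ (k' - k) else 0) ≤ (1 / (1 - θ)) * ∑ k ∈ B, M k := by
    rw [mul_sum]
    apply sum_le_sum
    intro k _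
    rw [← mul_sum, mul_comm]
    exact mul_le_mul_of_nonneg_right (haux1 k) (hM k)
  have hB : ∑ k ∈ B, ∑ k' ∈ B, M k' * (if k ≤ k' then θ ^ (k' - k) else 0) ≤ (1 / (1 - θ)) * ∑ k ∈ B, M k := by
    rw [sum_comm, mul_sum]
    apply sum_le_sum
    intro k' _
    rw [← mul_sum, mul_comm]
    exact mul_le_mul_of_nonneg_right (haux2 k') (hM k')
  linarith

/-- The basic pair inequality. -/
lemma pair_le (hψ : Adm ψ) {t : Bool × Bool} {k k' q r : ℕ} (hk : Dom γ ψ t k) (hk' : Dom γ ψ t k')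
    (hq : q ∈ TT γ ψ t k) (hr : r ∈ TT γ ψ t k') (hqr : q < r) :
    ∫ x in (0:ℝ)..1, Phi γ ψ q x * Phi γ ψ r x ≤ 6 * Real.exp 4 * (mass γ ψ q * mass γ ψ r)
      + (if q < r ∧ 1 / 64 ≤ XX ψ q r ∧ XX ψ q r < (4:ℝ) ^ (max (zz (MM ψ k)) (zz (MM ψ k')))
          then 68 * (ψ q * ψ r) else 0)
      + (if q < r ∧ LeftP γ ψ q r ∧ XX ψ q r < 1 / 64 then ((Ap γ ψ q).card : ℝ) * (ψ r / r) else 0)
      + (if q < r ∧ XX ψ q r < 1 / 64 ∧ (Al γ ψ q r).Nonempty ∧ ¬ LeftP γ ψ q r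
          then (Nat.gcd q r : ℝ) * min (ψ q / q) (ψ r / r) else 0) := by
  have hcq := (mem_filter.mp hq).2.1
  have hcr := (mem_filter.mp hr).2.1
  have hq2 : 2 ≤ q := by
    have : 2 ^ 1 ≤ 2 ^ k := Nat.pow_le_pow_right (by norm_num) hk.1
    have h1 := hcq.lo
    omega
  have hr2 : 2 ≤ r := by omega
  have hq1 : 1 ≤ q := by omega
  have hr1 : 1 ≤ r := by omega
  have hψq := hcq.pos
  have hψr := hcr.pos
  have hq0 : (0:ℝ) < q := by exact_mod_cast hq1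
  have hr0 : (0:ℝ) < r := by exact_mod_cast hr1
  have hmin : 0 ≤ min (ψ q / q) (ψ r / r) := le_min (by positivity) (by positivity)
  have hmq : 0 ≤ mass γ ψ q := mul_nonneg (div_nonneg (Nat.cast_nonneg _) hq0.le) hψq.le
  have hmr : 0 ≤ mass γ ψ r := mul_nonneg (div_nonneg (Nat.cast_nonneg _) hr0.le) hψr.le
  have hI := pair_integral_le (γ := γ) hψ hq2 hr2
  have hp1 : 0 ≤ 6 * Real.exp 4 * (mass γ ψ q * mass γ ψ r) := by positivity
  set P2 := (if q < r ∧ 1 / 64 ≤ XX ψ q r ∧ XX ψ q r < (4:ℝ) ^ (max (zz (MM ψ k)) (zz (MM ψ k')))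
          then 68 * (ψ q * ψ r) else 0) with hP2
  set P3 := (if q < r ∧ LeftP γ ψ q r ∧ XX ψ q r < 1 / 64 then ((Ap γ ψ q).card : ℝ) * (ψ r / r) else 0) with hP3
  set P4 := (if q < r ∧ XX ψ q r < 1 / 64 ∧ (Al γ ψ q r).Nonempty ∧ ¬ LeftP γ ψ q r
          then (Nat.gcd q r : ℝ) * min (ψ q / q) (ψ r / r) else 0) with hP4
  have hp2 : 0 ≤ P2 := by rw [hP2]; split_ifs <;> positivity
  have hψr' : 0 ≤ ψ r / r := by positivity
  have hp3 : 0 ≤ P3 := by
    rw [hP3]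
    split_ifs
    · exact mul_nonneg (Nat.cast_nonneg _) hψr'
    · exact le_rfl
  have hp4 : 0 ≤ P4 := by rw [hP4]; split_ifs <;> positivity
  by_cases hfar : (4:ℝ) ^ (max (zz (MM ψ k)) (zz (MM ψ k'))) ≤ XX ψ q r
  · have := far_bound (γ := γ) hψ hq1 hr1 hψq hψr (le_max_left _ _) (le_max_right _ _) hcq.r1 hcr.r1 hfar
    linarith
  push Not at hfar
  by_cases hmid : 1 / 64 ≤ XX ψ q r
  · have := mid_bound (γ := γ) hψ hq1 hr1 hψq hψr hmid
    have h2 : P2 = 68 * (ψ q * ψ r) := if_pos ⟨hqr, hmid, hfar⟩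
    linarith
  push Not at hmid
  by_cases hne : (Al γ ψ q r).Nonempty
  · by_cases hL : LeftP γ ψ q r
    · have hc := left_card (γ := γ) hψ hq1 hr1 hL.1 hmid
      have h3 : ((Al γ ψ q r).card : ℝ) * min (ψ q / q) (ψ r / r) ≤ ((Ap γ ψ q).card : ℝ) * (ψ r / r) := by
        apply mul_le_mul (by exact_mod_cast hc) (min_le_right _ _) hmin (Nat.cast_nonneg _)
      have h2 : P3 = ((Ap γ ψ q).card : ℝ) * (ψ r / r) := if_pos ⟨hqr, hL, hmid⟩
      linarith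
    · have hc := bohr_card (γ := γ) hψ hq1 hr1 hmid
      have h3 : ((Al γ ψ q r).card : ℝ) * min (ψ q / q) (ψ r / r) ≤ (Nat.gcd q r : ℝ) * min (ψ q / q) (ψ r / r) := by
        apply mul_le_mul_of_nonneg_right (by exact_mod_cast hc) hmin
      have h2 : P4 = (Nat.gcd q r : ℝ) * min (ψ q / q) (ψ r / r) := if_pos ⟨hqr, hmid, hne, hL⟩
      linarith
  · rw [not_nonempty_iff_eq_empty] at hne
    have hc0 : (Al γ ψ q r).card = 0 := card_eq_zero.mpr hne
    rw [hc0, Nat.cast_zero, zero_mul] at hI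
    linarith

lemma TT_lo_hi {t : Bool × Bool} {k q : ℕ} (h : q ∈ TT γ ψ t k) : 2 ^ k ≤ q ∧ q < 2 ^ (k + 1) :=
  mem_Ico.mp (mem_filter.mp h).1

lemma TT_disjoint (B : Finset ℕ) (t : Bool × Bool) : (B : Set ℕ).PairwiseDisjoint (TT γ ψ t) := by
  intro k _ k' _ hne
  apply Finset.disjoint_left.mpr
  intro q hq hq'
  obtain ⟨h1, h2⟩ := TT_lo_hi hq
  obtain ⟨h3, h4⟩ := TT_lo_hi hq'
  rcases lt_or_gt_of_ne hne with h | h
  · have : 2 ^ (k + 1) ≤ 2 ^ k' := Nat.pow_le_pow_right (by norm_num) h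
    omega
  · have : 2 ^ (k' + 1) ≤ 2 ^ k := Nat.pow_le_pow_right (by norm_num) h
    omega

/-- The core estimate on the double sum, for a fixed collection of blocks. -/
lemma core_bound (hψ : Adm ψ) {t : Bool × Bool} {C θ : ℝ} (hC : 0 ≤ C) (hθ0 : 0 ≤ θ) (hθ1 : θ < 1)
    {k₃ k₄ : ℕ}
    (hnegl : ∀ (k : ℕ) (M : ℝ) (q : ℕ) (K' : Finset ℕ), k₃ ≤ k →
      Clean ψ k M q → 0 < M → M ≤ 1 → 1 / (k:ℝ) ^ 2 ≤ M →
      ∑ k' ∈ K', ∑ d ∈ q.divisors, negl ψ q d k' ≤ mass γ ψ q)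
    (hleft : ∀ (k : ℕ) (M : ℝ) (q : ℕ) (F : Finset ℕ), k₄ ≤ k →
      Clean ψ k M q → 0 < M → M ≤ 1 → 1 / (k:ℝ) ^ 2 ≤ M →
      (∀ r ∈ F, q < r ∧ ∃ (k' : ℕ) (M' : ℝ), Clean ψ k' M' r ∧ 0 < M' ∧ 1 / (k':ℝ) ^ 2 ≤ M') →
      (¬ UU γ ψ q ∨ ∀ r ∈ F, UU γ ψ r) →
      ∑ r ∈ F.filter (fun r => LeftP γ ψ q r ∧ XX ψ q r < 1 / 64),
          ((Ap γ ψ q).card : ℝ) * (ψ r / r) ≤ 2 * mass γ ψ q)
    (B : Finset ℕ) (hB : ∀ k ∈ B, Dom γ ψ t k ∧ k₃ ≤ k ∧ k₄ ≤ k)
    (hpair : ∀ k ∈ B, ∀ k' ∈ B, k ≤ k' →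
      ∑ q ∈ TT γ ψ t k, ∑ r ∈ (TT γ ψ t k').filter
          (fun r => q < r ∧ 1 / 64 ≤ XX ψ q r ∧ XX ψ q r < (4:ℝ) ^ (max (zz (MM ψ k)) (zz (MM ψ k')))),
          68 * (ψ q * ψ r)
        + ∑ q ∈ TT γ ψ t k, ∑ r ∈ (TT γ ψ t k').filter
          (fun r => q < r ∧ XX ψ q r < 1 / 64 ∧ (Al γ ψ q r).Nonempty ∧ ¬ LeftP γ ψ q r),
          (Nat.gcd q r : ℝ) * min (ψ q / q) (ψ r / r)
      ≤ C * (MM ψ k + MM ψ k') * θ ^ (k' - k) + ∑ q ∈ TT γ ψ t k, ∑ d ∈ q.divisors, negl ψ q d k') :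
    ∑ r ∈ B.biUnion (TT γ ψ t), ∑ q ∈ (B.biUnion (TT γ ψ t)).filter (· < r),
        ∫ x in (0:ℝ)..1, Phi γ ψ q x * Phi γ ψ r x
      ≤ 6 * Real.exp 4 * (∑ q ∈ B.biUnion (TT γ ψ t), mass γ ψ q) ^ 2
        + 2 * (∑ q ∈ B.biUnion (TT γ ψ t), mass γ ψ q)
        + C * (2 * (1 / (1 - θ)) * ∑ k ∈ B, MM ψ k)
        + ∑ q ∈ B.biUnion (TT γ ψ t), mass γ ψ q := by
  set F := B.biUnion (TT γ ψ t) with hF
  have hd := TT_disjoint (γ := γ) (ψ := ψ) B t
  have hmemF : ∀ q ∈ F, ∃ k ∈ B, q ∈ TT γ ψ t k := fun q hq => by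
    simpa [hF] using hq
  have hpos_of_mem : ∀ {k q : ℕ}, k ∈ B → q ∈ TT γ ψ t k → 2 ≤ q ∧ 0 < ψ q := by
    intro k q hk hq
    have hc := (mem_filter.mp hq).2.1
    have hk1 : 1 ≤ k := (hB k hk).1.1
    have : 2 ^ 1 ≤ 2 ^ k := Nat.pow_le_pow_right (by norm_num) hk1
    exact ⟨by have := hc.lo; omega, hc.pos⟩
  have hmass_nonneg : ∀ q : ℕ, 0 ≤ mass γ ψ q := fun q =>
    mul_nonneg (div_nonneg (Nat.cast_nonneg _) (Nat.cast_nonneg _)) (hψ.nonneg q)
  -- the double sum over blocks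
  have hFF : ∀ u : ℕ → ℕ → ℝ, ∑ q ∈ F, ∑ r ∈ F, u q r
      = ∑ k ∈ B, ∑ k' ∈ B, ∑ q ∈ TT γ ψ t k, ∑ r ∈ TT γ ψ t k', u q r := by
    intro u
    rw [hF, sum_biUnion hd]
    apply sum_congr rfl
    intro k _
    rw [sum_comm]
    rw [sum_biUnion hd]
    apply sum_congr rfl
    intro k' _
    rw [sum_comm]
  set I : ℕ → ℕ → ℝ := fun q r => ∫ x in (0:ℝ)..1, Phi γ ψ q x * Phi γ ψ r x with hI
  set p1 : ℕ → ℕ → ℝ := fun q r => 6 * Real.exp 4 * (mass γ ψ q * mass γ ψ r) with hp1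
  set p3 : ℕ → ℕ → ℝ := fun q r =>
    (if q < r ∧ LeftP γ ψ q r ∧ XX ψ q r < 1 / 64 then ((Ap γ ψ q).card : ℝ) * (ψ r / r) else 0) with hp3
  have hp1_nn : ∀ q r, 0 ≤ p1 q r := fun q r => by
    have := hmass_nonneg q
    have := hmass_nonneg r
    simp only [hp1]
    positivity
  have hp3_nn : ∀ q r, 0 ≤ p3 q r := fun q r => by
    simp only [hp3]
    split_ifs
    · exact mul_nonneg (Nat.cast_nonneg _) (div_nonneg (hψ.nonneg r) (Nat.cast_nonneg _))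
    · exact le_rfl
  -- rewrite
  have hcomm : ∑ r ∈ F, ∑ q ∈ F.filter (· < r), I q r
      = ∑ q ∈ F, ∑ r ∈ F, (if q < r then I q r else 0) := by
    simp_rw [sum_filter]
    exact sum_comm
  -- block-pair bound
  have hblock : ∀ k ∈ B, ∀ k' ∈ B,
      ∑ q ∈ TT γ ψ t k, ∑ r ∈ TT γ ψ t k', (if q < r then I q r else 0)
      ≤ ∑ q ∈ TT γ ψ t k, ∑ r ∈ TT γ ψ t k', (p1 q r + p3 q r)
        + (if k ≤ k' then C * (MM ψ k + MM ψ k') * θ ^ (k' - k)
            + ∑ q ∈ TT γ ψ t k, ∑ d ∈ q.divisors, negl ψ q d k' else 0) := by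
    intro k hk k' hk'
    by_cases hkk : k ≤ k'
    · rw [if_pos hkk]
      have hpt : ∀ q ∈ TT γ ψ t k, ∀ r ∈ TT γ ψ t k', (if q < r then I q r else 0)
          ≤ (p1 q r + p3 q r)
            + (if q < r ∧ 1 / 64 ≤ XX ψ q r ∧ XX ψ q r < (4:ℝ) ^ (max (zz (MM ψ k)) (zz (MM ψ k')))
                then 68 * (ψ q * ψ r) else 0)
            + (if q < r ∧ XX ψ q r < 1 / 64 ∧ (Al γ ψ q r).Nonempty ∧ ¬ LeftP γ ψ q r
                then (Nat.gcd q r : ℝ) * min (ψ q / q) (ψ r / r) else 0) := by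
        intro q hq r hr
        have h2nn : 0 ≤ (if q < r ∧ 1 / 64 ≤ XX ψ q r ∧ XX ψ q r < (4:ℝ) ^ (max (zz (MM ψ k)) (zz (MM ψ k')))
                then 68 * (ψ q * ψ r) else 0) := by
          split_ifs
          · have := hψ.nonneg q
            have := hψ.nonneg r
            positivity
          · exact le_rfl
        have h4nn : 0 ≤ (if q < r ∧ XX ψ q r < 1 / 64 ∧ (Al γ ψ q r).Nonempty ∧ ¬ LeftP γ ψ q r
                then (Nat.gcd q r : ℝ) * min (ψ q / q) (ψ r / r) else 0) := by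
          split_ifs
          · have := hψ.nonneg q
            have := hψ.nonneg r
            apply mul_nonneg (Nat.cast_nonneg _)
            apply le_min <;> positivity
          · exact le_rfl
        by_cases hqr : q < r
        · rw [if_pos hqr]
          have := pair_le (γ := γ) hψ (hB k hk).1 (hB k' hk').1 hq hr hqr
          simp only [hp1, hp3, hI]
          linarith
        · rw [if_neg hqr]
          have h1 := hp1_nn q r
          have h3 := hp3_nn q r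
          linarith
      calc ∑ q ∈ TT γ ψ t k, ∑ r ∈ TT γ ψ t k', (if q < r then I q r else 0)
          ≤ ∑ q ∈ TT γ ψ t k, ∑ r ∈ TT γ ψ t k', ((p1 q r + p3 q r)
            + (if q < r ∧ 1 / 64 ≤ XX ψ q r ∧ XX ψ q r < (4:ℝ) ^ (max (zz (MM ψ k)) (zz (MM ψ k')))
                then 68 * (ψ q * ψ r) else 0)
            + (if q < r ∧ XX ψ q r < 1 / 64 ∧ (Al γ ψ q r).Nonempty ∧ ¬ LeftP γ ψ q r
                then (Nat.gcd q r : ℝ) * min (ψ q / q) (ψ r / r) else 0)) :=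
            sum_le_sum fun q hq => sum_le_sum fun r hr => hpt q hq r hr
        _ = ∑ q ∈ TT γ ψ t k, ∑ r ∈ TT γ ψ t k', (p1 q r + p3 q r)
            + (∑ q ∈ TT γ ψ t k, ∑ r ∈ (TT γ ψ t k').filter
                (fun r => q < r ∧ 1 / 64 ≤ XX ψ q r ∧ XX ψ q r < (4:ℝ) ^ (max (zz (MM ψ k)) (zz (MM ψ k')))),
                68 * (ψ q * ψ r)
              + ∑ q ∈ TT γ ψ t k, ∑ r ∈ (TT γ ψ t k').filter
                (fun r => q < r ∧ XX ψ q r < 1 / 64 ∧ (Al γ ψ q r).Nonempty ∧ ¬ LeftP γ ψ q r),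
                (Nat.gcd q r : ℝ) * min (ψ q / q) (ψ r / r)) := by
            simp_rw [sum_filter, sum_add_distrib]
            ring
        _ ≤ _ := by
            have := hpair k hk k' hk' hkk
            linarith
    · rw [if_neg hkk, add_zero]
      apply sum_le_sum
      intro q hq
      apply sum_le_sum
      intro r hr
      have hqr : ¬ q < r := by
        push Not at hkk
        have h1 := (TT_lo_hi hq).1
        have h2 := (TT_lo_hi hr).2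
        have : 2 ^ (k' + 1) ≤ 2 ^ k := Nat.pow_le_pow_right (by norm_num) hkk
        omega
      rw [if_neg hqr]
      have h1 := hp1_nn q r
      have h3 := hp3_nn q r
      linarith
  -- the first moments
  have hS : ∑ q ∈ F, mass γ ψ q = ∑ k ∈ B, ∑ q ∈ TT γ ψ t k, mass γ ψ q := by
    rw [hF, sum_biUnion hd]
  -- the terms p1
  have hterm1 : ∑ q ∈ F, ∑ r ∈ F, p1 q r = 6 * Real.exp 4 * (∑ q ∈ F, mass γ ψ q) ^ 2 := by
    rw [sq, sum_mul_sum, mul_sum]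
    apply sum_congr rfl
    intro q _
    rw [mul_sum]
  -- the terms p3
  have hterm3 : ∑ q ∈ F, ∑ r ∈ F, p3 q r ≤ 2 * ∑ q ∈ F, mass γ ψ q := by
    rw [mul_sum]
    apply sum_le_sum
    intro q hq
    obtain ⟨k, hk, hqk⟩ := hmemF q hq
    have hD := (hB k hk).1
    have hcl := (mem_filter.mp hqk).2
    have hl := hleft k (MM ψ k) q (F.filter (fun r => q < r)) (hB k hk).2.2 hcl.1 (Dom_pos hD)
      (MM_le_one hψ k) hD.2.1 (by
        intro r hr
        obtain ⟨hr1, hr2⟩ := mem_filter.mp hr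
        obtain ⟨k', hk', hrk⟩ := hmemF r hr1
        have hD' := (hB k' hk').1
        exact ⟨hr2, k', MM ψ k', (mem_filter.mp hrk).2.1, Dom_pos hD', hD'.2.1⟩) (by
        cases ht2 : t.2 with
        | true =>
          right
          intro r hr
          obtain ⟨hr1, _⟩ := mem_filter.mp hr
          obtain ⟨k', _, hrk⟩ := hmemF r hr1
          exact ((mem_filter.mp hrk).2.2.2).mp ht2
        | false =>
          left
          intro hU
          have := (hcl.2.2).mpr hU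
          rw [ht2] at this
          exact Bool.false_ne_true this)
    refine le_trans (le_of_eq ?_) hl
    rw [sum_filter, sum_filter]
    apply sum_congr rfl
    intro r _
    simp only [hp3]
    by_cases h : q < r
    · simp [h]
    · simp [h]
  -- the geometric terms
  have hterm2 : ∑ k ∈ B, ∑ k' ∈ B, (if k ≤ k' then C * (MM ψ k + MM ψ k') * θ ^ (k' - k) else 0)
      ≤ C * (2 * (1 / (1 - θ)) * ∑ k ∈ B, MM ψ k) := by
    have h := geom_pairs B (MM ψ) (MM_nonneg hψ) hθ0 hθ1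
    calc ∑ k ∈ B, ∑ k' ∈ B, (if k ≤ k' then C * (MM ψ k + MM ψ k') * θ ^ (k' - k) else 0)
        = C * ∑ k ∈ B, ∑ k' ∈ B, (if k ≤ k' then (MM ψ k + MM ψ k') * θ ^ (k' - k) else 0) := by
          rw [mul_sum]
          apply sum_congr rfl
          intro k _
          rw [mul_sum]
          apply sum_congr rfl
          intro k' _
          split_ifs <;> ring
      _ ≤ _ := mul_le_mul_of_nonneg_left h hC
  have hterm4 : ∑ k ∈ B, ∑ k' ∈ B, (if k ≤ k' then ∑ q ∈ TT γ ψ t k, ∑ d ∈ q.divisors, negl ψ q d k' else 0)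
      ≤ ∑ q ∈ F, mass γ ψ q := by
    rw [hS]
    apply sum_le_sum
    intro k hk
    rw [← sum_filter, sum_comm]
    apply sum_le_sum
    intro q hq
    have hD := (hB k hk).1
    have hcl := (mem_filter.mp hq).2
    exact hnegl k (MM ψ k) q (B.filter (fun k' => k ≤ k')) (hB k hk).2.1 hcl.1 (Dom_pos hD)
      (MM_le_one hψ k) hD.2.1
  -- assemble
  calc ∑ r ∈ F, ∑ q ∈ F.filter (· < r), I q r
      = ∑ k ∈ B, ∑ k' ∈ B, ∑ q ∈ TT γ ψ t k, ∑ r ∈ TT γ ψ t k', (if q < r then I q r else 0) := by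
        rw [hcomm, hFF]
    _ ≤ ∑ k ∈ B, ∑ k' ∈ B, (∑ q ∈ TT γ ψ t k, ∑ r ∈ TT γ ψ t k', (p1 q r + p3 q r)
        + (if k ≤ k' then C * (MM ψ k + MM ψ k') * θ ^ (k' - k)
            + ∑ q ∈ TT γ ψ t k, ∑ d ∈ q.divisors, negl ψ q d k' else 0)) :=
        sum_le_sum fun k hk => sum_le_sum fun k' hk' => hblock k hk k' hk'
    _ = ∑ q ∈ F, ∑ r ∈ F, p1 q r + ∑ q ∈ F, ∑ r ∈ F, p3 q r
        + ∑ k ∈ B, ∑ k' ∈ B, (if k ≤ k' then C * (MM ψ k + MM ψ k') * θ ^ (k' - k) else 0)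
        + ∑ k ∈ B, ∑ k' ∈ B, (if k ≤ k' then ∑ q ∈ TT γ ψ t k, ∑ d ∈ q.divisors, negl ψ q d k' else 0) := by
        rw [hFF p1, hFF p3]
        simp only [sum_add_distrib]
        have : ∀ k k', (if k ≤ k' then C * (MM ψ k + MM ψ k') * θ ^ (k' - k)
            + ∑ q ∈ TT γ ψ t k, ∑ d ∈ q.divisors, negl ψ q d k' else 0)
            = (if k ≤ k' then C * (MM ψ k + MM ψ k') * θ ^ (k' - k) else 0)
              + (if k ≤ k' then ∑ q ∈ TT γ ψ t k, ∑ d ∈ q.divisors, negl ψ q d k' else 0) := by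
          intro k k'
          split_ifs <;> simp
        simp only [this, sum_add_distrib]
        ring
    _ ≤ _ := by
        rw [hterm1]
        linarith

/-- Existence of good blocks. -/
theorem blocks_exist (hψ : Adm ψ) (hdiv : ¬ Summable fun q : ℕ => ψ q * ((Nat.totient q : ℝ) / (q:ℝ))) :
    ∃ C₀ : ℝ, 0 < C₀ ∧ ∀ Y : ℕ, ∃ F : Finset ℕ, (∀ r ∈ F, Y ≤ r) ∧
      1 ≤ ∑ r ∈ F, ∫ x in (0:ℝ)..1, Phi γ ψ r x ∧
      ∑ r ∈ F, ∑ q ∈ F.filter (· < r), ∫ x in (0:ℝ)..1, Phi γ ψ q x * Phi γ ψ r x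
        ≤ C₀ * (∑ r ∈ F, ∫ x in (0:ℝ)..1, Phi γ ψ r x) ^ 2 := by
  obtain ⟨t, ht⟩ := exists_div_type (γ := γ) hψ (not_summable_MM hψ hdiv)
  obtain ⟨C1, hC1, hmid⟩ := mid_sum hψ
  obtain ⟨C2, hC2, k2, hW⟩ : ∃ C2 : ℝ, 0 < C2 ∧ ∃ k2 : ℕ, ∀ k k', k2 ≤ k → k ≤ k' → Dom γ ψ t k → Dom γ ψ t k' →
      ∑ q ∈ TT γ ψ t k, ∑ r ∈ (TT γ ψ t k').filter
          (fun r => q < r ∧ XX ψ q r < 1 / 64 ∧ (Al γ ψ q r).Nonempty ∧ ¬ LeftP γ ψ q r),
        (Nat.gcd q r : ℝ) * min (ψ q / q) (ψ r / r)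
      ≤ C2 * (MM ψ k + MM ψ k') * ((2:ℝ) ^ (k' - k)) ^ (-(1:ℝ) / 28)
        + ∑ q ∈ TT γ ψ t k, ∑ d ∈ q.divisors, negl ψ q d k' := by
    cases ht1 : t.1 with
    | true =>
      obtain ⟨C, hC, k₀, h⟩ := typeH_sum (γ := γ) hψ
      refine ⟨C, hC, k₀, fun k k' hk hkk hD hD' =>
        h k k' _ _ _ _ hk hkk (blk_TT hψ hD) (blk_TT hψ hD') ?_ ?_⟩
      · intro q hq
        exact ((mem_filter.mp hq).2.2.1).mp ht1
      · intro q hq
        exact ((mem_filter.mp hq).2.2.1).mp ht1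
    | false =>
      obtain ⟨C, hC, k₀, h⟩ := typeL_sum (γ := γ) hψ
      refine ⟨C, hC, k₀, fun k k' hk hkk hD hD' =>
        h k k' _ _ _ _ hk hkk (blk_TT hψ hD) (blk_TT hψ hD') ?_ ?_⟩
      · intro q hq
        by_contra hcon
        push Not at hcon
        have := ((mem_filter.mp hq).2.2.1).mpr hcon.le
        rw [ht1] at this
        exact Bool.false_ne_true this
      · intro q hq
        by_contra hcon
        push Not at hcon
        have := ((mem_filter.mp hq).2.2.1).mpr hcon.le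
        rw [ht1] at this
        exact Bool.false_ne_true this
  obtain ⟨k3, hneg⟩ := negl_sum (γ := γ) hψ
  obtain ⟨k4, hleft⟩ := left_sum (γ := γ) hψ
  set θ : ℝ := (2:ℝ) ^ (-(1:ℝ) / 28) with hθ
  have hθ0 : 0 < θ := by positivity
  have hθ1 : θ < 1 := Real.rpow_lt_one_of_one_lt_of_neg (by norm_num) (by norm_num)
  have hpow : ∀ j : ℕ, ((2:ℝ) ^ j) ^ (-(1:ℝ) / 28) = θ ^ j := by
    intro j
    rw [hθ, ← Real.rpow_natCast 2 j, ← Real.rpow_mul (by norm_num), mul_comm, Real.rpow_mul (by norm_num),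
      Real.rpow_natCast]
  have hpow10 : ∀ j : ℕ, ((2:ℝ) ^ j) ^ (-(1:ℝ) / 10) ≤ θ ^ j := by
    intro j
    rw [← hpow j]
    apply Real.rpow_le_rpow_of_exponent_le (one_le_pow₀ (by norm_num))
    norm_num
  set C : ℝ := C1 + C2 with hCdef
  have hC : 0 < C := by positivity
  set c : ℝ := 1 / (1 - θ) with hc
  have hc0 : 0 < c := by
    have : 0 < 1 - θ := by linarith
    positivity
  refine ⟨6 * Real.exp 4 + 3 + 16 * C * c, by positivity, ?_⟩
  intro Y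
  set k1 := max Y (max k2 (max k3 (max k4 1))) with hk1
  have hk1Y : Y ≤ k1 := le_max_left _ _
  have hk12 : k2 ≤ k1 := (le_max_left _ _).trans (le_max_right _ _)
  have hk13 : k3 ≤ k1 := ((le_max_left _ _).trans (le_max_right _ _)).trans (le_max_right _ _)
  have hk14 : k4 ≤ k1 :=
    ((le_max_left _ _).trans (le_max_right _ _)).trans ((le_max_right _ _).trans (le_max_right _ _))
  -- selection of the blocks
  set g : ℕ → ℝ := fun k => if Dom γ ψ t k then MM ψ k else 0 with hg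
  have hg0 : ∀ k, 0 ≤ g k := fun k => by
    simp only [hg]
    split_ifs
    · exact MM_nonneg hψ k
    · exact le_rfl
  have htend := (not_summable_iff_tendsto_nat_atTop_of_nonneg hg0).mp ht
  obtain ⟨n, hn1, hn2⟩ := ((htend.eventually_ge_atTop (∑ i ∈ range k1, g i + 8)).and
    (eventually_ge_atTop k1)).exists
  set B := (Ico k1 n).filter (Dom γ ψ t) with hBdef
  have hB8 : 8 ≤ ∑ k ∈ B, MM ψ k := by
    have h1 : ∑ k ∈ B, MM ψ k = ∑ k ∈ Ico k1 n, g k := by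
      rw [hBdef, sum_filter]
    have h2 := Finset.sum_Ico_eq_sub g hn2
    rw [h1, h2]
    linarith
  have hBmem : ∀ k ∈ B, Dom γ ψ t k ∧ k1 ≤ k := fun k hk => by
    obtain ⟨h1, h2⟩ := mem_filter.mp hk
    exact ⟨h2, (mem_Ico.mp h1).1⟩
  have hB : ∀ k ∈ B, Dom γ ψ t k ∧ k3 ≤ k ∧ k4 ≤ k := fun k hk =>
    ⟨(hBmem k hk).1, hk13.trans (hBmem k hk).2, hk14.trans (hBmem k hk).2⟩
  set F := B.biUnion (TT γ ψ t) with hF
  have hd := TT_disjoint (γ := γ) (ψ := ψ) B t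
  have hmemF : ∀ q ∈ F, ∃ k ∈ B, q ∈ TT γ ψ t k := fun q hq => by
    simpa [hF] using hq
  have hmem2 : ∀ q ∈ F, 2 ≤ q ∧ 0 < ψ q := by
    intro q hq
    obtain ⟨k, hk, hqk⟩ := hmemF q hq
    have hcl := (mem_filter.mp hqk).2.1
    have hk1' : 1 ≤ k := (hBmem k hk).1.1
    have : 2 ^ 1 ≤ 2 ^ k := Nat.pow_le_pow_right (by norm_num) hk1'
    exact ⟨by have := hcl.lo; omega, hcl.pos⟩
  have hint : ∑ r ∈ F, ∫ x in (0:ℝ)..1, Phi γ ψ r x = ∑ r ∈ F, mass γ ψ r :=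
    sum_congr rfl fun r hr => integral_phi hψ (hmem2 r hr).1
  have hBS : ∑ k ∈ B, MM ψ k ≤ 8 * ∑ r ∈ F, mass γ ψ r := by
    have hS : ∑ q ∈ F, mass γ ψ q = ∑ k ∈ B, ∑ q ∈ TT γ ψ t k, mass γ ψ q := by
      rw [hF, sum_biUnion hd]
    rw [hS, mul_sum]
    apply sum_le_sum
    intro k hk
    have hDk := (hBmem k hk).1
    have h1 := hDk.2.2
    have h2 : ∑ q ∈ TT γ ψ t k, ψ q * ((Nat.totient q : ℝ) / (q:ℝ)) ≤ ∑ q ∈ TT γ ψ t k, mass γ ψ q := by
      apply sum_le_sum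
      intro q hq
      have hcl := (mem_filter.mp hq).2.1
      have hk1' : 1 ≤ k := hDk.1
      have : 2 ^ 1 ≤ 2 ^ k := Nat.pow_le_pow_right (by norm_num) hk1'
      exact weighted_le_mass hψ (by have := hcl.lo; omega) hcl.pos
    linarith
  have hS1 : 1 ≤ ∑ r ∈ F, mass γ ψ r := by linarith
  refine ⟨F, ?_, ?_, ?_⟩
  · intro r hr
    obtain ⟨k, hk, hrk⟩ := hmemF r hr
    have h1 := (TT_lo_hi hrk).1
    have h2 : k < 2 ^ k := Nat.lt_two_pow_self
    have h3 := (hBmem k hk).2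
    omega
  · rw [hint]
    exact hS1
  · rw [hint]
    have hcore := core_bound (γ := γ) hψ (t := t) (C := C) (θ := θ) hC.le hθ0.le hθ1 hneg hleft B hB (by
      intro k hk k' hk' hkk
      have hDk := (hBmem k hk).1
      have hDk' := (hBmem k' hk').1
      have h1 := hmid k k' (MM ψ k) (MM ψ k') (TT γ ψ t k) (TT γ ψ t k') hkk (blk_TT hψ hDk) (blk_TT hψ hDk')
      have h2 := hW k k' (hk12.trans (hBmem k hk).2) hkk hDk hDk'
      have hMM : 0 ≤ MM ψ k + MM ψ k' := add_nonneg (MM_nonneg hψ k) (MM_nonneg hψ k')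
      have h3 : C1 * (MM ψ k + MM ψ k') * ((2:ℝ) ^ (k' - k)) ^ (-(1:ℝ) / 10)
          ≤ C1 * (MM ψ k + MM ψ k') * θ ^ (k' - k) :=
        mul_le_mul_of_nonneg_left (hpow10 _) (by positivity)
      rw [hpow] at h2
      have h4 : C * (MM ψ k + MM ψ k') * θ ^ (k' - k)
          = C1 * (MM ψ k + MM ψ k') * θ ^ (k' - k) + C2 * (MM ψ k + MM ψ k') * θ ^ (k' - k) := by
        rw [hCdef]; ring
      linarith)
    rw [← hF, ← hc] at hcore
    refine hcore.trans ?_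
    set S := ∑ r ∈ F, mass γ ψ r with hSdef
    have hSS : S ≤ S ^ 2 := by nlinarith
    have h5 : C * (2 * c * ∑ k ∈ B, MM ψ k) ≤ 16 * C * c * S := by
      have : C * (2 * c * ∑ k ∈ B, MM ψ k) ≤ C * (2 * c * (8 * S)) := by
        gcongr
      linarith
    have h6 : 16 * C * c * S ≤ 16 * C * c * S ^ 2 :=
      mul_le_mul_of_nonneg_left hSS (by positivity)
    nlinarith

/-- The theorem in the range `ψ q ≤ 1 / q`. -/
theorem main_adm (hψ : Adm ψ) (hdiv : ¬ Summable fun q : ℕ => ψ q * ((Nat.totient q : ℝ) / (q:ℝ))) :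
    ∀ᵐ x : ℝ, ∃ᶠ q : ℕ in atTop, dn ((q:ℝ) * x - γ) < ψ q := by
  have h := abstract_main (Phi γ ψ) (phi_lip hψ) (fun r x => phi_nonneg r x)
    (fun r hr x => phi_le_one hψ hr x) (fun r x => phi_periodic r x)
    (fun L ε hL hε => phi_mix hψ L ε hL hε) (blocks_exist hψ hdiv)
  filter_upwards [h] with x hx
  apply (hx.and_eventually (eventually_ge_atTop 1)).mono
  intro q hq
  exact phi_pos_imp hψ hq.2 hq.1

/-- The final statement: truncated divergence. -/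
theorem main_trunc (γ : ℝ) (ψ : ℕ → ℝ) (hψ : ∀ q, 0 ≤ ψ q)
    (hdiv : ¬ Summable fun q : ℕ => min (ψ q) (1 / (q:ℝ)) * ((Nat.totient q : ℝ) / (q:ℝ))) :
    ∀ᵐ x : ℝ, ∃ᶠ q : ℕ in atTop, |(q:ℝ) * x - γ - round ((q:ℝ) * x - γ)| < ψ q := by
  have hadm : Adm (fun q : ℕ => min (ψ q) (1 / (q:ℝ))) :=
    ⟨fun q => le_min (hψ q) (by positivity), fun q _ => min_le_right _ _⟩
  have h := main_adm (γ := γ) hadm hdiv
  filter_upwards [h] with x hx
  apply hx.mono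
  intro q hq
  exact lt_of_lt_of_le hq (min_le_left _ _)

end Vale.Agent.Lib.P028V
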