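import Vale.Agent.Lib.P028V.Clean

/-! Module J, negligible terms: they are dominated by the mass. Independent of the other sums. -/

open Finset
open scoped Classical

namespace Vale.Agent.Lib.P028V

open Vale.Agent.Lib.P028

variable {γ : ℝ} {ψ : ℕ → ℝ}

/-- The fourth root of one half. -/
private noncomputable def rr : ℝ := Real.sqrt (Real.sqrt (1 / 2))

private lemma rr_pos : 0 < rr := by
  unfold rr; positivity

private lemma rr_pow4 : rr ^ 4 = 1 / 2 := by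
  unfold rr
  have h1 : Real.sqrt (Real.sqrt (1 / 2)) ^ 2 = Real.sqrt (1 / 2) := Real.sq_sqrt (by positivity)
  have h2 : Real.sqrt (1 / 2) ^ 2 = 1 / 2 := Real.sq_sqrt (by positivity)
  calc Real.sqrt (Real.sqrt (1 / 2)) ^ 4 = (Real.sqrt (Real.sqrt (1 / 2)) ^ 2) ^ 2 := by ring
    _ = 1 / 2 := by rw [h1, h2]

private lemma rr_lt_one : |rr| < 1 := by
  rw [abs_of_pos rr_pos]
  by_contra h
  push Not at h
  have : (1:ℝ) ≤ rr ^ 4 := one_le_pow₀ h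
  rw [rr_pow4] at this
  norm_num at this

/-- Eventually `C k ^ 6 rr ^ k ≤ 1`. -/
private lemma eventually_small (C : ℝ) : ∃ k₀ : ℕ, ∀ k : ℕ, k₀ ≤ k → C * ((k:ℝ) ^ 6 * rr ^ k) ≤ 1 := by
  have h := tendsto_pow_const_mul_const_pow_of_abs_lt_one 6 rr_lt_one
  have h2 : Filter.Tendsto (fun n : ℕ => C * ((n:ℝ) ^ 6 * rr ^ n)) Filter.atTop (nhds (C * 0)) := h.const_mul C
  rw [mul_zero] at h2
  have h3 := (h2.eventually (gt_mem_nhds (show (0:ℝ) < 1 by norm_num)))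
  rw [Filter.eventually_atTop] at h3
  obtain ⟨k₀, hk⟩ := h3
  exact ⟨k₀, fun k hk' => (hk k hk').le⟩

/-- The bound for one scale. `u = 2 ^ k`, `s = sqrt (2 ^ k')`, `2 ^ k' < 6 u k`:
`sqrt (10 s) * s ≤ 13 k / (rr ^ k) ^ 3`. -/
private lemma one_scale {k k' : ℕ} (hk : 1 ≤ k)
    (h : (2:ℝ) ^ k' < 6 * (2:ℝ) ^ k * (k:ℝ)) :
    Real.sqrt (10 * Real.sqrt ((2:ℝ) ^ k')) * Real.sqrt ((2:ℝ) ^ k') * (rr ^ k) ^ 3 ≤ 13 * (k:ℝ) := by
  set s := Real.sqrt ((2:ℝ) ^ k') with hs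
  have hs0 : 0 ≤ s := Real.sqrt_nonneg _
  have hs2 : s ^ 2 = (2:ℝ) ^ k' := Real.sq_sqrt (by positivity)
  set w := Real.sqrt (10 * s) with hw
  have hw0 : 0 ≤ w := Real.sqrt_nonneg _
  have hw2 : w ^ 2 = 10 * s := Real.sq_sqrt (by positivity)
  set y := rr ^ k with hy
  have hy0 : 0 < y := pow_pos rr_pos k
  have hy4 : y ^ 4 = (1 / 2) ^ k := by
    rw [hy, ← pow_mul, mul_comm, pow_mul, rr_pow4]
  have hk1 : (1:ℝ) ≤ k := by exact_mod_cast hk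
  have hu : (2:ℝ) ^ k * y ^ 4 = 1 := by
    rw [hy4, ← mul_pow]; norm_num
  -- fourth powers
  have h4 : (w * s * y ^ 3) ^ 4 ≤ (13 * (k:ℝ)) ^ 4 := by
    have e1 : (w * s * y ^ 3) ^ 4 = 100 * (s ^ 2) ^ 3 * y ^ 12 := by
      calc (w * s * y ^ 3) ^ 4 = (w ^ 2) ^ 2 * s ^ 4 * y ^ 12 := by ring
        _ = 100 * (s ^ 2) ^ 3 * y ^ 12 := by rw [hw2]; ring
    rw [e1, hs2]
    have h5 : ((2:ℝ) ^ k') ^ 3 ≤ (6 * (2:ℝ) ^ k * (k:ℝ)) ^ 3 :=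
      pow_le_pow_left₀ (by positivity) h.le 3
    have h6 : 100 * ((2:ℝ) ^ k') ^ 3 * y ^ 12 ≤ 100 * (6 * (2:ℝ) ^ k * (k:ℝ)) ^ 3 * y ^ 12 := by
      gcongr
    have h7 : 100 * (6 * (2:ℝ) ^ k * (k:ℝ)) ^ 3 * y ^ 12 = 21600 * (k:ℝ) ^ 3 * ((2:ℝ) ^ k * y ^ 4) ^ 3 := by ring
    rw [hu] at h7
    have h8 : (k:ℝ) ^ 3 ≤ (k:ℝ) ^ 4 := pow_le_pow_right₀ hk1 (by norm_num)
    have h9 : (13 * (k:ℝ)) ^ 4 = 28561 * (k:ℝ) ^ 4 := by ring
    rw [h9]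
    have h10 : 0 ≤ (k:ℝ) ^ 4 := by positivity
    nlinarith
  exact le_of_pow_le_pow_left₀ (by norm_num) (by positivity) h4

/-- One scale: the divisor sum of `negl`. -/
private lemma inner_sum {q k' : ℕ} (hψq : 0 < ψ q) (hq : 1 ≤ q)
    (hE : (4:ℝ) ^ k' < (q:ℝ) / ψ q) :
    ∑ d ∈ q.divisors, negl ψ q d k'
      ≤ Real.sqrt (10 * Real.sqrt ((2:ℝ) ^ k')) * Lam q * (15 * ψ q * Real.sqrt ((2:ℝ) ^ k') / (q:ℝ)) := by
  set s := Real.sqrt ((2:ℝ) ^ k') with hs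
  have hs0 : 0 ≤ s := Real.sqrt_nonneg _
  have hq0 : (0:ℝ) < q := by exact_mod_cast hq
  have hT : 0 ≤ 15 * ψ q * s / (q:ℝ) := by positivity
  have h1 : ∑ d ∈ q.divisors, negl ψ q d k'
      = ∑ d ∈ q.divisors.filter (fun d : ℕ => (d:ℝ) < 10 * s), 15 * ψ q * s / (q:ℝ) := by
    rw [Finset.sum_filter]
    apply Finset.sum_congr rfl
    intro d _
    unfold negl
    by_cases hd : (d:ℝ) < 10 * s
    · rw [if_pos ⟨hd, hE⟩, if_pos hd]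
    · rw [if_neg (fun h => hd h.1), if_neg hd]
  rw [h1, Finset.sum_const, nsmul_eq_mul]
  exact mul_le_mul_of_nonneg_right (card_small_div q (by positivity)) hT

/-- The mass bounds the term below. -/
private lemma mass_lower {q k : ℕ} {M : ℝ} (hψ : Adm ψ) (hC : Clean ψ k M q) (hM0 : 0 < M) (hM1 : M ≤ 1)
    (hk1 : 1 ≤ k) (hMk : 1 / (k:ℝ) ^ 2 ≤ M) :
    ψ q ≤ Real.exp 2 * (19 * (k:ℝ) ^ 2) * mass γ ψ q := by
  have hq1 : 1 ≤ q := le_trans Nat.one_le_two_pow hC.lo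
  have hq0 : (0:ℝ) < q := by exact_mod_cast hq1
  have hψq := hC.pos
  have hk0 : (0:ℝ) < k := by exact_mod_cast hk1
  have hk11 : (1:ℝ) ≤ k := by exact_mod_cast hk1
  have hk2 : (1:ℝ) ≤ (k:ℝ) ^ 2 := one_le_pow₀ hk11
  have hinv : 1 / M ≤ (k:ℝ) ^ 2 := by
    rw [div_le_iff₀ hM0]
    rw [div_le_iff₀ (by positivity)] at hMk
    linarith
  have h16 : 1 ≤ 16 / M := by
    rw [le_div_iff₀ hM0]; linarith
  have hlog : 0 ≤ Real.log (16 / M) := Real.log_nonneg h16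
  have hlog2 : Real.log (16 / M) ≤ 16 * (k:ℝ) ^ 2 := by
    have h1 : Real.log (16 / M) ≤ 16 / M - 1 := Real.log_le_sub_one_of_pos (by positivity)
    have h2 : 16 / M = 16 * (1 / M) := by ring
    have h3 : 16 / M ≤ 16 * (k:ℝ) ^ 2 := by rw [h2]; linarith
    linarith
  have hzz2 : 2 ≤ zz M := by
    unfold zz
    have : (2:ℝ) ≤ ⌈2 + Real.log (16 / M)⌉₊ := by
      have := Nat.le_ceil (2 + Real.log (16 / M))
      linarith
    exact_mod_cast this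
  have hzz3 : (zz M : ℝ) ≤ 19 * (k:ℝ) ^ 2 := by
    unfold zz
    have := Nat.ceil_lt_add_one (a := 2 + Real.log (16 / M)) (by linarith)
    linarith
  have htot := div_totient_le hq1 hzz2 hC.r1
  have hφ : (0:ℝ) < (Nat.totient q : ℝ) := by
    exact_mod_cast Nat.totient_pos.mpr (by omega)
  have hw : ψ q * ((Nat.totient q : ℝ) / (q:ℝ)) ≤ mass γ ψ q := weighted_le_mass hψ hq1 hψq
  have hkey : ψ q = ((q:ℝ) / (Nat.totient q : ℝ)) * (ψ q * ((Nat.totient q : ℝ) / (q:ℝ))) := by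
    field_simp
  rw [hkey]
  have hnn : 0 ≤ ψ q * ((Nat.totient q : ℝ) / (q:ℝ)) := by positivity
  have h3 : (q:ℝ) / (Nat.totient q : ℝ) ≤ Real.exp 2 * (19 * (k:ℝ) ^ 2) := by
    refine htot.trans ?_
    exact mul_le_mul_of_nonneg_left hzz3 (Real.exp_pos 2).le
  calc ((q:ℝ) / (Nat.totient q : ℝ)) * (ψ q * ((Nat.totient q : ℝ) / (q:ℝ)))
      ≤ (Real.exp 2 * (19 * (k:ℝ) ^ 2)) * (ψ q * ((Nat.totient q : ℝ) / (q:ℝ))) :=
        mul_le_mul_of_nonneg_right h3 hnn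
    _ ≤ Real.exp 2 * (19 * (k:ℝ) ^ 2) * mass γ ψ q :=
        mul_le_mul_of_nonneg_left hw (by positivity)

/-- `Lam q` on a clean element. -/
private lemma lam_upper {q k : ℕ} {M : ℝ} (hC : Clean ψ k M q) (hM0 : 0 < M)
    (hk1 : 1 ≤ k) (hMk : 1 / (k:ℝ) ^ 2 ≤ M) :
    Lam q ≤ CL * (k:ℝ) ^ 2 := by
  refine hC.lam.trans ?_
  unfold KK
  have hCL : 0 ≤ CL := le_trans zero_le_one CL_ge_one
  apply mul_le_mul_of_nonneg_left _ hCL
  have hk11 : (1:ℝ) ≤ k := by exact_mod_cast hk1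
  have hk2 : (1:ℝ) ≤ (k:ℝ) ^ 2 := one_le_pow₀ hk11
  have hinv : M⁻¹ ≤ (k:ℝ) ^ 2 := by
    rw [inv_eq_one_div, div_le_iff₀ hM0]
    rw [div_le_iff₀ (by positivity)] at hMk
    linarith
  have e : M ^ (-(1:ℝ) / 64) = (M⁻¹) ^ ((1:ℝ) / 64) := by
    rw [Real.inv_rpow hM0.le, ← Real.rpow_neg hM0.le]
    congr 1
    ring
  rw [e]
  calc (M⁻¹) ^ ((1:ℝ) / 64) ≤ ((k:ℝ) ^ 2) ^ ((1:ℝ) / 64) :=
        Real.rpow_le_rpow (by positivity) hinv (by norm_num)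
    _ ≤ ((k:ℝ) ^ 2) ^ (1:ℝ) := Real.rpow_le_rpow_of_exponent_le hk2 (by norm_num)
    _ = (k:ℝ) ^ 2 := Real.rpow_one _

/-- The negligible terms are dominated by the mass. -/
theorem negl_sum_aux (hψ : Adm ψ) : ∃ k₀ : ℕ, ∀ (k : ℕ) (M : ℝ) (q : ℕ) (K' : Finset ℕ), k₀ ≤ k →
    Clean ψ k M q → 0 < M → M ≤ 1 → 1 / (k:ℝ) ^ 2 ≤ M →
    ∑ k' ∈ K', ∑ d ∈ q.divisors, negl ψ q d k' ≤ mass γ ψ q := by
  obtain ⟨k₀, hk₀⟩ := eventually_small (975 * 19 * Real.exp 2 * CL)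
  refine ⟨max k₀ 1, ?_⟩
  intro k M q K' hk hC hM0 hM1 hMk
  have hk0 : k₀ ≤ k := le_trans (le_max_left _ _) hk
  have hk1 : 1 ≤ k := le_trans (le_max_right _ _) hk
  have hk11 : (1:ℝ) ≤ k := by exact_mod_cast hk1
  have hkpos : (0:ℝ) < k := by linarith
  have hq1 : 1 ≤ q := le_trans Nat.one_le_two_pow hC.lo
  have hq0 : (0:ℝ) < q := by exact_mod_cast hq1
  have hψq := hC.pos
  have hCL : 0 ≤ CL := le_trans zero_le_one CL_ge_one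
  have hqlo : (2:ℝ) ^ k ≤ q := by exact_mod_cast hC.lo
  have hqhi : (q:ℝ) < (2:ℝ) ^ (k + 1) := by exact_mod_cast hC.hi
  set u : ℝ := (2:ℝ) ^ k with hu
  have hu0 : 0 < u := by positivity
  have hqhi' : (q:ℝ) < 2 * u := by
    have e : (2:ℝ) ^ (k + 1) = 2 * u := by rw [hu]; ring
    linarith
  -- the scale condition
  have hscale : ∀ k' : ℕ, (4:ℝ) ^ k' < (q:ℝ) / ψ q → (2:ℝ) ^ k' < 6 * u * (k:ℝ) := by
    intro k' hE
    have hinv : 1 / M ≤ (k:ℝ) ^ 2 := by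
      rw [div_le_iff₀ hM0]
      rw [div_le_iff₀ (by positivity)] at hMk
      linarith
    have h1 : (q:ℝ) / ψ q ≤ 32 * u ^ 2 * (k:ℝ) ^ 2 := by
      rw [div_le_iff₀ hψq]
      have h2 : M / 8 ≤ (q:ℝ) * ψ q := hC.alow
      have h3 : (1:ℝ) ≤ (k:ℝ) ^ 2 * M := by
        rw [div_le_iff₀ (by positivity)] at hMk
        linarith
      have h4 : (q:ℝ) ^ 2 ≤ 4 * u ^ 2 := by nlinarith
      have h5 : 1 / 8 ≤ (k:ℝ) ^ 2 * ((q:ℝ) * ψ q) := by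
        have : (k:ℝ) ^ 2 * (M / 8) ≤ (k:ℝ) ^ 2 * ((q:ℝ) * ψ q) :=
          mul_le_mul_of_nonneg_left h2 (by positivity)
        nlinarith
      have h6 : (q:ℝ) * 1 ≤ 32 * u ^ 2 * (k:ℝ) ^ 2 * ψ q := by
        have h7 : (q:ℝ) ≤ (q:ℝ) * (8 * ((k:ℝ) ^ 2 * ((q:ℝ) * ψ q))) := by
          have : (1:ℝ) ≤ 8 * ((k:ℝ) ^ 2 * ((q:ℝ) * ψ q)) := by linarith
          nlinarith
        have h8 : (q:ℝ) * (8 * ((k:ℝ) ^ 2 * ((q:ℝ) * ψ q))) = (q:ℝ) ^ 2 * (8 * (k:ℝ) ^ 2 * ψ q) := by ring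
        have h9 : (q:ℝ) ^ 2 * (8 * (k:ℝ) ^ 2 * ψ q) ≤ (4 * u ^ 2) * (8 * (k:ℝ) ^ 2 * ψ q) :=
          mul_le_mul_of_nonneg_right h4 (by positivity)
        nlinarith
      linarith
    have h2 : ((2:ℝ) ^ k') ^ 2 < (6 * u * (k:ℝ)) ^ 2 := by
      have e : ((2:ℝ) ^ k') ^ 2 = (4:ℝ) ^ k' := by
        rw [← pow_mul, mul_comm, pow_mul]; norm_num
      rw [e]
      have h3 : 32 * u ^ 2 * (k:ℝ) ^ 2 ≤ (6 * u * (k:ℝ)) ^ 2 := by
        have : 0 ≤ u ^ 2 * (k:ℝ) ^ 2 := by positivity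
        nlinarith
      linarith
    exact lt_of_pow_lt_pow_left₀ 2 (by positivity) h2
  -- the number of scales
  have hcount : (K'.filter (fun k' => (4:ℝ) ^ k' < (q:ℝ) / ψ q)).card ≤ 2 * k + 3 := by
    have hsub : K'.filter (fun k' => (4:ℝ) ^ k' < (q:ℝ) / ψ q) ⊆ range (2 * k + 3) := by
      intro k' hk'
      rw [mem_filter] at hk'
      have h1 := hscale k' hk'.2
      rw [mem_range]
      have h2 : (k:ℝ) < (2:ℝ) ^ k := by exact_mod_cast Nat.lt_two_pow_self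
      have h3 : (2:ℝ) ^ k' < (2:ℝ) ^ (2 * k + 3) := by
        have e : (2:ℝ) ^ (2 * k + 3) = 8 * (u * u) := by
          rw [hu]; ring
        rw [e]
        have : 6 * u * (k:ℝ) ≤ 8 * (u * u) := by
          have : u * (k:ℝ) ≤ u * u := mul_le_mul_of_nonneg_left h2.le hu0.le
          nlinarith
        linarith
      exact (pow_lt_pow_iff_right₀ (by norm_num)).mp h3
    simpa using card_le_card hsub
  -- bound per scale
  set y : ℝ := rr ^ k with hy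
  have hy0 : 0 < y := pow_pos rr_pos k
  have hy4 : u * y ^ 4 = 1 := by
    have : y ^ 4 = (1 / 2) ^ k := by
      rw [hy, ← pow_mul, mul_comm, pow_mul, rr_pow4]
    rw [this, hu, ← mul_pow]; norm_num
  have hLam0 : 0 ≤ Lam q := by
    unfold Lam
    positivity
  set W : ℝ := 195 * (k:ℝ) * (CL * (k:ℝ) ^ 2) * ψ q * y with hW
  have hW0 : 0 ≤ W := by positivity
  have hper : ∀ k' ∈ K'.filter (fun k' => (4:ℝ) ^ k' < (q:ℝ) / ψ q),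
      ∑ d ∈ q.divisors, negl ψ q d k' ≤ W := by
    intro k' hk'
    rw [mem_filter] at hk'
    have h1 := inner_sum hψq hq1 hk'.2
    refine h1.trans ?_
    have h2 := one_scale hk1 (hscale k' hk'.2)
    set s := Real.sqrt ((2:ℝ) ^ k')
    set w := Real.sqrt (10 * s)
    have hs0 : 0 ≤ s := Real.sqrt_nonneg _
    have hw0 : 0 ≤ w := Real.sqrt_nonneg _
    -- w * s ≤ 13 k / y ^ 3, 1 / q ≤ y ^ 4
    have hq4 : 1 / (q:ℝ) ≤ y ^ 4 := by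
      rw [div_le_iff₀ hq0]
      have : u * y ^ 4 ≤ (q:ℝ) * y ^ 4 := mul_le_mul_of_nonneg_right hqlo (by positivity)
      nlinarith
    have e : w * Lam q * (15 * ψ q * s / (q:ℝ)) = 15 * (w * s) * Lam q * ψ q * (1 / (q:ℝ)) := by ring
    rw [e]
    have hLam := lam_upper hC hM0 hk1 hMk
    have h3 : 15 * (w * s) * Lam q * ψ q * (1 / (q:ℝ)) ≤ 15 * (w * s) * (CL * (k:ℝ) ^ 2) * ψ q * y ^ 4 := by
      gcongr
    refine h3.trans (le_of_eq_of_le ?_ (?_ : 15 * (w * s * y ^ 3) * (CL * (k:ℝ) ^ 2) * ψ q * y ≤ W))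
    · ring
    · rw [hW]
      have h4 : 15 * (w * s * y ^ 3) ≤ 15 * (13 * (k:ℝ)) := by linarith
      have h5 : 0 ≤ (CL * (k:ℝ) ^ 2) * ψ q * y := by positivity
      calc 15 * (w * s * y ^ 3) * (CL * (k:ℝ) ^ 2) * ψ q * y
          = (15 * (w * s * y ^ 3)) * ((CL * (k:ℝ) ^ 2) * ψ q * y) := by ring
        _ ≤ (15 * (13 * (k:ℝ))) * ((CL * (k:ℝ) ^ 2) * ψ q * y) := mul_le_mul_of_nonneg_right h4 h5
        _ = 195 * (k:ℝ) * (CL * (k:ℝ) ^ 2) * ψ q * y := by ring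
  -- total
  have hnonE : ∀ k' ∈ K', ¬ (4:ℝ) ^ k' < (q:ℝ) / ψ q → ∑ d ∈ q.divisors, negl ψ q d k' = 0 := by
    intro k' _ hn
    apply Finset.sum_eq_zero
    intro d _
    unfold negl
    rw [if_neg (fun h => hn h.2)]
  have hsplit : ∑ k' ∈ K', ∑ d ∈ q.divisors, negl ψ q d k'
      = ∑ k' ∈ K'.filter (fun k' => (4:ℝ) ^ k' < (q:ℝ) / ψ q), ∑ d ∈ q.divisors, negl ψ q d k' := by
    rw [Finset.sum_filter]
    apply Finset.sum_congr rfl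
    intro k' hk'
    by_cases hE : (4:ℝ) ^ k' < (q:ℝ) / ψ q
    · rw [if_pos hE]
    · rw [if_neg hE, hnonE k' hk' hE]
  rw [hsplit]
  have hsum : ∑ k' ∈ K'.filter (fun k' => (4:ℝ) ^ k' < (q:ℝ) / ψ q), ∑ d ∈ q.divisors, negl ψ q d k'
      ≤ ((2 * k + 3 : ℕ) : ℝ) * W := by
    calc _ ≤ ∑ _k' ∈ K'.filter (fun k' => (4:ℝ) ^ k' < (q:ℝ) / ψ q), W := Finset.sum_le_sum hper
      _ = ((K'.filter (fun k' => (4:ℝ) ^ k' < (q:ℝ) / ψ q)).card : ℝ) * W := by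
          rw [Finset.sum_const, nsmul_eq_mul]
      _ ≤ ((2 * k + 3 : ℕ) : ℝ) * W := by
          apply mul_le_mul_of_nonneg_right _ hW0
          exact_mod_cast hcount
  refine hsum.trans ?_
  -- numerics
  have hsmall := hk₀ k hk0
  have hmass := mass_lower (γ := γ) hψ hC hM0 hM1 hk1 hMk
  have hmass0 : 0 ≤ mass γ ψ q := by
    unfold mass
    positivity
  have h5k : ((2 * k + 3 : ℕ) : ℝ) ≤ 5 * (k:ℝ) := by
    push_cast
    linarith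
  have hfin : ((2 * k + 3 : ℕ) : ℝ) * W ≤ 5 * (k:ℝ) * W := mul_le_mul_of_nonneg_right h5k hW0
  refine hfin.trans ?_
  have hE2 : 0 < Real.exp 2 := Real.exp_pos 2
  have e2 : 5 * (k:ℝ) * W = (975 * (CL * (k:ℝ) ^ 4 * y)) * ψ q := by
    rw [hW]; ring
  rw [e2]
  have h6 : (975 * (CL * (k:ℝ) ^ 4 * y)) * ψ q
      ≤ (975 * (CL * (k:ℝ) ^ 4 * y)) * (Real.exp 2 * (19 * (k:ℝ) ^ 2) * mass γ ψ q) :=
    mul_le_mul_of_nonneg_left hmass (by positivity)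
  refine h6.trans ?_
  have e3 : (975 * (CL * (k:ℝ) ^ 4 * y)) * (Real.exp 2 * (19 * (k:ℝ) ^ 2) * mass γ ψ q)
      = (975 * 19 * Real.exp 2 * CL * ((k:ℝ) ^ 6 * y)) * mass γ ψ q := by ring
  rw [e3]
  calc (975 * 19 * Real.exp 2 * CL * ((k:ℝ) ^ 6 * y)) * mass γ ψ q ≤ 1 * mass γ ψ q :=
        mul_le_mul_of_nonneg_right hsmall hmass0
    _ = mass γ ψ q := one_mul _

end Vale.Agent.Lib.P028V
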