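import Vale.Agent.Lib.P028V.Clean

/-! Module J, middle range: the proof of `mid_sum`. -/

open Finset
open scoped Classical

namespace Vale.Agent.Lib.P028V

open Vale.Agent.Lib.P028

variable {ψ : ℕ → ℝ}

/-- First real-power inequality. -/
lemma mid_caseA {u v y : ℝ} (hv : 0 < v) (hvu : v ≤ u) (hu : u ≤ 1) (hy : 1 ≤ y)
    (h : y * v ^ 5 < 2 ^ 32) :
    (u * v) ^ ((63:ℝ) / 64) ≤ 10 * u * y ^ (-(1:ℝ) / 10) := by
  have hu0 : 0 < u := lt_of_lt_of_le hv hvu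
  have hy0 : 0 < y := by linarith
  rw [Real.mul_rpow hu0.le hv.le]
  have h1 : v ^ ((63:ℝ) / 64) = v ^ ((1:ℝ) / 2) * v ^ ((31:ℝ) / 64) := by
    rw [← Real.rpow_add hv]; norm_num
  have h2 : v ^ ((31:ℝ) / 64) ≤ u ^ ((31:ℝ) / 64) :=
    Real.rpow_le_rpow hv.le hvu (by norm_num)
  have h3 : u ^ ((63:ℝ) / 64) * u ^ ((31:ℝ) / 64) ≤ u := by
    rw [← Real.rpow_add hu0]
    calc u ^ ((63:ℝ) / 64 + 31 / 64) ≤ u ^ (1:ℝ) :=
          Real.rpow_le_rpow_of_exponent_ge hu0 hu (by norm_num)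
      _ = u := Real.rpow_one u
  have h4 : v ^ ((1:ℝ) / 2) * y ^ ((1:ℝ) / 10) ≤ 10 := by
    have e1 : (v ^ 5 * y) ^ ((1:ℝ) / 10) = v ^ ((1:ℝ) / 2) * y ^ ((1:ℝ) / 10) := by
      rw [Real.mul_rpow (by positivity) hy0.le]
      congr 1
      rw [← Real.rpow_natCast, ← Real.rpow_mul hv.le]
      norm_num
    rw [← e1]
    have e2 : v ^ 5 * y ≤ (10:ℝ) ^ (10:ℕ) := by nlinarith [h]
    calc (v ^ 5 * y) ^ ((1:ℝ) / 10) ≤ ((10:ℝ) ^ (10:ℕ)) ^ ((1:ℝ) / 10) :=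
          Real.rpow_le_rpow (by positivity) e2 (by norm_num)
      _ = 10 := by
          rw [← Real.rpow_natCast, ← Real.rpow_mul (by norm_num)]
          norm_num
  have h5 : v ^ ((1:ℝ) / 2) ≤ 10 * y ^ (-(1:ℝ) / 10) := by
    have e3 : y ^ (-(1:ℝ) / 10) * y ^ ((1:ℝ) / 10) = 1 := by
      rw [← Real.rpow_add hy0]; norm_num
    have e4 : 0 ≤ y ^ (-(1:ℝ) / 10) := by positivity
    calc v ^ ((1:ℝ) / 2) = (v ^ ((1:ℝ) / 2) * y ^ ((1:ℝ) / 10)) * y ^ (-(1:ℝ) / 10) := by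
          rw [mul_assoc, mul_comm (y ^ ((1:ℝ) / 10)), e3, mul_one]
      _ ≤ 10 * y ^ (-(1:ℝ) / 10) := mul_le_mul_of_nonneg_right h4 e4
  rw [h1]
  have p1 : 0 ≤ u ^ ((63:ℝ) / 64) := by positivity
  have p2 : 0 ≤ v ^ ((1:ℝ) / 2) := by positivity
  have p3 : 0 ≤ u ^ ((31:ℝ) / 64) := by positivity
  calc u ^ ((63:ℝ) / 64) * (v ^ ((1:ℝ) / 2) * v ^ ((31:ℝ) / 64))
      ≤ u ^ ((63:ℝ) / 64) * (v ^ ((1:ℝ) / 2) * u ^ ((31:ℝ) / 64)) := by gcongr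
    _ = (u ^ ((63:ℝ) / 64) * u ^ ((31:ℝ) / 64)) * v ^ ((1:ℝ) / 2) := by ring
    _ ≤ u * (10 * y ^ (-(1:ℝ) / 10)) := by
        apply mul_le_mul h3 h5 p2 hu0.le
    _ = 10 * u * y ^ (-(1:ℝ) / 10) := by ring

/-- Second real-power inequality. -/
lemma mid_caseB {M y : ℝ} (hM : 0 < M) (hy : 1 ≤ y) (h : 1 ≤ y * M ^ 5) :
    M ^ (-(1:ℝ) / 64) * M ^ ((63:ℝ) / 64) * y ^ (-(1:ℝ) / 4) ≤ M * y ^ (-(1:ℝ) / 10) := by
  have hy0 : 0 < y := by linarith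
  have e0 : M ^ (-(1:ℝ) / 64) * M ^ ((63:ℝ) / 64) = M * M ^ (-(1:ℝ) / 32) := by
    rw [← Real.rpow_add hM]
    nth_rewrite 2 [← Real.rpow_one M]
    rw [← Real.rpow_add hM]; norm_num
  rw [e0, mul_assoc]
  apply mul_le_mul_of_nonneg_left _ hM.le
  have e1 : (y * M ^ 5) ^ ((1:ℝ) / 160) = y ^ ((1:ℝ) / 160) * M ^ ((1:ℝ) / 32) := by
    rw [Real.mul_rpow hy0.le (by positivity)]
    congr 1
    rw [← Real.rpow_natCast, ← Real.rpow_mul hM.le]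
    norm_num
  have e2 : 1 ≤ y ^ ((1:ℝ) / 160) * M ^ ((1:ℝ) / 32) := by
    rw [← e1]
    exact Real.one_le_rpow h (by norm_num)
  have e3 : M ^ (-(1:ℝ) / 32) * M ^ ((1:ℝ) / 32) = 1 := by
    rw [← Real.rpow_add hM]; norm_num
  have e4 : M ^ (-(1:ℝ) / 32) ≤ y ^ ((1:ℝ) / 160) := by
    have p : 0 ≤ M ^ (-(1:ℝ) / 32) := by positivity
    calc M ^ (-(1:ℝ) / 32) = M ^ (-(1:ℝ) / 32) * 1 := by ring
      _ ≤ M ^ (-(1:ℝ) / 32) * (y ^ ((1:ℝ) / 160) * M ^ ((1:ℝ) / 32)) :=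
          mul_le_mul_of_nonneg_left e2 p
      _ = y ^ ((1:ℝ) / 160) * (M ^ (-(1:ℝ) / 32) * M ^ ((1:ℝ) / 32)) := by ring
      _ = y ^ ((1:ℝ) / 160) := by rw [e3, mul_one]
  calc M ^ (-(1:ℝ) / 32) * y ^ (-(1:ℝ) / 4)
      ≤ y ^ ((1:ℝ) / 160) * y ^ (-(1:ℝ) / 4) := by gcongr
    _ = y ^ ((1:ℝ) / 160 + (-(1:ℝ) / 4)) := by rw [Real.rpow_add hy0]
    _ ≤ y ^ (-(1:ℝ) / 10) := Real.rpow_le_rpow_of_exponent_le hy (by norm_num)

/-- The lower bound for the overlap parameter from the scale ratio. -/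
lemma mid_scale {k k' : ℕ} {q r : ℕ} (hkk : k ≤ k') (hq : q < 2 ^ (k + 1)) (hr : 2 ^ k' ≤ r)
    (hψq : 0 < ψ q) (hq1 : 1 ≤ q) (hr1 : 1 ≤ r) :
    (2:ℝ) ^ (k' - k) * ((q:ℝ) * ψ q) < 2 * (Nat.gcd q r : ℝ) * XX ψ q r := by
  have hd : 0 < Nat.gcd q r := Nat.gcd_pos_of_pos_left _ hq1
  have hd' : (0:ℝ) < (Nat.gcd q r : ℝ) := by exact_mod_cast hd
  have hX : ((r / Nat.gcd q r : ℕ) : ℝ) * ψ q ≤ XX ψ q r := le_max_left _ _
  have hcast : ((r / Nat.gcd q r : ℕ) : ℝ) = (r:ℝ) / (Nat.gcd q r : ℝ) :=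
    Nat.cast_div (Nat.gcd_dvd_right q r) hd'.ne'
  rw [hcast] at hX
  have h1 : (r:ℝ) * ψ q ≤ (Nat.gcd q r : ℝ) * XX ψ q r := by
    have : (r:ℝ) / (Nat.gcd q r : ℝ) * ψ q * (Nat.gcd q r : ℝ) = (r:ℝ) * ψ q := by
      field_simp
    calc (r:ℝ) * ψ q = (r:ℝ) / (Nat.gcd q r : ℝ) * ψ q * (Nat.gcd q r : ℝ) := this.symm
      _ ≤ XX ψ q r * (Nat.gcd q r : ℝ) := mul_le_mul_of_nonneg_right hX hd'.le
      _ = (Nat.gcd q r : ℝ) * XX ψ q r := by ring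
  have h2 : (2:ℝ) ^ (k' - k) * (q:ℝ) < 2 * (r:ℝ) := by
    have h3 : (q:ℝ) < (2:ℝ) ^ (k + 1) := by exact_mod_cast hq
    have h4 : (2:ℝ) ^ k' ≤ (r:ℝ) := by exact_mod_cast hr
    have h5 : (2:ℝ) ^ (k' - k) * (2:ℝ) ^ k = (2:ℝ) ^ k' := by
      rw [← pow_add, Nat.sub_add_cancel hkk]
    calc (2:ℝ) ^ (k' - k) * (q:ℝ) < (2:ℝ) ^ (k' - k) * (2:ℝ) ^ (k + 1) :=
          mul_lt_mul_of_pos_left h3 (by positivity)
      _ = 2 * ((2:ℝ) ^ (k' - k) * (2:ℝ) ^ k) := by rw [pow_succ]; ring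
      _ = 2 * (2:ℝ) ^ k' := by rw [h5]
      _ ≤ 2 * (r:ℝ) := by linarith
  calc (2:ℝ) ^ (k' - k) * ((q:ℝ) * ψ q) = ((2:ℝ) ^ (k' - k) * (q:ℝ)) * ψ q := by ring
    _ < (2 * (r:ℝ)) * ψ q := mul_lt_mul_of_pos_right h2 hψq
    _ = 2 * ((r:ℝ) * ψ q) := by ring
    _ ≤ 2 * ((Nat.gcd q r : ℝ) * XX ψ q r) := by linarith
    _ = 2 * (Nat.gcd q r : ℝ) * XX ψ q r := by ring

/-- Multiples of `d` in `[N, 2N)`, counted over the reals. -/
lemma card_multiples_block {N d : ℕ} (hN : 0 < N) (hd : 0 < d) (F : Finset ℕ)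
    (hF : ∀ r ∈ F, N ≤ r ∧ r < 2 * N ∧ d ∣ r) :
    (F.card : ℝ) ≤ (N:ℝ) / d + 1 := by
  have hd' : (0:ℝ) < d := by exact_mod_cast hd
  have hmaps : ∀ r ∈ F, r / d ∈ Ico ⌈(N:ℝ) / d⌉₊ ⌈(2 * (N:ℝ)) / d⌉₊ := by
    intro r hr
    obtain ⟨h1, h2, t, rfl⟩ := hF r hr
    rw [Nat.mul_div_cancel_left _ hd, mem_Ico]
    constructor
    · apply Nat.ceil_le.mpr
      rw [div_le_iff₀ hd']
      have : (N:ℝ) ≤ ((d * t : ℕ) : ℝ) := by exact_mod_cast h1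
      push_cast at this
      linarith
    · apply Nat.lt_ceil.mpr
      rw [lt_div_iff₀ hd']
      have : ((d * t : ℕ) : ℝ) < ((2 * N : ℕ) : ℝ) := by exact_mod_cast h2
      push_cast at this
      linarith
  have hinj : Set.InjOn (fun r => r / d) (F : Set ℕ) := by
    intro r1 h1 r2 h2 h
    obtain ⟨_, _, t1, rfl⟩ := hF r1 h1
    obtain ⟨_, _, t2, rfl⟩ := hF r2 h2
    simp only [Nat.mul_div_cancel_left _ hd] at h
    rw [h]
  have hcard : F.card ≤ (Ico ⌈(N:ℝ) / d⌉₊ ⌈(2 * (N:ℝ)) / d⌉₊).card :=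
    Finset.card_le_card_of_injOn _ hmaps hinj
  rw [Nat.card_Ico] at hcard
  have h1 : (N:ℝ) / d ≤ (⌈(N:ℝ) / d⌉₊ : ℝ) := Nat.le_ceil _
  have h2 : (⌈(2 * (N:ℝ)) / d⌉₊ : ℝ) < (2 * (N:ℝ)) / d + 1 :=
    Nat.ceil_lt_add_one (by positivity)
  have h3 : (2 * (N:ℝ)) / d = 2 * ((N:ℝ) / d) := by ring
  have h4 : (F.card : ℝ) ≤ ((⌈(2 * (N:ℝ)) / d⌉₊ - ⌈(N:ℝ) / d⌉₊ : ℕ) : ℝ) := by exact_mod_cast hcard
  have h5 : ((⌈(2 * (N:ℝ)) / d⌉₊ - ⌈(N:ℝ) / d⌉₊ : ℕ) : ℝ)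
      ≤ (⌈(2 * (N:ℝ)) / d⌉₊ : ℝ) - (⌈(N:ℝ) / d⌉₊ : ℝ) := by
    rcases le_total ⌈(N:ℝ) / d⌉₊ ⌈(2 * (N:ℝ)) / d⌉₊ with hle | hle
    · rw [Nat.cast_sub hle]
    · rw [Nat.sub_eq_zero_of_le hle]
      have : (⌈(2 * (N:ℝ)) / d⌉₊ : ℝ) ≤ (⌈(N:ℝ) / d⌉₊ : ℝ) := by exact_mod_cast hle
      have hN' : (N:ℝ) / d ≤ (2 * (N:ℝ)) / d := by
        rw [h3]; have : (0:ℝ) ≤ (N:ℝ) / d := by positivity
        linarith
      have h6 : ⌈(N:ℝ) / d⌉₊ ≤ ⌈(2 * (N:ℝ)) / d⌉₊ := Nat.ceil_le_ceil hN'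
      have : ⌈(N:ℝ) / d⌉₊ = ⌈(2 * (N:ℝ)) / d⌉₊ := le_antisymm h6 hle
      rw [this]; simp
  linarith

/-- Sum of `ψ r` over a dyadic block along a fibre of the gcd with `q`. -/
lemma fiber_psi_le (hψ : Adm ψ) {k' q d : ℕ} (hq : 1 ≤ q) (hd : d ∣ q) (F : Finset ℕ)
    (hF : ∀ r ∈ F, 2 ^ k' ≤ r ∧ r < 2 ^ (k' + 1) ∧ q < r ∧ Nat.gcd q r = d) :
    ∑ r ∈ F, ψ r ≤ 2 / (d:ℝ) := by
  have hd0 : 0 < d := Nat.pos_of_dvd_of_pos hd hq
  have hd' : (0:ℝ) < d := by exact_mod_cast hd0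
  rcases F.eq_empty_or_nonempty with rfl | ⟨r0, hr0⟩
  · simp; positivity
  set N := 2 ^ k' with hNdef
  have hN : 0 < N := by positivity
  have hN' : (0:ℝ) < (N:ℝ) := by exact_mod_cast hN
  have hdN : d ≤ N := by
    obtain ⟨h1, h2, h3, h4⟩ := hF r0 hr0
    have hdr : d ∣ r0 := h4 ▸ Nat.gcd_dvd_right q r0
    have hdq : d ≤ q := Nat.le_of_dvd hq hd
    obtain ⟨t, rfl⟩ := hdr
    have ht : 2 ≤ t := by
      by_contra hlt
      have : t ≤ 1 := by omega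
      have : d * t ≤ d * 1 := Nat.mul_le_mul_left d this
      omega
    have : d * 2 ≤ d * t := Nat.mul_le_mul_left d ht
    have h2' : d * t < 2 * N := by rw [hNdef, pow_succ] at *; omega
    omega
  have hdN' : (d:ℝ) ≤ (N:ℝ) := by exact_mod_cast hdN
  have hcard : (F.card : ℝ) ≤ (N:ℝ) / d + 1 := by
    apply card_multiples_block hN hd0
    intro r hr
    obtain ⟨h1, h2, h3, h4⟩ := hF r hr
    refine ⟨h1, ?_, h4 ▸ Nat.gcd_dvd_right q r⟩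
    rw [hNdef]; rw [pow_succ] at h2; omega
  have hterm : ∀ r ∈ F, ψ r ≤ 1 / (N:ℝ) := by
    intro r hr
    obtain ⟨h1, h2, h3, h4⟩ := hF r hr
    have hr1 : 1 ≤ r := by omega
    calc ψ r ≤ 1 / (r:ℝ) := hψ.le r hr1
      _ ≤ 1 / (N:ℝ) := by
        apply one_div_le_one_div_of_le hN'
        exact_mod_cast h1
  calc ∑ r ∈ F, ψ r ≤ ∑ _r ∈ F, 1 / (N:ℝ) := sum_le_sum hterm
    _ = (F.card : ℝ) * (1 / (N:ℝ)) := by rw [sum_const, nsmul_eq_mul]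
    _ ≤ ((N:ℝ) / d + 1) * (1 / (N:ℝ)) := by
        apply mul_le_mul_of_nonneg_right hcard (by positivity)
    _ = 1 / (d:ℝ) + 1 / (N:ℝ) := by field_simp
    _ ≤ 1 / (d:ℝ) + 1 / (d:ℝ) := by
        have : 1 / (N:ℝ) ≤ 1 / (d:ℝ) := one_div_le_one_div_of_le hd' hdN'
        linarith
    _ = 2 / (d:ℝ) := by ring

/-- The sum of `ψ r` over a dyadic block with large gcd with `q`. -/
lemma sum_psi_gcd_le (hψ : Adm ψ) {k' q : ℕ} {D : ℝ} (hq : 1 ≤ q) (F : Finset ℕ)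
    (hF : ∀ r ∈ F, 2 ^ k' ≤ r ∧ r < 2 ^ (k' + 1) ∧ q < r ∧ D < (Nat.gcd q r : ℝ)) :
    ∑ r ∈ F, ψ r ≤ 2 * Tq q D := by
  have hmaps : ∀ r ∈ F, Nat.gcd q r ∈ q.divisors.filter (fun d : ℕ => D < (d:ℝ)) := by
    intro r hr
    obtain ⟨_, _, _, h4⟩ := hF r hr
    simp only [mem_filter, Nat.mem_divisors]
    exact ⟨⟨Nat.gcd_dvd_left q r, by omega⟩, h4⟩
  rw [← Finset.sum_fiberwise_of_maps_to hmaps, Tq, mul_sum]
  apply sum_le_sum
  intro d hd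
  rw [mem_filter, Nat.mem_divisors] at hd
  have := fiber_psi_le hψ (k' := k') hq hd.1.1 (F.filter (fun r => Nat.gcd q r = d)) (by
    intro r hr
    rw [mem_filter] at hr
    obtain ⟨h1, h2, h3, _⟩ := hF r hr.1
    exact ⟨h1, h2, h3, hr.2⟩)
  calc _ ≤ 2 / (d:ℝ) := this
    _ = 2 * (1 / (d:ℝ)) := by ring

/-- Middle range sum. -/
theorem mid_sum_aux (hψ : Adm ψ) : ∃ C : ℝ, 0 < C ∧ ∀ (k k' : ℕ) (M M' : ℝ) (T T' : Finset ℕ), k ≤ k' →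
    Blk ψ k M T → Blk ψ k' M' T' →
    ∑ q ∈ T, ∑ r ∈ T'.filter (fun r => q < r ∧ 1 / 64 ≤ XX ψ q r ∧ XX ψ q r < (4:ℝ) ^ (max (zz M) (zz M'))),
        68 * (ψ q * ψ r)
      ≤ C * (M + M') * ((2:ℝ) ^ (k' - k)) ^ (-(1:ℝ) / 10) := by
  have hCL : 1 ≤ CL := CL_ge_one
  refine ⟨68 * 520 ^ 2 * 10 + 136 * 520 * CL, by positivity, ?_⟩
  intro k k' M M' T T' hkk hB hB'
  set y : ℝ := (2:ℝ) ^ (k' - k) with hy
  have hy1 : 1 ≤ y := one_le_pow₀ (by norm_num)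
  have hy0 : 0 < y := by linarith
  have hM := hB.Mpos
  have hM' := hB'.Mpos
  have hM1 := hB.Mle
  have hM1' := hB'.Mle
  have hσ := sigma_le hψ hB
  have hσ' := sigma_le hψ hB'
  have hψ0 : ∀ q, 0 ≤ ψ q := hψ.nonneg
  have hσ0 : 0 ≤ ∑ q ∈ T, ψ q := sum_nonneg fun q _ => hψ0 q
  have hσ0' : 0 ≤ ∑ r ∈ T', ψ r := sum_nonneg fun q _ => hψ0 q
  have hY10 : 0 ≤ y ^ (-(1:ℝ) / 10) := by positivity
  have hCLpos : 0 < CL := by linarith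
  by_cases hcase : y * (min M M') ^ 5 < 2 ^ 32
  · -- few scales apart
    have h1 : ∑ q ∈ T, ∑ r ∈ T'.filter (fun r => q < r ∧ 1 / 64 ≤ XX ψ q r ∧ XX ψ q r < (4:ℝ) ^ (max (zz M) (zz M'))),
        68 * (ψ q * ψ r) ≤ 68 * ((∑ q ∈ T, ψ q) * ∑ r ∈ T', ψ r) := by
      rw [sum_mul_sum, mul_sum]
      apply sum_le_sum
      intro q _
      rw [mul_sum]
      apply sum_le_sum_of_subset_of_nonneg (filter_subset _ _)
      intro r _ _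
      have := hψ0 q
      have := hψ0 r
      positivity
    have h2 : (∑ q ∈ T, ψ q) * ∑ r ∈ T', ψ r ≤ 520 ^ 2 * (M * M') ^ ((63:ℝ) / 64) := by
      rw [Real.mul_rpow hM.le hM'.le]
      calc (∑ q ∈ T, ψ q) * ∑ r ∈ T', ψ r
          ≤ (520 * M ^ ((63:ℝ) / 64)) * (520 * M' ^ ((63:ℝ) / 64)) :=
            mul_le_mul hσ hσ' hσ0' (by positivity)
        _ = _ := by ring
    have h3 : (M * M') ^ ((63:ℝ) / 64) ≤ 10 * (M + M') * y ^ (-(1:ℝ) / 10) := by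
      rcases le_total M M' with hle | hle
      · rw [min_eq_left hle] at hcase
        have := mid_caseA hM hle hM1' hy1 hcase
        rw [mul_comm M M']
        calc _ ≤ 10 * M' * y ^ (-(1:ℝ) / 10) := this
          _ ≤ 10 * (M + M') * y ^ (-(1:ℝ) / 10) := by
              apply mul_le_mul_of_nonneg_right _ hY10
              linarith
      · rw [min_eq_right hle] at hcase
        have := mid_caseA hM' hle hM1 hy1 hcase
        calc _ ≤ 10 * M * y ^ (-(1:ℝ) / 10) := this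
          _ ≤ 10 * (M + M') * y ^ (-(1:ℝ) / 10) := by
              apply mul_le_mul_of_nonneg_right _ hY10
              linarith
    have h4 : 0 ≤ 136 * 520 * CL * (M + M') * y ^ (-(1:ℝ) / 10) := by positivity
    calc _ ≤ 68 * ((∑ q ∈ T, ψ q) * ∑ r ∈ T', ψ r) := h1
      _ ≤ 68 * (520 ^ 2 * (10 * (M + M') * y ^ (-(1:ℝ) / 10))) := by
          apply mul_le_mul_of_nonneg_left _ (by norm_num)
          exact h2.trans (mul_le_mul_of_nonneg_left h3 (by norm_num))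
      _ ≤ (68 * 520 ^ 2 * 10 + 136 * 520 * CL) * (M + M') * y ^ (-(1:ℝ) / 10) := by
          nlinarith [h4]
  · -- many scales apart: the gcd is large
    rw [not_lt] at hcase
    set v := min M M' with hv
    have hv0 : 0 < v := lt_min hM hM'
    have hvM : v ≤ M := min_le_left _ _
    have hvM' : v ≤ M' := min_le_right _ _
    have hv1 : v ≤ 1 := hvM.trans hM1
    -- the gcd lower bound
    have hgcd : ∀ q ∈ T, ∀ r ∈ T', q < r → XX ψ q r < (4:ℝ) ^ (max (zz M) (zz M')) →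
        Real.sqrt y < (Nat.gcd q r : ℝ) := by
      intro q hq r hr hqr hX
      have cq := hB.clean q hq
      have cr := hB'.clean r hr
      have hq1 : 1 ≤ q := le_trans Nat.one_le_two_pow cq.lo
      have hr1 : 1 ≤ r := by omega
      have hs := mid_scale (ψ := ψ) hkk cq.hi cr.lo cq.pos hq1 hr1
      have hz : (4:ℝ) ^ (max (zz M) (zz M')) ≤ 4096 * v ^ (-(3:ℝ) / 2) := by
        rcases le_total (zz M) (zz M') with hle | hle
        · rw [max_eq_right hle]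
          calc _ ≤ 4096 * M' ^ (-(3:ℝ) / 2) := four_pow_zz hM' hM1'
            _ ≤ 4096 * v ^ (-(3:ℝ) / 2) := by
              apply mul_le_mul_of_nonneg_left _ (by norm_num)
              exact Real.rpow_le_rpow_of_nonpos hv0 hvM' (by norm_num)
        · rw [max_eq_left hle]
          calc _ ≤ 4096 * M ^ (-(3:ℝ) / 2) := four_pow_zz hM hM1
            _ ≤ 4096 * v ^ (-(3:ℝ) / 2) := by
              apply mul_le_mul_of_nonneg_left _ (by norm_num)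
              exact Real.rpow_le_rpow_of_nonpos hv0 hvM (by norm_num)
      have hd : (0:ℝ) < (Nat.gcd q r : ℝ) := by
        exact_mod_cast Nat.gcd_pos_of_pos_left _ hq1
      have halow : v / 8 ≤ (q:ℝ) * ψ q := le_trans (by linarith) cq.alow
      -- y * (v/8) < 2 d * 4096 * v^(-3/2)
      have h1 : y * (v / 8) < 2 * (Nat.gcd q r : ℝ) * (4096 * v ^ (-(3:ℝ) / 2)) := by
        calc y * (v / 8) ≤ y * ((q:ℝ) * ψ q) := mul_le_mul_of_nonneg_left halow hy0.le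
          _ < 2 * (Nat.gcd q r : ℝ) * XX ψ q r := hs
          _ < 2 * (Nat.gcd q r : ℝ) * (4096 * v ^ (-(3:ℝ) / 2)) := by
              apply mul_lt_mul_of_pos_left (lt_of_lt_of_le hX hz) (by positivity)
      -- multiply by v^(3/2)
      have e : v ^ (-(3:ℝ) / 2) * v ^ ((3:ℝ) / 2) = 1 := by
        rw [← Real.rpow_add hv0]; norm_num
      have h2 : y * (v * v ^ ((3:ℝ) / 2)) < 65536 * (Nat.gcd q r : ℝ) := by
        have hp : 0 < v ^ ((3:ℝ) / 2) := by positivity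
        have := mul_lt_mul_of_pos_right h1 hp
        have e' : 2 * (Nat.gcd q r : ℝ) * (4096 * v ^ (-(3:ℝ) / 2)) * v ^ ((3:ℝ) / 2)
            = 8192 * (Nat.gcd q r : ℝ) * (v ^ (-(3:ℝ) / 2) * v ^ ((3:ℝ) / 2)) := by ring
        rw [e', e] at this
        nlinarith
      -- square root of the case hypothesis
      have e5 : v * v ^ ((3:ℝ) / 2) = Real.sqrt (v ^ 5) := by
        rw [Real.sqrt_eq_rpow, ← Real.rpow_natCast, ← Real.rpow_mul hv0.le]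
        nth_rewrite 1 [← Real.rpow_one v]
        rw [← Real.rpow_add hv0]; norm_num
      have h3 : (65536:ℝ) ≤ Real.sqrt y * (v * v ^ ((3:ℝ) / 2)) := by
        rw [e5, ← Real.sqrt_mul hy0.le]
        apply Real.le_sqrt_of_sq_le
        calc (65536:ℝ) ^ 2 = 2 ^ 32 := by norm_num
          _ ≤ _ := hcase
      have hsq : Real.sqrt y * Real.sqrt y = y := Real.mul_self_sqrt hy0.le
      have hsq0 : 0 < Real.sqrt y := Real.sqrt_pos.mpr hy0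
      have h4 : Real.sqrt y * 65536 < 65536 * (Nat.gcd q r : ℝ) := by
        calc Real.sqrt y * 65536 ≤ Real.sqrt y * (Real.sqrt y * (v * v ^ ((3:ℝ) / 2))) :=
              mul_le_mul_of_nonneg_left h3 hsq0.le
          _ = y * (v * v ^ ((3:ℝ) / 2)) := by rw [← mul_assoc, hsq]
          _ < _ := h2
      linarith
    -- the inner sums
    have hsq0 : 0 < Real.sqrt y := Real.sqrt_pos.mpr hy0
    have hinner : ∀ q ∈ T, ∑ r ∈ T'.filter (fun r => q < r ∧ 1 / 64 ≤ XX ψ q r ∧ XX ψ q r < (4:ℝ) ^ (max (zz M) (zz M'))),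
        68 * (ψ q * ψ r) ≤ 136 * KK M * y ^ (-(1:ℝ) / 4) * ψ q := by
      intro q hq
      have cq := hB.clean q hq
      have hq1 : 1 ≤ q := le_trans Nat.one_le_two_pow cq.lo
      rw [← mul_sum, ← mul_sum]
      have h1 := sum_psi_gcd_le hψ (k' := k') (D := Real.sqrt y) hq1
        (T'.filter (fun r => q < r ∧ 1 / 64 ≤ XX ψ q r ∧ XX ψ q r < (4:ℝ) ^ (max (zz M) (zz M')))) (by
          intro r hr
          rw [mem_filter] at hr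
          have cr := hB'.clean r hr.1
          exact ⟨cr.lo, cr.hi, hr.2.1, hgcd q hq r hr.1 hr.2.1 hr.2.2.2⟩)
      have h2 := Tq_le_Lam q hsq0
      have h3 : Lam q ≤ KK M := cq.lam
      have h4 : (Real.sqrt (Real.sqrt y))⁻¹ = y ^ (-(1:ℝ) / 4) := by
        rw [Real.sqrt_eq_rpow, Real.sqrt_eq_rpow, ← Real.rpow_mul hy0.le, ← Real.rpow_neg hy0.le]
        norm_num
      have h5 : 0 ≤ y ^ (-(1:ℝ) / 4) := by positivity
      have hKK : 0 ≤ KK M := by unfold KK; positivity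
      have h6 : ∑ r ∈ T'.filter (fun r => q < r ∧ 1 / 64 ≤ XX ψ q r ∧ XX ψ q r < (4:ℝ) ^ (max (zz M) (zz M'))), ψ r
          ≤ 2 * (KK M * y ^ (-(1:ℝ) / 4)) := by
        calc _ ≤ 2 * Tq q (Real.sqrt y) := h1
          _ ≤ 2 * (Lam q / Real.sqrt (Real.sqrt y)) := by linarith
          _ = 2 * (Lam q * y ^ (-(1:ℝ) / 4)) := by rw [← h4, div_eq_mul_inv]
          _ ≤ 2 * (KK M * y ^ (-(1:ℝ) / 4)) := by
              apply mul_le_mul_of_nonneg_left _ (by norm_num)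
              exact mul_le_mul_of_nonneg_right h3 h5
      have hq0 := hψ0 q
      calc 68 * (ψ q * ∑ r ∈ T'.filter (fun r => q < r ∧ 1 / 64 ≤ XX ψ q r ∧ XX ψ q r < (4:ℝ) ^ (max (zz M) (zz M'))), ψ r)
          ≤ 68 * (ψ q * (2 * (KK M * y ^ (-(1:ℝ) / 4)))) := by
            apply mul_le_mul_of_nonneg_left _ (by norm_num)
            exact mul_le_mul_of_nonneg_left h6 hq0
        _ = 136 * KK M * y ^ (-(1:ℝ) / 4) * ψ q := by ring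
    have h1 : ∑ q ∈ T, ∑ r ∈ T'.filter (fun r => q < r ∧ 1 / 64 ≤ XX ψ q r ∧ XX ψ q r < (4:ℝ) ^ (max (zz M) (zz M'))),
        68 * (ψ q * ψ r) ≤ 136 * KK M * y ^ (-(1:ℝ) / 4) * ∑ q ∈ T, ψ q := by
      rw [mul_sum]
      exact sum_le_sum hinner
    have hyM : 1 ≤ y * M ^ 5 := by
      have : v ^ 5 ≤ M ^ 5 := pow_le_pow_left₀ hv0.le hvM 5
      have h7 : y * v ^ 5 ≤ y * M ^ 5 := mul_le_mul_of_nonneg_left this hy0.le
      have h8 : (1:ℝ) ≤ 2 ^ 32 := by norm_num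
      linarith
    have h2 := mid_caseB hM hy1 hyM
    have h5 : 0 ≤ y ^ (-(1:ℝ) / 4) := by positivity
    have h6 : 136 * KK M * y ^ (-(1:ℝ) / 4) * ∑ q ∈ T, ψ q
        ≤ 136 * 520 * CL * (M * y ^ (-(1:ℝ) / 10)) := by
      calc 136 * KK M * y ^ (-(1:ℝ) / 4) * ∑ q ∈ T, ψ q
          ≤ 136 * KK M * y ^ (-(1:ℝ) / 4) * (520 * M ^ ((63:ℝ) / 64)) := by
            apply mul_le_mul_of_nonneg_left hσ
            unfold KK; positivity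
        _ = 136 * 520 * CL * (M ^ (-(1:ℝ) / 64) * M ^ ((63:ℝ) / 64) * y ^ (-(1:ℝ) / 4)) := by
            unfold KK; ring
        _ ≤ _ := by
            apply mul_le_mul_of_nonneg_left h2 (by positivity)
    have h7 : 0 ≤ 68 * 520 ^ 2 * 10 * (M + M') * y ^ (-(1:ℝ) / 10) := by positivity
    have h8 : 0 ≤ 136 * 520 * CL * (M' * y ^ (-(1:ℝ) / 10)) := by positivity
    calc _ ≤ 136 * KK M * y ^ (-(1:ℝ) / 4) * ∑ q ∈ T, ψ q := h1
      _ ≤ 136 * 520 * CL * (M * y ^ (-(1:ℝ) / 10)) := h6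
      _ ≤ (68 * 520 ^ 2 * 10 + 136 * 520 * CL) * (M + M') * y ^ (-(1:ℝ) / 10) := by
          nlinarith [h7, h8]

end Vale.Agent.Lib.P028V
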