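import Vale.Agent.Lib.P028V.Clean
import Vale.Agent.Lib.P028V.BohrSum

/-! Module J-typeH. Sums over pairs of cleaned blocks with large `a_q`. -/

open Finset
open scoped Classical

namespace Vale.Agent.Lib.P028V

open Vale.Agent.Lib.P028

variable {γ : ℝ} {ψ : ℕ → ℝ}

lemma negl_nonneg' {ψ : ℕ → ℝ} {q d k' : ℕ} (hψq : 0 < ψ q) : 0 ≤ negl ψ q d k' := by
  unfold negl
  split_ifs
  · positivity
  · exact le_rfl

/-- Small `X` forces a large gcd. -/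
lemma gcd_large {ψ : ℕ → ℝ} {q r k k' : ℕ} (hkk : k ≤ k') (hq2 : q < 2 ^ (k + 1)) (hr : 2 ^ k' ≤ r)
    (hr0 : 0 < r) (hψq : 0 < ψ q) (hX : XX ψ q r < 1 / 64) :
    32 * (2:ℝ) ^ (k' - k) * ((q:ℝ) * ψ q) < (Nat.gcd q r : ℝ) := by
  have hg : 0 < Nat.gcd q r := Nat.gcd_pos_of_pos_right _ hr0
  have hg' : (0:ℝ) < (Nat.gcd q r : ℝ) := by exact_mod_cast hg
  have h1 : ((r / Nat.gcd q r : ℕ) : ℝ) * ψ q < 1 / 64 := lt_of_le_of_lt (le_max_left _ _) hX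
  have h2 : ((r / Nat.gcd q r : ℕ) : ℝ) = (r:ℝ) / (Nat.gcd q r : ℝ) :=
    Nat.cast_div (Nat.gcd_dvd_right q r) (by exact_mod_cast hg.ne')
  rw [h2] at h1
  have h3 : 64 * ((r:ℝ) * ψ q) < (Nat.gcd q r : ℝ) := by
    have : (r:ℝ) / (Nat.gcd q r : ℝ) * ψ q = (r:ℝ) * ψ q / (Nat.gcd q r : ℝ) := by ring
    rw [this, div_lt_iff₀ hg'] at h1
    linarith
  have hy : (0:ℝ) < (2:ℝ) ^ (k' - k) := by positivity
  have h4 : (2:ℝ) ^ (k' - k) * (q:ℝ) ≤ 2 * (r:ℝ) := by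
    have e : (2:ℝ) ^ k' = (2:ℝ) ^ (k' - k) * (2:ℝ) ^ k := by
      rw [← pow_add, Nat.sub_add_cancel hkk]
    have hq' : (q:ℝ) ≤ (2:ℝ) ^ (k + 1) := by exact_mod_cast hq2.le
    have hr' : (2:ℝ) ^ k' ≤ (r:ℝ) := by exact_mod_cast hr
    calc (2:ℝ) ^ (k' - k) * (q:ℝ) ≤ (2:ℝ) ^ (k' - k) * (2:ℝ) ^ (k + 1) := by gcongr
      _ = 2 * (2:ℝ) ^ k' := by rw [e, pow_succ]; ring
      _ ≤ 2 * (r:ℝ) := by linarith
  calc 32 * (2:ℝ) ^ (k' - k) * ((q:ℝ) * ψ q) = 32 * ((2:ℝ) ^ (k' - k) * (q:ℝ)) * ψ q := by ring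
    _ ≤ 32 * (2 * (r:ℝ)) * ψ q := by gcongr
    _ = 64 * ((r:ℝ) * ψ q) := by ring
    _ < _ := h3

/-- `√(ψ / q) ≤ ψ M^(-3/8)` if `M^(3/4) ≤ q ψ`. -/
lemma sqrt_bd {p x M : ℝ} (hp : 0 < p) (hx : 0 < x) (hM : 0 < M) (h : M ^ ((3:ℝ) / 4) ≤ x * p) :
    Real.sqrt (p / x) ≤ p * M ^ (-(3:ℝ) / 8) := by
  apply Real.sqrt_le_iff.mpr
  refine ⟨by positivity, ?_⟩
  have ht : 0 < M ^ ((3:ℝ) / 8) := by positivity
  have e1 : M ^ ((3:ℝ) / 4) = M ^ ((3:ℝ) / 8) * M ^ ((3:ℝ) / 8) := by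
    rw [← Real.rpow_add hM]; norm_num
  have e2 : M ^ (-(3:ℝ) / 8) = (M ^ ((3:ℝ) / 8))⁻¹ := by
    rw [← Real.rpow_neg hM.le]; norm_num
  rw [e2]
  rw [e1] at h
  set t := M ^ ((3:ℝ) / 8) with ht'
  rw [div_le_iff₀ hx]
  have : (p * t⁻¹) ^ 2 * x = p * (x * p) / (t * t) := by field_simp
  rw [this, le_div_iff₀ (by positivity)]
  nlinarith [mul_le_mul_of_nonneg_left h hp.le]

/-- The basic bound for `min`. -/
lemma min_bd {p p' x x' M M' : ℝ} (hp : 0 < p) (hp' : 0 < p') (hx : 0 < x) (hx' : 0 < x') (hM : 0 < M) (hM' : 0 < M')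
    (h : M ^ ((3:ℝ) / 4) ≤ x * p) (h' : M' ^ ((3:ℝ) / 4) ≤ x' * p') :
    min (p / x) (p' / x') ≤ p * p' * (M ^ (-(3:ℝ) / 8) * M' ^ (-(3:ℝ) / 8)) := by
  have h1 := sqrt_bd hp hx hM h
  have h2 := sqrt_bd hp' hx' hM' h'
  have hmin : 0 ≤ min (p / x) (p' / x') := le_min (by positivity) (by positivity)
  calc min (p / x) (p' / x') = Real.sqrt (min (p / x) (p' / x')) * Real.sqrt (min (p / x) (p' / x')) :=
        (Real.mul_self_sqrt hmin).symm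
    _ ≤ Real.sqrt (p / x) * Real.sqrt (p' / x') := by
        gcongr
        · exact min_le_left _ _
        · exact min_le_right _ _
    _ ≤ (p * M ^ (-(3:ℝ) / 8)) * (p' * M' ^ (-(3:ℝ) / 8)) := by gcongr
    _ = _ := by ring

/-- Exponent arithmetic for small gcd. -/
lemma num_small {M M' y : ℝ} (hM : 0 < M) (hM1 : M ≤ 1) (hM' : 0 < M') (hM1' : M' ≤ 1) (hy : 1 ≤ y)
    (h : 32 * y * M ^ ((3:ℝ) / 4) < M ^ (-(1:ℝ) / 8)) :
    M ^ (-(1:ℝ) / 8) * (M ^ (-(3:ℝ) / 8) * M' ^ (-(3:ℝ) / 8)) * (M ^ ((63:ℝ) / 64) * M' ^ ((63:ℝ) / 64))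
      ≤ (M + M') * y ^ (-(1:ℝ) / 28) := by
  have hy0 : 0 < y := by linarith
  have h1 : y ≤ M ^ (-(7:ℝ) / 8) := by
    have hpos : 0 < M ^ ((3:ℝ) / 4) := by positivity
    have e : M ^ (-(7:ℝ) / 8) = M ^ (-(1:ℝ) / 8) / M ^ ((3:ℝ) / 4) := by
      rw [← Real.rpow_sub hM]; norm_num
    rw [e, le_div_iff₀ hpos]
    nlinarith [mul_pos hy0 hpos]
  have h2 : M ^ ((1:ℝ) / 32) ≤ y ^ (-(1:ℝ) / 28) := by
    have := Real.rpow_le_rpow_of_nonpos hy0 h1 (by norm_num : (-(1:ℝ) / 28) ≤ 0)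
    rw [← Real.rpow_mul hM.le] at this
    norm_num at this
    norm_num
    exact this
  have e1 : M ^ (-(1:ℝ) / 8) * M ^ (-(3:ℝ) / 8) * M ^ ((63:ℝ) / 64) = M ^ ((1:ℝ) / 32) * M ^ ((29:ℝ) / 64) := by
    rw [← Real.rpow_add hM, ← Real.rpow_add hM, ← Real.rpow_add hM]; norm_num
  have e2 : M' ^ (-(3:ℝ) / 8) * M' ^ ((63:ℝ) / 64) = M' ^ ((39:ℝ) / 64) := by
    rw [← Real.rpow_add hM']; norm_num
  have e : M ^ (-(1:ℝ) / 8) * (M ^ (-(3:ℝ) / 8) * M' ^ (-(3:ℝ) / 8)) * (M ^ ((63:ℝ) / 64) * M' ^ ((63:ℝ) / 64))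
      = M ^ ((1:ℝ) / 32) * (M ^ ((29:ℝ) / 64) * M' ^ ((39:ℝ) / 64)) := by
    calc _ = (M ^ (-(1:ℝ) / 8) * M ^ (-(3:ℝ) / 8) * M ^ ((63:ℝ) / 64)) * (M' ^ (-(3:ℝ) / 8) * M' ^ ((63:ℝ) / 64)) := by ring
      _ = _ := by rw [e1, e2]; ring
  have h4 : M ^ ((29:ℝ) / 64) * M' ^ ((39:ℝ) / 64) ≤ M + M' := by
    rcases le_total M M' with hle | hle
    · calc M ^ ((29:ℝ) / 64) * M' ^ ((39:ℝ) / 64) ≤ M' ^ ((29:ℝ) / 64) * M' ^ ((39:ℝ) / 64) := by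
            gcongr
        _ = M' ^ ((68:ℝ) / 64) := by rw [← Real.rpow_add hM']; norm_num
        _ ≤ M' ^ (1:ℝ) := Real.rpow_le_rpow_of_exponent_ge hM' hM1' (by norm_num)
        _ = M' := Real.rpow_one _
        _ ≤ M + M' := by linarith
    · calc M ^ ((29:ℝ) / 64) * M' ^ ((39:ℝ) / 64) ≤ M ^ ((29:ℝ) / 64) * M ^ ((39:ℝ) / 64) := by
            gcongr
        _ = M ^ ((68:ℝ) / 64) := by rw [← Real.rpow_add hM]; norm_num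
        _ ≤ M ^ (1:ℝ) := Real.rpow_le_rpow_of_exponent_ge hM hM1 (by norm_num)
        _ = M := Real.rpow_one _
        _ ≤ M + M' := by linarith
  rw [e]
  have hpos : 0 ≤ M ^ ((29:ℝ) / 64) * M' ^ ((39:ℝ) / 64) := by positivity
  calc M ^ ((1:ℝ) / 32) * (M ^ ((29:ℝ) / 64) * M' ^ ((39:ℝ) / 64))
      ≤ y ^ (-(1:ℝ) / 28) * (M + M') := by gcongr
    _ = _ := by ring

/-- Exponent arithmetic for large gcd. -/
lemma num_large {M y E : ℝ} (hM : 0 < M) (hy : 1 ≤ y)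
    (h1 : M ^ (-(1:ℝ) / 8) ≤ E) (h2 : 32 * y * M ^ ((3:ℝ) / 4) ≤ E) :
    M ^ ((63:ℝ) / 64) * M ^ (-(1:ℝ) / 64) / Real.sqrt E ≤ M * y ^ (-(1:ℝ) / 28) := by
  have hy0 : 0 < y := by linarith
  have hkey : M ^ (-(1:ℝ) / 16) * y ^ ((1:ℝ) / 14) ≤ E := by
    rcases le_total y (M ^ (-(7:ℝ) / 8)) with hle | hle
    · have h3 : y ^ ((1:ℝ) / 14) ≤ M ^ (-(1:ℝ) / 16) := by
        have := Real.rpow_le_rpow hy0.le hle (by norm_num : (0:ℝ) ≤ (1:ℝ) / 14)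
        rw [← Real.rpow_mul hM.le] at this
        norm_num at this ⊢
        exact this
      calc M ^ (-(1:ℝ) / 16) * y ^ ((1:ℝ) / 14) ≤ M ^ (-(1:ℝ) / 16) * M ^ (-(1:ℝ) / 16) := by gcongr
        _ = M ^ (-(1:ℝ) / 8) := by rw [← Real.rpow_add hM]; norm_num
        _ ≤ E := h1
    · have h3 : M ^ (-(13:ℝ) / 16) ≤ y ^ ((13:ℝ) / 14) := by
        have := Real.rpow_le_rpow (by positivity) hle (by norm_num : (0:ℝ) ≤ (13:ℝ) / 14)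
        rw [← Real.rpow_mul hM.le] at this
        norm_num at this ⊢
        exact this
      have e : y = y ^ ((1:ℝ) / 14) * y ^ ((13:ℝ) / 14) := by
        rw [← Real.rpow_add hy0]; norm_num
      have e2 : M ^ (-(1:ℝ) / 16) = M ^ (-(13:ℝ) / 16) * M ^ ((3:ℝ) / 4) := by
        rw [← Real.rpow_add hM]; norm_num
      have hp1 : 0 < y ^ ((1:ℝ) / 14) := by positivity
      have hp2 : 0 < M ^ ((3:ℝ) / 4) := by positivity
      calc M ^ (-(1:ℝ) / 16) * y ^ ((1:ℝ) / 14)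
          = M ^ (-(13:ℝ) / 16) * (M ^ ((3:ℝ) / 4) * y ^ ((1:ℝ) / 14)) := by rw [e2]; ring
        _ ≤ y ^ ((13:ℝ) / 14) * (M ^ ((3:ℝ) / 4) * y ^ ((1:ℝ) / 14)) := by gcongr
        _ = (y ^ ((1:ℝ) / 14) * y ^ ((13:ℝ) / 14)) * M ^ ((3:ℝ) / 4) := by ring
        _ = y * M ^ ((3:ℝ) / 4) := by rw [← e]
        _ ≤ 32 * y * M ^ ((3:ℝ) / 4) := by nlinarith [mul_pos hy0 hp2]
        _ ≤ E := h2
  have hA : 0 < M ^ (-(1:ℝ) / 32) * y ^ ((1:ℝ) / 28) := by positivity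
  have hsq : M ^ (-(1:ℝ) / 32) * y ^ ((1:ℝ) / 28) ≤ Real.sqrt E := by
    apply Real.le_sqrt_of_sq_le
    calc (M ^ (-(1:ℝ) / 32) * y ^ ((1:ℝ) / 28)) ^ 2
        = (M ^ (-(1:ℝ) / 32) * M ^ (-(1:ℝ) / 32)) * (y ^ ((1:ℝ) / 28) * y ^ ((1:ℝ) / 28)) := by ring
      _ = M ^ (-(1:ℝ) / 16) * y ^ ((1:ℝ) / 14) := by
          rw [← Real.rpow_add hM, ← Real.rpow_add hy0]; norm_num
      _ ≤ E := hkey
  have hpos : 0 < M ^ ((63:ℝ) / 64) * M ^ (-(1:ℝ) / 64) := by positivity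
  calc M ^ ((63:ℝ) / 64) * M ^ (-(1:ℝ) / 64) / Real.sqrt E
      ≤ M ^ ((63:ℝ) / 64) * M ^ (-(1:ℝ) / 64) / (M ^ (-(1:ℝ) / 32) * y ^ ((1:ℝ) / 28)) := by
        gcongr
    _ = M * y ^ (-(1:ℝ) / 28) := by
        have e1 : y ^ (-(1:ℝ) / 28) = (y ^ ((1:ℝ) / 28))⁻¹ := by
          rw [← Real.rpow_neg hy0.le]; norm_num
        have e2 : M ^ ((63:ℝ) / 64) * M ^ (-(1:ℝ) / 64) = M * M ^ (-(1:ℝ) / 32) := by
          rw [← Real.rpow_add hM]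
          nth_rw 2 [← Real.rpow_one M]
          rw [← Real.rpow_add hM]; norm_num
        rw [e1, e2]
        have : 0 < y ^ ((1:ℝ) / 28) := by positivity
        have : 0 < M ^ (-(1:ℝ) / 32) := by positivity
        field_simp

/-- The bound for one `q`. -/
lemma typeH_one (hψ : Adm ψ) {k k' : ℕ} {M M' : ℝ} {T' : Finset ℕ} {q : ℕ} (hkk : k ≤ k')
    (hB' : Blk ψ k' M' T') (hq : Clean ψ k M q) (hk : 1 ≤ k) (hM : 0 < M) (hM' : 0 < M')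
    (hqH : M ^ ((3:ℝ) / 4) ≤ (q:ℝ) * ψ q) (hrH : ∀ r ∈ T', M' ^ ((3:ℝ) / 4) ≤ (r:ℝ) * ψ r)
    {E : ℝ} (hE : E = max (M ^ (-(1:ℝ) / 8)) (32 * (2:ℝ) ^ (k' - k) * M ^ ((3:ℝ) / 4))) (c1 : ℝ)
    (hc1 : 32 * (2:ℝ) ^ (k' - k) * M ^ ((3:ℝ) / 4) < M ^ (-(1:ℝ) / 8) →
      M ^ (-(1:ℝ) / 8) * (M ^ (-(3:ℝ) / 8) * M' ^ (-(3:ℝ) / 8)) * ∑ r ∈ T', ψ r ≤ c1)
    (hc1' : 0 ≤ c1) :
    ∑ r ∈ T'.filter (fun r => q < r ∧ XX ψ q r < 1 / 64 ∧ (Al γ ψ q r).Nonempty ∧ ¬ LeftP γ ψ q r),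
        (Nat.gcd q r : ℝ) * min (ψ q / q) (ψ r / r)
      ≤ ψ q * (c1 + 576 * (KK M / Real.sqrt E)) + ∑ d ∈ q.divisors, negl ψ q d k' := by
  have hψq := hq.pos
  have hE1 : M ^ (-(1:ℝ) / 8) ≤ E := by rw [hE]; exact le_max_left _ _
  have hq2 : 2 ≤ q := by
    calc 2 = 2 ^ 1 := rfl
      _ ≤ 2 ^ k := Nat.pow_le_pow_right (by norm_num) hk
      _ ≤ q := hq.lo
  have hq0 : (0:ℝ) < (q:ℝ) := by exact_mod_cast (by omega : 0 < q)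
  set F := T'.filter (fun r => q < r ∧ XX ψ q r < 1 / 64 ∧ (Al γ ψ q r).Nonempty ∧ ¬ LeftP γ ψ q r) with hF
  have hprops : ∀ r ∈ F, r ∈ T' ∧ q < r ∧ XX ψ q r < 1 / 64 ∧ (Al γ ψ q r).Nonempty ∧ ¬ LeftP γ ψ q r := by
    intro r hr
    exact mem_filter.mp hr
  have hrclean : ∀ r ∈ T', 2 ^ k' ≤ r ∧ r < 2 ^ (k' + 1) ∧ 0 < ψ r ∧ 0 < r := by
    intro r hr
    have h := hB'.clean r hr
    exact ⟨h.lo, h.hi, h.pos, lt_of_lt_of_le (by positivity) h.lo⟩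
  have hgcd : ∀ r ∈ F, 32 * (2:ℝ) ^ (k' - k) * M ^ ((3:ℝ) / 4) < (Nat.gcd q r : ℝ) := by
    intro r hr
    obtain ⟨hrT, _, hX, _, _⟩ := hprops r hr
    obtain ⟨h1, _, _, h4⟩ := hrclean r hrT
    have := gcd_large hkk hq.hi h1 h4 hψq hX
    have hy : (0:ℝ) < (2:ℝ) ^ (k' - k) := by positivity
    calc 32 * (2:ℝ) ^ (k' - k) * M ^ ((3:ℝ) / 4) ≤ 32 * (2:ℝ) ^ (k' - k) * ((q:ℝ) * ψ q) := by gcongr
      _ < _ := this
  have hEpos : 0 < E := lt_of_lt_of_le (by positivity) hE1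
  rw [← Finset.sum_filter_add_sum_filter_not F (fun r => (Nat.gcd q r : ℝ) ≤ M ^ (-(1:ℝ) / 8))]
  have hfirst : ∑ r ∈ F.filter (fun r => (Nat.gcd q r : ℝ) ≤ M ^ (-(1:ℝ) / 8)),
      (Nat.gcd q r : ℝ) * min (ψ q / q) (ψ r / r) ≤ ψ q * c1 := by
    by_cases hP : 32 * (2:ℝ) ^ (k' - k) * M ^ ((3:ℝ) / 4) < M ^ (-(1:ℝ) / 8)
    · have hsum : ∑ r ∈ F.filter (fun r => (Nat.gcd q r : ℝ) ≤ M ^ (-(1:ℝ) / 8)),
          (Nat.gcd q r : ℝ) * min (ψ q / q) (ψ r / r)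
          ≤ ∑ r ∈ T', ψ q * (M ^ (-(1:ℝ) / 8) * (M ^ (-(3:ℝ) / 8) * M' ^ (-(3:ℝ) / 8)) * ψ r) := by
        have hsub : F.filter (fun r => (Nat.gcd q r : ℝ) ≤ M ^ (-(1:ℝ) / 8)) ⊆ T' := fun r hr =>
          (hprops r (mem_filter.mp hr).1).1
        refine le_trans (Finset.sum_le_sum (fun r hr => ?_))
          (Finset.sum_le_sum_of_subset_of_nonneg hsub (fun r hr _ => ?_))
        · have hrF := (mem_filter.mp hr).1
          have hle := (mem_filter.mp hr).2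
          have hrT := (hprops r hrF).1
          obtain ⟨_, _, h3, h4⟩ := hrclean r hrT
          have hr0 : (0:ℝ) < (r:ℝ) := by exact_mod_cast h4
          have hb := min_bd hψq h3 hq0 hr0 hM hM' hqH (hrH r hrT)
          have hg0 : (0:ℝ) ≤ (Nat.gcd q r : ℝ) := by positivity
          have hmin : 0 ≤ min (ψ q / q) (ψ r / r) := le_min (by positivity) (by positivity)
          calc (Nat.gcd q r : ℝ) * min (ψ q / q) (ψ r / r)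
              ≤ M ^ (-(1:ℝ) / 8) * (ψ q * ψ r * (M ^ (-(3:ℝ) / 8) * M' ^ (-(3:ℝ) / 8))) := by gcongr
            _ = _ := by ring
        · have := (hrclean r hr).2.2.1
          positivity
      calc _ ≤ _ := hsum
        _ = ψ q * (M ^ (-(1:ℝ) / 8) * (M ^ (-(3:ℝ) / 8) * M' ^ (-(3:ℝ) / 8)) * ∑ r ∈ T', ψ r) := by
            rw [mul_sum, mul_sum]
        _ ≤ ψ q * c1 := by gcongr; exact hc1 hP
    · have hempty : F.filter (fun r => (Nat.gcd q r : ℝ) ≤ M ^ (-(1:ℝ) / 8)) = ∅ := by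
        apply Finset.filter_eq_empty_iff.mpr
        intro r hr hle
        exact hP (lt_of_lt_of_le (hgcd r hr) hle)
      rw [hempty, Finset.sum_empty]
      positivity
  have hsecond : ∑ r ∈ F.filter (fun r => ¬ (Nat.gcd q r : ℝ) ≤ M ^ (-(1:ℝ) / 8)),
      (Nat.gcd q r : ℝ) * min (ψ q / q) (ψ r / r)
      ≤ 576 * ψ q * (KK M / Real.sqrt E) + ∑ d ∈ q.divisors, negl ψ q d k' := by
    set G := F.filter (fun r => ¬ (Nat.gcd q r : ℝ) ≤ M ^ (-(1:ℝ) / 8)) with hG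
    have hmaps : ∀ r ∈ G, Nat.gcd q r ∈ q.divisors.filter (fun d : ℕ => E < (d:ℝ)) := by
      intro r hr
      have hrF := (mem_filter.mp hr).1
      have hlt := not_le.mp (mem_filter.mp hr).2
      refine mem_filter.mpr ⟨Nat.mem_divisors.mpr ⟨Nat.gcd_dvd_left q r, by omega⟩, ?_⟩
      rw [hE]
      exact max_lt hlt (hgcd r hrF)
    have hnegl : ∀ d, 0 ≤ negl ψ q d k' := fun d => negl_nonneg' hψq
    have hfib : ∀ d ∈ q.divisors.filter (fun d : ℕ => E < (d:ℝ)),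
        ∑ r ∈ G.filter (fun r => Nat.gcd q r = d), (Nat.gcd q r : ℝ) * min (ψ q / q) (ψ r / r)
          ≤ 576 * ψ q * 1 / (d:ℝ) + negl ψ q d k' := by
      intro d hd
      have hdq : d ∣ q := (Nat.mem_divisors.mp (mem_filter.mp hd).1).1
      have hb := bohr_sum (γ := γ) hψ hq2 hψq hdq (B := 1) zero_le_one (T'.filter (fun r => q < r)) (by
        intro r hr
        obtain ⟨hrT, hqr⟩ := mem_filter.mp hr
        obtain ⟨h1, h2, h3, h4⟩ := hrclean r hrT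
        refine ⟨h1, h2, hqr, h3, ?_⟩
        have hr0 : (0:ℝ) < (r:ℝ) := by exact_mod_cast h4
        have := hψ.le r h4
        calc (r:ℝ) * ψ r ≤ (r:ℝ) * (1 / (r:ℝ)) := by gcongr
          _ = 1 := by field_simp)
      refine le_trans ?_ hb
      have e : ∑ r ∈ G.filter (fun r => Nat.gcd q r = d), (Nat.gcd q r : ℝ) * min (ψ q / q) (ψ r / r)
          = ∑ r ∈ G.filter (fun r => Nat.gcd q r = d), (d:ℝ) * min (ψ q / q) (ψ r / r) :=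
        Finset.sum_congr rfl (fun r hr => by rw [(mem_filter.mp hr).2])
      rw [e]
      apply Finset.sum_le_sum_of_subset_of_nonneg
      · intro r hr
        have hrG := (mem_filter.mp hr).1
        have hgd := (mem_filter.mp hr).2
        have hrF := (mem_filter.mp hrG).1
        obtain ⟨hrT, hqr, hX, hne, hL⟩ := hprops r hrF
        exact mem_filter.mpr ⟨mem_filter.mpr ⟨hrT, hqr⟩, hgd, hX, hne, hL⟩
      · intro r hr _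
        obtain ⟨hrT, _⟩ := mem_filter.mp (mem_filter.mp hr).1
        obtain ⟨_, _, h3, h4⟩ := hrclean r hrT
        have hr0 : (0:ℝ) < (r:ℝ) := by exact_mod_cast h4
        have hmin : 0 ≤ min (ψ q / q) (ψ r / r) := le_min (by positivity) (by positivity)
        positivity
    rw [← Finset.sum_fiberwise_of_maps_to hmaps]
    have hT : Tq q E ≤ KK M / Real.sqrt E := by
      refine le_trans (Tq_le_Lam q hEpos) ?_
      have := hq.lam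
      gcongr
    calc ∑ d ∈ q.divisors.filter (fun d : ℕ => E < (d:ℝ)), ∑ r ∈ G.filter (fun r => Nat.gcd q r = d),
            (Nat.gcd q r : ℝ) * min (ψ q / q) (ψ r / r)
        ≤ ∑ d ∈ q.divisors.filter (fun d : ℕ => E < (d:ℝ)), (576 * ψ q * 1 / (d:ℝ) + negl ψ q d k') :=
          Finset.sum_le_sum hfib
      _ = 576 * ψ q * Tq q E + ∑ d ∈ q.divisors.filter (fun d : ℕ => E < (d:ℝ)), negl ψ q d k' := by
          rw [Finset.sum_add_distrib]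
          congr 1
          unfold Tq
          rw [Finset.mul_sum]
          refine Finset.sum_congr rfl (fun d _ => ?_)
          ring
      _ ≤ 576 * ψ q * (KK M / Real.sqrt E) + ∑ d ∈ q.divisors, negl ψ q d k' := by
          have h1 : ∑ d ∈ q.divisors.filter (fun d : ℕ => E < (d:ℝ)), negl ψ q d k'
              ≤ ∑ d ∈ q.divisors, negl ψ q d k' :=
            Finset.sum_le_sum_of_subset_of_nonneg (filter_subset _ _) (fun d _ _ => hnegl d)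
          have h2 : 576 * ψ q * Tq q E ≤ 576 * ψ q * (KK M / Real.sqrt E) := by gcongr
          linarith
  have e : ψ q * (c1 + 576 * (KK M / Real.sqrt E)) + ∑ d ∈ q.divisors, negl ψ q d k'
      = ψ q * c1 + (576 * ψ q * (KK M / Real.sqrt E) + ∑ d ∈ q.divisors, negl ψ q d k') := by ring
  rw [e]
  exact add_le_add hfirst hsecond

theorem typeH_sum_aux (hψ : Adm ψ) : ∃ C : ℝ, 0 < C ∧ ∃ k₀ : ℕ, ∀ (k k' : ℕ) (M M' : ℝ) (T T' : Finset ℕ), k₀ ≤ k → k ≤ k' →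
    Blk ψ k M T → Blk ψ k' M' T' →
    (∀ q ∈ T, M ^ ((3:ℝ) / 4) ≤ (q:ℝ) * ψ q) → (∀ r ∈ T', M' ^ ((3:ℝ) / 4) ≤ (r:ℝ) * ψ r) →
    ∑ q ∈ T, ∑ r ∈ T'.filter (fun r => q < r ∧ XX ψ q r < 1 / 64 ∧ (Al γ ψ q r).Nonempty ∧ ¬ LeftP γ ψ q r),
        (Nat.gcd q r : ℝ) * min (ψ q / q) (ψ r / r)
      ≤ C * (M + M') * ((2:ℝ) ^ (k' - k)) ^ (-(1:ℝ) / 28) + ∑ q ∈ T, ∑ d ∈ q.divisors, negl ψ q d k' := by
  have hCL : 1 ≤ CL := CL_ge_one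
  refine ⟨520 * 520 + 576 * 520 * CL, by positivity, 0, ?_⟩
  intro k k' M M' T T' _ hkk hB hB' hqH hrH
  have hM := hB.Mpos
  have hM' := hB'.Mpos
  have hM1 := hB.Mle
  have hM1' := hB'.Mle
  set y : ℝ := (2:ℝ) ^ (k' - k) with hy
  have hy1 : 1 ≤ y := one_le_pow₀ (by norm_num)
  set E : ℝ := max (M ^ (-(1:ℝ) / 8)) (32 * y * M ^ ((3:ℝ) / 4)) with hE
  have hE1 : M ^ (-(1:ℝ) / 8) ≤ E := le_max_left _ _
  have hE2 : 32 * y * M ^ ((3:ℝ) / 4) ≤ E := le_max_right _ _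
  have hEpos : 0 < E := lt_of_lt_of_le (by positivity) hE1
  set c1 : ℝ := if 32 * y * M ^ ((3:ℝ) / 4) < M ^ (-(1:ℝ) / 8) then
      M ^ (-(1:ℝ) / 8) * (M ^ (-(3:ℝ) / 8) * M' ^ (-(3:ℝ) / 8)) * ∑ r ∈ T', ψ r else 0 with hc1
  have hσ' : ∑ r ∈ T', ψ r ≤ 520 * M' ^ ((63:ℝ) / 64) := sigma_le hψ hB'
  have hσ : ∑ q ∈ T, ψ q ≤ 520 * M ^ ((63:ℝ) / 64) := sigma_le hψ hB
  have hσ0 : 0 ≤ ∑ q ∈ T, ψ q := Finset.sum_nonneg (fun q hq => (hψ.nonneg q))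
  have hσ0' : 0 ≤ ∑ q ∈ T', ψ q := Finset.sum_nonneg (fun q hq => (hψ.nonneg q))
  have hc10 : 0 ≤ c1 := by
    rw [hc1]
    split_ifs
    · positivity
    · exact le_rfl
  have hone : ∀ q ∈ T, ∑ r ∈ T'.filter (fun r => q < r ∧ XX ψ q r < 1 / 64 ∧ (Al γ ψ q r).Nonempty ∧ ¬ LeftP γ ψ q r),
        (Nat.gcd q r : ℝ) * min (ψ q / q) (ψ r / r)
      ≤ ψ q * (c1 + 576 * (KK M / Real.sqrt E)) + ∑ d ∈ q.divisors, negl ψ q d k' := by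
    intro q hq
    refine typeH_one hψ hkk hB' (hB.clean q hq) hB.kpos hM hM' (hqH q hq) hrH hE c1 ?_ hc10
    intro hP
    rw [hc1, if_pos hP]
  refine le_trans (Finset.sum_le_sum hone) ?_
  rw [Finset.sum_add_distrib, ← Finset.sum_mul]
  refine add_le_add ?_ le_rfl
  -- the main term
  have hc1σ : c1 * ∑ q ∈ T, ψ q ≤ 520 * 520 * ((M + M') * y ^ (-(1:ℝ) / 28)) := by
    rw [hc1]
    split_ifs with hP
    · have hn := num_small hM hM1 hM' hM1' hy1 hP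
      calc M ^ (-(1:ℝ) / 8) * (M ^ (-(3:ℝ) / 8) * M' ^ (-(3:ℝ) / 8)) * (∑ r ∈ T', ψ r) * ∑ q ∈ T, ψ q
          ≤ M ^ (-(1:ℝ) / 8) * (M ^ (-(3:ℝ) / 8) * M' ^ (-(3:ℝ) / 8)) * (520 * M' ^ ((63:ℝ) / 64))
              * (520 * M ^ ((63:ℝ) / 64)) := by gcongr
        _ = 520 * 520 * (M ^ (-(1:ℝ) / 8) * (M ^ (-(3:ℝ) / 8) * M' ^ (-(3:ℝ) / 8)) * (M ^ ((63:ℝ) / 64) * M' ^ ((63:ℝ) / 64))) := by ring
        _ ≤ _ := by gcongr
    · rw [zero_mul]; positivity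
  have hc2σ : 576 * (KK M / Real.sqrt E) * ∑ q ∈ T, ψ q ≤ 576 * 520 * CL * ((M + M') * y ^ (-(1:ℝ) / 28)) := by
    have hn := num_large hM hy1 hE1 hE2
    have hsqrt : 0 < Real.sqrt E := Real.sqrt_pos.mpr hEpos
    have hK : 0 ≤ KK M / Real.sqrt E := by unfold KK; positivity
    calc 576 * (KK M / Real.sqrt E) * ∑ q ∈ T, ψ q
        ≤ 576 * (KK M / Real.sqrt E) * (520 * M ^ ((63:ℝ) / 64)) := by gcongr
      _ = 576 * 520 * CL * (M ^ ((63:ℝ) / 64) * M ^ (-(1:ℝ) / 64) / Real.sqrt E) := by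
          unfold KK; ring
      _ ≤ 576 * 520 * CL * (M * y ^ (-(1:ℝ) / 28)) := by gcongr
      _ ≤ _ := by
          have : 0 ≤ y ^ (-(1:ℝ) / 28) := by positivity
          gcongr
          linarith
  calc (∑ q ∈ T, ψ q) * (c1 + 576 * (KK M / Real.sqrt E))
      = c1 * ∑ q ∈ T, ψ q + 576 * (KK M / Real.sqrt E) * ∑ q ∈ T, ψ q := by ring
    _ ≤ 520 * 520 * ((M + M') * y ^ (-(1:ℝ) / 28)) + 576 * 520 * CL * ((M + M') * y ^ (-(1:ℝ) / 28)) :=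
        add_le_add hc1σ hc2σ
    _ = _ := by ring

end Vale.Agent.Lib.P028V
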