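import Vale.Agent.Lib.P028V.Clean
import Vale.Agent.Lib.P028V.BohrSum

/-! Proof of the sum over pairs of cleaned blocks with small `a_q` (blueprint section J, typeL_sum). -/

open Finset
open scoped Classical

namespace Vale.Agent.Lib.P028V

open Vale.Agent.Lib.P028

variable {γ : ℝ} {ψ : ℕ → ℝ}

/-- Elementary inequality in the variables `a = A^(1/4)`, `b = B^(1/4)`, `w = y^(1/4)`. -/
lemma tl_elem_aux {a b w : ℝ} (ha0 : 0 < a) (ha1 : a ≤ 1) (hb0 : 0 < b) (hb1 : b ≤ 1) (hw : 1 ≤ w) :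
    a ^ 3 * b ^ 3 * min 1 (1 / (w ^ 4 * a ^ 4)) ≤ (a ^ 4 + b ^ 4) / w := by
  have hw0 : 0 < w := by linarith
  rw [le_div_iff₀ hw0]
  by_cases h : w * a ≤ 1
  · have hmin : min 1 (1 / (w ^ 4 * a ^ 4)) ≤ 1 := min_le_left _ _
    have h1 : a ^ 3 * b ^ 3 * min 1 (1 / (w ^ 4 * a ^ 4)) * w ≤ a ^ 3 * b ^ 3 * 1 * w := by
      gcongr
    have h2 : a ^ 3 * b ^ 3 * 1 * w = a ^ 2 * b ^ 3 * (w * a) := by ring
    have h3 : a ^ 2 * b ^ 3 * (w * a) ≤ a ^ 2 * b ^ 3 * 1 := by gcongr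
    have h4 : a ^ 2 * b ^ 3 ≤ a ^ 4 + b ^ 4 := by
      rcases le_total a b with hab | hab
      · have : a ^ 2 * b ^ 3 ≤ b ^ 2 * b ^ 3 := by gcongr
        have h5 : b ^ 2 * b ^ 3 = b ^ 4 * b := by ring
        have h6 : b ^ 4 * b ≤ b ^ 4 * 1 := by gcongr
        have : 0 < a ^ 4 := by positivity
        linarith
      · have : a ^ 2 * b ^ 3 ≤ a ^ 2 * a ^ 3 := by gcongr
        have h5 : a ^ 2 * a ^ 3 = a ^ 4 * a := by ring
        have h6 : a ^ 4 * a ≤ a ^ 4 * 1 := by gcongr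
        have : 0 < b ^ 4 := by positivity
        linarith
    linarith
  · push Not at h
    have hmin : min 1 (1 / (w ^ 4 * a ^ 4)) ≤ 1 / (w ^ 4 * a ^ 4) := min_le_right _ _
    have h1 : a ^ 3 * b ^ 3 * min 1 (1 / (w ^ 4 * a ^ 4)) * w ≤ a ^ 3 * b ^ 3 * (1 / (w ^ 4 * a ^ 4)) * w := by
      gcongr
    have h2 : a ^ 3 * b ^ 3 * (1 / (w ^ 4 * a ^ 4)) * w = b ^ 3 / (a * w ^ 3) := by
      field_simp
    have h3 : b ^ 3 / (a * w ^ 3) ≤ a ^ 4 + b ^ 4 := by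
      rw [div_le_iff₀ (by positivity)]
      by_cases hb : 1 ≤ w * b
      · have h5 : 1 ≤ (w * a) * w ^ 2 := by
          have : 1 ≤ w ^ 2 := one_le_pow₀ hw
          nlinarith
        have h6 : 1 ≤ b * ((w * a) * w ^ 2) := by
          have h7 : (w * b) * ((w * a) * w) ≤ b * ((w * a) * w ^ 2) := by
            apply le_of_eq; ring
          have h8 : 1 ≤ (w * a) * w := by nlinarith
          nlinarith
        have h9 : b ^ 3 * 1 ≤ b ^ 3 * (b * ((w * a) * w ^ 2)) := by gcongr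
        have h10 : (a ^ 4 + b ^ 4) * (a * w ^ 3) = a ^ 4 * (a * w ^ 3) + b ^ 3 * (b * ((w * a) * w ^ 2)) := by ring
        have h11 : 0 ≤ a ^ 4 * (a * w ^ 3) := by positivity
        linarith
      · push Not at hb
        have h5 : (w * b) ^ 3 ≤ 1 := pow_le_one₀ (by positivity) hb.le
        have h6 : 1 ≤ (w * a) ^ 5 := one_le_pow₀ h.le
        have h7 : b ^ 3 * w ^ 2 ≤ (w * b) ^ 3 := by
          have : b ^ 3 * w ^ 2 * 1 ≤ b ^ 3 * w ^ 2 * w := by gcongr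
          calc b ^ 3 * w ^ 2 = b ^ 3 * w ^ 2 * 1 := by ring
            _ ≤ b ^ 3 * w ^ 2 * w := this
            _ = (w * b) ^ 3 := by ring
        have h8 : b ^ 3 * w ^ 2 ≤ a ^ 5 * w ^ 3 * w ^ 2 := by
          calc b ^ 3 * w ^ 2 ≤ 1 := by linarith
            _ ≤ (w * a) ^ 5 := h6
            _ = a ^ 5 * w ^ 3 * w ^ 2 := by ring
        have h9 : b ^ 3 ≤ a ^ 5 * w ^ 3 := le_of_mul_le_mul_right h8 (by positivity)
        have h10 : (a ^ 4 + b ^ 4) * (a * w ^ 3) = a ^ 5 * w ^ 3 + a * b ^ 4 * w ^ 3 := by ring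
        have h11 : 0 ≤ a * b ^ 4 * w ^ 3 := by positivity
        linarith
    linarith

/-- The elementary inequality of the blueprint. -/
lemma tl_elem_ineq {A B y : ℝ} (hA0 : 0 < A) (hA1 : A ≤ 1) (hB0 : 0 < B) (hB1 : B ≤ 1) (hy : 1 ≤ y) :
    A ^ ((3:ℝ) / 4) * B ^ ((3:ℝ) / 4) * min 1 (1 / (y * A)) ≤ (A + B) * y ^ (-(1:ℝ) / 4) := by
  have key : ∀ t : ℝ, 0 < t → (t ^ ((1:ℝ) / 4)) ^ 4 = t ∧ (t ^ ((1:ℝ) / 4)) ^ 3 = t ^ ((3:ℝ) / 4) := by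
    intro t ht
    constructor
    · rw [← Real.rpow_natCast, ← Real.rpow_mul ht.le]
      norm_num
    · rw [← Real.rpow_natCast, ← Real.rpow_mul ht.le]
      norm_num
  have hy0 : 0 < y := by linarith
  obtain ⟨ha4, ha3⟩ := key A hA0
  obtain ⟨hb4, hb3⟩ := key B hB0
  obtain ⟨hw4, -⟩ := key y hy0
  have hw : y ^ (-(1:ℝ) / 4) = 1 / y ^ ((1:ℝ) / 4) := by
    rw [show (-(1:ℝ) / 4) = -((1:ℝ) / 4) by ring, Real.rpow_neg hy0.le]
    exact (one_div _).symm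
  have := tl_elem_aux (a := A ^ ((1:ℝ) / 4)) (b := B ^ ((1:ℝ) / 4)) (w := y ^ ((1:ℝ) / 4))
    (Real.rpow_pos_of_pos hA0 _) (Real.rpow_le_one hA0.le hA1 (by norm_num))
    (Real.rpow_pos_of_pos hB0 _) (Real.rpow_le_one hB0.le hB1 (by norm_num))
    (Real.one_le_rpow hy (by norm_num))
  rw [ha4, hb4, hw4, ha3, hb3] at this
  rw [hw, mul_one_div]
  exact this

/-- The second term of the divisor average is small on the relevant range of `y`. -/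
lemma tl_small_term : ∃ k₀ : ℕ, ∀ (k : ℕ) (M y : ℝ), k₀ ≤ k → 0 < M → 1 / (k:ℝ) ^ 2 ≤ M → 1 ≤ y →
    4 * y * M < (2:ℝ) ^ (k + 1) → ((k:ℝ) + 2) / (2:ℝ) ^ k ≤ M * y ^ (-(1:ℝ) / 4) := by
  have hlim := tendsto_pow_const_div_const_pow_of_one_lt 14 (r := (8:ℝ)) (by norm_num)
  have hev : ∀ᶠ n : ℕ in Filter.atTop, ((n:ℝ) ^ 14 / (8:ℝ) ^ n) < 1 / 16 :=
    hlim.eventually (gt_mem_nhds (by norm_num))
  obtain ⟨k₁, hk₁⟩ := Filter.eventually_atTop.1 hev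
  refine ⟨max k₁ 2, ?_⟩
  intro k M y hk hM hMk hy hyM
  have hk1 : k₁ ≤ k := le_trans (le_max_left _ _) hk
  have hk2 : 2 ≤ k := le_trans (le_max_right _ _) hk
  have hkR : (2:ℝ) ≤ k := by exact_mod_cast hk2
  have hk0 : (0:ℝ) < k := by linarith
  have h14 := hk₁ k hk1
  have h14' : 16 * (k:ℝ) ^ 14 ≤ (8:ℝ) ^ k := by
    rw [div_lt_iff₀ (by positivity)] at h14
    nlinarith
  have hy0 : 0 < y := by linarith
  have hw4 : (y ^ ((1:ℝ) / 4)) ^ 4 = y := by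
    rw [← Real.rpow_natCast, ← Real.rpow_mul hy0.le]
    norm_num
  have hw0 : 0 < y ^ ((1:ℝ) / 4) := Real.rpow_pos_of_pos hy0 _
  have hw : y ^ (-(1:ℝ) / 4) = 1 / y ^ ((1:ℝ) / 4) := by
    rw [show (-(1:ℝ) / 4) = -((1:ℝ) / 4) by ring, Real.rpow_neg hy0.le]
    exact (one_div _).symm
  rw [hw, mul_one_div, div_le_div_iff₀ (by positivity) hw0]
  set w := y ^ ((1:ℝ) / 4) with hwdef
  have hMk2 : 1 ≤ (k:ℝ) ^ 2 * M := by
    rw [div_le_iff₀ (by positivity)] at hMk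
    linarith
  have hMk10 : 1 ≤ ((k:ℝ) ^ 2 * M) ^ 5 := one_le_pow₀ hMk2
  have hk24 : ((k:ℝ) + 2) ^ 4 ≤ 16 * (k:ℝ) ^ 4 := by
    have : ((k:ℝ) + 2) ^ 4 ≤ (2 * (k:ℝ)) ^ 4 := by
      gcongr
      linarith
    calc ((k:ℝ) + 2) ^ 4 ≤ (2 * (k:ℝ)) ^ 4 := this
      _ = 16 * (k:ℝ) ^ 4 := by ring
  have hmain : ((k:ℝ) + 2) ^ 4 * (k:ℝ) ^ 10 ≤ (8:ℝ) ^ k := by
    calc ((k:ℝ) + 2) ^ 4 * (k:ℝ) ^ 10 ≤ 16 * (k:ℝ) ^ 4 * (k:ℝ) ^ 10 := by gcongr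
      _ = 16 * (k:ℝ) ^ 14 := by ring
      _ ≤ _ := h14'
  have h2k : (2:ℝ) ^ (k + 1) = 2 * (2:ℝ) ^ k := by ring
  have h84 : (8:ℝ) ^ k * (2:ℝ) ^ k = ((2:ℝ) ^ k) ^ 4 := by
    rw [show (8:ℝ) = 2 ^ 3 by norm_num, ← pow_mul, ← pow_mul, ← pow_add]
    congr 1
    ring
  have hfour : (((k:ℝ) + 2) * w) ^ 4 ≤ (M * (2:ℝ) ^ k) ^ 4 := by
    have e1 : (((k:ℝ) + 2) * w) ^ 4 = ((k:ℝ) + 2) ^ 4 * y := by
      rw [mul_pow, hw4]
    rw [e1]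
    have hyM' : y * M ≤ (2:ℝ) ^ k := by
      rw [h2k] at hyM
      have : 0 < (2:ℝ) ^ k := by positivity
      nlinarith
    have e2 : ((k:ℝ) + 2) ^ 4 * y ≤ ((k:ℝ) + 2) ^ 4 * y * ((k:ℝ) ^ 2 * M) ^ 5 := by
      have : 0 ≤ ((k:ℝ) + 2) ^ 4 * y := by positivity
      nlinarith
    have e3 : ((k:ℝ) + 2) ^ 4 * y * ((k:ℝ) ^ 2 * M) ^ 5
        = (((k:ℝ) + 2) ^ 4 * (k:ℝ) ^ 10) * (y * M) * M ^ 4 := by ring
    have e4 : (((k:ℝ) + 2) ^ 4 * (k:ℝ) ^ 10) * (y * M) * M ^ 4 ≤ (8:ℝ) ^ k * (2:ℝ) ^ k * M ^ 4 := by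
      gcongr
    calc ((k:ℝ) + 2) ^ 4 * y ≤ _ := e2
      _ = _ := e3
      _ ≤ _ := e4
      _ = (M * (2:ℝ) ^ k) ^ 4 := by rw [h84]; ring
  have := (pow_le_pow_iff_left₀ (by positivity) (by positivity) (by norm_num : (4:ℕ) ≠ 0)).1 hfour
  linarith

/-- Small `X` forces a large gcd. -/
lemma tl_d_lower {k k' : ℕ} {M : ℝ} {q r : ℕ} (hk : k ≤ k') (hc : Clean ψ k M q) (hlo : 2 ^ k' ≤ r)
    (hX : XX ψ q r < 1 / 64) (hq0 : 0 < q) : 4 * (2:ℝ) ^ (k' - k) * M < (Nat.gcd q r : ℝ) := by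
  have hd0 : 0 < Nat.gcd q r := Nat.gcd_pos_of_pos_left _ hq0
  have hd0R : (0:ℝ) < (Nat.gcd q r : ℝ) := by exact_mod_cast hd0
  have hdr : Nat.gcd q r ∣ r := Nat.gcd_dvd_right _ _
  have h1 : ((r / Nat.gcd q r : ℕ) : ℝ) * ψ q < 1 / 64 := lt_of_le_of_lt (le_max_left _ _) hX
  rw [Nat.cast_div hdr (by positivity)] at h1
  have h2 : 64 * ((r:ℝ) * ψ q) < (Nat.gcd q r : ℝ) := by
    have : (r:ℝ) / (Nat.gcd q r : ℝ) * ψ q = (r:ℝ) * ψ q / (Nat.gcd q r : ℝ) := by ring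
    rw [this, div_lt_iff₀ hd0R] at h1
    linarith
  have hψq : 0 < ψ q := hc.pos
  have hr1 : (2:ℝ) ^ k' ≤ r := by exact_mod_cast hlo
  have hq1 : (q:ℝ) < (2:ℝ) ^ (k + 1) := by exact_mod_cast hc.hi
  have hqR : (0:ℝ) < q := by exact_mod_cast hq0
  have hM8 := hc.alow
  have hpow : (2:ℝ) ^ k' = (2:ℝ) ^ (k' - k) * (2:ℝ) ^ k := by
    rw [← pow_add]
    congr 1
    omega
  have hy0 : (0:ℝ) < (2:ℝ) ^ (k' - k) := by positivity
  have h2k0 : (0:ℝ) < (2:ℝ) ^ k := by positivity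
  have hrψ : 0 ≤ (r:ℝ) * ψ q := by positivity
  by_cases hM0 : 0 < M
  · have h3 : (2:ℝ) ^ k' * (M / 8) ≤ (r:ℝ) * ((q:ℝ) * ψ q) := by gcongr
    have h4 : (r:ℝ) * ((q:ℝ) * ψ q) ≤ (r:ℝ) * ψ q * (2:ℝ) ^ (k + 1) := by
      have : (r:ℝ) * ((q:ℝ) * ψ q) = (r:ℝ) * ψ q * (q:ℝ) := by ring
      rw [this]
      gcongr
    have h5 : (2:ℝ) ^ (k + 1) = 2 * (2:ℝ) ^ k := by ring
    rw [hpow] at h3
    rw [h5] at h4
    have h6 : (2:ℝ) ^ (k' - k) * (M / 8) * (2:ℝ) ^ k ≤ ((r:ℝ) * ψ q * 2) * (2:ℝ) ^ k := by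
      calc (2:ℝ) ^ (k' - k) * (M / 8) * (2:ℝ) ^ k = (2:ℝ) ^ (k' - k) * (2:ℝ) ^ k * (M / 8) := by ring
        _ ≤ (r:ℝ) * ((q:ℝ) * ψ q) := h3
        _ ≤ (r:ℝ) * ψ q * (2 * (2:ℝ) ^ k) := h4
        _ = _ := by ring
    have h7 := le_of_mul_le_mul_right h6 h2k0
    linarith
  · push Not at hM0
    have : 4 * (2:ℝ) ^ (k' - k) * M ≤ 0 := by
      have : (0:ℝ) < 4 * (2:ℝ) ^ (k' - k) := by positivity
      nlinarith
    linarith

lemma tl_negl_nonneg {q d k' : ℕ} (hψq : 0 < ψ q) : 0 ≤ negl ψ q d k' := by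
  unfold negl
  split_ifs
  · positivity
  · exact le_refl _

/-- The sum over `r` for a fixed `q`. -/
lemma typeL_q (hψ : Adm ψ) {k k' : ℕ} {M M' : ℝ} {T' : Finset ℕ} {q : ℕ} (hk : k ≤ k') (hkpos : 1 ≤ k)
    (hM' : 0 < M') (hc : Clean ψ k M q) (hT' : ∀ r ∈ T', Clean ψ k' M' r)
    (hr : ∀ r ∈ T', (r:ℝ) * ψ r ≤ M' ^ ((3:ℝ) / 4)) :
    ∑ r ∈ T'.filter (fun r => q < r ∧ XX ψ q r < 1 / 64 ∧ (Al γ ψ q r).Nonempty ∧ ¬ LeftP γ ψ q r),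
        (Nat.gcd q r : ℝ) * min (ψ q / q) (ψ r / r)
      ≤ 576 * ψ q * M' ^ ((3:ℝ) / 4) * Tq q (4 * (2:ℝ) ^ (k' - k) * M) + ∑ d ∈ q.divisors, negl ψ q d k' := by
  have hq2 : 2 ≤ q := by
    have h1 : 2 ^ 1 ≤ 2 ^ k := Nat.pow_le_pow_right (by norm_num) hkpos
    have := hc.lo
    omega
  have hq0 : 0 < q := by omega
  have hψq := hc.pos
  have hBnn : 0 ≤ M' ^ ((3:ℝ) / 4) := Real.rpow_nonneg hM'.le _
  set B := M' ^ ((3:ℝ) / 4) with hBdef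
  set D := 4 * (2:ℝ) ^ (k' - k) * M with hDdef
  set F := T'.filter (fun r => q < r ∧ XX ψ q r < 1 / 64 ∧ (Al γ ψ q r).Nonempty ∧ ¬ LeftP γ ψ q r) with hF
  have hmaps : ∀ r ∈ F, Nat.gcd q r ∈ q.divisors := by
    intro r _
    exact Nat.mem_divisors.2 ⟨Nat.gcd_dvd_left _ _, by omega⟩
  rw [← Finset.sum_fiberwise_of_maps_to hmaps]
  have hfib : ∀ d ∈ q.divisors,
      ∑ r ∈ F with Nat.gcd q r = d, (Nat.gcd q r : ℝ) * min (ψ q / q) (ψ r / r)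
        ≤ (if D < (d:ℝ) then 576 * ψ q * B * (1 / (d:ℝ)) else 0) + negl ψ q d k' := by
    intro d hd
    have hdq : d ∣ q := Nat.dvd_of_mem_divisors hd
    have hcongr : ∑ r ∈ F with Nat.gcd q r = d, (Nat.gcd q r : ℝ) * min (ψ q / q) (ψ r / r)
        = ∑ r ∈ F with Nat.gcd q r = d, (d : ℝ) * min (ψ q / q) (ψ r / r) := by
      apply Finset.sum_congr rfl
      intro r hr'
      rw [(Finset.mem_filter.1 hr').2]
    rw [hcongr]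
    by_cases hDd : D < (d:ℝ)
    · rw [if_pos hDd]
      have hb := bohr_sum (γ := γ) hψ (q := q) (d := d) (k' := k') hq2 hψq hdq hBnn (T'.filter (fun r => q < r)) (by
        intro r hr'
        obtain ⟨hrT, hqr⟩ := Finset.mem_filter.1 hr'
        have hcr := hT' r hrT
        exact ⟨hcr.lo, hcr.hi, hqr, hcr.pos, hr r hrT⟩)
      have hset : F.filter (fun r => Nat.gcd q r = d)
          = (T'.filter (fun r => q < r)).filter
            (fun r => Nat.gcd q r = d ∧ XX ψ q r < 1 / 64 ∧ (Al γ ψ q r).Nonempty ∧ ¬ LeftP γ ψ q r) := by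
        ext r
        simp only [hF, Finset.mem_filter]
        tauto
      rw [hset]
      refine hb.trans (le_of_eq ?_)
      ring
    · rw [if_neg hDd, zero_add]
      have hempty : F.filter (fun r => Nat.gcd q r = d) = ∅ := by
        apply Finset.filter_eq_empty_iff.2
        intro r hr' hg
        obtain ⟨hrT, -, hX, -, -⟩ := Finset.mem_filter.1 hr'
        have := tl_d_lower hk hc (hT' r hrT).lo hX hq0
        rw [hg] at this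
        exact hDd this
      rw [hempty, Finset.sum_empty]
      exact tl_negl_nonneg hψq
  refine (Finset.sum_le_sum hfib).trans ?_
  rw [Finset.sum_add_distrib]
  have hT : ∑ d ∈ q.divisors, (if D < (d:ℝ) then 576 * ψ q * B * (1 / (d:ℝ)) else 0)
      = 576 * ψ q * B * Tq q D := by
    unfold Tq
    rw [Finset.sum_filter, Finset.mul_sum]
    apply Finset.sum_congr rfl
    intro d _
    split_ifs <;> simp
  rw [hT]

lemma tl_Tq_nonneg (q : ℕ) (D : ℝ) : 0 ≤ Tq q D := by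
  unfold Tq
  apply Finset.sum_nonneg
  intro d _
  positivity

/-- The weighted sum of the divisor tails over a block. -/
lemma tl_sum_psi_Tq {k : ℕ} {M : ℝ} {T : Finset ℕ} {D : ℝ} (hD : 0 ≤ D) (hc : ∀ q ∈ T, Clean ψ k M q)
    (hM : 0 < M) (hlow : ∀ q ∈ T, (q:ℝ) * ψ q ≤ M ^ ((3:ℝ) / 4)) :
    ∑ q ∈ T, ψ q * Tq q D ≤ M ^ ((3:ℝ) / 4) * (2 / max 1 D + ((k:ℝ) + 2) / (2:ℝ) ^ k) := by
  have h2k : (0:ℝ) < (2:ℝ) ^ k := by positivity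
  have hMp : 0 ≤ M ^ ((3:ℝ) / 4) := Real.rpow_nonneg hM.le _
  have hstep : ∀ q ∈ T, ψ q * Tq q D ≤ M ^ ((3:ℝ) / 4) / (2:ℝ) ^ k * Tq q D := by
    intro q hq
    apply mul_le_mul_of_nonneg_right _ (tl_Tq_nonneg q D)
    have hcq := hc q hq
    have hq1 : (2:ℝ) ^ k ≤ q := by exact_mod_cast hcq.lo
    have hqpos : (0:ℝ) < q := lt_of_lt_of_le h2k hq1
    rw [le_div_iff₀ h2k]
    calc ψ q * (2:ℝ) ^ k ≤ ψ q * q := by
          apply mul_le_mul_of_nonneg_left hq1 hcq.pos.le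
      _ = (q:ℝ) * ψ q := by ring
      _ ≤ _ := hlow q hq
  refine (Finset.sum_le_sum hstep).trans ?_
  rw [← Finset.mul_sum]
  have hsub : T ⊆ Ico (2 ^ k) (2 ^ (k + 1)) := by
    intro q hq
    have hcq := hc q hq
    exact Finset.mem_Ico.2 ⟨hcq.lo, hcq.hi⟩
  have h1 : ∑ q ∈ T, Tq q D ≤ ∑ q ∈ Ico (2 ^ k) (2 ^ (k + 1)), Tq q D :=
    Finset.sum_le_sum_of_subset_of_nonneg hsub (fun q _ _ => tl_Tq_nonneg q D)
  have h2 := h1.trans (Tq_avg k hD)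
  have h3 : M ^ ((3:ℝ) / 4) / (2:ℝ) ^ k * ∑ q ∈ T, Tq q D
      ≤ M ^ ((3:ℝ) / 4) / (2:ℝ) ^ k * ((2:ℝ) ^ (k + 1) / max 1 D + ((k:ℝ) + 2)) :=
    mul_le_mul_of_nonneg_left h2 (by positivity)
  refine h3.trans (le_of_eq ?_)
  have hmax : (0:ℝ) < max 1 D := lt_of_lt_of_le one_pos (le_max_left _ _)
  field_simp
  ring

/-- When `D` exceeds the block, the divisor tails vanish. -/
lemma tl_Tq_eq_zero {k : ℕ} {M : ℝ} {q : ℕ} {D : ℝ} (hc : Clean ψ k M q) (hD : (2:ℝ) ^ (k + 1) ≤ D) : Tq q D = 0 := by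
  unfold Tq
  apply Finset.sum_eq_zero_iff_of_nonneg (fun d _ => by positivity) |>.2
  intro d hd
  exfalso
  obtain ⟨hd1, hd2⟩ := Finset.mem_filter.1 hd
  have hdq := Nat.divisor_le hd1
  have h1 : (d:ℝ) ≤ q := by exact_mod_cast hdq
  have h2 : (q:ℝ) < (2:ℝ) ^ (k + 1) := by exact_mod_cast hc.hi
  linarith

/-- Small `a_q`: both blocks have `r ψ r` at most the power `3/4` of the block mass. -/
theorem typeL_aux (hψ : Adm ψ) : ∃ C : ℝ, 0 < C ∧ ∃ k₀ : ℕ, ∀ (k k' : ℕ) (M M' : ℝ) (T T' : Finset ℕ), k₀ ≤ k → k ≤ k' →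
    Blk ψ k M T → Blk ψ k' M' T' →
    (∀ q ∈ T, (q:ℝ) * ψ q ≤ M ^ ((3:ℝ) / 4)) → (∀ r ∈ T', (r:ℝ) * ψ r ≤ M' ^ ((3:ℝ) / 4)) →
    ∑ q ∈ T, ∑ r ∈ T'.filter (fun r => q < r ∧ XX ψ q r < 1 / 64 ∧ (Al γ ψ q r).Nonempty ∧ ¬ LeftP γ ψ q r),
        (Nat.gcd q r : ℝ) * min (ψ q / q) (ψ r / r)
      ≤ C * (M + M') * ((2:ℝ) ^ (k' - k)) ^ (-(1:ℝ) / 28) + ∑ q ∈ T, ∑ d ∈ q.divisors, negl ψ q d k' := by
  obtain ⟨k₀, hk₀⟩ := tl_small_term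
  refine ⟨1728, by norm_num, k₀, ?_⟩
  intro k k' M M' T T' hk hkk' hB hB' hT hT'
  have hM := hB.Mpos
  have hM1 := hB.Mle
  have hM' := hB'.Mpos
  have hM'1 := hB'.Mle
  set y := (2:ℝ) ^ (k' - k) with hy
  have hy1 : 1 ≤ y := one_le_pow₀ (by norm_num)
  set D := 4 * y * M with hD
  have hD0 : 0 ≤ D := by positivity
  have hstep : ∀ q ∈ T, ∑ r ∈ T'.filter (fun r => q < r ∧ XX ψ q r < 1 / 64 ∧ (Al γ ψ q r).Nonempty ∧ ¬ LeftP γ ψ q r),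
        (Nat.gcd q r : ℝ) * min (ψ q / q) (ψ r / r)
      ≤ 576 * M' ^ ((3:ℝ) / 4) * (ψ q * Tq q D) + ∑ d ∈ q.divisors, negl ψ q d k' := by
    intro q hq
    have := typeL_q (γ := γ) hψ hkk' hB.kpos hM' (hB.clean q hq) hB'.clean hT' (T' := T') (k' := k') (M' := M')
    refine this.trans (le_of_eq ?_)
    ring
  refine (Finset.sum_le_sum hstep).trans ?_
  rw [Finset.sum_add_distrib, ← Finset.mul_sum]
  refine add_le_add ?_ le_rfl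
  have hA : 0 ≤ M' ^ ((3:ℝ) / 4) := Real.rpow_nonneg hM'.le _
  have hA1 : M' ^ ((3:ℝ) / 4) ≤ 1 := Real.rpow_le_one hM'.le hM'1 (by norm_num)
  have hC : 0 ≤ M ^ ((3:ℝ) / 4) := Real.rpow_nonneg hM.le _
  have hC1 : M ^ ((3:ℝ) / 4) ≤ 1 := Real.rpow_le_one hM.le hM1 (by norm_num)
  have hypos : 0 < y := by linarith
  have hy28 : 0 < y ^ (-(1:ℝ) / 28) := Real.rpow_pos_of_pos hypos _
  have hy4 : 0 < y ^ (-(1:ℝ) / 4) := Real.rpow_pos_of_pos hypos _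
  have hy428 : y ^ (-(1:ℝ) / 4) ≤ y ^ (-(1:ℝ) / 28) :=
    Real.rpow_le_rpow_of_exponent_le hy1 (by norm_num)
  by_cases hbig : (2:ℝ) ^ (k + 1) ≤ D
  · have hz : ∑ q ∈ T, ψ q * Tq q D = 0 := by
      apply Finset.sum_eq_zero
      intro q hq
      rw [tl_Tq_eq_zero (hB.clean q hq) hbig, mul_zero]
    rw [hz, mul_zero]
    positivity
  · push Not at hbig
    have hsmall := hk₀ k M y hk hM hB.Mlow hy1 hbig
    have hsum := tl_sum_psi_Tq (k := k) (M := M) (T := T) hD0 hB.clean hM hT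
    have hmaxmin : 1 / max 1 D ≤ min 1 (1 / (y * M)) := by
      apply le_min
      · rw [div_le_one (lt_of_lt_of_le one_pos (le_max_left _ _))]
        exact le_max_left _ _
      · have hyM : 0 < y * M := by positivity
        apply one_div_le_one_div_of_le hyM
        calc y * M ≤ 4 * y * M := by nlinarith
          _ = D := rfl
          _ ≤ max 1 D := le_max_right _ _
    have helem := tl_elem_ineq hM hM1 hM' hM'1 hy1
    have hfinal : 576 * M' ^ ((3:ℝ) / 4) * ∑ q ∈ T, ψ q * Tq q D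
        ≤ 1728 * (M + M') * y ^ (-(1:ℝ) / 4) := by
      have h1 : 576 * M' ^ ((3:ℝ) / 4) * ∑ q ∈ T, ψ q * Tq q D
          ≤ 576 * M' ^ ((3:ℝ) / 4) * (M ^ ((3:ℝ) / 4) * (2 * (1 / max 1 D) + M * y ^ (-(1:ℝ) / 4))) := by
        apply mul_le_mul_of_nonneg_left _ (by positivity)
        refine hsum.trans ?_
        apply mul_le_mul_of_nonneg_left _ hC
        have : 2 / max 1 D = 2 * (1 / max 1 D) := by ring
        rw [this]
        linarith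
      have h2 : M' ^ ((3:ℝ) / 4) * (M ^ ((3:ℝ) / 4) * (1 / max 1 D)) ≤ (M + M') * y ^ (-(1:ℝ) / 4) := by
        calc M' ^ ((3:ℝ) / 4) * (M ^ ((3:ℝ) / 4) * (1 / max 1 D))
            = M ^ ((3:ℝ) / 4) * M' ^ ((3:ℝ) / 4) * (1 / max 1 D) := by ring
          _ ≤ M ^ ((3:ℝ) / 4) * M' ^ ((3:ℝ) / 4) * min 1 (1 / (y * M)) := by
              apply mul_le_mul_of_nonneg_left hmaxmin (by positivity)
          _ ≤ _ := helem
      have h3 : M' ^ ((3:ℝ) / 4) * (M ^ ((3:ℝ) / 4) * (M * y ^ (-(1:ℝ) / 4))) ≤ M * y ^ (-(1:ℝ) / 4) := by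
        have hp : 0 ≤ M * y ^ (-(1:ℝ) / 4) := by positivity
        have h4 : M ^ ((3:ℝ) / 4) * (M * y ^ (-(1:ℝ) / 4)) ≤ 1 * (M * y ^ (-(1:ℝ) / 4)) :=
          mul_le_mul_of_nonneg_right hC1 hp
        have h5 : M' ^ ((3:ℝ) / 4) * (M ^ ((3:ℝ) / 4) * (M * y ^ (-(1:ℝ) / 4)))
            ≤ 1 * (M * y ^ (-(1:ℝ) / 4)) := by
          calc _ ≤ M' ^ ((3:ℝ) / 4) * (1 * (M * y ^ (-(1:ℝ) / 4))) :=
                mul_le_mul_of_nonneg_left h4 hA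
            _ ≤ 1 * (1 * (M * y ^ (-(1:ℝ) / 4))) :=
                mul_le_mul_of_nonneg_right hA1 (by positivity)
            _ = _ := by ring
        linarith
      have h6 : 576 * M' ^ ((3:ℝ) / 4) * (M ^ ((3:ℝ) / 4) * (2 * (1 / max 1 D) + M * y ^ (-(1:ℝ) / 4)))
          = 1152 * (M' ^ ((3:ℝ) / 4) * (M ^ ((3:ℝ) / 4) * (1 / max 1 D)))
            + 576 * (M' ^ ((3:ℝ) / 4) * (M ^ ((3:ℝ) / 4) * (M * y ^ (-(1:ℝ) / 4)))) := by ring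
      have hp2 : 0 ≤ M' * y ^ (-(1:ℝ) / 4) := by positivity
      have h7 : 1728 * (M + M') * y ^ (-(1:ℝ) / 4) = 1728 * (M * y ^ (-(1:ℝ) / 4)) + 1728 * (M' * y ^ (-(1:ℝ) / 4)) := by ring
      have h8 : (M + M') * y ^ (-(1:ℝ) / 4) = M * y ^ (-(1:ℝ) / 4) + M' * y ^ (-(1:ℝ) / 4) := by ring
      rw [h8] at h2
      linarith
    refine hfinal.trans ?_
    apply mul_le_mul_of_nonneg_left hy428 (by positivity)

end Vale.Agent.Lib.P028V
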