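import Vale.Agent.Lib.P028V.Clean
import Vale.Agent.Lib.P028V.BohrSum
import Vale.Agent.Lib.P028V.NeglAux
import Vale.Agent.Lib.P028V.TypeH
import Vale.Agent.Lib.P028V.TypeL
import Vale.Agent.Lib.P028V.SumsMid

/-! Module J. Sums over pairs of cleaned blocks. -/

open Finset
open scoped Classical

namespace Vale.Agent.Lib.P028V

open Vale.Agent.Lib.P028

variable {γ : ℝ} {ψ : ℕ → ℝ}

/-- Middle range sum. -/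
theorem mid_sum (hψ : Adm ψ) : ∃ C : ℝ, 0 < C ∧ ∀ (k k' : ℕ) (M M' : ℝ) (T T' : Finset ℕ), k ≤ k' →
    Blk ψ k M T → Blk ψ k' M' T' →
    ∑ q ∈ T, ∑ r ∈ T'.filter (fun r => q < r ∧ 1 / 64 ≤ XX ψ q r ∧ XX ψ q r < (4:ℝ) ^ (max (zz M) (zz M'))),
        68 * (ψ q * ψ r)
      ≤ C * (M + M') * ((2:ℝ) ^ (k' - k)) ^ (-(1:ℝ) / 10) :=
  mid_sum_aux hψ

/-- Small `a_q`: both blocks have `r ψ r` at most the power `3/4` of the block mass. -/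
theorem typeL_sum (hψ : Adm ψ) : ∃ C : ℝ, 0 < C ∧ ∃ k₀ : ℕ, ∀ (k k' : ℕ) (M M' : ℝ) (T T' : Finset ℕ), k₀ ≤ k → k ≤ k' →
    Blk ψ k M T → Blk ψ k' M' T' →
    (∀ q ∈ T, (q:ℝ) * ψ q ≤ M ^ ((3:ℝ) / 4)) → (∀ r ∈ T', (r:ℝ) * ψ r ≤ M' ^ ((3:ℝ) / 4)) →
    ∑ q ∈ T, ∑ r ∈ T'.filter (fun r => q < r ∧ XX ψ q r < 1 / 64 ∧ (Al γ ψ q r).Nonempty ∧ ¬ LeftP γ ψ q r),
        (Nat.gcd q r : ℝ) * min (ψ q / q) (ψ r / r)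
      ≤ C * (M + M') * ((2:ℝ) ^ (k' - k)) ^ (-(1:ℝ) / 28) + ∑ q ∈ T, ∑ d ∈ q.divisors, negl ψ q d k' :=
  typeL_aux hψ

/-- Large `a_q`: both blocks have `r ψ r` at least the power `3/4` of the block mass. -/
theorem typeH_sum (hψ : Adm ψ) : ∃ C : ℝ, 0 < C ∧ ∃ k₀ : ℕ, ∀ (k k' : ℕ) (M M' : ℝ) (T T' : Finset ℕ), k₀ ≤ k → k ≤ k' →
    Blk ψ k M T → Blk ψ k' M' T' →
    (∀ q ∈ T, M ^ ((3:ℝ) / 4) ≤ (q:ℝ) * ψ q) → (∀ r ∈ T', M' ^ ((3:ℝ) / 4) ≤ (r:ℝ) * ψ r) →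
    ∑ q ∈ T, ∑ r ∈ T'.filter (fun r => q < r ∧ XX ψ q r < 1 / 64 ∧ (Al γ ψ q r).Nonempty ∧ ¬ LeftP γ ψ q r),
        (Nat.gcd q r : ℝ) * min (ψ q / q) (ψ r / r)
      ≤ C * (M + M') * ((2:ℝ) ^ (k' - k)) ^ (-(1:ℝ) / 28) + ∑ q ∈ T, ∑ d ∈ q.divisors, negl ψ q d k' :=
  typeH_sum_aux hψ

/-- The negligible terms are dominated by the mass. -/
theorem negl_sum (hψ : Adm ψ) : ∃ k₀ : ℕ, ∀ (k : ℕ) (M : ℝ) (q : ℕ) (K' : Finset ℕ), k₀ ≤ k →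
    Clean ψ k M q → 0 < M → M ≤ 1 → 1 / (k:ℝ) ^ 2 ≤ M →
    ∑ k' ∈ K', ∑ d ∈ q.divisors, negl ψ q d k' ≤ mass γ ψ q :=
  negl_sum_aux hψ

end Vale.Agent.Lib.P028V
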